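import Vale.Agent.Lib.P157.CondMoment

/-!
The conditional first moment criterion for the annealed formula.
-/

open MeasureTheory ProbabilityTheory Filter Topology
open scoped NNReal ENNReal

set_option linter.unusedSectionVars false

namespace Vale.Agent.Lib.P157

variable {f : ℝ → ℝ}

lemma abs_crossEnt_le (hf : Measurable f) {L : ℝ} (hfL : ∀ u, |f u| ≤ L) (ρ : ℝ) :
    |crossEnt f ρ| ≤ 2 * L := by
  have hνprob : IsProbabilityMeasure ((gaussianReal 0 1).tilted f) :=
    isProbabilityMeasure_tilted (integrable_exp_gaussian hf hfL)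
  rw [← integral_tilted_log_noise]
  have h := norm_integral_le_of_norm_le_const (μ := (gaussianReal 0 1).tilted f)
    (f := fun v => Real.log (noiseAvg (normPot f) ρ v)) (C := 2 * L)
    (Eventually.of_forall fun v => by simpa using abs_log_noise_le hf hfL ρ v)
  simpa using h

/-- The sublinear error term tends to zero after division by `N`. -/
lemma tendsto_error_div {α L : ℝ} (hα : 0 < α) (hL : 0 < L) :
    Tendsto (fun N : ℕ => (2 * L + Real.log (N + 1) * (1 + 2 * L * Real.sqrt (α * N)) +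
      2 * L * Real.sqrt (α * N) / 2) / N) atTop (𝓝 0) := by
  have hlog : Tendsto (fun x : ℝ => Real.log x / x ^ (1 / 2 : ℝ)) atTop (𝓝 0) :=
    (isLittleO_log_rpow_atTop (r := 1 / 2) (by norm_num)).tendsto_div_nhds_zero
  have hN1 : Tendsto (fun N : ℕ => ((N : ℝ) + 1)) atTop atTop :=
    tendsto_atTop_add_const_right _ _ tendsto_natCast_atTop_atTop
  have h1 : Tendsto (fun N : ℕ => Real.log ((N : ℝ) + 1) / ((N : ℝ) + 1) ^ (1 / 2 : ℝ)) atTop (𝓝 0) :=
    hlog.comp hN1
  -- a uniform upper bound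
  set κ : ℝ := 4 * (1 + 2 * L * Real.sqrt α) + (1 + 2 * L * Real.sqrt α + 2 * L) with hκ
  have hκpos : 0 < κ := by positivity
  have hsqrtN : Tendsto (fun N : ℕ => Real.sqrt N) atTop atTop :=
    Real.tendsto_sqrt_atTop.comp tendsto_natCast_atTop_atTop
  have h2 : Tendsto (fun N : ℕ => 1 / Real.sqrt N) atTop (𝓝 0) :=
    (tendsto_const_nhds (x := (1 : ℝ))).div_atTop hsqrtN
  have hbound : ∀ᶠ N : ℕ in atTop,
      |(2 * L + Real.log (N + 1) * (1 + 2 * L * Real.sqrt (α * N)) +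
        2 * L * Real.sqrt (α * N) / 2) / N| ≤
      (2 * L + 1 + 2 * L * Real.sqrt α) * (1 / Real.sqrt N) +
        2 * (1 + 2 * L * Real.sqrt α) * (Real.log ((N : ℝ) + 1) / ((N : ℝ) + 1) ^ (1 / 2 : ℝ)) := by
    filter_upwards [eventually_ge_atTop 1] with N hN
    have hN' : (1 : ℝ) ≤ N := by exact_mod_cast hN
    have hN0 : (0 : ℝ) < N := by linarith
    have hs : 0 < Real.sqrt N := Real.sqrt_pos.mpr hN0
    have hss : Real.sqrt N * Real.sqrt N = N := Real.mul_self_sqrt hN0.le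
    have hs1 : 1 ≤ Real.sqrt N := Real.one_le_sqrt.mpr hN'
    have hlog0 : 0 ≤ Real.log ((N : ℝ) + 1) := Real.log_nonneg (by linarith)
    have hsa : Real.sqrt (α * N) = Real.sqrt α * Real.sqrt N :=
      Real.sqrt_mul hα.le _
    have hpow : ((N : ℝ) + 1) ^ (1 / 2 : ℝ) = Real.sqrt ((N : ℝ) + 1) := (Real.sqrt_eq_rpow _).symm
    rw [hpow, hsa]
    set l := Real.log ((N : ℝ) + 1) with hl
    set t := Real.sqrt ((N : ℝ) + 1) with ht
    have htpos : 0 < t := Real.sqrt_pos.mpr (by linarith)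
    have httN : t ≤ 2 * Real.sqrt N := by
      have : (N : ℝ) + 1 ≤ (2 * Real.sqrt N) ^ 2 := by
        rw [mul_pow, Real.sq_sqrt hN0.le]
        linarith
      exact Real.sqrt_le_iff.mpr ⟨by positivity, this⟩
    have hnum : 0 ≤ 2 * L + l * (1 + 2 * L * (Real.sqrt α * Real.sqrt N)) +
        2 * L * (Real.sqrt α * Real.sqrt N) / 2 := by positivity
    rw [abs_of_nonneg (div_nonneg hnum hN0.le), div_le_iff₀ hN0]
    have hterm : l / t * N ≥ l * Real.sqrt N / 2 := by
      rw [ge_iff_le, div_mul_eq_mul_div, div_le_div_iff₀ (by norm_num) htpos]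
      have : Real.sqrt N * t ≤ Real.sqrt N * (2 * Real.sqrt N) := by gcongr
      have h3 : l * Real.sqrt N * t ≤ l * N * 2 := by
        calc l * Real.sqrt N * t = l * (Real.sqrt N * t) := by ring
          _ ≤ l * (Real.sqrt N * (2 * Real.sqrt N)) := by gcongr
          _ = l * (Real.sqrt N * Real.sqrt N) * 2 := by ring
          _ = l * N * 2 := by rw [hss]
      linarith
    have hinv : 1 / Real.sqrt N * N = Real.sqrt N := by
      field_simp
      nlinarith
    have hAB : ((2 * L + 1 + 2 * L * Real.sqrt α) * (1 / Real.sqrt N) +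
        2 * (1 + 2 * L * Real.sqrt α) * (l / t)) * N =
        (2 * L + 1 + 2 * L * Real.sqrt α) * (1 / Real.sqrt N * N) +
          2 * (1 + 2 * L * Real.sqrt α) * (l / t * N) := by ring
    rw [hAB, hinv]
    have hX : 2 * (1 + 2 * L * Real.sqrt α) * (l * Real.sqrt N / 2) ≤
        2 * (1 + 2 * L * Real.sqrt α) * (l / t * N) := by
      have : 0 ≤ 2 * (1 + 2 * L * Real.sqrt α) := by positivity
      exact mul_le_mul_of_nonneg_left hterm this
    have hsa0 : 0 ≤ Real.sqrt α := Real.sqrt_nonneg _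
    nlinarith [mul_nonneg hlog0 hsa0, mul_nonneg hL.le hsa0,
      mul_nonneg (mul_nonneg hL.le hsa0) hlog0, mul_nonneg hlog0 (sub_nonneg.mpr hs1),
      mul_nonneg (mul_nonneg hL.le hsa0) (sub_nonneg.mpr hs1),
      mul_nonneg (mul_nonneg (mul_nonneg hL.le hsa0) hlog0) (sub_nonneg.mpr hs1)]
  have hlim : Tendsto (fun N : ℕ => (2 * L + 1 + 2 * L * Real.sqrt α) * (1 / Real.sqrt N) +
      2 * (1 + 2 * L * Real.sqrt α) * (Real.log ((N : ℝ) + 1) / ((N : ℝ) + 1) ^ (1 / 2 : ℝ)))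
      atTop (𝓝 0) := by
    simpa using (h2.const_mul (2 * L + 1 + 2 * L * Real.sqrt α)).add
      (h1.const_mul (2 * (1 + 2 * L * Real.sqrt α)))
  refine squeeze_zero_norm' ?_ hlim
  filter_upwards [hbound] with N hN
  rwa [Real.norm_eq_abs]

/-- The entropy density vanishes under the conditional first moment criterion. -/
theorem entropy_density_tendsto_zero {α : ℝ} (hα : 0 < α) (hf : Measurable f) {L : ℝ} (hL : 0 < L)
    (hfL : ∀ u, |f u| ≤ L)
    (hC : ∀ ρ : ℝ, -1 ≤ ρ → ρ ≤ 1 → α * crossEnt f ρ ≤ shellRate ρ) :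
    Tendsto (fun N : ℕ => partitionEntropy N ⌊α * N⌋₊ f / N) atTop (𝓝 0) := by
  have hevN : ∀ᶠ n : ℕ in atTop, 1 ≤ n := eventually_ge_atTop 1
  have hevM : ∀ᶠ n : ℕ in atTop, 1 ≤ ⌊α * n⌋₊ := by
    have h1 : ∀ᶠ n : ℕ in atTop, 1 / α ≤ (n : ℝ) :=
      tendsto_natCast_atTop_atTop.eventually_ge_atTop _
    filter_upwards [h1] with n hn
    apply Nat.le_floor
    have : 1 ≤ α * n := by
      rw [div_le_iff₀ hα] at hn
      linarith
    simpa using this
  refine squeeze_zero' ?_ ?_ (tendsto_error_div hα hL)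
  · filter_upwards [hevN, hevM] with n hn hm
    have := (cube_bounds (N := n) (M := ⌊α * n⌋₊) hn hm hf hL hfL).2.1
    positivity
  · filter_upwards [hevN, hevM] with n hn hm
    have hn' : (0 : ℝ) < n := by exact_mod_cast hn
    have hfl1 : (⌊α * n⌋₊ : ℝ) ≤ α * n := Nat.floor_le (by positivity)
    have hfl2 : α * n < ⌊α * n⌋₊ + 1 := Nat.lt_floor_add_one _
    have hB : ∀ ρ : ℝ, -1 ≤ ρ → ρ ≤ 1 → (⌊α * n⌋₊ : ℝ) * crossEnt f ρ - n * shellRate ρ ≤ 2 * L := by
      intro ρ h1 h2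
      have hc := abs_le.mp (abs_crossEnt_le hf hfL ρ)
      have h3 := hC ρ h1 h2
      have h4 : n * (α * crossEnt f ρ) ≤ n * shellRate ρ :=
        mul_le_mul_of_nonneg_left h3 hn'.le
      have h5 : ((⌊α * n⌋₊ : ℝ) - α * n) * crossEnt f ρ ≤ 2 * L := by
        have hd : |(⌊α * n⌋₊ : ℝ) - α * n| ≤ 1 := by
          rw [abs_le]
          constructor <;> linarith
        calc _ ≤ |((⌊α * n⌋₊ : ℝ) - α * n) * crossEnt f ρ| := le_abs_self _
          _ = |(⌊α * n⌋₊ : ℝ) - α * n| * |crossEnt f ρ| := abs_mul _ _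
          _ ≤ 1 * (2 * L) := mul_le_mul hd (abs_crossEnt_le hf hfL ρ) (abs_nonneg _) zero_le_one
          _ = 2 * L := one_mul _
      nlinarith
    have hent := partitionEntropy_le hn hm hf hL hfL hB
    refine div_le_div_of_nonneg_right (hent.trans ?_) hn'.le
    have hsq : Real.sqrt (⌊α * n⌋₊ : ℝ) ≤ Real.sqrt (α * n) := Real.sqrt_le_sqrt hfl1
    have hlog0 : 0 ≤ Real.log ((n : ℝ) + 1) := Real.log_nonneg (by
      have : (0 : ℝ) ≤ n := hn'.le
      linarith)
    have h6 : Real.log ((n : ℝ) + 1) * (1 + 2 * L * Real.sqrt (⌊α * n⌋₊ : ℝ)) ≤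
        Real.log ((n : ℝ) + 1) * (1 + 2 * L * Real.sqrt (α * n)) := by
      gcongr
    have h7 : 2 * L * Real.sqrt (⌊α * n⌋₊ : ℝ) / 2 ≤ 2 * L * Real.sqrt (α * n) / 2 := by
      gcongr
    linarith

/-- **Annealed criterion**: the conditional first moment condition implies the annealed formula. -/
theorem annealed_of_crossEnt_le {α : ℝ} (hα : 0 < α) (hf : Measurable f) {L : ℝ} (hL : 0 < L)
    (hfL : ∀ u, |f u| ≤ L)
    (hC : ∀ ρ : ℝ, -1 ≤ ρ → ρ ≤ 1 → α * crossEnt f ρ ≤ shellRate ρ) :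
    Tendsto (fun N : ℕ => expectedPressure N ⌊α * N⌋₊ f) atTop
      (𝓝 (α * Real.log (annealedConstant f))) := by
  have h1 := (cube_annealed_iff hα hf hL hfL).mpr (entropy_density_tendsto_zero hα hf hL hfL hC)
  have h2 : Tendsto (fun N : ℕ => ((⌊α * N⌋₊ : ℝ) / N)) atTop (𝓝 α) :=
    (tendsto_nat_floor_mul_div_atTop hα.le).comp tendsto_natCast_atTop_atTop
  have h3 := h1.add (h2.mul_const (Real.log (annealedConstant f)))
  simp only [zero_add] at h3
  refine h3.congr fun N => ?_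
  ring

end Vale.Agent.Lib.P157
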