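import Vale.Agent.Lib.P157.Defs

/-!
Basic instances for the pattern laws.
-/

open MeasureTheory ProbabilityTheory

namespace Vale.Agent.Lib.P157

instance isProbabilityMeasure_patternLaw (N : ℕ) : IsProbabilityMeasure (patternLaw N) := by
  unfold patternLaw; infer_instance

instance isProbabilityMeasure_patternsLaw (N M : ℕ) : IsProbabilityMeasure (patternsLaw N M) := by
  unfold patternsLaw; infer_instance

end Vale.Agent.Lib.P157
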