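import Mathlib

/-!
Bounded differences inequality on finite products of probability spaces.
-/

open MeasureTheory ProbabilityTheory
open scoped NNReal ENNReal

namespace Vale.Agent.Lib.P157

variable {X : Type*} [MeasurableSpace X]

/-- The measurable splitting of the first coordinate. -/
lemma cons_measurable {M : ℕ} :
    Measurable (fun p : X × (Fin M → X) => (Fin.cons p.1 p.2 : Fin (M + 1) → X)) := by
  refine measurable_pi_lambda _ fun j => ?_
  refine Fin.cases ?_ (fun i => ?_) j
  · exact measurable_fst
  · exact (measurable_pi_apply i).comp measurable_snd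

/-- Fubini along the first coordinate of a finite product, for bounded measurable functions. -/
lemma integral_pi_succ {M : ℕ} (ν : Fin (M + 1) → Measure X) [∀ a, IsProbabilityMeasure (ν a)]
    (F : (Fin (M + 1) → X) → ℝ) (hF : Integrable F (Measure.pi ν)) :
    ∫ g, F g ∂(Measure.pi ν) =
      ∫ h, ∫ v, F (Fin.cons v h) ∂(ν 0) ∂(Measure.pi fun j : Fin M => ν j.succ) := by
  have hmp := measurePreserving_piFinSuccAbove ν 0
  set e := MeasurableEquiv.piFinSuccAbove (fun _ : Fin (M + 1) => X) 0 with he
  have hsymm : ∀ p : X × (Fin M → X), e.symm p = Fin.cons p.1 p.2 := by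
    intro p
    ext j
    simp [he, MeasurableEquiv.piFinSuccAbove, Fin.insertNthEquiv]
  have h1 : ∫ g, F g ∂(Measure.pi ν) =
      ∫ p, F (e.symm p) ∂((ν 0).prod (Measure.pi fun j : Fin M => ν (Fin.succAbove 0 j))) := by
    rw [← hmp.integral_comp' (fun p => F (e.symm p))]
    simp
  have hint : Integrable (fun p => F (e.symm p))
      ((ν 0).prod (Measure.pi fun j : Fin M => ν (Fin.succAbove 0 j))) := by
    have := (hmp.symm e).integrable_comp_of_integrable (g := F) hF
    exact this
  rw [h1, integral_prod_symm _ hint]
  simp only [hsymm]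
  rfl

/-- A bounded measurable function is integrable for a finite measure. -/
lemma integrable_of_bdd {Ω : Type*} [MeasurableSpace Ω] {μ : Measure Ω} [IsFiniteMeasure μ]
    {F : Ω → ℝ} (hF : Measurable F) {B : ℝ} (hB : ∀ g, |F g| ≤ B) : Integrable F μ := by
  refine Integrable.of_bound hF.aestronglyMeasurable B (Filter.Eventually.of_forall fun g => ?_)
  simpa using hB g

/-- **Bounded differences (McDiarmid) inequality**, sub-Gaussian form. -/
theorem subgaussian_of_bounded_differences :
    ∀ (M : ℕ) (ν : Fin M → Measure X) [∀ a, IsProbabilityMeasure (ν a)]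
      (F : (Fin M → X) → ℝ) (c : ℝ≥0) (_ : Measurable F) (B : ℝ) (_ : ∀ g, |F g| ≤ B)
      (_ : ∀ g a v, |F (Function.update g a v) - F g| ≤ c),
      HasSubgaussianMGF (fun g => F g - ∫ g', F g' ∂(Measure.pi ν)) ((M : ℝ≥0) * (c / 2) ^ 2)
        (Measure.pi ν) := by
  intro M
  induction M with
  | zero =>
    intro ν _ F c hF B hB hc
    have hconst : ∀ g : Fin 0 → X, F g - ∫ g', F g' ∂(Measure.pi ν) = 0 := by
      intro g
      have h0 : (fun g' : Fin 0 → X => F g') = fun _ => F g := by
        funext g'
        rw [Subsingleton.elim g' g]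
      rw [h0, integral_const]
      simp
    refine ⟨fun t => ?_, fun t => ?_⟩
    · simp only [hconst, mul_zero, Real.exp_zero]
      exact integrable_const _
    · simp only [mgf, hconst, mul_zero, Real.exp_zero]
      simp
  | succ M ih =>
    intro ν _ F c hF B hB hc
    set π' : Measure (Fin M → X) := Measure.pi fun j : Fin M => ν j.succ with hπ'
    set G : (Fin M → X) → ℝ := fun h => ∫ v, F (Fin.cons v h) ∂(ν 0) with hG
    have hFcons : Measurable (fun p : X × (Fin M → X) => F (Fin.cons p.1 p.2)) :=
      hF.comp cons_measurable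
    have hGmeas : Measurable G :=
      (hFcons.stronglyMeasurable.integral_prod_left' (μ := ν 0)).measurable
    have hFint : ∀ h : Fin M → X, Integrable (fun v => F (Fin.cons v h)) (ν 0) := by
      intro h
      have hm : Measurable (fun v => F (Fin.cons v h)) := hFcons.comp (measurable_prodMk_right)
      exact integrable_of_bdd hm (fun v => hB _)
    have hGB : ∀ h, |G h| ≤ B := by
      intro h
      have := norm_integral_le_of_norm_le_const (μ := ν 0) (f := fun v => F (Fin.cons v h)) (C := B)
        (Filter.Eventually.of_forall fun v => by simpa using hB _)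
      simpa [G] using this
    have hGc : ∀ g a v, |G (Function.update g a v) - G g| ≤ c := by
      intro g a v
      have h1 : G (Function.update g a v) - G g =
          ∫ w, (F (Fin.cons w (Function.update g a v)) - F (Fin.cons w g)) ∂(ν 0) := by
        rw [integral_sub (hFint _) (hFint _)]
      rw [h1]
      have := norm_integral_le_of_norm_le_const (μ := ν 0)
        (f := fun w => F (Fin.cons w (Function.update g a v)) - F (Fin.cons w g)) (C := (c : ℝ))
        (Filter.Eventually.of_forall fun w => by
          rw [Fin.cons_update]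
          simpa using hc (Fin.cons w g) a.succ v)
      simpa using this
    have hsub := ih (fun j => ν j.succ) G c hGmeas B hGB hGc
    set Eall : ℝ := ∫ g', F g' ∂(Measure.pi ν) with hEall
    have hFint' : Integrable F (Measure.pi ν) := integrable_of_bdd hF hB
    have hEG : ∫ h, G h ∂π' = Eall := by
      rw [hEall, integral_pi_succ ν F hFint']
    -- boundedness
    have hEallB : |Eall| ≤ B := by
      have := norm_integral_le_of_norm_le_const (μ := Measure.pi ν) (f := F) (C := B)
        (Filter.Eventually.of_forall fun v => by simpa using hB _)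
      simpa using this
    have hexpmeas : ∀ t : ℝ, Measurable (fun g => Real.exp (t * (F g - Eall))) := fun t =>
      Real.measurable_exp.comp ((hF.sub_const _).const_mul t)
    have hexpbd : ∀ t : ℝ, ∀ g, |Real.exp (t * (F g - Eall))| ≤ Real.exp (|t| * (2 * B)) := by
      intro t g
      rw [abs_of_pos (Real.exp_pos _)]
      apply Real.exp_le_exp.mpr
      have h1 : |F g - Eall| ≤ 2 * B := by
        calc |F g - Eall| ≤ |F g| + |Eall| := abs_sub _ _
          _ ≤ 2 * B := by linarith [hB g]
      calc t * (F g - Eall) ≤ |t * (F g - Eall)| := le_abs_self _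
        _ = |t| * |F g - Eall| := abs_mul _ _
        _ ≤ |t| * (2 * B) := by gcongr
    have hint_exp : ∀ t : ℝ, Integrable (fun g => Real.exp (t * (F g - Eall))) (Measure.pi ν) :=
      fun t => integrable_of_bdd (hexpmeas t) (hexpbd t)
    refine ⟨hint_exp, fun t => ?_⟩
    -- the one-coordinate Hoeffding bound
    have hinner : ∀ h : Fin M → X,
        ∫ v, Real.exp (t * (F (Fin.cons v h) - G h)) ∂(ν 0) ≤
          Real.exp (((c / 2 : ℝ≥0) : ℝ) ^ 2 * t ^ 2 / 2) := by
      intro h
      have hne : Nonempty X := nonempty_of_isProbabilityMeasure (ν 0)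
      set φ : X → ℝ := fun v => F (Fin.cons v h) with hφ
      have hφbdd : ∀ v, |φ v| ≤ B := fun v => hB _
      have hbb : BddBelow (Set.range φ) :=
        ⟨-B, by rintro _ ⟨v, rfl⟩; exact (abs_le.mp (hφbdd v)).1⟩
      have hba : BddAbove (Set.range φ) :=
        ⟨B, by rintro _ ⟨v, rfl⟩; exact (abs_le.mp (hφbdd v)).2⟩
      set a := ⨅ v, φ v with ha
      set b := ⨆ v, φ v with hb
      have hdiff : ∀ v w, φ v - φ w ≤ c := by
        intro v w
        have h1 : (Fin.cons v h : Fin (M + 1) → X) =
            Function.update (Fin.cons w h) 0 v := by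
          ext j
          refine Fin.cases ?_ (fun i => ?_) j <;> simp
        have := hc (Fin.cons w h) 0 v
        rw [← h1] at this
        exact (abs_le.mp this).2
      have hab : b - a ≤ c := by
        have h1 : b ≤ c + a := by
          refine ciSup_le fun v => ?_
          have : φ v - c ≤ a := le_ciInf fun w => by linarith [hdiff v w]
          linarith
        linarith
      have hale : a ≤ b := by
        obtain ⟨v⟩ := hne
        exact (ciInf_le hbb v).trans (le_ciSup hba v)
      have hmem : ∀ v, φ v ∈ Set.Icc a b := fun v => ⟨ciInf_le hbb v, le_ciSup hba v⟩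
      have hφm : Measurable φ := hFcons.comp (measurable_prodMk_right)
      have hH := hasSubgaussianMGF_of_mem_Icc (μ := ν 0) (X := φ) (a := a) (b := b)
        hφm.aemeasurable (Filter.Eventually.of_forall hmem)
      have hle := hH.mgf_le t
      have h2 : ((‖b - a‖₊ / 2) ^ 2 : ℝ≥0) * t ^ 2 / 2 ≤
          (((c / 2 : ℝ≥0) : ℝ) ^ 2 * t ^ 2 / 2 : ℝ) := by
        have h3 : ‖b - a‖ ≤ c := by
          rw [Real.norm_of_nonneg (by linarith)]
          exact hab
        push_cast
        gcongr
      exact hle.trans (Real.exp_le_exp.mpr h2)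
    -- integrate over the remaining coordinates
    have hfub : mgf (fun g => F g - Eall) (Measure.pi ν) t =
        ∫ h, ∫ v, Real.exp (t * (F (Fin.cons v h) - Eall)) ∂(ν 0) ∂π' := by
      simp only [mgf]
      rw [integral_pi_succ ν _ (hint_exp t)]
    have hsplit : ∀ h, ∫ v, Real.exp (t * (F (Fin.cons v h) - Eall)) ∂(ν 0) =
        Real.exp (t * (G h - Eall)) * ∫ v, Real.exp (t * (F (Fin.cons v h) - G h)) ∂(ν 0) := by
      intro h
      rw [← integral_const_mul]
      congr 1
      ext v
      rw [← Real.exp_add]
      congr 1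
      ring
    have hsub' : HasSubgaussianMGF (fun g => G g - Eall) ((M : ℝ≥0) * (c / 2) ^ 2) π' := by
      have h5 := hsub
      rw [show (∫ g', G g' ∂Measure.pi fun j : Fin M => ν j.succ) = Eall from hEG] at h5
      exact h5
    have hmgfG := hsub'.mgf_le t
    have hGexpint : Integrable (fun h => Real.exp (t * (G h - Eall))) π' :=
      hsub'.integrable_exp_mul t
    rw [hfub]
    calc ∫ h, ∫ v, Real.exp (t * (F (Fin.cons v h) - Eall)) ∂(ν 0) ∂π'
        = ∫ h, Real.exp (t * (G h - Eall)) *
            ∫ v, Real.exp (t * (F (Fin.cons v h) - G h)) ∂(ν 0) ∂π' := by simp only [hsplit]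
      _ ≤ ∫ h, Real.exp (t * (G h - Eall)) * Real.exp (((c / 2 : ℝ≥0) : ℝ) ^ 2 * t ^ 2 / 2) ∂π' := by
          refine integral_mono_of_nonneg ?_ (hGexpint.mul_const _) ?_
          · refine Filter.Eventually.of_forall fun h => ?_
            exact mul_nonneg (Real.exp_pos _).le (integral_nonneg fun v => (Real.exp_pos _).le)
          · refine Filter.Eventually.of_forall fun h => ?_
            exact mul_le_mul_of_nonneg_left (hinner h) (Real.exp_pos _).le
      _ = (∫ h, Real.exp (t * (G h - Eall)) ∂π') * Real.exp (((c / 2 : ℝ≥0) : ℝ) ^ 2 * t ^ 2 / 2) := by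
          rw [integral_mul_const]
      _ ≤ Real.exp (((M : ℝ≥0) * (c / 2) ^ 2 : ℝ≥0) * t ^ 2 / 2) *
            Real.exp (((c / 2 : ℝ≥0) : ℝ) ^ 2 * t ^ 2 / 2) := by
          gcongr
          exact hmgfG
      _ = _ := by
          rw [← Real.exp_add]
          congr 1
          push_cast
          ring

end Vale.Agent.Lib.P157
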