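import Vale.Agent.Lib.P157.Concentration

/-!
A log-sum-exp bound for sums of independent bounded variables, and Jensen's inequality for the
logarithm.
-/

open MeasureTheory ProbabilityTheory
open scoped NNReal ENNReal

set_option linter.unusedSectionVars false

namespace Vale.Agent.Lib.P157

/-- Jensen's inequality for the logarithm. -/
lemma integral_log_le_log_integral {Ω : Type*} [MeasurableSpace Ω] {μ : Measure Ω}
    [IsProbabilityMeasure μ] {Y : Ω → ℝ} (hpos : ∀ ω, 0 < Y ω) (hint : Integrable Y μ)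
    (hlog : Integrable (fun ω => Real.log (Y ω)) μ) :
    ∫ ω, Real.log (Y ω) ∂μ ≤ Real.log (∫ ω, Y ω ∂μ) := by
  have hm : 0 < ∫ ω, Y ω ∂μ := by
    rw [integral_pos_iff_support_of_nonneg (fun ω => (hpos ω).le) hint]
    have : Function.support Y = Set.univ := by
      ext ω
      simp [(hpos ω).ne']
    rw [this]
    simp
  set m := ∫ ω, Y ω ∂μ with hmdef
  have h1 : ∀ ω, Real.log (Y ω) ≤ Real.log m + (Y ω / m - 1) := by
    intro ω
    have h2 := Real.log_le_sub_one_of_pos (div_pos (hpos ω) hm)
    rw [Real.log_div (hpos ω).ne' hm.ne'] at h2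
    linarith
  have hi1 : Integrable (fun ω => Y ω / m - 1) μ := (hint.div_const m).sub (integrable_const _)
  calc ∫ ω, Real.log (Y ω) ∂μ ≤ ∫ ω, (Real.log m + (Y ω / m - 1)) ∂μ :=
        integral_mono hlog ((integrable_const _).add hi1) h1
    _ = Real.log m := by
        rw [integral_add (integrable_const _) hi1,
          integral_sub (hint.div_const m) (integrable_const _), integral_div, ← hmdef,
          div_self hm.ne']
        simp

section LogSum

variable {X : Type*} [MeasurableSpace X] {ν : Measure X} [IsProbabilityMeasure ν]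
variable {K : Type*} [Fintype K] [Nonempty K] {M : ℕ}

/-- Hoeffding's lemma in the form used here. -/
lemma mgf_le_of_abs_le {h : X → ℝ} (hm : Measurable h) {C : ℝ} (hC : ∀ v, |h v| ≤ C) (t : ℝ) :
    ∫ v, Real.exp (t * h v) ∂ν ≤ Real.exp (t * ∫ v, h v ∂ν + C ^ 2 * t ^ 2 / 2) := by
  have hC0 : 0 ≤ C := by
    obtain ⟨v⟩ := nonempty_of_isProbabilityMeasure ν
    exact (abs_nonneg _).trans (hC v)
  have hsg := hasSubgaussianMGF_of_mem_Icc (μ := ν) (X := h) (a := -C) (b := C) hm.aemeasurable
    (Filter.Eventually.of_forall fun v => by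
      have := abs_le.mp (hC v)
      exact ⟨this.1, this.2⟩)
  have h1 := hsg.mgf_le t
  unfold mgf at h1
  have hint : Integrable (fun v => Real.exp (t * h v)) ν := by
    refine integrable_of_bdd (B := Real.exp (|t| * C)) (Real.measurable_exp.comp (hm.const_mul t))
      fun v => ?_
    rw [abs_of_pos (Real.exp_pos _)]
    refine Real.exp_le_exp.mpr ?_
    calc t * h v ≤ |t * h v| := le_abs_self _
      _ = |t| * |h v| := abs_mul _ _
      _ ≤ |t| * C := by gcongr; exact hC v
  have h2 : ∫ v, Real.exp (t * (h v - ∫ v, h v ∂ν)) ∂ν =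
      Real.exp (-(t * ∫ v, h v ∂ν)) * ∫ v, Real.exp (t * h v) ∂ν := by
    rw [← integral_const_mul]
    refine integral_congr_ae (Filter.Eventually.of_forall fun v => ?_)
    simp only
    rw [← Real.exp_add]
    congr 1
    ring
  have h3 : ∫ v, Real.exp (t * h v) ∂ν =
      Real.exp (t * ∫ v, h v ∂ν) * ∫ v, Real.exp (t * (h v - ∫ v, h v ∂ν)) ∂ν := by
    rw [h2, ← mul_assoc, ← Real.exp_add]
    simp
  rw [h3, Real.exp_add]
  refine mul_le_mul_of_nonneg_left ?_ (Real.exp_pos _).le
  refine h1.trans (le_of_eq ?_)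
  congr 1
  have hnorm : ‖C - -C‖ / 2 = C := by
    have : C - -C = 2 * C := by ring
    rw [this, Real.norm_of_nonneg (by positivity)]
    ring
  push_cast
  rw [hnorm]

/-- The exponential moment of a sum over independent coordinates. -/
lemma integral_exp_sum_pi {h : X → ℝ} (t : ℝ) :
    ∫ u : Fin M → X, Real.exp (t * ∑ a, h (u a)) ∂(Measure.pi fun _ : Fin M => ν) =
      (∫ v, Real.exp (t * h v) ∂ν) ^ M := by
  have h1 : ∀ u : Fin M → X, Real.exp (t * ∑ a, h (u a)) = ∏ a, Real.exp (t * h (u a)) := by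
    intro u
    rw [← Real.exp_sum, Finset.mul_sum]
  simp_rw [h1]
  rw [integral_fintype_prod_eq_prod (𝕜 := ℝ) (fun _ : Fin M => fun v => Real.exp (t * h v))]
  simp

lemma log_sum_exp_le (z : K → ℝ) :
    ∃ k, Real.log (∑ k, Real.exp (z k)) ≤ Real.log (Fintype.card K) + z k := by
  obtain ⟨k0, -, hk0⟩ := Finset.exists_max_image Finset.univ z Finset.univ_nonempty
  refine ⟨k0, ?_⟩
  have hcard : (0 : ℝ) < Fintype.card K := by exact_mod_cast Fintype.card_pos
  have hsum : 0 < ∑ k, Real.exp (z k) :=
    Finset.sum_pos (fun _ _ => Real.exp_pos _) Finset.univ_nonempty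
  have h1 : ∑ k, Real.exp (z k) ≤ Fintype.card K * Real.exp (z k0) := by
    calc ∑ k, Real.exp (z k) ≤ ∑ _k : K, Real.exp (z k0) :=
          Finset.sum_le_sum fun k hk => Real.exp_le_exp.mpr (hk0 k hk)
      _ = _ := by simp
  have h2 := Real.log_le_log hsum h1
  rw [Real.log_mul hcard.ne' (Real.exp_pos _).ne', Real.log_exp] at h2
  exact h2

/-- **Log-sum-exp bound.** -/
theorem integral_log_sum_exp_le {A : K → ℝ} {h : K → X → ℝ} (hm : ∀ k, Measurable (h k)) {C : ℝ}
    (hCpos : 0 < C) (hC : ∀ k v, |h k v| ≤ C) {B : ℝ}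
    (hB : ∀ k, A k + M * ∫ v, h k v ∂ν ≤ B) (hM : 1 ≤ M) :
    ∫ u : Fin M → X, Real.log (∑ k, Real.exp (A k + ∑ a, h k (u a)))
        ∂(Measure.pi fun _ : Fin M => ν) ≤
      B + Real.log (Fintype.card K) * (1 + C * Real.sqrt M) + C * Real.sqrt M / 2 := by
  set π : Measure (Fin M → X) := Measure.pi fun _ : Fin M => ν with hπ
  set lc := Real.log (Fintype.card K) with hlc
  have hcard : (1 : ℝ) ≤ Fintype.card K := by exact_mod_cast Fintype.card_pos
  have hlc0 : 0 ≤ lc := Real.log_nonneg hcard
  have hM' : (0 : ℝ) < M := by exact_mod_cast hM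
  have hsq : 0 < Real.sqrt M := Real.sqrt_pos.mpr hM'
  set t : ℝ := 1 / (C * Real.sqrt M) with ht
  have htpos : 0 < t := by positivity
  set z : K → (Fin M → X) → ℝ := fun k u => A k + ∑ a, h k (u a) with hz
  have hzm : ∀ k, Measurable (z k) := fun k => measurable_const.add
    (Finset.measurable_sum _ fun a _ => (hm k).comp (measurable_pi_apply a))
  have hzb : ∀ k u, |z k u| ≤ |A k| + M * C := by
    intro k u
    simp only [hz]
    calc |A k + ∑ a, h k (u a)| ≤ |A k| + |∑ a, h k (u a)| := abs_add_le _ _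
      _ ≤ |A k| + ∑ a, |h k (u a)| := by gcongr; exact Finset.abs_sum_le_sum_abs _ _
      _ ≤ |A k| + ∑ _a : Fin M, C := by gcongr with a; exact hC k _
      _ = _ := by simp
  set Bz : ℝ := ∑ k, (|A k| + M * C) with hBz
  have hzb' : ∀ k u, |z k u| ≤ Bz := fun k u =>
    (hzb k u).trans (Finset.single_le_sum (f := fun k => |A k| + M * C)
      (fun k _ => by positivity) (Finset.mem_univ k))
  -- the random variable
  set W : (Fin M → X) → ℝ := fun u => Real.log (∑ k, Real.exp (z k u)) - lc with hW
  have hWm : Measurable W := by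
    simp only [hW]
    refine (Real.measurable_log.comp (Finset.measurable_sum _ fun k _ =>
      Real.measurable_exp.comp (hzm k))).sub_const _
  have hWbd : ∀ u, |W u| ≤ Bz + 2 * lc := by
    intro u
    obtain ⟨k0, hk0⟩ := log_sum_exp_le (fun k => z k u)
    obtain ⟨k1⟩ := (inferInstance : Nonempty K)
    have hl : z k1 u ≤ Real.log (∑ k, Real.exp (z k u)) := by
      have h1 : Real.exp (z k1 u) ≤ ∑ k, Real.exp (z k u) :=
        Finset.single_le_sum (f := fun k => Real.exp (z k u)) (fun _ _ => (Real.exp_pos _).le)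
          (Finset.mem_univ k1)
      have := Real.log_le_log (Real.exp_pos _) h1
      rwa [Real.log_exp] at this
    have h2 := abs_le.mp (hzb' k0 u)
    have h3 := abs_le.mp (hzb' k1 u)
    simp only [hW]
    rw [abs_le]
    constructor <;> linarith
  have hWint : Integrable W π := integrable_of_bdd hWm hWbd
  -- exponential moments
  have hexpW : ∀ u, Real.exp (t * W u) ≤ ∑ k, Real.exp (t * z k u) := by
    intro u
    obtain ⟨k0, hk0⟩ := log_sum_exp_le (fun k => z k u)
    have h1 : t * W u ≤ t * z k0 u := by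
      refine mul_le_mul_of_nonneg_left ?_ htpos.le
      simp only [hW]
      linarith
    calc Real.exp (t * W u) ≤ Real.exp (t * z k0 u) := Real.exp_le_exp.mpr h1
      _ ≤ _ := Finset.single_le_sum (f := fun k => Real.exp (t * z k u))
          (fun _ _ => (Real.exp_pos _).le) (Finset.mem_univ k0)
  have hintz : ∀ k, Integrable (fun u => Real.exp (t * z k u)) π := by
    intro k
    refine integrable_of_bdd (B := Real.exp (t * Bz)) (Real.measurable_exp.comp
      ((hzm k).const_mul t)) fun u => ?_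
    rw [abs_of_pos (Real.exp_pos _)]
    refine Real.exp_le_exp.mpr (mul_le_mul_of_nonneg_left ?_ htpos.le)
    exact (abs_le.mp (hzb' k u)).2
  have hintW : Integrable (fun u => Real.exp (t * W u)) π := by
    refine integrable_of_bdd (B := Real.exp (t * (Bz + 2 * lc))) (Real.measurable_exp.comp
      (hWm.const_mul t)) fun u => ?_
    rw [abs_of_pos (Real.exp_pos _)]
    refine Real.exp_le_exp.mpr (mul_le_mul_of_nonneg_left ?_ htpos.le)
    exact (abs_le.mp (hWbd u)).2
  have hmom : ∀ k, ∫ u, Real.exp (t * z k u) ∂π ≤ Real.exp (t * B + M * (C ^ 2 * t ^ 2 / 2)) := by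
    intro k
    have h1 : ∀ u : Fin M → X, Real.exp (t * z k u) =
        Real.exp (t * A k) * Real.exp (t * ∑ a, h k (u a)) := by
      intro u
      rw [← Real.exp_add]
      congr 1
      simp only [hz]
      ring
    simp_rw [h1]
    rw [integral_const_mul, hπ, integral_exp_sum_pi]
    have h2 := mgf_le_of_abs_le (ν := ν) (hm k) (hC k) t
    have h3 : 0 ≤ ∫ v, Real.exp (t * h k v) ∂ν :=
      integral_nonneg fun v => (Real.exp_pos _).le
    calc Real.exp (t * A k) * (∫ v, Real.exp (t * h k v) ∂ν) ^ M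
        ≤ Real.exp (t * A k) * (Real.exp (t * ∫ v, h k v ∂ν + C ^ 2 * t ^ 2 / 2)) ^ M := by
          gcongr
      _ = Real.exp (t * (A k + M * ∫ v, h k v ∂ν) + M * (C ^ 2 * t ^ 2 / 2)) := by
          rw [← Real.exp_nat_mul, ← Real.exp_add]
          congr 1
          ring
      _ ≤ _ := by
          refine Real.exp_le_exp.mpr ?_
          have := mul_le_mul_of_nonneg_left (hB k) htpos.le
          linarith
  -- conclusion
  have hY : ∫ u, Real.exp (t * W u) ∂π ≤ Fintype.card K * Real.exp (t * B + M * (C ^ 2 * t ^ 2 / 2)) := by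
    calc ∫ u, Real.exp (t * W u) ∂π ≤ ∫ u, ∑ k, Real.exp (t * z k u) ∂π :=
          integral_mono hintW (integrable_finsetSum _ fun k _ => hintz k) hexpW
      _ = ∑ k, ∫ u, Real.exp (t * z k u) ∂π := integral_finsetSum _ fun k _ => hintz k
      _ ≤ ∑ _k : K, Real.exp (t * B + M * (C ^ 2 * t ^ 2 / 2)) := Finset.sum_le_sum fun k _ => hmom k
      _ = _ := by simp
  have hJ := integral_log_le_log_integral (μ := π) (Y := fun u => Real.exp (t * W u))
    (fun u => Real.exp_pos _) hintW (by
      simp only [Real.log_exp]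
      exact hWint.const_mul t)
  simp only [Real.log_exp] at hJ
  rw [integral_const_mul] at hJ
  have hIpos : 0 < ∫ u, Real.exp (t * W u) ∂π := by
    rw [integral_pos_iff_support_of_nonneg (fun u => (Real.exp_pos _).le) hintW]
    have : Function.support (fun u => Real.exp (t * W u)) = Set.univ := by
      ext u
      simp [(Real.exp_pos _).ne']
    rw [this]
    simp
  have hlog2 := Real.log_le_log hIpos hY
  rw [Real.log_mul (by positivity) (Real.exp_pos _).ne', Real.log_exp] at hlog2
  have hmain : t * ∫ u, W u ∂π ≤ lc + (t * B + M * (C ^ 2 * t ^ 2 / 2)) := hJ.trans hlog2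
  have hW2 : ∫ u, Real.log (∑ k, Real.exp (A k + ∑ a, h k (u a))) ∂π = ∫ u, W u ∂π + lc := by
    simp only [hW, hz]
    rw [integral_sub]
    · simp
    · have := hWint.add (integrable_const lc)
      refine this.congr (Filter.Eventually.of_forall fun u => ?_)
      simp [hW, hz]
    · exact integrable_const _
  rw [hW2]
  have hdiv : ∫ u, W u ∂π ≤ lc / t + B + M * (C ^ 2 * t / 2) := by
    have h1 : ∫ u, W u ∂π = (t * ∫ u, W u ∂π) / t := by
      field_simp
    rw [h1, div_le_iff₀ htpos]
    have h2 : (lc / t + B + M * (C ^ 2 * t / 2)) * t = lc + (t * B + M * (C ^ 2 * t ^ 2 / 2)) := by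
      field_simp
      ring
    rw [h2]
    exact hmain
  have ht1 : lc / t = lc * (C * Real.sqrt M) := by
    rw [ht]
    field_simp
  have ht2 : M * (C ^ 2 * t / 2) = C * Real.sqrt M / 2 := by
    rw [ht]
    have hsq2 : Real.sqrt M * Real.sqrt M = M := Real.mul_self_sqrt hM'.le
    field_simp
    nlinarith
  rw [ht1, ht2] at hdiv
  nlinarith

end LogSum

end Vale.Agent.Lib.P157
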