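import Vale.Agent.Lib.P157.Resample
import Vale.Agent.Lib.P157.LogSumExp

/-!
The conditional first moment bound on the entropy of the normalized partition function.
-/

open MeasureTheory ProbabilityTheory
open scoped NNReal ENNReal

set_option linter.unusedSectionVars false

namespace Vale.Agent.Lib.P157

variable {N M : ℕ} {f : ℝ → ℝ}

section Pot

lemma annealedConstant_bounds (hf : Measurable f) {L : ℝ} (hfL : ∀ u, |f u| ≤ L) :
    Real.exp (-L) ≤ annealedConstant f ∧ annealedConstant f ≤ Real.exp L := by
  constructor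
  · unfold annealedConstant
    calc Real.exp (-L) = ∫ _g, Real.exp (-L) ∂(gaussianReal 0 1) := by simp
      _ ≤ _ := integral_mono (integrable_const _) (integrable_exp_gaussian hf hfL)
          fun g => Real.exp_le_exp.mpr (abs_le.mp (hfL g)).1
  · unfold annealedConstant
    calc _ ≤ ∫ _g, Real.exp L ∂(gaussianReal 0 1) :=
          integral_mono (integrable_exp_gaussian hf hfL) (integrable_const _)
          fun g => Real.exp_le_exp.mpr (abs_le.mp (hfL g)).2
      _ = Real.exp L := by simp

lemma measurable_normPot (hf : Measurable f) : Measurable (normPot f) :=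
  (Real.measurable_exp.comp hf).div_const _

lemma normPot_bounds (hf : Measurable f) {L : ℝ} (hfL : ∀ u, |f u| ≤ L) (u : ℝ) :
    Real.exp (-(2 * L)) ≤ normPot f u ∧ normPot f u ≤ Real.exp (2 * L) := by
  have hc := annealedConstant_bounds hf hfL
  have hc0 := annealedConstant_pos hf hfL
  have h1 := abs_le.mp (hfL u)
  unfold normPot
  constructor
  · rw [le_div_iff₀ hc0]
    calc Real.exp (-(2 * L)) * annealedConstant f ≤ Real.exp (-(2 * L)) * Real.exp L := by
          gcongr
          exact hc.2
      _ = Real.exp (-L) := by rw [← Real.exp_add]; congr 1; ring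
      _ ≤ Real.exp (f u) := Real.exp_le_exp.mpr (by linarith [h1.1])
  · rw [div_le_iff₀ hc0]
    calc Real.exp (f u) ≤ Real.exp L := Real.exp_le_exp.mpr (by linarith [h1.2])
      _ = Real.exp (2 * L) * Real.exp (-L) := by rw [← Real.exp_add]; congr 1; ring
      _ ≤ Real.exp (2 * L) * annealedConstant f := by
          gcongr
          exact hc.1

end Pot

section Noise

variable {U : ℝ → ℝ} {a b : ℝ}

lemma measurable_noiseAvg (hU : Measurable U) (ρ : ℝ) : Measurable (noiseAvg U ρ) := by
  unfold noiseAvg
  have h1 : StronglyMeasurable (fun p : ℝ × ℝ => U (ρ * p.1 + Real.sqrt (1 - ρ ^ 2) * p.2)) :=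
    (hU.comp (by fun_prop)).stronglyMeasurable
  exact (h1.integral_prod_right' (ν := gaussianReal 0 1)).measurable

lemma integrable_comp_of_bdd (hU : Measurable U) (hUb : ∀ u, a ≤ U u ∧ U u ≤ b)
    {Ω : Type*} [MeasurableSpace Ω] {μ : Measure Ω} [IsFiniteMeasure μ]
    {h : Ω → ℝ} (hh : Measurable h) : Integrable (fun ω => U (h ω)) μ := by
  refine integrable_of_bdd (B := |a| + |b|) (hU.comp hh) fun ω => ?_
  have := hUb (h ω)
  rw [abs_le]
  constructor
  · linarith [neg_abs_le a, abs_nonneg b, this.1]
  · linarith [le_abs_self b, abs_nonneg a, this.2]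

lemma noiseAvg_bounds (hU : Measurable U) (hUb : ∀ u, a ≤ U u ∧ U u ≤ b) (ρ v : ℝ) :
    a ≤ noiseAvg U ρ v ∧ noiseAvg U ρ v ≤ b := by
  have hi : Integrable (fun w => U (ρ * v + Real.sqrt (1 - ρ ^ 2) * w)) (gaussianReal 0 1) :=
    integrable_comp_of_bdd hU hUb (by fun_prop)
  unfold noiseAvg
  constructor
  · calc a = ∫ _w, a ∂(gaussianReal 0 1) := by simp
      _ ≤ _ := integral_mono (integrable_const _) hi fun w => (hUb _).1
  · calc _ ≤ ∫ _w, b ∂(gaussianReal 0 1) := integral_mono hi (integrable_const _) fun w => (hUb _).2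
      _ = b := by simp

/-- The average of a function of a resampled field is the noise operator. -/
lemma integral_field_resample (hN : 1 ≤ N) (hU : Measurable U) (xs x : Fin N → Bool) (u : ℝ) :
    ∫ g, U (patternField x (resample xs u g)) ∂(patternLaw N) = noiseAvg U (overlap x xs) u := by
  set ρ := overlap x xs with hρ
  have hρ1 : ρ ^ 2 ≤ 1 := by
    rw [← sq_abs]
    exact pow_le_one₀ (abs_nonneg _) (abs_overlap_le x xs)
  have hv : 0 ≤ 1 - ρ ^ 2 := by linarith
  set σ := Real.sqrt (1 - ρ ^ 2) with hσ
  have hσ2 : σ ^ 2 = 1 - ρ ^ 2 := Real.sq_sqrt hv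
  set c : Fin N → ℝ := fun i => (spinValue (x i) - ρ * spinValue (xs i)) / Real.sqrt N with hc
  set w : ℝ≥0 := ⟨1 - ρ ^ 2, hv⟩ with hw
  have hmap : (patternLaw N).map (fun g => ∑ i, g i * c i) = gaussianReal 0 w :=
    map_linear_form c w (sum_coeff_sq hN xs x)
  have hL : Measurable (fun g : Fin N → ℝ => ∑ i, g i * c i) :=
    Finset.measurable_sum _ fun i _ => (measurable_pi_apply i).mul_const _
  have h1 : ∀ g : Fin N → ℝ, U (patternField x (resample xs u g)) = U (ρ * u + ∑ i, g i * c i) := by
    intro g
    rw [patternField_resample hN]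
  simp_rw [h1]
  have hUc : Measurable (fun t => U (ρ * u + t)) := hU.comp (by fun_prop)
  have h2 : ∫ g, U (ρ * u + ∑ i, g i * c i) ∂(patternLaw N) =
      ∫ t, U (ρ * u + t) ∂(gaussianReal 0 w) := by
    rw [← hmap]
    exact (integral_map hL.aemeasurable hUc.aestronglyMeasurable).symm
  rw [h2]
  unfold noiseAvg
  rw [← hσ]
  have hmap2 : (gaussianReal 0 1).map (fun t => σ * t) = gaussianReal 0 w := by
    rw [gaussianReal_map_const_mul]
    congr 1
    · simp
    · ext
      simp [hw, hσ2]
      rfl
  have hS : Measurable (fun t : ℝ => σ * t) := by fun_prop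
  rw [← hmap2]
  exact integral_map hS.aemeasurable hUc.aestronglyMeasurable

end Noise

section Count

variable (x xs : Fin N → Bool)

/-- The number of coordinates where two configurations agree. -/
def agree (x xs : Fin N → Bool) : ℕ := (Finset.univ.filter fun i => x i = xs i).card

lemma agree_le : agree x xs ≤ N := by
  unfold agree
  calc _ ≤ (Finset.univ : Finset (Fin N)).card := Finset.card_filter_le _ _
    _ = N := by simp

lemma overlap_eq_agree (hN : 1 ≤ N) : overlap x xs = 2 * agree x xs / N - 1 := by
  have hN' : (N : ℝ) ≠ 0 := by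
    have : (0 : ℝ) < N := by exact_mod_cast hN
    exact this.ne'
  unfold overlap agree
  have h1 : ∀ i, spinValue (x i) * spinValue (xs i) =
      2 * (if x i = xs i then (1 : ℝ) else 0) - 1 := by
    intro i
    cases x i <;> cases xs i <;> norm_num [spinValue]
  simp_rw [h1]
  rw [Finset.sum_sub_distrib, ← Finset.mul_sum]
  simp
  field_simp

lemma sum_weight (xs : Fin N → Bool) (p : ℝ) :
    ∑ x : Fin N → Bool, ∏ i, (if x i = xs i then p else 1 - p) = 1 := by
  have h1 := Finset.prod_univ_sum (fun _ : Fin N => (Finset.univ : Finset Bool))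
    (fun i b => if b = xs i then p else 1 - p)
  simp only [Fintype.piFinset_univ] at h1
  rw [← h1]
  refine Finset.prod_eq_one fun i _ => ?_
  cases xs i <;> simp

lemma prod_weight_eq (xs x : Fin N → Bool) (p : ℝ) :
    ∏ i, (if x i = xs i then p else 1 - p) = p ^ agree x xs * (1 - p) ^ (N - agree x xs) := by
  rw [Finset.prod_ite]
  simp only [Finset.prod_const]
  congr 2
  have h1 := Finset.card_filter_add_card_filter_not (s := (Finset.univ : Finset (Fin N)))
    (fun i => x i = xs i)
  simp only [Finset.card_univ, Fintype.card_fin] at h1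
  unfold agree
  omega

lemma pow_weight_eq {k : ℕ} (hk : k ≤ N) (hN : 1 ≤ N) :
    ((k : ℝ) / N) ^ k * (1 - (k : ℝ) / N) ^ (N - k) =
      Real.exp (-(N * Real.binEntropy ((k : ℝ) / N))) := by
  have hN' : (0 : ℝ) < N := by exact_mod_cast hN
  rcases Nat.eq_zero_or_pos k with h0 | h0
  · subst h0
    simp
  rcases Nat.lt_or_ge k N with h1 | h1
  · have hk0 : (0 : ℝ) < k := by exact_mod_cast h0
    have hkN : (k : ℝ) < N := by exact_mod_cast h1
    have hp : 0 < (k : ℝ) / N := by positivity
    have hq : 0 < 1 - (k : ℝ) / N := by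
      rw [sub_pos, div_lt_one hN']
      exact hkN
    have hcast : ((N - k : ℕ) : ℝ) = N - k := by
      rw [Nat.cast_sub hk]
    rw [← Real.exp_log (mul_pos (pow_pos hp k) (pow_pos hq (N - k)))]
    congr 1
    rw [Real.log_mul (pow_pos hp k).ne' (pow_pos hq (N - k)).ne', Real.log_pow, Real.log_pow, hcast]
    unfold Real.binEntropy
    rw [Real.log_inv, Real.log_inv]
    field_simp
    ring
  · have : k = N := le_antisymm hk h1
    subst this
    have hN0 : (k : ℝ) ≠ 0 := hN'.ne'
    simp [hN0]

/-- The number of configurations at a given agreement count is exponentially bounded. -/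
lemma shell_card_le (hN : 1 ≤ N) (xs : Fin N → Bool) {k : ℕ} (hk : k ≤ N) :
    (((Finset.univ : Finset (Fin N → Bool)).filter fun x => agree x xs = k).card : ℝ) ≤
      Real.exp (N * Real.binEntropy ((k : ℝ) / N)) := by
  have hN' : (0 : ℝ) < N := by exact_mod_cast hN
  set p : ℝ := (k : ℝ) / N with hp
  have hp0 : 0 ≤ p := by positivity
  have hp1 : p ≤ 1 := by
    rw [hp, div_le_one hN']
    exact_mod_cast hk
  have hW : ∀ x : Fin N → Bool, 0 ≤ ∏ i, (if x i = xs i then p else 1 - p) := by
    intro x
    refine Finset.prod_nonneg fun i _ => ?_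
    split_ifs <;> linarith
  have h1 : (((Finset.univ : Finset (Fin N → Bool)).filter fun x => agree x xs = k).card : ℝ) *
      Real.exp (-(N * Real.binEntropy p)) ≤ 1 := by
    rw [← sum_weight xs p, ← nsmul_eq_mul, ← Finset.sum_const]
    calc _ = ∑ x ∈ (Finset.univ : Finset (Fin N → Bool)).filter fun x => agree x xs = k,
          ∏ i, (if x i = xs i then p else 1 - p) := by
          refine Finset.sum_congr rfl fun x hx => ?_
          rw [prod_weight_eq]
          have hx' : agree x xs = k := (Finset.mem_filter.mp hx).2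
          rw [hx', hp, pow_weight_eq hk hN]
      _ ≤ _ := Finset.sum_le_sum_of_subset_of_nonneg (Finset.filter_subset _ _)
          fun x _ _ => hW x
  rw [Real.exp_neg] at h1
  have h2 : 0 < Real.exp (N * Real.binEntropy p) := Real.exp_pos _
  rw [mul_inv_le_iff₀ h2] at h1
  simpa using h1

end Count

section Resampling

/-- Resampling all patterns. -/
noncomputable def resampleAll (xs : Fin N → Bool) (u : Fin M → ℝ) (G : Fin M → Fin N → ℝ) :
    Fin M → Fin N → ℝ := fun a => resample xs (u a) (G a)

lemma measurable_resampleAll (xs : Fin N → Bool) :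
    Measurable (fun p : (Fin M → ℝ) × (Fin M → Fin N → ℝ) => resampleAll xs p.1 p.2) := by
  refine measurable_pi_iff.mpr fun a => ?_
  have h1 : Measurable (fun p : (Fin M → ℝ) × (Fin M → Fin N → ℝ) => (p.1 a, p.2 a)) :=
    ((measurable_pi_apply a).comp measurable_fst).prodMk
      ((measurable_pi_apply a).comp measurable_snd)
  exact (measurable_resample xs).comp h1

lemma map_resampleAll (hN : 1 ≤ N) (xs : Fin N → Bool) :
    ((Measure.pi fun _ : Fin M => gaussianReal 0 1).prod (patternsLaw N M)).map
      (fun p => resampleAll xs p.1 p.2) = patternsLaw N M := by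
  have he := measurePreserving_arrowProdEquivProdArrow ℝ (Fin N → ℝ) (Fin M)
    (fun _ => gaussianReal 0 1) (fun _ => patternLaw N)
  unfold patternsLaw
  rw [← he.map_eq, Measure.map_map (measurable_resampleAll xs) he.measurable]
  have h1 : (fun p : (Fin M → ℝ) × (Fin M → Fin N → ℝ) => resampleAll xs p.1 p.2) ∘
      (MeasurableEquiv.arrowProdEquivProdArrow ℝ (Fin N → ℝ) (Fin M)) =
      fun y a => (fun p : ℝ × (Fin N → ℝ) => resample xs p.1 p.2) (y a) := by
    funext y a
    rfl
  rw [h1, Measure.pi_map_pi (fun _ => (measurable_resample xs).aemeasurable)]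
  simp_rw [map_resample hN xs]

end Resampling

section Main

/-- The overlap value at agreement count `k`. -/
noncomputable def shellOverlap (N k : ℕ) : ℝ := 2 * k / N - 1

lemma shellOverlap_mem (hN : 1 ≤ N) {k : ℕ} (hk : k ≤ N) :
    -1 ≤ shellOverlap N k ∧ shellOverlap N k ≤ 1 := by
  have hN' : (0 : ℝ) < N := by exact_mod_cast hN
  have hk' : (k : ℝ) ≤ N := by exact_mod_cast hk
  unfold shellOverlap
  constructor
  · have : 0 ≤ 2 * (k : ℝ) / N := by positivity
    linarith
  · have : 2 * (k : ℝ) / N ≤ 2 := by
      rw [div_le_iff₀ hN']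
      linarith
    linarith

lemma half_shellOverlap (k : ℕ) : (1 + shellOverlap N k) / 2 = (k : ℝ) / N := by
  unfold shellOverlap
  ring

/-- The field potentials on the cube. -/
noncomputable abbrev fieldPot (f : ℝ → ℝ) (x : Fin N → Bool) (g : Fin N → ℝ) : ℝ :=
  f (patternField x g)

lemma wt_fieldPot (x : Fin N → Bool) (G : Fin M → Fin N → ℝ) :
    wt (fieldPot f) (annealedConstant f) x G = ∏ a, normPot f (patternField x (G a)) := rfl

lemma integral_avgWt_resample (hN : 1 ≤ N) (hf : Measurable f) {L : ℝ} (hfL : ∀ u, |f u| ≤ L)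
    (xs : Fin N → Bool) (u : Fin M → ℝ) :
    ∫ G, avgWt (fieldPot f) (annealedConstant f) (resampleAll xs u G) ∂(patternsLaw N M) =
      (∑ x : Fin N → Bool, ∏ a, noiseAvg (normPot f) (overlap x xs) (u a)) / 2 ^ N := by
  have hU := measurable_normPot hf
  have hUb := normPot_bounds hf hfL
  have hcard : (Fintype.card (Fin N → Bool) : ℝ) = 2 ^ N := by
    simp
  unfold avgWt
  rw [hcard, integral_div]
  congr 1
  have hfac : ∀ (x : Fin N → Bool) (a : Fin M), Measurable (fun g : Fin N → ℝ =>
      normPot f (patternField x (resample xs (u a) g))) := by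
    intro x a
    refine hU.comp ((measurable_patternField x).comp ?_)
    exact (measurable_resample xs).comp (measurable_const.prodMk measurable_id)
  have hint : ∀ x : Fin N → Bool, Integrable (fun G : Fin M → Fin N → ℝ =>
      wt (fieldPot f) (annealedConstant f) x (resampleAll xs u G)) (patternsLaw N M) := by
    intro x
    simp_rw [wt_fieldPot]
    unfold patternsLaw
    have := Integrable.fintype_prod (𝕜 := ℝ) (μ := fun _ : Fin M => patternLaw N)
      (f := fun a g => normPot f (patternField x (resample xs (u a) g))) (fun a => by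
        refine integrable_of_bdd (B := Real.exp (2 * L)) (hfac x a) fun g => ?_
        have := hUb (patternField x (resample xs (u a) g))
        rw [abs_of_pos (lt_of_lt_of_le (Real.exp_pos _) this.1)]
        exact this.2)
    exact this
  rw [integral_finsetSum _ fun x _ => hint x]
  refine Finset.sum_congr rfl fun x _ => ?_
  simp_rw [wt_fieldPot]
  unfold patternsLaw resampleAll
  rw [integral_fintype_prod_eq_prod (𝕜 := ℝ)
    (fun a : Fin M => fun g => normPot f (patternField x (resample xs (u a) g)))]
  refine Finset.prod_congr rfl fun a _ => ?_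
  exact integral_field_resample hN hU xs x (u a)

/-- Grouping the configurations by their overlap with the planted one. -/
lemma avg_noise_le_sum_exp (hN : 1 ≤ N) (hf : Measurable f) {L : ℝ} (hfL : ∀ u, |f u| ≤ L)
    (xs : Fin N → Bool) (u : Fin M → ℝ) :
    (∑ x : Fin N → Bool, ∏ a, noiseAvg (normPot f) (overlap x xs) (u a)) / 2 ^ N ≤
      ∑ k : Fin (N + 1), Real.exp (-(N * shellRate (shellOverlap N k)) +
        ∑ a, Real.log (noiseAvg (normPot f) (shellOverlap N k) (u a))) := by
  have hU := measurable_normPot hf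
  have hUb := normPot_bounds hf hfL
  have hN' : (0 : ℝ) < N := by exact_mod_cast hN
  have hVpos : ∀ ρ v, 0 < noiseAvg (normPot f) ρ v := fun ρ v =>
    lt_of_lt_of_le (Real.exp_pos _) (noiseAvg_bounds hU hUb ρ v).1
  have hag : ∀ x : Fin N → Bool, agree x xs < N + 1 := fun x => Nat.lt_succ_of_le (agree_le x xs)
  set g : (Fin N → Bool) → Fin (N + 1) := fun x => ⟨agree x xs, hag x⟩ with hg
  have hov : ∀ x, overlap x xs = shellOverlap N (g x) := fun x => by
    rw [overlap_eq_agree x xs hN]
    rfl
  have h1 : ∑ x : Fin N → Bool, ∏ a, noiseAvg (normPot f) (overlap x xs) (u a) =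
      ∑ k : Fin (N + 1), ∑ x ∈ (Finset.univ : Finset (Fin N → Bool)).filter (fun x => g x = k),
        ∏ a, noiseAvg (normPot f) (overlap x xs) (u a) :=
    (Finset.sum_fiberwise _ g _).symm
  rw [h1, Finset.sum_div]
  refine Finset.sum_le_sum fun k _ => ?_
  have h2 : ∀ x ∈ (Finset.univ : Finset (Fin N → Bool)).filter (fun x => g x = k),
      ∏ a, noiseAvg (normPot f) (overlap x xs) (u a) =
        Real.exp (∑ a, Real.log (noiseAvg (normPot f) (shellOverlap N k) (u a))) := by
    intro x hx
    have hx' : g x = k := (Finset.mem_filter.mp hx).2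
    rw [hov, hx', Real.exp_sum]
    refine Finset.prod_congr rfl fun a _ => ?_
    rw [Real.exp_log (hVpos _ _)]
  rw [Finset.sum_congr rfl h2, Finset.sum_const, nsmul_eq_mul]
  have hk : (k : ℕ) ≤ N := Nat.le_of_lt_succ k.isLt
  have hcardeq : ((Finset.univ : Finset (Fin N → Bool)).filter (fun x => g x = k)) =
      (Finset.univ : Finset (Fin N → Bool)).filter (fun x => agree x xs = k) := by
    ext x
    simp [hg, Fin.ext_iff]
  rw [hcardeq]
  have hcard := shell_card_le hN xs hk
  have h2pow : (2 : ℝ) ^ N = Real.exp (N * Real.log 2) := by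
    rw [Real.exp_nat_mul, Real.exp_log (by norm_num)]
  rw [h2pow, div_le_iff₀ (Real.exp_pos _)]
  calc _ ≤ Real.exp (N * Real.binEntropy ((k : ℝ) / N)) *
        Real.exp (∑ a, Real.log (noiseAvg (normPot f) (shellOverlap N k) (u a))) := by
        gcongr
    _ = _ := by
        rw [← Real.exp_add, ← Real.exp_add]
        congr 1
        unfold shellRate
        rw [half_shellOverlap]
        ring

/-- The crossEnt integral is the mean of the log noise under the tilted law. -/
lemma integral_tilted_log_noise (ρ : ℝ) :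
    ∫ v, Real.log (noiseAvg (normPot f) ρ v) ∂((gaussianReal 0 1).tilted f) = crossEnt f ρ := by
  rw [integral_tilted]
  unfold crossEnt normPot annealedConstant
  rfl

lemma abs_log_noise_le (hf : Measurable f) {L : ℝ} (hfL : ∀ u, |f u| ≤ L) (ρ v : ℝ) :
    |Real.log (noiseAvg (normPot f) ρ v)| ≤ 2 * L := by
  have hb := noiseAvg_bounds (measurable_normPot hf) (normPot_bounds hf hfL) ρ v
  have hpos : 0 < noiseAvg (normPot f) ρ v := lt_of_lt_of_le (Real.exp_pos _) hb.1
  rw [abs_le]
  constructor
  · have := Real.log_le_log (Real.exp_pos _) hb.1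
    rw [Real.log_exp] at this
    linarith
  · have := Real.log_le_log hpos hb.2
    rwa [Real.log_exp] at this

/-- The contribution of one planted configuration. -/
theorem planted_term_le (hN : 1 ≤ N) (hM : 1 ≤ M) (hf : Measurable f) {L : ℝ} (hL : 0 < L)
    (hfL : ∀ u, |f u| ≤ L) (xs : Fin N → Bool) {B : ℝ}
    (hB : ∀ ρ : ℝ, -1 ≤ ρ → ρ ≤ 1 → M * crossEnt f ρ - N * shellRate ρ ≤ B) :
    ∫ G, wt (fieldPot f) (annealedConstant f) xs G *
        Real.log (avgWt (fieldPot f) (annealedConstant f) G) ∂(patternsLaw N M) ≤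
      B + Real.log (N + 1) * (1 + 2 * L * Real.sqrt M) + 2 * L * Real.sqrt M / 2 := by
  have c0pos := annealedConstant_pos hf hfL
  have hc := annealedConstant_bounds hf hfL
  have hU := measurable_normPot hf
  have hUb := normPot_bounds hf hfL
  set c0 := annealedConstant f with hc0
  set γM : Measure (Fin M → ℝ) := Measure.pi fun _ : Fin M => gaussianReal 0 1 with hγM
  set P : Measure (Fin M → Fin N → ℝ) := patternsLaw N M with hP
  have hprobP : IsProbabilityMeasure P := by
    rw [hP]
    unfold patternsLaw
    infer_instance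
  have hφm : ∀ x : Fin N → Bool, Measurable (fieldPot (N := N) f x) := fun x =>
    hf.comp (measurable_patternField x)
  have hφb : ∀ (x : Fin N → Bool) (g : Fin N → ℝ), |fieldPot f x g| ≤ L := fun x g => hfL _
  have hLogm : Measurable (fun G : Fin M → Fin N → ℝ =>
      Real.log (avgWt (fieldPot f) c0 G)) := measurable_logAvgWt hφm
  have hwtm : Measurable (fun G : Fin M → Fin N → ℝ => wt (fieldPot f) c0 xs G) :=
    measurable_wt hφm xs
  have hwtb := wt_bound (φ := fieldPot (N := N) f) (M := M) c0pos hφb hc.1 hc.2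
  have hlogb := abs_log_avgWt_le (φ := fieldPot (N := N) f) (M := M) c0pos hφb hc.1 hc.2
  set H : (Fin M → Fin N → ℝ) → ℝ := fun G =>
    wt (fieldPot f) c0 xs G * Real.log (avgWt (fieldPot f) c0 G) with hH
  have hHm : Measurable H := hwtm.mul hLogm
  have hwtabs : ∀ G : Fin M → Fin N → ℝ, |wt (fieldPot f) c0 xs G| ≤ Real.exp (2 * L * M) := by
    intro G
    have := hwtb xs G
    rw [abs_of_pos (lt_of_lt_of_le (Real.exp_pos _) this.1)]
    exact this.2
  have hHb : ∀ G, |H G| ≤ Real.exp (2 * L * M) * (2 * L * M) := by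
    intro G
    simp only [hH]
    rw [abs_mul]
    exact mul_le_mul (hwtabs G) (hlogb G) (abs_nonneg _) (Real.exp_pos _).le
  -- the change of variables
  have hRm := measurable_resampleAll (N := N) (M := M) xs
  have h1 : ∫ G, H G ∂P = ∫ p, H (resampleAll xs p.1 p.2) ∂(γM.prod P) := by
    rw [hP, ← map_resampleAll hN xs (M := M), integral_map hRm.aemeasurable
      (by rw [map_resampleAll hN xs]; exact hHm.aestronglyMeasurable)]
    rw [map_resampleAll hN xs]
  have hHRint : Integrable (fun p : (Fin M → ℝ) × (Fin M → Fin N → ℝ) =>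
      H (resampleAll xs p.1 p.2)) (γM.prod P) :=
    integrable_of_bdd (hHm.comp hRm) fun p => hHb _
  rw [h1, integral_prod _ hHRint]
  -- the weight only sees the inserted values
  set w : (Fin M → ℝ) → ℝ := fun u => ∏ a, normPot f (u a) with hw
  have hwt : ∀ (u : Fin M → ℝ) (G : Fin M → Fin N → ℝ),
      wt (fieldPot f) c0 xs (resampleAll xs u G) = w u := by
    intro u G
    rw [wt_fieldPot]
    refine Finset.prod_congr rfl fun a _ => ?_
    unfold resampleAll
    rw [patternField_resample_self hN]
  have hwpos : ∀ u, 0 < w u := fun u =>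
    Finset.prod_pos fun a _ => lt_of_lt_of_le (Real.exp_pos _) (hUb (u a)).1
  -- the log-sum-exp function
  set h : Fin (N + 1) → ℝ → ℝ := fun k v =>
    Real.log (noiseAvg (normPot f) (shellOverlap N k) v) with hh
  set A : Fin (N + 1) → ℝ := fun k => -(N * shellRate (shellOverlap N k)) with hA
  set Q : (Fin M → ℝ) → ℝ := fun u => Real.log (∑ k, Real.exp (A k + ∑ a, h k (u a))) with hQ
  have hhm : ∀ k, Measurable (h k) := fun k =>
    Real.measurable_log.comp (measurable_noiseAvg hU _)
  have hhb : ∀ k v, |h k v| ≤ 2 * L := fun k v => abs_log_noise_le hf hfL _ _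
  have hinner : ∀ u : Fin M → ℝ,
      ∫ G, H (resampleAll xs u G) ∂P ≤ w u * Q u := by
    intro u
    have e1 : ∀ G, H (resampleAll xs u G) =
        w u * Real.log (avgWt (fieldPot f) c0 (resampleAll xs u G)) := by
      intro G
      simp only [hH]
      rw [hwt]
    simp_rw [e1]
    rw [integral_const_mul]
    refine mul_le_mul_of_nonneg_left ?_ (hwpos u).le
    have hRu : Measurable (fun G : Fin M → Fin N → ℝ => resampleAll xs u G) :=
      hRm.comp (measurable_const.prodMk measurable_id)
    have hYm : Measurable (fun G : Fin M → Fin N → ℝ =>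
        avgWt (fieldPot f) c0 (resampleAll xs u G)) := (measurable_avgWt hφm).comp hRu
    have hYb := avgWt_bound (φ := fieldPot (N := N) f) (M := M) c0pos hφb hc.1 hc.2
    have hYint : Integrable (fun G : Fin M → Fin N → ℝ =>
        avgWt (fieldPot f) c0 (resampleAll xs u G)) P := by
      refine integrable_of_bdd (B := Real.exp (2 * L * M)) hYm fun G => ?_
      have := hYb (resampleAll xs u G)
      rw [abs_of_pos (lt_of_lt_of_le (Real.exp_pos _) this.1)]
      exact this.2
    have hLint : Integrable (fun G : Fin M → Fin N → ℝ =>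
        Real.log (avgWt (fieldPot f) c0 (resampleAll xs u G))) P :=
      integrable_of_bdd (hLogm.comp hRu) fun G => hlogb _
    have hJ := integral_log_le_log_integral (μ := P) (fun G => avgWt_pos c0pos _) hYint hLint
    refine hJ.trans ?_
    rw [hP, integral_avgWt_resample hN hf hfL xs u]
    have hupper := avg_noise_le_sum_exp (f := f) hN hf hfL xs u
    have hposY : 0 < (∑ x : Fin N → Bool, ∏ a, noiseAvg (normPot f) (overlap x xs) (u a)) / 2 ^ N := by
      refine div_pos (Finset.sum_pos (fun x _ => Finset.prod_pos fun a _ => ?_)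
        Finset.univ_nonempty) (by positivity)
      exact lt_of_lt_of_le (Real.exp_pos _) (noiseAvg_bounds hU hUb _ _).1
    exact Real.log_le_log hposY hupper
  -- integrate against the planted law
  have hsum : Measurable Q := by
    simp only [hQ]
    refine Real.measurable_log.comp (Finset.measurable_sum _ fun k _ => ?_)
    refine Real.measurable_exp.comp (measurable_const.add ?_)
    exact Finset.measurable_sum _ fun a _ => (hhm k).comp (measurable_pi_apply a)
  set Bz : ℝ := ∑ k, (|A k| + M * (2 * L)) with hBz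
  have hQb : ∀ u, |Q u| ≤ Bz + Real.log (Fintype.card (Fin (N + 1))) := by
    intro u
    have hzb : ∀ k, |A k + ∑ a, h k (u a)| ≤ Bz := by
      intro k
      calc |A k + ∑ a, h k (u a)| ≤ |A k| + |∑ a, h k (u a)| := abs_add_le _ _
        _ ≤ |A k| + ∑ a, |h k (u a)| := by gcongr; exact Finset.abs_sum_le_sum_abs _ _
        _ ≤ |A k| + ∑ _a : Fin M, (2 * L) := by gcongr with a; exact hhb k _
        _ = |A k| + M * (2 * L) := by simp
        _ ≤ Bz := Finset.single_le_sum (f := fun k => |A k| + M * (2 * L))
            (fun k _ => by positivity) (Finset.mem_univ k)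
    obtain ⟨k0, hk0⟩ := log_sum_exp_le (fun k => A k + ∑ a, h k (u a))
    have hlow : A 0 + ∑ a, h 0 (u a) ≤ Q u := by
      have h1 : Real.exp (A 0 + ∑ a, h 0 (u a)) ≤ ∑ k, Real.exp (A k + ∑ a, h k (u a)) :=
        Finset.single_le_sum (f := fun k => Real.exp (A k + ∑ a, h k (u a)))
          (fun _ _ => (Real.exp_pos _).le) (Finset.mem_univ _)
      have := Real.log_le_log (Real.exp_pos _) h1
      rwa [Real.log_exp] at this
    have hz0 := abs_le.mp (hzb 0)
    have hz1 := abs_le.mp (hzb k0)
    have hlc : 0 ≤ Real.log (Fintype.card (Fin (N + 1))) := by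
      apply Real.log_nonneg
      simp
    rw [abs_le]
    constructor
    · linarith
    · simp only [hQ]
      linarith
  have hQint : Integrable Q γM := integrable_of_bdd hsum hQb
  have hwm : Measurable w := Finset.measurable_prod _ fun a _ =>
    hU.comp (measurable_pi_apply a)
  have hwb : ∀ u, |w u| ≤ Real.exp (2 * L * M) := by
    intro u
    rw [abs_of_pos (hwpos u)]
    calc w u ≤ ∏ _a : Fin M, Real.exp (2 * L) := Finset.prod_le_prod
          (fun a _ => (lt_of_lt_of_le (Real.exp_pos _) (hUb (u a)).1).le) (fun a _ => (hUb (u a)).2)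
      _ = Real.exp (2 * L * M) := by
          rw [Finset.prod_const, ← Real.exp_nat_mul]
          simp only [Finset.card_univ, Fintype.card_fin]
          congr 1
          ring
  have hwQint : Integrable (fun u => w u * Q u) γM :=
    integrable_of_bdd (B := Real.exp (2 * L * M) * (Bz + Real.log (Fintype.card (Fin (N + 1)))))
      (hwm.mul hsum) fun u => by
      rw [abs_mul]
      exact mul_le_mul (hwb u) (hQb u) (abs_nonneg _) (Real.exp_pos _).le
  have hInt : Integrable (fun u : Fin M → ℝ => ∫ G, H (resampleAll xs u G) ∂P) γM :=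
    hHRint.integral_prod_left
  have hstep := integral_mono hInt hwQint hinner
  refine hstep.trans ?_
  -- transfer to the tilted product law
  have hplant := integral_planted (S := Unit) (X := ℝ) (ν := gaussianReal 0 1)
    (φ := fun _ => f) (c0 := c0) (M := M) () hf (L := L) hfL rfl c0pos Q
  have hweq : ∀ u : Fin M → ℝ, wt (fun _ : Unit => f) c0 () u = w u := fun u => rfl
  simp_rw [hweq] at hplant
  rw [← hplant]
  have hνprob : IsProbabilityMeasure ((gaussianReal 0 1).tilted f) :=
    isProbabilityMeasure_tilted (integrable_exp_gaussian hf hfL)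
  have hM' : (M : ℝ) * 1 = M := mul_one _
  have hfinal := integral_log_sum_exp_le (ν := (gaussianReal 0 1).tilted f) (M := M)
    (K := Fin (N + 1)) (A := A) (h := h) hhm (C := 2 * L) (by positivity) hhb (B := B)
    (fun k => by
      have hk : (k : ℕ) ≤ N := Nat.le_of_lt_succ k.isLt
      have hm := shellOverlap_mem hN hk
      have := hB _ hm.1 hm.2
      simp only [hA, hh]
      rw [integral_tilted_log_noise]
      linarith) hM
  simp only [Fintype.card_fin] at hfinal
  have hcast : ((N + 1 : ℕ) : ℝ) = (N : ℝ) + 1 := by push_cast; ring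
  rw [hcast] at hfinal
  exact hfinal

/-- **Conditional first moment bound on the entropy.** -/
theorem partitionEntropy_le (hN : 1 ≤ N) (hM : 1 ≤ M) (hf : Measurable f) {L : ℝ} (hL : 0 < L)
    (hfL : ∀ u, |f u| ≤ L) {B : ℝ}
    (hB : ∀ ρ : ℝ, -1 ≤ ρ → ρ ≤ 1 → M * crossEnt f ρ - N * shellRate ρ ≤ B) :
    partitionEntropy N M f ≤
      B + Real.log (N + 1) * (1 + 2 * L * Real.sqrt M) + 2 * L * Real.sqrt M / 2 := by
  have c0pos := annealedConstant_pos hf hfL
  have hc := annealedConstant_bounds hf hfL
  set Bd := B + Real.log (N + 1) * (1 + 2 * L * Real.sqrt M) + 2 * L * Real.sqrt M / 2 with hBd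
  unfold partitionEntropy
  simp_rw [normalizedPartition_eq c0pos]
  have hφm : ∀ x : Fin N → Bool, Measurable (fieldPot (N := N) f x) := fun x =>
    hf.comp (measurable_patternField x)
  have hφb : ∀ (x : Fin N → Bool) (g : Fin N → ℝ), |fieldPot f x g| ≤ L := fun x g => hfL _
  have hcard : (Fintype.card (Fin N → Bool) : ℝ) = 2 ^ N := by
    simp
  have hsplit : ∀ G : Fin M → Fin N → ℝ,
      avgWt (fun (x : Fin N → Bool) (g : Fin N → ℝ) => f (patternField x g)) (annealedConstant f) G *
        Real.log (avgWt (fun (x : Fin N → Bool) (g : Fin N → ℝ) => f (patternField x g))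
          (annealedConstant f) G) =
      (∑ x : Fin N → Bool, wt (fieldPot f) (annealedConstant f) x G *
        Real.log (avgWt (fieldPot f) (annealedConstant f) G)) / 2 ^ N := by
    intro G
    unfold avgWt
    rw [hcard, ← Finset.sum_mul]
    ring
  simp_rw [hsplit]
  have hwtb := wt_bound (φ := fieldPot (N := N) f) (M := M) c0pos hφb hc.1 hc.2
  have hlogb := abs_log_avgWt_le (φ := fieldPot (N := N) f) (M := M) c0pos hφb hc.1 hc.2
  have hint : ∀ x : Fin N → Bool, Integrable (fun G : Fin M → Fin N → ℝ =>
      wt (fieldPot f) (annealedConstant f) x G *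
        Real.log (avgWt (fieldPot f) (annealedConstant f) G)) (patternsLaw N M) := by
    intro x
    have hprobP : IsProbabilityMeasure (patternsLaw N M) := by
      unfold patternsLaw
      infer_instance
    refine integrable_of_bdd (B := Real.exp (2 * L * M) * (2 * L * M))
      ((measurable_wt hφm x).mul (measurable_logAvgWt hφm)) fun G => ?_
    rw [abs_mul]
    refine mul_le_mul ?_ (hlogb G) (abs_nonneg _) (Real.exp_pos _).le
    have := hwtb x G
    rw [abs_of_pos (lt_of_lt_of_le (Real.exp_pos _) this.1)]
    exact this.2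
  rw [integral_div, integral_finsetSum _ fun x _ => hint x]
  have h2 : (0 : ℝ) < 2 ^ N := by positivity
  rw [div_le_iff₀ h2]
  calc _ ≤ ∑ _x : Fin N → Bool, Bd := Finset.sum_le_sum fun x _ => by
        rw [hBd]
        exact planted_term_le hN hM hf hL hfL x hB
    _ = Bd * 2 ^ N := by
        simp
        ring

end Main

end Vale.Agent.Lib.P157
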