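import Vale.Agent.Lib.P157.Gibbs

/-!
Planted (tilted) product laws and the two-sided comparison between the annealed gap and the
entropy of the normalized partition function.
-/

open MeasureTheory ProbabilityTheory
open scoped NNReal ENNReal

set_option linter.unusedSectionVars false

namespace Vale.Agent.Lib.P157

section Tilt

variable {S X : Type*} [Fintype S] [MeasurableSpace X] {ν : Measure X} [IsProbabilityMeasure ν]
  {φ : S → X → ℝ} {c0 : ℝ} {M : ℕ}

lemma integrable_exp_of_bdd {ψ : X → ℝ} (hψ : Measurable ψ) {L : ℝ} (hL : ∀ g, |ψ g| ≤ L) :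
    Integrable (fun g => Real.exp (ψ g)) ν := by
  refine integrable_of_bdd (B := Real.exp L) (Real.measurable_exp.comp hψ) fun g => ?_
  rw [abs_of_pos (Real.exp_pos _)]
  exact Real.exp_le_exp.mpr ((abs_le.mp (hL g)).2)

lemma tilted_apply_eq {ψ : X → ℝ} (hψ : Measurable ψ) {L : ℝ} (hL : ∀ g, |ψ g| ≤ L)
    (hc : ∫ g, Real.exp (ψ g) ∂ν = c0) (hc0 : 0 < c0) {s : Set X} (hs : MeasurableSet s) :
    (ν.tilted ψ) s = ENNReal.ofReal (∫ g, s.indicator (fun g => Real.exp (ψ g) / c0) g ∂ν) := by
  have hint : Integrable (fun g => Real.exp (ψ g) / c0) ν :=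
    (integrable_exp_of_bdd hψ hL).div_const _
  rw [tilted_apply, hc, ofReal_integral_eq_lintegral_ofReal (hint.indicator hs)]
  · rw [← lintegral_indicator hs]
    congr 1
    ext g
    by_cases hg : g ∈ s <;> simp [hg]
  · refine Filter.Eventually.of_forall fun g => ?_
    by_cases hg : g ∈ s
    · simp only [Pi.zero_apply, Set.indicator_of_mem hg]
      exact div_nonneg (Real.exp_pos _).le hc0.le
    · simp [hg]

lemma pi_tilted_eq (x : S) (hφ : Measurable (φ x)) {L : ℝ} (hL : ∀ g, |φ x g| ≤ L)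
    (hc : ∫ g, Real.exp (φ x g) ∂ν = c0) (hc0 : 0 < c0) :
    Measure.pi (fun _ : Fin M => ν.tilted (φ x)) =
      (Measure.pi fun _ : Fin M => ν).withDensity (fun G => ENNReal.ofReal (wt φ c0 x G)) := by
  have hprob : IsProbabilityMeasure (ν.tilted (φ x)) :=
    isProbabilityMeasure_tilted (integrable_exp_of_bdd hφ hL)
  refine Measure.pi_eq fun s hs => ?_
  have hbox : MeasurableSet (Set.univ.pi s) := MeasurableSet.univ_pi hs
  rw [withDensity_apply _ hbox]
  have hindic : ∀ G : Fin M → X, (Set.univ.pi s).indicator (fun G => wt φ c0 x G) G =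
      ∏ a, (s a).indicator (fun g => Real.exp (φ x g) / c0) (G a) := by
    intro G
    by_cases hG : G ∈ Set.univ.pi s
    · rw [Set.indicator_of_mem hG]
      unfold wt
      refine Finset.prod_congr rfl fun a _ => ?_
      rw [Set.indicator_of_mem (hG a (Set.mem_univ a))]
    · rw [Set.indicator_of_notMem hG]
      have : ∃ a, G a ∉ s a := by
        by_contra hcon
        push Not at hcon
        exact hG fun a _ => hcon a
      obtain ⟨a, ha⟩ := this
      symm
      refine Finset.prod_eq_zero (Finset.mem_univ a) ?_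
      rw [Set.indicator_of_notMem ha]
  have hmeasW : Measurable (fun G : Fin M → X => wt φ c0 x G) := by
    unfold wt
    refine Finset.measurable_prod _ fun a _ => ?_
    exact (Real.measurable_exp.comp (hφ.comp (measurable_pi_apply a))).div_const _
  have hWnonneg : ∀ G : Fin M → X, 0 ≤ wt φ c0 x G := fun G => (by
    unfold wt
    exact Finset.prod_nonneg fun a _ => div_nonneg (Real.exp_pos _).le hc0.le)
  have hWbd : ∀ G : Fin M → X, |wt φ c0 x G| ≤ ∏ _a : Fin M, (Real.exp L / c0) := by
    intro G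
    rw [abs_of_nonneg (hWnonneg G)]
    refine Finset.prod_le_prod (fun a _ => div_nonneg (Real.exp_pos _).le hc0.le) fun a _ => ?_
    exact div_le_div_of_nonneg_right (Real.exp_le_exp.mpr (abs_le.mp (hL _)).2) hc0.le
  have hWint : Integrable (fun G : Fin M → X => wt φ c0 x G) (Measure.pi fun _ : Fin M => ν) :=
    integrable_of_bdd hmeasW hWbd
  have h1 : ∫⁻ G in Set.univ.pi s, ENNReal.ofReal (wt φ c0 x G) ∂(Measure.pi fun _ : Fin M => ν) =
      ENNReal.ofReal (∫ G, (Set.univ.pi s).indicator (fun G => wt φ c0 x G) G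
        ∂(Measure.pi fun _ : Fin M => ν)) := by
    rw [ofReal_integral_eq_lintegral_ofReal (hWint.indicator hbox)]
    · rw [← lintegral_indicator hbox]
      congr 1
      ext G
      by_cases hG : G ∈ Set.univ.pi s <;> simp [hG]
    · refine Filter.Eventually.of_forall fun G => ?_
      by_cases hG : G ∈ Set.univ.pi s
      · simp only [Pi.zero_apply, Set.indicator_of_mem hG]
        exact hWnonneg G
      · simp [hG]
  rw [h1]
  simp_rw [hindic]
  rw [integral_fintype_prod_eq_prod (𝕜 := ℝ)
    (fun a : Fin M => (s a).indicator (fun g => Real.exp (φ x g) / c0))]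
  rw [ENNReal.ofReal_prod_of_nonneg]
  · refine Finset.prod_congr rfl fun a _ => ?_
    rw [tilted_apply_eq hφ hL hc hc0 (hs a)]
  · intro a _
    refine integral_nonneg fun g => ?_
    by_cases hg : g ∈ s a
    · simp only [Pi.zero_apply, Set.indicator_of_mem hg]
      exact div_nonneg (Real.exp_pos _).le hc0.le
    · simp [hg]

/-- Integration against the planted law is integration against the weight `wt`. -/
lemma integral_planted (x : S) (hφ : Measurable (φ x)) {L : ℝ} (hL : ∀ g, |φ x g| ≤ L)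
    (hc : ∫ g, Real.exp (φ x g) ∂ν = c0) (hc0 : 0 < c0) (h : (Fin M → X) → ℝ) :
    ∫ G, h G ∂(Measure.pi fun _ : Fin M => ν.tilted (φ x)) =
      ∫ G, wt φ c0 x G * h G ∂(Measure.pi fun _ : Fin M => ν) := by
  rw [pi_tilted_eq x hφ hL hc hc0]
  have hmeasW : Measurable (fun G : Fin M → X => wt φ c0 x G) := by
    unfold wt
    refine Finset.measurable_prod _ fun a _ => ?_
    exact (Real.measurable_exp.comp (hφ.comp (measurable_pi_apply a))).div_const _
  rw [integral_withDensity_eq_integral_toReal_smul hmeasW.ennreal_ofReal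
    (Filter.Eventually.of_forall fun G => ENNReal.ofReal_lt_top)]
  congr 1
  ext G
  have hWnonneg : 0 ≤ wt φ c0 x G := by
    unfold wt
    exact Finset.prod_nonneg fun a _ => div_nonneg (Real.exp_pos _).le hc0.le
  rw [ENNReal.toReal_ofReal hWnonneg, smul_eq_mul]

lemma integral_wt (x : S) (hφ : Measurable (φ x)) {L : ℝ} (hL : ∀ g, |φ x g| ≤ L)
    (hc : ∫ g, Real.exp (φ x g) ∂ν = c0) (hc0 : 0 < c0) :
    ∫ G, wt φ c0 x G ∂(Measure.pi fun _ : Fin M => ν) = 1 := by
  unfold wt
  rw [integral_fintype_prod_eq_prod (𝕜 := ℝ) (fun _ : Fin M => fun g => Real.exp (φ x g) / c0)]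
  refine Finset.prod_eq_one fun a _ => ?_
  rw [integral_div, hc, div_self hc0.ne']

lemma measurable_logAvgWt (hφ : ∀ x, Measurable (φ x)) :
    Measurable (fun G : Fin M → X => Real.log (avgWt φ c0 G)) :=
  Real.measurable_log.comp (measurable_avgWt hφ)

/-- Sub-Gaussian concentration of `log avgWt` under an arbitrary i.i.d. product law. -/
lemma subgaussian_logAvgWt [DecidableEq S] [Nonempty S] (ν' : Measure X) [IsProbabilityMeasure ν']
    (hc0 : 0 < c0) (L : ℝ≥0) (hφ : ∀ x, Measurable (φ x)) (hL : ∀ x g, |φ x g| ≤ L)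
    (hc0L : Real.exp (-(L : ℝ)) ≤ c0) (hc0U : c0 ≤ Real.exp L) :
    HasSubgaussianMGF (fun G : Fin M → X => Real.log (avgWt φ c0 G) -
        ∫ G', Real.log (avgWt φ c0 G') ∂(Measure.pi fun _ : Fin M => ν'))
      ((M : ℝ≥0) * L ^ 2) (Measure.pi fun _ : Fin M => ν') := by
  have h := subgaussian_of_bounded_differences M (fun _ : Fin M => ν')
    (fun G => Real.log (avgWt φ c0 G)) (2 * L) (measurable_logAvgWt hφ) (2 * L * M)
    (abs_log_avgWt_le hc0 hL hc0L hc0U)
    (fun G a v => by
      have := log_avgWt_update (φ := φ) hc0 hL G a v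
      simpa using this)
  have h2 : (2 * L / 2 : ℝ≥0) = L := mul_div_cancel_left₀ L two_ne_zero
  rw [h2] at h
  exact h


/-- Gauge invariance: the planted mean of `log avgWt` does not depend on the planted point. -/
lemma planted_mean_eq [Nonempty S] (hc0 : 0 < c0)
    (hφ : ∀ x, Measurable (φ x))
    (hgauge : ∀ x y : S, ∃ (τ : X → X) (σ : Equiv.Perm S),
      MeasurePreserving τ ν ν ∧ σ x = y ∧ ∀ z g, φ z (τ g) = φ (σ z) g) (x y : S) :
    ∫ G, wt φ c0 x G * Real.log (avgWt φ c0 G) ∂(Measure.pi fun _ : Fin M => ν) =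
      ∫ G, wt φ c0 y G * Real.log (avgWt φ c0 G) ∂(Measure.pi fun _ : Fin M => ν) := by
  obtain ⟨τ, σ, hτ, hσ, hcov⟩ := hgauge x y
  set T : (Fin M → X) → (Fin M → X) := fun G a => τ (G a) with hT
  have hTmp : MeasurePreserving T (Measure.pi fun _ : Fin M => ν) (Measure.pi fun _ : Fin M => ν) :=
    measurePreserving_pi _ _ fun _ => hτ
  have hwtT : ∀ (z : S) (G : Fin M → X), wt φ c0 z (T G) = wt φ c0 (σ z) G := by
    intro z G
    unfold wt
    refine Finset.prod_congr rfl fun a _ => ?_
    rw [hT, hcov]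
  have havgT : ∀ G : Fin M → X, avgWt φ c0 (T G) = avgWt φ c0 G := by
    intro G
    unfold avgWt
    congr 1
    simp_rw [hwtT]
    exact Equiv.sum_comp σ (fun z => wt φ c0 z G)
  have hmeas : Measurable (fun G : Fin M → X => wt φ c0 x G * Real.log (avgWt φ c0 G)) :=
    (measurable_wt hφ x).mul (measurable_logAvgWt hφ)
  have h1 := integral_map (μ := Measure.pi fun _ : Fin M => ν) hTmp.measurable.aemeasurable
    (f := fun G : Fin M → X => wt φ c0 x G * Real.log (avgWt φ c0 G))
    (hmeas.aestronglyMeasurable)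
  rw [hTmp.map_eq] at h1
  rw [h1]
  simp_rw [hwtT, havgT, hσ]

/-- Chernoff bound transcribed. -/
lemma tail_of_subgaussian {Ω : Type*} [MeasurableSpace Ω] {ρ : Measure Ω} {Z : Ω → ℝ} {v : ℝ≥0}
    (hZ : HasSubgaussianMGF Z v ρ) {r : ℝ} (hr : 0 ≤ r) :
    ρ.real {G | r ≤ Z G} ≤ Real.exp (-r ^ 2 / (2 * v)) :=
  hZ.measure_ge_le hr

lemma tail_of_subgaussian_neg {Ω : Type*} [MeasurableSpace Ω] {ρ : Measure Ω} {Z : Ω → ℝ}
    {v : ℝ≥0} (hZ : HasSubgaussianMGF Z v ρ) {r : ℝ} (hr : 0 ≤ r) :
    ρ.real {G | r ≤ -Z G} ≤ Real.exp (-r ^ 2 / (2 * v)) :=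
  hZ.neg.measure_ge_le hr


/-- The main finite-size comparison, abstract version. -/
theorem annealed_entropy_bounds [DecidableEq S] [Nonempty S]
    (hM : 1 ≤ M) (L : ℝ≥0) (hLpos : 0 < L)
    (hφ : ∀ x, Measurable (φ x)) (hL : ∀ x g, |φ x g| ≤ L)
    (hc : ∀ x, ∫ g, Real.exp (φ x g) ∂ν = c0)
    (hgauge : ∀ x y : S, ∃ (τ : X → X) (σ : Equiv.Perm S),
      MeasurePreserving τ ν ν ∧ σ x = y ∧ ∀ z g, φ z (τ g) = φ (σ z) g) :
    let π : Measure (Fin M → X) := Measure.pi fun _ : Fin M => ν
    let Y : (Fin M → X) → ℝ := avgWt φ c0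
    let m : ℝ := ∫ G, Real.log (Y G) ∂π
    let H : ℝ := ∫ G, Y G * Real.log (Y G) ∂π
    let s : ℝ := L * Real.sqrt M
    let r0 : ℝ := s * Real.sqrt (2 * Real.log 4)
    0 ≤ H ∧ m ≤ 0 ∧
      -m ≤ Real.log 4 + s * Real.sqrt (2 * (H + r0 + Real.log 2)) ∧
      H ≤ Real.log 4 + s * Real.sqrt (2 * (-m + r0 + Real.log 2)) := by
  intro π Y m H s r0
  obtain ⟨x0⟩ := (inferInstance : Nonempty S)
  -- bounds on c0
  have hmeasexp : ∀ x, Measurable (fun g => Real.exp (φ x g)) :=
    fun x => Real.measurable_exp.comp (hφ x)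
  have hintexp : ∀ x, Integrable (fun g => Real.exp (φ x g)) ν :=
    fun x => integrable_exp_of_bdd (hφ x) (hL x)
  have hc0L : Real.exp (-(L : ℝ)) ≤ c0 := by
    rw [← hc x0]
    calc Real.exp (-(L : ℝ)) = ∫ _g, Real.exp (-(L : ℝ)) ∂ν := by simp
      _ ≤ _ := integral_mono (integrable_const _) (hintexp x0)
          fun g => Real.exp_le_exp.mpr (abs_le.mp (hL x0 g)).1
  have hc0U : c0 ≤ Real.exp L := by
    rw [← hc x0]
    calc ∫ g, Real.exp (φ x0 g) ∂ν ≤ ∫ _g, Real.exp (L : ℝ) ∂ν :=
          integral_mono (hintexp x0) (integrable_const _)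
          fun g => Real.exp_le_exp.mpr (abs_le.mp (hL x0 g)).2
      _ = Real.exp L := by simp
  have hc0 : 0 < c0 := lt_of_lt_of_le (Real.exp_pos _) hc0L
  set F : (Fin M → X) → ℝ := fun G => Real.log (Y G) with hF
  have hYpos : ∀ G, 0 < Y G := fun G => avgWt_pos hc0 G
  have hexpF : ∀ G, Real.exp (F G) = Y G := fun G => Real.exp_log (hYpos G)
  have hFmeas : Measurable F := measurable_logAvgWt hφ
  have hYmeas : Measurable Y := measurable_avgWt hφ
  have hFbd : ∀ G, |F G| ≤ 2 * L * M := abs_log_avgWt_le hc0 hL hc0L hc0U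
  have hYbd : ∀ G, |Y G| ≤ Real.exp (2 * L * M) := fun G => by
    rw [abs_of_pos (hYpos G)]
    exact (avgWt_bound hc0 hL hc0L hc0U G).2
  have hcard : (0 : ℝ) < Fintype.card S := by exact_mod_cast Fintype.card_pos
  have hYint : Integrable Y π := integrable_of_bdd hYmeas hYbd
  have hFint : Integrable F π := integrable_of_bdd hFmeas hFbd
  have hYF : Integrable (fun G => Y G * F G) π :=
    integrable_of_bdd (B := Real.exp (2 * L * M) * (2 * L * M)) (hYmeas.mul hFmeas) fun G => by
      rw [abs_mul]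
      exact mul_le_mul (hYbd G) (hFbd G) (abs_nonneg _) (Real.exp_pos _).le
  have hwtbd : ∀ x G, |wt φ c0 x G| ≤ Real.exp (2 * L * M) := fun x G => by
    rw [abs_of_pos (wt_pos hc0 x G)]
    exact (wt_bound hc0 hL hc0L hc0U x G).2
  have hwtint : ∀ x, Integrable (fun G => wt φ c0 x G) π :=
    fun x => integrable_of_bdd (measurable_wt hφ x) (hwtbd x)
  have hYone : ∫ G, Y G ∂π = 1 := by
    simp only [Y, avgWt]
    rw [integral_div, integral_finsetSum _ fun x _ => hwtint x]
    have h1 : ∀ x, ∫ G, wt φ c0 x G ∂π = 1 := fun x => integral_wt x (hφ x) (hL x) (hc x) hc0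
    simp_rw [h1]
    simp
  -- planted laws
  set ρ : S → Measure (Fin M → X) := fun x => Measure.pi fun _ : Fin M => ν.tilted (φ x) with hρ
  have hprob' : ∀ x, IsProbabilityMeasure (ν.tilted (φ x)) := fun x =>
    isProbabilityMeasure_tilted (hintexp x)
  have hprobρ : ∀ x, IsProbabilityMeasure (ρ x) := fun x => by
    simp only [hρ]
    infer_instance
  have hplant : ∀ x (h : (Fin M → X) → ℝ), ∫ G, h G ∂(ρ x) = ∫ G, wt φ c0 x G * h G ∂π :=
    fun x h => integral_planted x (hφ x) (hL x) (hc x) hc0 h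
  -- all planted means equal H
  have hmean : ∀ x, ∫ G, F G ∂(ρ x) = H := by
    intro x
    rw [hplant]
    have hsum : H = (∑ z, ∫ G, wt φ c0 z G * F G ∂π) / Fintype.card S := by
      simp only [H]
      have : ∀ G, Y G * Real.log (Y G) = (∑ z, wt φ c0 z G * F G) / Fintype.card S := by
        intro G
        simp only [Y, avgWt, hF]
        rw [div_mul_eq_mul_div, Finset.sum_mul]
      simp_rw [this]
      rw [integral_div, integral_finsetSum]
      intro z _
      exact integrable_of_bdd (B := Real.exp (2 * L * M) * (2 * L * M))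
        ((measurable_wt hφ z).mul hFmeas) fun G => by
          rw [abs_mul]
          exact mul_le_mul (hwtbd z G) (hFbd G) (abs_nonneg _) (Real.exp_pos _).le
    rw [hsum]
    have hall : ∀ z, ∫ G, wt φ c0 z G * F G ∂π = ∫ G, wt φ c0 x G * F G ∂π := fun z =>
      planted_mean_eq hc0 hφ hgauge z x
    simp_rw [hall]
    simp
  -- sets under the planted law
  have hsetY : ∀ A : Set (Fin M → X), MeasurableSet A →
      ∫ G in A, Y G ∂π = (∑ x, (ρ x).real A) / Fintype.card S := by
    intro A hA
    have h1 : ∀ x, (ρ x).real A = ∫ G in A, wt φ c0 x G ∂π := by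
      intro x
      have h2 := hplant x (A.indicator 1)
      rw [integral_indicator_one hA] at h2
      rw [h2, ← integral_indicator hA]
      congr 1
      ext G
      by_cases hG : G ∈ A <;> simp [hG]
    simp_rw [h1]
    simp only [Y, avgWt]
    rw [integral_div, integral_finsetSum _ fun x _ => (hwtint x).integrableOn]
  have hsetYle : ∀ (A : Set (Fin M → X)) (b : ℝ), MeasurableSet A → (∀ x, (ρ x).real A ≤ b) →
      ∫ G in A, Y G ∂π ≤ b := by
    intro A b hA hb
    rw [hsetY A hA, div_le_iff₀ hcard]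
    calc ∑ x, (ρ x).real A ≤ ∑ _x : S, b := Finset.sum_le_sum fun x _ => hb x
      _ = b * Fintype.card S := by
        rw [Finset.sum_const, Finset.card_univ, nsmul_eq_mul, mul_comm]
  -- sub-Gaussian tails
  have hsubπ := subgaussian_logAvgWt (M := M) ν hc0 L hφ hL hc0L hc0U
  have hsubρ : ∀ x, HasSubgaussianMGF (fun G => F G - H) ((M : ℝ≥0) * L ^ 2) (ρ x) := by
    intro x
    have := subgaussian_logAvgWt (M := M) (ν.tilted (φ x)) hc0 L hφ hL hc0L hc0U
    have h2 : ∫ G', Real.log (avgWt φ c0 G') ∂(Measure.pi fun _ : Fin M => ν.tilted (φ x)) = H :=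
      hmean x
    rw [h2] at this
    exact this
  have hsubπ' : HasSubgaussianMGF (fun G => F G - m) ((M : ℝ≥0) * L ^ 2) π := hsubπ
  -- the scale
  have hMpos : (0 : ℝ) < M := by exact_mod_cast hM
  have hLpos' : (0 : ℝ) < L := by exact_mod_cast hLpos
  have hspos : 0 < s := mul_pos hLpos' (Real.sqrt_pos.mpr hMpos)
  have hssq : s ^ 2 = ((((M : ℝ≥0) * L ^ 2 : ℝ≥0) : ℝ)) := by
    simp only [s]
    rw [mul_pow, Real.sq_sqrt hMpos.le]
    push_cast
    ring
  have hlog4 : 0 < Real.log 4 := Real.log_pos (by norm_num)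
  have hlog2 : 0 < Real.log 2 := Real.log_pos (by norm_num)
  have hr0nn : 0 ≤ r0 := mul_nonneg hspos.le (Real.sqrt_nonneg _)
  have hr0sq : r0 ^ 2 = s ^ 2 * (2 * Real.log 4) := by
    simp only [r0]
    rw [mul_pow, Real.sq_sqrt (by positivity)]
  have htail0 : Real.exp (-r0 ^ 2 / (2 * (((M : ℝ≥0) * L ^ 2 : ℝ≥0) : ℝ))) = 1 / 4 := by
    rw [← hssq, hr0sq]
    have h1 : -(s ^ 2 * (2 * Real.log 4)) / (2 * s ^ 2) = -Real.log 4 := by
      field_simp
    rw [h1, Real.exp_neg, Real.exp_log (by norm_num)]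
    norm_num
  -- nonnegativity
  have hY1 : ∀ G, Y G - 1 ≤ Y G * F G := by
    intro G
    have h1 := Real.log_le_sub_one_of_pos (inv_pos.mpr (hYpos G))
    rw [Real.log_inv] at h1
    have h2 : (Y G)⁻¹ * Y G = 1 := inv_mul_cancel₀ (hYpos G).ne'
    have h3 : -Real.log (Y G) * Y G ≤ ((Y G)⁻¹ - 1) * Y G :=
      mul_le_mul_of_nonneg_right h1 (hYpos G).le
    simp only [hF]
    nlinarith
  have hF1 : ∀ G, F G ≤ Y G - 1 := fun G => Real.log_le_sub_one_of_pos (hYpos G)
  have hHnn : 0 ≤ H := by
    have h1 : ∫ G, (Y G - 1) ∂π ≤ H := integral_mono (hYint.sub (integrable_const _)) hYF hY1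
    rw [integral_sub hYint (integrable_const _), hYone] at h1
    simpa using h1
  have hmnp : m ≤ 0 := by
    have h1 : m ≤ ∫ G, (Y G - 1) ∂π := integral_mono hFint (hYint.sub (integrable_const _)) hF1
    rw [integral_sub hYint (integrable_const _), hYone] at h1
    simpa using h1
  have hfinish : ∀ A t : ℝ, 0 ≤ t → t ^ 2 ≤ 2 * s ^ 2 * A → t ≤ s * Real.sqrt (2 * A) := by
    intro A t ht h
    have h1 : t ≤ Real.sqrt (s ^ 2 * (2 * A)) := Real.le_sqrt_of_sq_le (by nlinarith)
    rwa [Real.sqrt_mul (sq_nonneg s), Real.sqrt_sq hspos.le] at h1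
  have hs2 : (0:ℝ) < 2 * s ^ 2 := by positivity
  have hvcoe : (((M : ℝ≥0) * L ^ 2 : ℝ≥0) : ℝ) = s ^ 2 := hssq.symm
  refine ⟨hHnn, hmnp, ?_, ?_⟩
  · -- annealed gap bounded by the entropy
    by_cases hcase : -m ≤ Real.log 4
    · have : 0 ≤ s * Real.sqrt (2 * (H + r0 + Real.log 2)) :=
        mul_nonneg hspos.le (Real.sqrt_nonneg _)
      linarith
    push Not at hcase
    set t := -m - Real.log 4 with ht
    have htpos : 0 < t := by linarith
    set A1 : Set (Fin M → X) := {G | r0 ≤ F G - H} with hA1def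
    set A2 : Set (Fin M → X) := {G | Y G ≤ 1 / 4} with hA2def
    set C : Set (Fin M → X) := (A1 ∪ A2)ᶜ with hCdef
    have hA1m : MeasurableSet A1 := measurableSet_le measurable_const (hFmeas.sub_const _)
    have hA2m : MeasurableSet A2 := measurableSet_le hYmeas measurable_const
    have hCm : MeasurableSet C := (hA1m.union hA2m).compl
    have hA1 : ∫ G in A1, Y G ∂π ≤ 1 / 4 := hsetYle A1 _ hA1m fun x => by
      have h1 := tail_of_subgaussian (hsubρ x) hr0nn
      rwa [htail0] at h1
    have hA2 : ∫ G in A2, Y G ∂π ≤ 1 / 4 := by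
      calc ∫ G in A2, Y G ∂π ≤ ∫ _G in A2, (1 / 4 : ℝ) ∂π := by
            refine setIntegral_mono_on hYint.integrableOn (integrable_const _) hA2m fun G hG => ?_
            exact hG
        _ = π.real A2 * (1 / 4) := by
            rw [setIntegral_const, smul_eq_mul]
        _ ≤ 1 * (1 / 4) := by
            gcongr
            exact measureReal_le_one
        _ = 1 / 4 := by norm_num
    have hUnion : ∫ G in A1 ∪ A2, Y G ∂π ≤ 1 / 2 := by
      have hdis : Disjoint A1 (A2 \ A1) := disjoint_sdiff_self_right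
      have h1 : ∫ G in A1 ∪ A2, Y G ∂π = ∫ G in A1, Y G ∂π + ∫ G in A2 \ A1, Y G ∂π := by
        rw [← Set.union_sdiff_self, setIntegral_union hdis (hA2m.diff hA1m)
          hYint.integrableOn hYint.integrableOn]
      have h2 : ∫ G in A2 \ A1, Y G ∂π ≤ ∫ G in A2, Y G ∂π := by
        refine setIntegral_mono_set hYint.integrableOn ?_ ?_
        · exact Filter.Eventually.of_forall fun G => (hYpos G).le
        · exact Filter.Eventually.of_forall fun G hG => hG.1
      linarith
    have hCint : 1 / 2 ≤ ∫ G in C, Y G ∂π := by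
      have h1 := integral_add_compl (hA1m.union hA2m) hYint
      rw [hYone] at h1
      linarith
    have hCle : ∫ G in C, Y G ∂π ≤ Real.exp (H + r0) * π.real C := by
      calc ∫ G in C, Y G ∂π ≤ ∫ _G in C, Real.exp (H + r0) ∂π := by
            refine setIntegral_mono_on hYint.integrableOn (integrable_const _) hCm fun G hG => ?_
            have h1 : G ∉ A1 := fun h => hG (Or.inl h)
            have h2 : F G - H < r0 := not_le.mp h1
            rw [← hexpF G]
            exact Real.exp_le_exp.mpr (by linarith)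
        _ = π.real C * Real.exp (H + r0) := by rw [setIntegral_const, smul_eq_mul]
        _ = Real.exp (H + r0) * π.real C := mul_comm _ _
    have hCtail : π.real C ≤ Real.exp (-t ^ 2 / (2 * s ^ 2)) := by
      have h1 := tail_of_subgaussian hsubπ' htpos.le
      rw [hvcoe] at h1
      refine le_trans (measureReal_mono ?_) h1
      intro G hG
      have h2 : G ∉ A2 := fun h => hG (Or.inr h)
      have h3 : 1 / 4 < Y G := not_le.mp h2
      have h4 : -Real.log 4 < F G := by
        have h5 := Real.log_lt_log (by norm_num) h3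
        rw [one_div, Real.log_inv] at h5
        exact h5
      show t ≤ F G - m
      linarith
    have hkey : 1 / 2 ≤ Real.exp (H + r0) * Real.exp (-t ^ 2 / (2 * s ^ 2)) :=
      hCint.trans (hCle.trans (by gcongr))
    rw [← Real.exp_add] at hkey
    have hlogkey := Real.log_le_log (by norm_num) hkey
    rw [Real.log_exp, one_div, Real.log_inv] at hlogkey
    have hsq : t ^ 2 ≤ 2 * s ^ 2 * (H + r0 + Real.log 2) := by
      have h1 : t ^ 2 / (2 * s ^ 2) ≤ H + r0 + Real.log 2 := by
        have h2 : -t ^ 2 / (2 * s ^ 2) = -(t ^ 2 / (2 * s ^ 2)) := by ring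
        rw [h2] at hlogkey
        linarith
      rw [div_le_iff₀ hs2] at h1
      linarith
    have := hfinish _ t htpos.le hsq
    linarith
  · -- entropy bounded by the annealed gap
    by_cases hcase : H ≤ Real.log 4
    · have : 0 ≤ s * Real.sqrt (2 * (-m + r0 + Real.log 2)) :=
        mul_nonneg hspos.le (Real.sqrt_nonneg _)
      linarith
    push Not at hcase
    set t := H - Real.log 4 with ht
    have htpos : 0 < t := by linarith
    set A : Set (Fin M → X) := {G | F G ≤ Real.log 4} with hAdef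
    set D1 : Set (Fin M → X) := {G | Real.log 4 < F G} with hD1def
    set D2 : Set (Fin M → X) := {G | r0 ≤ -(F G - m)} with hD2def
    set B : Set (Fin M → X) := (D1 ∪ D2)ᶜ with hBdef
    have hAm : MeasurableSet A := measurableSet_le hFmeas measurable_const
    have hD1m : MeasurableSet D1 := measurableSet_lt measurable_const hFmeas
    have hD2m : MeasurableSet D2 :=
      measurableSet_le measurable_const (hFmeas.sub_const _).neg
    have hBm : MeasurableSet B := (hD1m.union hD2m).compl
    have hAle : ∫ G in A, Y G ∂π ≤ Real.exp (-t ^ 2 / (2 * s ^ 2)) := hsetYle A _ hAm fun x => by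
      have h1 := tail_of_subgaussian_neg (hsubρ x) htpos.le
      rw [hvcoe] at h1
      refine le_trans (measureReal_mono ?_) h1
      intro G hG
      have h2 : F G ≤ Real.log 4 := hG
      show t ≤ -(F G - H)
      linarith
    have hD1le : π.real D1 ≤ 1 / 4 := by
      have h1 := mul_meas_ge_le_integral_of_nonneg (μ := π) (f := Y)
        (Filter.Eventually.of_forall fun G => (hYpos G).le) hYint 4
      rw [hYone] at h1
      have h2 : π.real D1 ≤ π.real {G | 4 ≤ Y G} := by
        refine measureReal_mono fun G hG => ?_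
        have h3 : Real.log 4 < F G := hG
        have h4 : Real.exp (Real.log 4) < Real.exp (F G) := Real.exp_lt_exp.mpr h3
        rw [Real.exp_log (by norm_num), hexpF] at h4
        exact h4.le
      linarith
    have hD2le : π.real D2 ≤ 1 / 4 := by
      have h1 := tail_of_subgaussian_neg hsubπ' hr0nn
      rwa [htail0] at h1
    have hBge : 1 / 2 ≤ π.real B := by
      have h1 : π.real B = 1 - π.real (D1 ∪ D2) := probReal_compl_eq_one_sub (hD1m.union hD2m)
      have h2 : π.real (D1 ∪ D2) ≤ π.real D1 + π.real D2 := measureReal_union_le _ _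
      linarith
    have hBA : B ⊆ A := by
      intro G hG
      have h1 : G ∉ D1 := fun h => hG (Or.inl h)
      have h2 : ¬ (Real.log 4 < F G) := h1
      exact not_lt.mp h2
    have hBlow : Real.exp (m - r0) * π.real B ≤ ∫ G in B, Y G ∂π := by
      calc Real.exp (m - r0) * π.real B = ∫ _G in B, Real.exp (m - r0) ∂π := by
            rw [setIntegral_const, smul_eq_mul, mul_comm]
        _ ≤ ∫ G in B, Y G ∂π := by
            refine setIntegral_mono_on (integrable_const _) hYint.integrableOn hBm fun G hG => ?_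
            have h1 : G ∉ D2 := fun h => hG (Or.inr h)
            have h2 : -(F G - m) < r0 := not_le.mp h1
            rw [← hexpF G]
            exact Real.exp_le_exp.mpr (by linarith)
    have hBA' : ∫ G in B, Y G ∂π ≤ ∫ G in A, Y G ∂π := by
      refine setIntegral_mono_set hYint.integrableOn ?_ ?_
      · exact Filter.Eventually.of_forall fun G => (hYpos G).le
      · exact Filter.Eventually.of_forall hBA
    have hkey : Real.exp (m - r0) * (1 / 2) ≤ Real.exp (-t ^ 2 / (2 * s ^ 2)) := by
      calc Real.exp (m - r0) * (1 / 2) ≤ Real.exp (m - r0) * π.real B := by gcongr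
        _ ≤ _ := hBlow.trans (hBA'.trans hAle)
    have hlogkey := Real.log_le_log (by positivity) hkey
    rw [Real.log_mul (Real.exp_pos _).ne' (by norm_num), Real.log_exp, Real.log_exp, one_div,
      Real.log_inv] at hlogkey
    have hsq : t ^ 2 ≤ 2 * s ^ 2 * (-m + r0 + Real.log 2) := by
      have h1 : t ^ 2 / (2 * s ^ 2) ≤ -m + r0 + Real.log 2 := by
        have h2 : -t ^ 2 / (2 * s ^ 2) = -(t ^ 2 / (2 * s ^ 2)) := by ring
        rw [h2] at hlogkey
        linarith
      rw [div_le_iff₀ hs2] at h1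
      linarith
    have := hfinish _ t htpos.le hsq
    linarith

end Tilt

end Vale.Agent.Lib.P157
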