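import Vale.Agent.Lib.P157.Basic
import Vale.Agent.Lib.P157.Planted

/-!
Instantiation of the abstract results on the cube with Gaussian patterns.
-/

open MeasureTheory ProbabilityTheory Complex
open scoped NNReal ENNReal

set_option linter.unusedSectionVars false

namespace Vale.Agent.Lib.P157

lemma spinValue_sq (b : Bool) : spinValue b ^ 2 = 1 := by
  cases b <;> simp [spinValue]

lemma spinValue_mul3 (a b c : Bool) :
    spinValue a * (spinValue b * spinValue c) = spinValue (xor (xor a b) c) := by
  cases a <;> cases b <;> cases c <;> norm_num [spinValue]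

/-- Characteristic function of a linear form of a Gaussian vector. -/
lemma integral_cexp_linear {N : ℕ} (c : Fin N → ℝ) :
    ∫ g, cexp (((∑ i, g i * c i : ℝ) : ℂ) * I) ∂(patternLaw N) =
      cexp (-(((∑ i, c i ^ 2 : ℝ) : ℂ) / 2)) := by
  have h1 : ∀ g : Fin N → ℝ, cexp (((∑ i, g i * c i : ℝ) : ℂ) * I) =
      ∏ i, cexp ((c i : ℂ) * (g i : ℂ) * I) := by
    intro g
    rw [← Complex.exp_sum]
    congr 1
    push_cast
    rw [Finset.sum_mul]
    refine Finset.sum_congr rfl fun i _ => by ring
  simp_rw [h1]
  unfold patternLaw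
  rw [integral_fintype_prod_eq_prod (𝕜 := ℂ)
    (fun i : Fin N => fun u : ℝ => cexp ((c i : ℂ) * (u : ℂ) * I))]
  have h2 : ∀ i, ∫ u : ℝ, cexp ((c i : ℂ) * (u : ℂ) * I) ∂(gaussianReal 0 1) =
      cexp (-((c i : ℂ) ^ 2 / 2)) := by
    intro i
    have := charFun_gaussianReal (μ := 0) (v := 1) (c i)
    rw [charFun_apply_real] at this
    rw [this]
    congr 1
    simp
  simp_rw [h2]
  rw [← Complex.exp_sum]
  congr 1
  push_cast
  rw [Finset.sum_div, Finset.sum_neg_distrib]

/-- A linear form with unit-norm coefficients of a standard Gaussian vector is standard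
Gaussian; general variance version. -/
lemma map_linear_form {N : ℕ} (c : Fin N → ℝ) (v : ℝ≥0) (hv : ∑ i, c i ^ 2 = v) :
    (patternLaw N).map (fun g => ∑ i, g i * c i) = gaussianReal 0 v := by
  have hmeas : Measurable (fun g : Fin N → ℝ => ∑ i, g i * c i) :=
    Finset.measurable_sum _ fun i _ => (measurable_pi_apply i).mul_const _
  have hprob : IsProbabilityMeasure ((patternLaw N).map (fun g => ∑ i, g i * c i)) :=
    Measure.isProbabilityMeasure_map hmeas.aemeasurable
  refine Measure.ext_of_charFun ?_
  ext t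
  rw [charFun_gaussianReal, charFun_apply_real, integral_map hmeas.aemeasurable
    (by fun_prop)]
  have h1 : ∀ g : Fin N → ℝ, cexp ((t : ℂ) * ((∑ i, g i * c i : ℝ) : ℂ) * I) =
      cexp (((∑ i, g i * (t * c i) : ℝ) : ℂ) * I) := by
    intro g
    congr 2
    push_cast
    rw [Finset.mul_sum]
    refine Finset.sum_congr rfl fun i _ => by ring
  simp_rw [h1]
  rw [integral_cexp_linear]
  congr 1
  have h2 : ∑ i, (t * c i) ^ 2 = t ^ 2 * v := by
    rw [← hv, Finset.mul_sum]
    refine Finset.sum_congr rfl fun i _ => by ring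
  rw [h2]
  push_cast
  simp
  ring

lemma measurable_patternField {N : ℕ} (x : Fin N → Bool) :
    Measurable (patternField x) := by
  unfold patternField
  exact (Finset.measurable_sum _ fun i _ => (measurable_pi_apply i).mul_const _).div_const _

lemma patternField_eq {N : ℕ} (x : Fin N → Bool) (g : Fin N → ℝ) :
    patternField x g = ∑ i, g i * (spinValue (x i) / Real.sqrt N) := by
  unfold patternField
  rw [Finset.sum_div]
  refine Finset.sum_congr rfl fun i _ => by ring

/-- Under the pattern law the field `g · x / √N` is standard Gaussian. -/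
lemma map_patternField {N : ℕ} (hN : 1 ≤ N) (x : Fin N → Bool) :
    (patternLaw N).map (patternField x) = gaussianReal 0 1 := by
  have h1 : patternField x = fun g => ∑ i, g i * (spinValue (x i) / Real.sqrt N) := by
    ext g
    exact patternField_eq x g
  rw [h1]
  refine map_linear_form _ 1 ?_
  have hN' : (0 : ℝ) < N := by exact_mod_cast hN
  have h2 : ∀ i, (spinValue (x i) / Real.sqrt N) ^ 2 = 1 / N := by
    intro i
    rw [div_pow, spinValue_sq, Real.sq_sqrt hN'.le]
  simp_rw [h2]
  simp
  field_simp

/-- Gauge symmetry of the cube. -/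
lemma cube_gauge {N : ℕ} (f : ℝ → ℝ) (x y : Fin N → Bool) :
    ∃ (τ : (Fin N → ℝ) → (Fin N → ℝ)) (σ : Equiv.Perm (Fin N → Bool)),
      MeasurePreserving τ (patternLaw N) (patternLaw N) ∧ σ x = y ∧
        ∀ z g, f (patternField z (τ g)) = f (patternField (σ z) g) := by
  set s : Fin N → ℝ := fun i => spinValue (x i) * spinValue (y i) with hs
  have hs2 : ∀ i, s i ^ 2 = 1 := by
    intro i
    simp only [hs, mul_pow, spinValue_sq, one_mul]
  have hinv : Function.Involutive
      (fun z : Fin N → Bool => fun i => xor (xor (z i) (x i)) (y i)) := by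
    intro z
    ext i
    show xor (xor (xor (xor (z i) (x i)) (y i)) (x i)) (y i) = z i
    cases z i <;> cases x i <;> cases y i <;> rfl
  refine ⟨fun g i => g i * s i, Function.Involutive.toPerm _ hinv, ?_, ?_, ?_⟩
  · unfold patternLaw
    refine measurePreserving_pi _ _ (f := fun i u => u * s i) fun i => ⟨by fun_prop, ?_⟩
    rw [gaussianReal_map_mul_const]
    have h1 : (NNReal.mk (s i ^ 2) (sq_nonneg _) : ℝ≥0) = 1 := by
      ext
      simpa using hs2 i
    simp [h1]
  · ext i
    show xor (xor (x i) (x i)) (y i) = y i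
    cases x i <;> cases y i <;> rfl
  · intro z g
    congr 1
    unfold patternField
    congr 1
    refine Finset.sum_congr rfl fun i _ => ?_
    have : (Function.Involutive.toPerm _ hinv z) i = xor (xor (z i) (x i)) (y i) := rfl
    rw [this, ← spinValue_mul3, hs]
    ring

section Concrete

variable {N M : ℕ} {f : ℝ → ℝ}

lemma abs_patternField_comp_bound {L : ℝ} (hfL : ∀ u, |f u| ≤ L) :
    ∀ (x : Fin N → Bool) (g : Fin N → ℝ), |f (patternField x g)| ≤ L := fun _ _ => hfL _

lemma integrable_exp_gaussian (hf : Measurable f) {L : ℝ} (hfL : ∀ u, |f u| ≤ L) :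
    Integrable (fun u => Real.exp (f u)) (gaussianReal 0 1) :=
  integrable_exp_of_bdd hf hfL

lemma integral_exp_field (hN : 1 ≤ N) (hf : Measurable f) (x : Fin N → Bool) :
    ∫ g, Real.exp (f (patternField x g)) ∂(patternLaw N) = annealedConstant f := by
  unfold annealedConstant
  rw [← map_patternField hN x]
  exact (integral_map (measurable_patternField x).aemeasurable
    (f := fun u => Real.exp (f u)) (Real.measurable_exp.comp hf).aestronglyMeasurable).symm

lemma annealedConstant_pos (hf : Measurable f) {L : ℝ} (hfL : ∀ u, |f u| ≤ L) :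
    0 < annealedConstant f := by
  unfold annealedConstant
  refine integral_exp_pos ?_
  exact integrable_exp_gaussian hf hfL

lemma normalizedPartition_eq (c0pos : 0 < annealedConstant f) (G : Fin M → Fin N → ℝ) :
    normalizedPartition f G =
      avgWt (fun (x : Fin N → Bool) (g : Fin N → ℝ) => f (patternField x g))
        (annealedConstant f) G := by
  unfold normalizedPartition partitionFn avgWt wt
  have hcard : (Fintype.card (Fin N → Bool) : ℝ) = 2 ^ N := by
    simp
  rw [hcard, div_right_comm, Finset.sum_div]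
  congr 1
  refine Finset.sum_congr rfl fun x _ => ?_
  rw [Finset.prod_div_distrib, Real.exp_sum]
  simp

/-- The finite-size comparison on the cube. -/
theorem cube_bounds (hN : 1 ≤ N) (hM : 1 ≤ M) (hf : Measurable f) {L : ℝ} (hLpos : 0 < L)
    (hfL : ∀ u, |f u| ≤ L) :
    let gap : ℝ := -∫ G, Real.log (normalizedPartition f G) ∂(patternsLaw N M)
    let ent : ℝ := partitionEntropy N M f
    let s : ℝ := L * Real.sqrt M
    let r0 : ℝ := s * Real.sqrt (2 * Real.log 4)
    0 ≤ gap ∧ 0 ≤ ent ∧
      gap ≤ Real.log 4 + s * Real.sqrt (2 * (ent + r0 + Real.log 2)) ∧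
      ent ≤ Real.log 4 + s * Real.sqrt (2 * (gap + r0 + Real.log 2)) := by
  intro gap ent s r0
  have c0pos := annealedConstant_pos hf hfL
  have hmain := annealed_entropy_bounds (S := Fin N → Bool) (X := Fin N → ℝ) (ν := patternLaw N)
    (φ := fun x g => f (patternField x g)) (c0 := annealedConstant f) (M := M) hM
    ⟨L, hLpos.le⟩ hLpos
    (fun x => hf.comp (measurable_patternField x)) (fun x g => hfL _)
    (fun x => integral_exp_field hN hf x)
    (fun x y => cube_gauge f x y)
  simp only at hmain
  have e1 : ∀ G : Fin M → Fin N → ℝ, normalizedPartition f G =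
      avgWt (fun (x : Fin N → Bool) (g : Fin N → ℝ) => f (patternField x g))
        (annealedConstant f) G := normalizedPartition_eq c0pos
  have e2 : gap = -∫ G, Real.log (avgWt (fun (x : Fin N → Bool) (g : Fin N → ℝ) =>
      f (patternField x g)) (annealedConstant f) G) ∂(Measure.pi fun _ : Fin M => patternLaw N) := by
    simp only [gap, e1, patternsLaw]
  have e3 : ent = ∫ G, avgWt (fun (x : Fin N → Bool) (g : Fin N → ℝ) => f (patternField x g))
      (annealedConstant f) G * Real.log (avgWt (fun (x : Fin N → Bool) (g : Fin N → ℝ) =>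
      f (patternField x g)) (annealedConstant f) G) ∂(Measure.pi fun _ : Fin M => patternLaw N) := by
    simp only [ent, partitionEntropy, e1, patternsLaw]
  rw [e2, e3]
  obtain ⟨h1, h2, h3, h4⟩ := hmain
  exact ⟨by linarith, h1, h3, h4⟩

/-- The pressure in terms of the normalized partition function. -/
lemma pressure_sub_annealed (hN : 1 ≤ N) (hf : Measurable f) {L : ℝ} (hfL : ∀ u, |f u| ≤ L) :
    expectedPressure N M f - (M / N : ℝ) * Real.log (annealedConstant f) =
      (∫ G, Real.log (normalizedPartition f G) ∂(patternsLaw N M)) / N := by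
  have c0pos := annealedConstant_pos hf hfL
  have hN' : (0 : ℝ) < N := by exact_mod_cast hN
  have hc0L : Real.exp (-L) ≤ annealedConstant f := by
    unfold annealedConstant
    calc Real.exp (-L) = ∫ _g, Real.exp (-L) ∂(gaussianReal 0 1) := by simp
      _ ≤ _ := integral_mono (integrable_const _) (integrable_exp_gaussian hf hfL)
          fun g => Real.exp_le_exp.mpr (abs_le.mp (hfL g)).1
  have hc0U : annealedConstant f ≤ Real.exp L := by
    unfold annealedConstant
    calc _ ≤ ∫ _g, Real.exp L ∂(gaussianReal 0 1) :=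
          integral_mono (integrable_exp_gaussian hf hfL) (integrable_const _)
          fun g => Real.exp_le_exp.mpr (abs_le.mp (hfL g)).2
      _ = Real.exp L := by simp
  have hmeasφ : ∀ x : Fin N → Bool, Measurable (fun g : Fin N → ℝ => f (patternField x g)) :=
    fun x => hf.comp (measurable_patternField x)
  have hint : Integrable (fun G : Fin M → Fin N → ℝ => Real.log (normalizedPartition f G))
      (patternsLaw N M) := by
    simp_rw [normalizedPartition_eq c0pos]
    exact integrable_of_bdd (measurable_logAvgWt hmeasφ)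
      (abs_log_avgWt_le c0pos (fun x g => hfL _) hc0L hc0U)
  have hZ : ∀ G : Fin M → Fin N → ℝ, Real.log (partitionFn f G) =
      Real.log (normalizedPartition f G) + M * Real.log (annealedConstant f) := by
    intro G
    have hpos : 0 < normalizedPartition f G := by
      rw [normalizedPartition_eq c0pos]
      exact avgWt_pos c0pos G
    have h1 : partitionFn f G = normalizedPartition f G * annealedConstant f ^ M := by
      unfold normalizedPartition
      field_simp
    rw [h1, Real.log_mul hpos.ne' (pow_pos c0pos M).ne', Real.log_pow]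
  unfold expectedPressure
  simp_rw [hZ]
  rw [integral_add hint (integrable_const _)]
  simp
  field_simp
  ring

/-- Transfer of a limit through the finite-size bound. -/
lemma limit_transfer {α L : ℝ} (hα : 0 < α) (hL : 0 < L) (M' : ℕ → ℕ)
    (hM' : ∀ n : ℕ, (M' n : ℝ) ≤ α * n) (u v : ℕ → ℝ)
    (hu : ∀ᶠ n in Filter.atTop, 0 ≤ u n) (hv : ∀ᶠ n in Filter.atTop, 0 ≤ v n)
    (hbd : ∀ᶠ n : ℕ in Filter.atTop, u n * n ≤ Real.log 4 + (L * Real.sqrt (M' n)) *
      Real.sqrt (2 * (v n * n + (L * Real.sqrt (M' n)) * Real.sqrt (2 * Real.log 4) + Real.log 2)))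
    (hvlim : Filter.Tendsto v Filter.atTop (nhds 0)) :
    Filter.Tendsto u Filter.atTop (nhds 0) := by
  set C : ℝ := L * Real.sqrt α * Real.sqrt (2 * Real.log 4) with hC
  have hlog4 : 0 < Real.log 4 := Real.log_pos (by norm_num)
  have hlog2 : 0 < Real.log 2 := Real.log_pos (by norm_num)
  have hCnn : 0 ≤ C := by positivity
  set W : ℕ → ℝ := fun n => v n + C / Real.sqrt n + Real.log 2 / n with hW
  set g : ℕ → ℝ := fun n => Real.log 4 / n + L * Real.sqrt (2 * α * W n) with hg
  have hsqrtlim : Filter.Tendsto (fun n : ℕ => Real.sqrt n) Filter.atTop Filter.atTop :=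
    Real.tendsto_sqrt_atTop.comp tendsto_natCast_atTop_atTop
  have hWlim : Filter.Tendsto W Filter.atTop (nhds 0) := by
    have h1 : Filter.Tendsto (fun n : ℕ => C / Real.sqrt n) Filter.atTop (nhds 0) :=
      hsqrtlim.const_div_atTop C
    have h2 : Filter.Tendsto (fun n : ℕ => Real.log 2 / n) Filter.atTop (nhds 0) :=
      tendsto_natCast_atTop_atTop.const_div_atTop _
    simpa using (hvlim.add h1).add h2
  have hglim : Filter.Tendsto g Filter.atTop (nhds 0) := by
    have h1 : Filter.Tendsto (fun n : ℕ => Real.log 4 / n) Filter.atTop (nhds 0) :=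
      tendsto_natCast_atTop_atTop.const_div_atTop _
    have h2 : Filter.Tendsto (fun n => L * Real.sqrt (2 * α * W n)) Filter.atTop (nhds 0) := by
      have h3 : Filter.Tendsto (fun n => 2 * α * W n) Filter.atTop (nhds 0) := by
        simpa using hWlim.const_mul (2 * α)
      have h4 := (Real.continuous_sqrt.tendsto 0).comp h3
      simpa using h4.const_mul L
    simpa using h1.add h2
  refine squeeze_zero' hu ?_ hglim
  filter_upwards [hu, hv, hbd, Filter.eventually_ge_atTop 1] with n hun hvn hbdn hn
  have hn' : (0 : ℝ) < n := by exact_mod_cast hn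
  have hsn : 0 < Real.sqrt n := Real.sqrt_pos.mpr hn'
  set sM : ℝ := L * Real.sqrt (M' n) with hsM
  have hsMnn : 0 ≤ sM := by positivity
  have hMle : Real.sqrt (M' n) ≤ Real.sqrt α * Real.sqrt n := by
    rw [← Real.sqrt_mul hα.le]
    exact Real.sqrt_le_sqrt (hM' n)
  have hrle : sM * Real.sqrt (2 * Real.log 4) ≤ C * Real.sqrt n := by
    simp only [hsM, hC]
    have : L * Real.sqrt (M' n) ≤ L * (Real.sqrt α * Real.sqrt n) := by gcongr
    calc L * Real.sqrt (M' n) * Real.sqrt (2 * Real.log 4)
        ≤ L * (Real.sqrt α * Real.sqrt n) * Real.sqrt (2 * Real.log 4) := by gcongr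
      _ = _ := by ring
  have hin : v n * n + sM * Real.sqrt (2 * Real.log 4) + Real.log 2 ≤ n * W n := by
    simp only [hW]
    have h1 : C / Real.sqrt n * n = C * Real.sqrt n := by
      have : (n : ℝ) = Real.sqrt n * Real.sqrt n := (Real.mul_self_sqrt hn'.le).symm
      nth_rw 2 [this]
      field_simp
    have h2 : Real.log 2 / n * n = Real.log 2 := by field_simp
    have h3 : (n : ℝ) * (v n + C / Real.sqrt n + Real.log 2 / n) =
        v n * n + C / Real.sqrt n * n + Real.log 2 / n * n := by ring
    rw [h3, h1, h2]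
    linarith
  have hWnn : 0 ≤ W n := by
    simp only [hW]
    positivity
  have hsq : Real.sqrt (2 * (v n * n + sM * Real.sqrt (2 * Real.log 4) + Real.log 2)) ≤
      Real.sqrt (2 * (n * W n)) := Real.sqrt_le_sqrt (by linarith)
  have hprod : sM * Real.sqrt (2 * (n * W n)) ≤ n * (L * Real.sqrt (2 * α * W n)) := by
    have h1 : Real.sqrt (M' n) * Real.sqrt (2 * (n * W n)) ≤ n * Real.sqrt (2 * α * W n) := by
      rw [← Real.sqrt_mul (Nat.cast_nonneg _)]
      have h2 : (M' n : ℝ) * (2 * (n * W n)) ≤ (n : ℝ) ^ 2 * (2 * α * W n) := by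
        have := hM' n
        have h3 : (0:ℝ) ≤ 2 * (n * W n) := by positivity
        calc (M' n : ℝ) * (2 * (n * W n)) ≤ (α * n) * (2 * (n * W n)) := by gcongr
          _ = _ := by ring
      calc Real.sqrt ((M' n : ℝ) * (2 * (n * W n))) ≤ Real.sqrt ((n : ℝ) ^ 2 * (2 * α * W n)) :=
            Real.sqrt_le_sqrt h2
        _ = n * Real.sqrt (2 * α * W n) := by
            rw [Real.sqrt_mul (sq_nonneg _), Real.sqrt_sq hn'.le]
    calc sM * Real.sqrt (2 * (n * W n)) = L * (Real.sqrt (M' n) * Real.sqrt (2 * (n * W n))) := by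
          simp only [hsM]; ring
      _ ≤ L * (n * Real.sqrt (2 * α * W n)) := by gcongr
      _ = _ := by ring
  have hfinal : u n * n ≤ Real.log 4 + n * (L * Real.sqrt (2 * α * W n)) := by
    calc u n * n ≤ _ := hbdn
      _ ≤ Real.log 4 + sM * Real.sqrt (2 * (n * W n)) := by gcongr
      _ ≤ _ := by gcongr
  show u n ≤ Real.log 4 / n + L * Real.sqrt (2 * α * W n)
  have : u n * n ≤ (Real.log 4 / n + L * Real.sqrt (2 * α * W n)) * n := by
    have h5 : (Real.log 4 / n + L * Real.sqrt (2 * α * W n)) * n =
        Real.log 4 + n * (L * Real.sqrt (2 * α * W n)) := by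
      field_simp
    rw [h5]
    exact hfinal
  exact le_of_mul_le_mul_right this hn'

/-- Annealed asymptotics hold exactly when the entropy density vanishes. -/
theorem cube_annealed_iff {α : ℝ} (hα : 0 < α) (hf : Measurable f) {L : ℝ} (hLpos : 0 < L)
    (hfL : ∀ u, |f u| ≤ L) :
    Filter.Tendsto (fun N : ℕ => expectedPressure N ⌊α * N⌋₊ f -
        ((⌊α * N⌋₊ : ℝ) / N) * Real.log (annealedConstant f)) Filter.atTop (nhds 0) ↔
      Filter.Tendsto (fun N : ℕ => partitionEntropy N ⌊α * N⌋₊ f / N) Filter.atTop (nhds 0) := by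
  set M' : ℕ → ℕ := fun n => ⌊α * n⌋₊ with hM'
  have hM'le : ∀ n : ℕ, (M' n : ℝ) ≤ α * n := fun n =>
    Nat.floor_le (by positivity)
  have hevN : ∀ᶠ n : ℕ in Filter.atTop, 1 ≤ n := Filter.eventually_ge_atTop 1
  have hevM : ∀ᶠ n : ℕ in Filter.atTop, 1 ≤ M' n := by
    have h1 : ∀ᶠ n : ℕ in Filter.atTop, 1 / α ≤ (n : ℝ) :=
      tendsto_natCast_atTop_atTop.eventually_ge_atTop _
    filter_upwards [h1] with n hn
    apply Nat.le_floor
    have : 1 ≤ α * n := by
      rw [div_le_iff₀ hα] at hn
      linarith
    simpa using this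
  set a : ℕ → ℝ := fun n => -(∫ G, Real.log (normalizedPartition f G) ∂(patternsLaw n (M' n))) / n
    with ha
  set b : ℕ → ℝ := fun n => partitionEntropy n (M' n) f / n with hb
  have hpress : ∀ᶠ n : ℕ in Filter.atTop,
      expectedPressure n (M' n) f - ((M' n : ℝ) / n) * Real.log (annealedConstant f) = -a n := by
    filter_upwards [hevN] with n hn
    rw [pressure_sub_annealed hn hf hfL]
    simp only [ha]
    ring
  have hbounds := fun (n : ℕ) (hn : 1 ≤ n) (hm : 1 ≤ M' n) => cube_bounds (N := n) (M := M' n) hn hm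
    hf hLpos hfL
  have hmul_a : ∀ n : ℕ, 1 ≤ n → a n * n =
      -(∫ G, Real.log (normalizedPartition f G) ∂(patternsLaw n (M' n))) := by
    intro n hn
    have hn' : (n : ℝ) ≠ 0 := by
      have : (0 : ℝ) < n := by exact_mod_cast hn
      exact this.ne'
    simp only [ha]
    field_simp
  have hmul_b : ∀ n : ℕ, 1 ≤ n → b n * n = partitionEntropy n (M' n) f := by
    intro n hn
    have hn' : (n : ℝ) ≠ 0 := by
      have : (0 : ℝ) < n := by exact_mod_cast hn
      exact this.ne'
    simp only [hb]
    field_simp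
  have ha0 : ∀ᶠ n in Filter.atTop, 0 ≤ a n := by
    filter_upwards [hevN, hevM] with n hn hm
    have := (hbounds n hn hm).1
    simp only [ha]
    positivity
  have hb0 : ∀ᶠ n in Filter.atTop, 0 ≤ b n := by
    filter_upwards [hevN, hevM] with n hn hm
    have := (hbounds n hn hm).2.1
    simp only [hb]
    positivity
  constructor
  · intro hlim
    have halim : Filter.Tendsto a Filter.atTop (nhds 0) := by
      have h1 : Filter.Tendsto (fun n => -(expectedPressure n (M' n) f -
          ((M' n : ℝ) / n) * Real.log (annealedConstant f))) Filter.atTop (nhds 0) := by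
        simpa using hlim.neg
      refine h1.congr' ?_
      filter_upwards [hpress] with n hn
      rw [hn, neg_neg]
    refine limit_transfer hα hLpos M' hM'le b a hb0 ha0 ?_ halim
    filter_upwards [hevN, hevM] with n hn hm
    rw [hmul_a n hn, hmul_b n hn]
    exact (hbounds n hn hm).2.2.2
  · intro hlim
    have halim : Filter.Tendsto a Filter.atTop (nhds 0) := by
      refine limit_transfer hα hLpos M' hM'le a b ha0 hb0 ?_ hlim
      filter_upwards [hevN, hevM] with n hn hm
      rw [hmul_a n hn, hmul_b n hn]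
      exact (hbounds n hn hm).2.2.1
    have h1 := halim.neg
    simp only [neg_zero] at h1
    refine h1.congr' ?_
    filter_upwards [hpress] with n hn
    rw [hn]

end Concrete

end Vale.Agent.Lib.P157
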