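import Mathlib

/-!
The Ising Gaussian perceptron on the cube.
A spin configuration is `x : Fin N → Bool`, where `true` stands for `+1` and `false` for `-1`.
-/

open MeasureTheory ProbabilityTheory

namespace Vale.Agent.Lib.P157

/-- The real value of a Boolean spin: `true` is `1`, `false` is `-1`. -/
def spinValue (b : Bool) : ℝ := if b then 1 else -1

/-- The law of one standard Gaussian pattern in `ℝ^N`. -/
noncomputable def patternLaw (N : ℕ) : Measure (Fin N → ℝ) :=
  Measure.pi fun _ => gaussianReal 0 1

/-- The law of `M` independent standard Gaussian patterns in `ℝ^N`. -/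
noncomputable def patternsLaw (N M : ℕ) : Measure (Fin M → Fin N → ℝ) :=
  Measure.pi fun _ => patternLaw N

/-- The normalized field `g · x / √N`. -/
noncomputable def patternField {N : ℕ} (x : Fin N → Bool) (g : Fin N → ℝ) : ℝ :=
  (∑ i, g i * spinValue (x i)) / Real.sqrt N

/-- The partition function `∫ exp (∑ a, f (g^a · x / √N)) dμ_N(x)` on the cube with uniform
probability measure `μ_N`. -/
noncomputable def partitionFn {N M : ℕ} (f : ℝ → ℝ) (G : Fin M → Fin N → ℝ) : ℝ :=
  (∑ x : Fin N → Bool, Real.exp (∑ a, f (patternField x (G a)))) / 2 ^ N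

/-- The expected pressure `E p_N(f) = E (1/N) log Z` on the cube with `M` patterns. -/
noncomputable def expectedPressure (N M : ℕ) (f : ℝ → ℝ) : ℝ :=
  (∫ G, Real.log (partitionFn f G) ∂(patternsLaw N M)) / N

/-- The one-pattern annealed constant `E exp (f G)` for a standard Gaussian `G`. -/
noncomputable def annealedConstant (f : ℝ → ℝ) : ℝ :=
  ∫ u, Real.exp (f u) ∂(gaussianReal 0 1)

/-- The partition function divided by its expectation `(E exp (f G))^M`. -/
noncomputable def normalizedPartition {N M : ℕ} (f : ℝ → ℝ) (G : Fin M → Fin N → ℝ) : ℝ :=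
  partitionFn f G / annealedConstant f ^ M

/-- The relative entropy `E [Y log Y]` of the normalized partition function `Y`. -/
noncomputable def partitionEntropy (N M : ℕ) (f : ℝ → ℝ) : ℝ :=
  ∫ G, normalizedPartition f G * Real.log (normalizedPartition f G) ∂(patternsLaw N M)

end Vale.Agent.Lib.P157
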