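import Vale.Agent.Lib.P157.DefsDense

/-!
The objects entering the conditional first moment criterion.
-/

open MeasureTheory ProbabilityTheory

namespace Vale.Agent.Lib.P157

/-- The normalized weight `U = exp f / E exp f (G)`. -/
noncomputable def normPot (f : ℝ → ℝ) (u : ℝ) : ℝ := Real.exp (f u) / annealedConstant f

/-- The Gaussian noise operator `(P_ρ U)(v) = E U (ρ v + √(1 - ρ²) W)`. -/
noncomputable def noiseAvg (U : ℝ → ℝ) (ρ v : ℝ) : ℝ :=
  ∫ w, U (ρ * v + Real.sqrt (1 - ρ ^ 2) * w) ∂(gaussianReal 0 1)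

/-- The cross entropy `E [U (G) log (P_ρ U) (G)]`. -/
noncomputable def crossEnt (f : ℝ → ℝ) (ρ : ℝ) : ℝ :=
  ∫ v, normPot f v * Real.log (noiseAvg (normPot f) ρ v) ∂(gaussianReal 0 1)

/-- The large deviation rate `log 2 - H ((1 + ρ) / 2)` of the overlap of two independent spin
configurations. -/
noncomputable def shellRate (ρ : ℝ) : ℝ := Real.log 2 - Real.binEntropy ((1 + ρ) / 2)

/-- The tilted mean `E [f e^{s f}] / E [e^{s f}]` of a potential at a Gaussian argument. -/
noncomputable def tiltedMean (f : ℝ → ℝ) (s : ℝ) : ℝ :=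
  (∫ u, f u * Real.exp (s * f u) ∂(gaussianReal 0 1)) /
    ∫ u, Real.exp (s * f u) ∂(gaussianReal 0 1)

/-- The indicator potential of the symmetric window `[-κ, κ]`. -/
noncomputable def winPot (κ : ℝ) : ℝ → ℝ := (Set.Icc (-κ) κ).indicator fun _ => 1

end Vale.Agent.Lib.P157
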