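import Vale.Agent.Lib.P157.Defs

/-!
The overlap and the covariance function of a bounded potential.
-/

open MeasureTheory ProbabilityTheory

namespace Vale.Agent.Lib.P157

/-- The normalized overlap `R(x, y) = (1/N) ∑ i, x_i y_i` of two spin configurations. -/
noncomputable def overlap {N : ℕ} (x y : Fin N → Bool) : ℝ :=
  (∑ i, spinValue (x i) * spinValue (y i)) / N

/-- The covariance function `ξ_f(ρ) = Cov (f U, f (ρ U + √(1-ρ²) W))` of the potential `f`, for
independent standard Gaussians `U, W`. -/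
noncomputable def overlapCov (f : ℝ → ℝ) (ρ : ℝ) : ℝ :=
  (∫ u, ∫ w, f u * f (ρ * u + Real.sqrt (1 - ρ ^ 2) * w) ∂(gaussianReal 0 1) ∂(gaussianReal 0 1))
    - (∫ u, f u ∂(gaussianReal 0 1)) ^ 2

end Vale.Agent.Lib.P157
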