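import Vale.Agent.Lib.P157.Joint

/-!
The dense comparison between the Gaussian perceptron and a Gaussian Hamiltonian on the cube.
-/

open MeasureTheory ProbabilityTheory
open scoped NNReal ENNReal

set_option linter.unusedSectionVars false

namespace Vale.Agent.Lib.P157

/-- The mean of `f` under the standard Gaussian. -/
noncomputable def gaussMean (f : ℝ → ℝ) : ℝ := ∫ u, f u ∂(gaussianReal 0 1)

section Factor

open Matrix
open scoped MatrixOrder ComplexOrder

lemma exists_factor {S : Type*} [Fintype S] [DecidableEq S] (C : Matrix S S ℝ)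
    (hC : C.PosSemidef) :
    ∃ A : S → Fin (Fintype.card S) → ℝ, ∀ x y, ∑ j, A x j * A y j = C x y := by
  obtain ⟨B, hB⟩ := CStarAlgebra.nonneg_iff_eq_star_mul_self.mp hC.nonneg
  let e := Fintype.equivFin S
  refine ⟨fun x j => B (e.symm j) x, fun x y => ?_⟩
  rw [hB, Matrix.star_eq_conjTranspose, Matrix.mul_apply]
  have : ∀ k, (Bᴴ) x k * B k y = B k x * B k y := by
    intro k
    simp [Matrix.conjTranspose_apply]
  simp_rw [this]
  exact e.symm.sum_comp (fun k => B k x * B k y)

/-- A covariance kernel is positive semidefinite, hence factors. -/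
lemma exists_factor_kernel {S : Type*} [Fintype S] {X : Type*} [MeasurableSpace X]
    {ν : Measure X} [IsProbabilityMeasure ν] {ξ : S → X → ℝ} {K : ℝ}
    (hξ : ∀ x, Measurable (ξ x)) (hK : ∀ x g, |ξ x g| ≤ K) :
    ∃ A : S → Fin (Fintype.card S) → ℝ, ∀ x y, ∑ j, A x j * A y j = kernelOf ν ξ x y := by
  classical
  refine exists_factor (Matrix.of fun x y => kernelOf ν ξ x y) ?_
  refine Matrix.PosSemidef.of_dotProduct_mulVec_nonneg ?_ ?_
  · ext x y
    simp [kernelOf, mul_comm]
  · intro c
    have hint : ∀ x y, Integrable (fun g => ξ x g * ξ y g) ν := by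
      intro x y
      refine integrable_of_bdd (B := K * K) ((hξ x).mul (hξ y)) fun g => ?_
      rw [abs_mul]
      have h0 : 0 ≤ K := (abs_nonneg _).trans (hK x g)
      exact mul_le_mul (hK x g) (hK y g) (abs_nonneg _) h0
    have h1 : star c ⬝ᵥ ((Matrix.of fun x y => kernelOf ν ξ x y) *ᵥ c) =
        ∫ g, (∑ x, c x * ξ x g) ^ 2 ∂ν := by
      have h2 : ∀ g, (∑ x, c x * ξ x g) ^ 2 = ∑ x, ∑ y, c x * c y * (ξ x g * ξ y g) := by
        intro g
        rw [sq, Finset.sum_mul]
        refine Finset.sum_congr rfl fun x _ => ?_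
        rw [Finset.mul_sum]
        refine Finset.sum_congr rfl fun y _ => by ring
      simp_rw [h2]
      rw [integral_finsetSum _ fun x _ => integrable_finsetSum _ fun y _ => (hint x y).const_mul _]
      simp only [dotProduct, mulVec, Pi.star_apply, star_trivial, Matrix.of_apply]
      refine Finset.sum_congr rfl fun x _ => ?_
      rw [integral_finsetSum _ fun y _ => (hint x y).const_mul _, Finset.mul_sum]
      refine Finset.sum_congr rfl fun y _ => ?_
      rw [integral_const_mul]
      unfold kernelOf
      ring
    rw [h1]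
    exact integral_nonneg fun g => sq_nonneg _

end Factor

section Kernel

variable {N M : ℕ} {f : ℝ → ℝ}

/-- The kernel of the centered potential is the covariance function of the overlap. -/
lemma kernelOf_eq_overlapCov (hN : 1 ≤ N) (hf : Measurable f) {L : ℝ} (hfL : ∀ u, |f u| ≤ L)
    (x y : Fin N → Bool) :
    kernelOf (patternLaw N) (fun x g => f (patternField x g) - gaussMean f) x y =
      overlapCov f (overlap x y) := by
  set m := gaussMean f with hm
  set ρ := overlap x y with hρ
  set σ := Real.sqrt (1 - ρ ^ 2) with hσ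
  have hfx : ∀ z : Fin N → Bool, Measurable fun g => f (patternField z g) := fun z =>
    hf.comp (measurable_patternField z)
  have hL0 : 0 ≤ L := (abs_nonneg _).trans (hfL 0)
  have hintf : ∀ z : Fin N → Bool, Integrable (fun g => f (patternField z g)) (patternLaw N) :=
    fun z => integrable_of_bdd (hfx z) fun g => hfL _
  have hintff : Integrable (fun g => f (patternField x g) * f (patternField y g))
      (patternLaw N) := by
    refine integrable_of_bdd (B := L * L) ((hfx x).mul (hfx y)) fun g => ?_
    rw [abs_mul]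
    exact mul_le_mul (hfL _) (hfL _) (abs_nonneg _) hL0
  have hmean : ∀ z : Fin N → Bool, ∫ g, f (patternField z g) ∂(patternLaw N) = m := by
    intro z
    rw [hm]
    unfold gaussMean
    rw [← map_patternField hN z]
    exact (integral_map (measurable_patternField z).aemeasurable hf.aestronglyMeasurable).symm
  have hF : Measurable fun p : ℝ × ℝ => f p.1 * f p.2 :=
    (hf.comp measurable_fst).mul (hf.comp measurable_snd)
  have hjoint : ∫ g, f (patternField x g) * f (patternField y g) ∂(patternLaw N) =
      ∫ u, ∫ w, f u * f (ρ * u + σ * w) ∂(gaussianReal 0 1) ∂(gaussianReal 0 1) := by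
    have hm1 : Measurable (fun g : Fin N → ℝ => (patternField x g, patternField y g)) :=
      (measurable_patternField x).prodMk (measurable_patternField y)
    have hm2 : Measurable (fun p : ℝ × ℝ => (p.1, ρ * p.1 + σ * p.2)) := by fun_prop
    have h1 : ∫ g, f (patternField x g) * f (patternField y g) ∂(patternLaw N) =
        ∫ p, f p.1 * f p.2 ∂((patternLaw N).map
          (fun g => (patternField x g, patternField y g))) :=
      (integral_map hm1.aemeasurable hF.aestronglyMeasurable).symm
    rw [h1, joint_law hN x y, integral_map hm2.aemeasurable hF.aestronglyMeasurable]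
    have hint : Integrable (fun p : ℝ × ℝ => f p.1 * f (ρ * p.1 + σ * p.2))
        ((gaussianReal 0 1).prod (gaussianReal 0 1)) := by
      refine integrable_of_bdd (B := L * L) (hF.comp hm2) fun p => ?_
      rw [abs_mul]
      exact mul_le_mul (hfL _) (hfL _) (abs_nonneg _) hL0
    exact integral_prod _ hint
  unfold kernelOf overlapCov
  have hexp : ∀ g, (f (patternField x g) - m) * (f (patternField y g) - m) =
      f (patternField x g) * f (patternField y g) - m * f (patternField y g)
        - m * f (patternField x g) + m * m := fun g => by ring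
  simp_rw [hexp]
  have i1 : Integrable (fun g => f (patternField x g) * f (patternField y g)
      - m * f (patternField y g)) (patternLaw N) := hintff.sub ((hintf y).const_mul m)
  have i2 : Integrable (fun g => f (patternField x g) * f (patternField y g)
      - m * f (patternField y g) - m * f (patternField x g)) (patternLaw N) :=
    i1.sub ((hintf x).const_mul m)
  rw [integral_add i2 (integrable_const _), integral_sub i1 ((hintf x).const_mul m),
    integral_sub hintff ((hintf y).const_mul m),
    integral_const_mul, integral_const_mul, hmean, hmean, hjoint]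
  simp only [integral_const, probReal_univ, one_smul]
  have : ∫ u, f u ∂(gaussianReal 0 1) = m := rfl
  rw [this]
  ring

/-- The log partition function in terms of the centered potential. -/
lemma log_partitionFn_eq (G : Fin M → Fin N → ℝ) :
    Real.log (partitionFn f G) =
      logAvg (patSum (fun x g => f (patternField x g) - gaussMean f) G) + M * gaussMean f := by
  unfold partitionFn logAvg gsum patSum
  have hcard : (Fintype.card (Fin N → Bool) : ℝ) = 2 ^ N := by
    simp
  rw [hcard]
  set m := gaussMean f
  have h1 : ∀ x : Fin N → Bool, Real.exp (∑ a, (f (patternField x (G a)) - m)) =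
      Real.exp (∑ a, f (patternField x (G a))) * Real.exp (-(M * m)) := by
    intro x
    rw [← Real.exp_add]
    congr 1
    rw [Finset.sum_sub_distrib]
    simp
    ring
  simp_rw [h1]
  rw [← Finset.sum_mul, mul_div_right_comm, Real.log_mul _ (Real.exp_pos _).ne', Real.log_exp]
  · ring
  · have : 0 < ∑ x : Fin N → Bool, Real.exp (∑ a, f (patternField x (G a))) :=
      Finset.sum_pos (fun _ _ => Real.exp_pos _) Finset.univ_nonempty
    positivity

end Kernel

section Max

variable {S : Type*} [Fintype S] [Nonempty S]

lemma logAvg_smul_le (v : S → ℝ) {s : ℝ} (hs : 0 < s) :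
    logAvg (fun x => s * v x) ≤ s * ⨆ x, v x := by
  unfold logAvg gsum
  have hcard : (0 : ℝ) < Fintype.card S := by exact_mod_cast Fintype.card_pos
  have hsum : 0 < ∑ x, Real.exp (s * v x) :=
    Finset.sum_pos (fun _ _ => Real.exp_pos _) Finset.univ_nonempty
  rw [Real.log_le_iff_le_exp (div_pos hsum hcard), div_le_iff₀ hcard]
  calc ∑ x, Real.exp (s * v x) ≤ ∑ _x : S, Real.exp (s * ⨆ x, v x) := by
        refine Finset.sum_le_sum fun x _ => Real.exp_le_exp.mpr ?_
        exact mul_le_mul_of_nonneg_left (le_ciSup (Set.finite_range _).bddAbove x) hs.le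
    _ = _ := by
        simp
        ring

lemma le_logAvg_smul (v : S → ℝ) {s : ℝ} :
    s * (⨆ x, v x) - Real.log (Fintype.card S) ≤ logAvg (fun x => s * v x) := by
  unfold logAvg gsum
  have hcard : (0 : ℝ) < Fintype.card S := by exact_mod_cast Fintype.card_pos
  have hsum : 0 < ∑ x, Real.exp (s * v x) :=
    Finset.sum_pos (fun _ _ => Real.exp_pos _) Finset.univ_nonempty
  rw [Real.log_div hsum.ne' hcard.ne']
  obtain ⟨x0, hx0⟩ := exists_eq_ciSup_of_finite (f := v)
  rw [← hx0]
  have : Real.exp (s * v x0) ≤ ∑ x, Real.exp (s * v x) :=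
    Finset.single_le_sum (f := fun x => Real.exp (s * v x)) (fun _ _ => (Real.exp_pos _).le)
      (Finset.mem_univ x0)
  have h2 := Real.log_le_log (Real.exp_pos _) this
  rw [Real.log_exp] at h2
  linarith

lemma abs_iSup_le (v : S → ℝ) {B : ℝ} (h : ∀ x, |v x| ≤ B) : |⨆ x, v x| ≤ B := by
  obtain ⟨x0, hx0⟩ := exists_eq_ciSup_of_finite (f := v)
  rw [← hx0]
  exact h x0

lemma abs_iSup_le_sum (v : S → ℝ) : |⨆ x, v x| ≤ ∑ x, |v x| := by
  obtain ⟨x0, hx0⟩ := exists_eq_ciSup_of_finite (f := v)
  rw [← hx0]
  exact Finset.single_le_sum (f := fun x => |v x|) (fun _ _ => abs_nonneg _) (Finset.mem_univ x0)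

end Max

section Scaled

variable {S : Type*} [Fintype S] [Nonempty S]
variable {X : Type*} [MeasurableSpace X] {ν : Measure X} [IsProbabilityMeasure ν]
  {ξ : S → X → ℝ} {K : ℝ} {M n : ℕ}

lemma integrable_logAvg_patSum (hξ : ∀ x, Measurable (ξ x)) (hK : ∀ x g, |ξ x g| ≤ K) :
    Integrable (fun G : Fin M → X => logAvg (patSum ξ G))
      (Measure.pi fun _ : Fin M => ν) :=
  integrable_of_bdd (measurable_logAvg fun x => measurable_patSum hξ x)
    (fun G => abs_logAvg_le _ fun x => abs_patSum_le hK G x)

lemma integrable_iSup_patSum (hξ : ∀ x, Measurable (ξ x)) (hK : ∀ x g, |ξ x g| ≤ K) :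
    Integrable (fun G : Fin M → X => ⨆ x, patSum ξ G x) (Measure.pi fun _ : Fin M => ν) :=
  integrable_of_bdd (Measurable.iSup fun x => measurable_patSum hξ x)
    (fun G => abs_iSup_le _ fun x => abs_patSum_le hK G x)

lemma integrable_iSup_gaussVec (A : S → Fin n → ℝ) :
    Integrable (fun z : Fin n → ℝ => ⨆ x, gaussVec A z x) (patternLaw n) := by
  refine (integrable_sum_abs_gaussVec A).mono' (Measurable.iSup fun x =>
    measurable_gaussVec A x).aestronglyMeasurable (Filter.Eventually.of_forall fun z => ?_)
  simpa using abs_iSup_le_sum (gaussVec A z)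

lemma integrable_logAvg_smul_gaussVec (A : S → Fin n → ℝ) (s : ℝ) :
    Integrable (fun z : Fin n → ℝ => logAvg (fun x => s * gaussVec A z x)) (patternLaw n) := by
  have hcard : (0 : ℝ) < Fintype.card S := by exact_mod_cast Fintype.card_pos
  refine ((integrable_sum_abs_gaussVec A).const_mul |s|).mono'
    (measurable_logAvg fun x => (measurable_gaussVec A x).const_mul s).aestronglyMeasurable
    (Filter.Eventually.of_forall fun z => ?_)
  rw [Real.norm_eq_abs]
  refine abs_logAvg_le _ fun x => ?_
  rw [abs_mul]
  refine mul_le_mul_of_nonneg_left ?_ (abs_nonneg _)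
  exact Finset.single_le_sum (f := fun x => |gaussVec A z x|) (fun _ _ => abs_nonneg _)
    (Finset.mem_univ x)

/-- The comparison at inverse temperature `s`. -/
lemma lindeberg_scaled (hξ : ∀ x, Measurable (ξ x)) (hK : ∀ x g, |ξ x g| ≤ K)
    (h0 : ∀ x, ∫ g, ξ x g ∂ν = 0) (A : S → Fin n → ℝ)
    (hA : ∀ x y, ∑ j, A x j * A y j = M * kernelOf ν ξ x y) {s : ℝ} (hs : 0 < s) :
    |∫ G, logAvg (fun x => s * patSum ξ G x) ∂(Measure.pi fun _ : Fin M => ν) -
      ∫ z, logAvg (fun x => s * gaussVec A z x) ∂(patternLaw n)| ≤ 4 * M * (s * K) ^ 3 := by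
  have h1 := lindeberg_compare (M := M) (ν := ν) (ξ := fun x g => s * ξ x g) (K := s * K)
    (fun x => (hξ x).const_mul s)
    (fun x g => by
      rw [abs_mul, abs_of_pos hs]
      exact mul_le_mul_of_nonneg_left (hK x g) hs.le)
    (fun x => by rw [integral_const_mul, h0, mul_zero])
    (fun x j => s * A x j)
    (fun x y => by
      have : ∀ j, s * A x j * (s * A y j) = s ^ 2 * (A x j * A y j) := fun j => by ring
      simp_rw [this]
      rw [← Finset.mul_sum, hA]
      unfold kernelOf
      have : ∀ g, s * ξ x g * (s * ξ y g) = s ^ 2 * (ξ x g * ξ y g) := fun g => by ring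
      simp_rw [this]
      rw [integral_const_mul]
      ring)
  have h2 : ∀ G : Fin M → X, patSum (fun x g => s * ξ x g) G = fun x => s * patSum ξ G x := by
    intro G
    funext x
    unfold patSum
    rw [Finset.mul_sum]
  have h3 : ∀ z : Fin n → ℝ, gaussVec (fun x j => s * A x j) z = fun x => s * gaussVec A z x := by
    intro z
    funext x
    unfold gaussVec
    rw [Finset.mul_sum]
    refine Finset.sum_congr rfl fun j _ => by ring
  simp_rw [h2, h3] at h1
  exact h1

/-- The ground-state comparison: the expected maxima of the two energy vectors are close. -/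
theorem iSup_compare (hξ : ∀ x, Measurable (ξ x)) (hK : ∀ x g, |ξ x g| ≤ K)
    (h0 : ∀ x, ∫ g, ξ x g ∂ν = 0) (A : S → Fin n → ℝ)
    (hA : ∀ x y, ∑ j, A x j * A y j = M * kernelOf ν ξ x y) {s : ℝ} (hs : 0 < s) :
    |∫ G, ⨆ x, patSum ξ G x ∂(Measure.pi fun _ : Fin M => ν) -
      ∫ z, ⨆ x, gaussVec A z x ∂(patternLaw n)| ≤
        4 * M * K ^ 3 * s ^ 2 + Real.log (Fintype.card S) / s := by
  set a := ∫ G, logAvg (fun x => s * patSum ξ G x) ∂(Measure.pi fun _ : Fin M => ν) with ha
  set b := ∫ z, logAvg (fun x => s * gaussVec A z x) ∂(patternLaw n) with hb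
  set SM := ∫ G, ⨆ x, patSum ξ G x ∂(Measure.pi fun _ : Fin M => ν) with hSM
  set HM := ∫ z, ⨆ x, gaussVec A z x ∂(patternLaw n) with hHM
  set lc := Real.log (Fintype.card S) with hlc
  have hcmp := lindeberg_scaled (M := M) hξ hK h0 A hA hs
  rw [← ha, ← hb] at hcmp
  have hIP : Integrable (fun G : Fin M → X => logAvg (fun x => s * patSum ξ G x))
      (Measure.pi fun _ : Fin M => ν) := by
    have := integrable_logAvg_patSum (M := M) (ν := ν) (ξ := fun x g => s * ξ x g)
      (K := s * K) (fun x => (hξ x).const_mul s) (fun x g => by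
        rw [abs_mul, abs_of_pos hs]
        exact mul_le_mul_of_nonneg_left (hK x g) hs.le)
    have h2 : ∀ G : Fin M → X, patSum (fun x g => s * ξ x g) G = fun x => s * patSum ξ G x := by
      intro G
      funext x
      unfold patSum
      rw [Finset.mul_sum]
    simp_rw [h2] at this
    exact this
  have hISM := integrable_iSup_patSum (M := M) (ν := ν) hξ hK
  have hIG := integrable_logAvg_smul_gaussVec A s
  have hIHM := integrable_iSup_gaussVec A
  have haU : a ≤ s * SM := by
    rw [ha, hSM, ← integral_const_mul]
    exact integral_mono hIP (hISM.const_mul s) fun G => logAvg_smul_le _ hs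
  have haL : s * SM - lc ≤ a := by
    rw [ha, hSM, ← integral_const_mul]
    have : ∫ G, s * ⨆ x, patSum ξ G x ∂(Measure.pi fun _ : Fin M => ν) - lc =
        ∫ G, (s * (⨆ x, patSum ξ G x) - lc) ∂(Measure.pi fun _ : Fin M => ν) := by
      rw [integral_sub (hISM.const_mul s) (integrable_const _)]
      simp
    rw [this]
    exact integral_mono ((hISM.const_mul s).sub (integrable_const _)) hIP fun G => le_logAvg_smul _
  have hbU : b ≤ s * HM := by
    rw [hb, hHM, ← integral_const_mul]
    exact integral_mono hIG (hIHM.const_mul s) fun z => logAvg_smul_le _ hs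
  have hbL : s * HM - lc ≤ b := by
    rw [hb, hHM, ← integral_const_mul]
    have : ∫ z, s * ⨆ x, gaussVec A z x ∂(patternLaw n) - lc =
        ∫ z, (s * (⨆ x, gaussVec A z x) - lc) ∂(patternLaw n) := by
      rw [integral_sub (hIHM.const_mul s) (integrable_const _)]
      simp
    rw [this]
    exact integral_mono ((hIHM.const_mul s).sub (integrable_const _)) hIG fun z => le_logAvg_smul _
  have hcmp' := abs_le.mp hcmp
  have hs2 : 4 * M * K ^ 3 * s ^ 2 + lc / s = (4 * M * (s * K) ^ 3 + lc) / s := by
    field_simp
  rw [hs2, le_div_iff₀ hs]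
  rcases abs_cases (SM - HM) with ⟨h, _⟩ | ⟨h, _⟩ <;> rw [h]
  · have : (SM - HM) * s = s * SM - s * HM := by ring
    rw [this]
    linarith [hcmp'.1, hcmp'.2]
  · have : -(SM - HM) * s = s * HM - s * SM := by ring
    rw [this]
    linarith [hcmp'.1, hcmp'.2]

end Scaled

section Main

variable {N M : ℕ} {f : ℝ → ℝ}

/-- The centered potential as a random energy vector. -/
noncomputable def centeredEnergy (f : ℝ → ℝ) (x : Fin N → Bool) (g : Fin N → ℝ) : ℝ :=
  f (patternField x g) - gaussMean f

lemma measurable_centeredEnergy (hf : Measurable f) (x : Fin N → Bool) :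
    Measurable (centeredEnergy f x) :=
  (hf.comp (measurable_patternField x)).sub_const _

lemma abs_gaussMean_le {L : ℝ} (hfL : ∀ u, |f u| ≤ L) : |gaussMean f| ≤ L := by
  unfold gaussMean
  have h := norm_integral_le_of_norm_le_const (μ := gaussianReal 0 1) (f := f) (C := L)
    (Filter.Eventually.of_forall fun u => by simpa using hfL u)
  simpa using h

lemma abs_centeredEnergy_le {L : ℝ} (hfL : ∀ u, |f u| ≤ L) (x : Fin N → Bool) (g : Fin N → ℝ) :
    |centeredEnergy f x g| ≤ 2 * L := by
  unfold centeredEnergy
  have h1 := hfL (patternField x g)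
  have h2 := abs_gaussMean_le hfL
  calc |f (patternField x g) - gaussMean f| ≤ |f (patternField x g)| + |gaussMean f| :=
        abs_sub _ _
    _ ≤ 2 * L := by linarith

lemma integral_centeredEnergy (hN : 1 ≤ N) (hf : Measurable f) {L : ℝ} (hfL : ∀ u, |f u| ≤ L)
    (x : Fin N → Bool) : ∫ g, centeredEnergy f x g ∂(patternLaw N) = 0 := by
  unfold centeredEnergy
  have hint : Integrable (fun g => f (patternField x g)) (patternLaw N) :=
    integrable_of_bdd (hf.comp (measurable_patternField x)) fun g => hfL _
  rw [integral_sub hint (integrable_const _)]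
  have hmean : ∫ g, f (patternField x g) ∂(patternLaw N) = gaussMean f := by
    unfold gaussMean
    rw [← map_patternField hN x]
    exact (integral_map (measurable_patternField x).aemeasurable hf.aestronglyMeasurable).symm
  rw [hmean]
  simp

lemma kernelOf_centeredEnergy (hN : 1 ≤ N) (hf : Measurable f) {L : ℝ} (hfL : ∀ u, |f u| ≤ L)
    (x y : Fin N → Bool) :
    kernelOf (patternLaw N) (centeredEnergy (N := N) f) x y = overlapCov f (overlap x y) :=
  kernelOf_eq_overlapCov hN hf hfL x y

/-- The integrated form of the log partition identity. -/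
lemma integral_log_partitionFn (hf : Measurable f) {L : ℝ} (hfL : ∀ u, |f u| ≤ L) :
    ∫ G, Real.log (partitionFn f G) ∂(patternsLaw N M) =
      ∫ G, logAvg (patSum (centeredEnergy (N := N) f) G)
        ∂(Measure.pi fun _ : Fin M => patternLaw N) + M * gaussMean f := by
  have hint := integrable_logAvg_patSum (M := M) (ν := patternLaw N)
    (ξ := centeredEnergy (N := N) f) (K := 2 * L)
    (fun x => measurable_centeredEnergy hf x) (abs_centeredEnergy_le hfL)
  have h1 : ∀ G : Fin M → Fin N → ℝ, Real.log (partitionFn f G) =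
      logAvg (patSum (centeredEnergy (N := N) f) G) + M * gaussMean f := fun G =>
    log_partitionFn_eq G
  simp_rw [h1]
  unfold patternsLaw
  rw [integral_add hint (integrable_const _)]
  simp

/-- Reformulation of the Gaussian side. -/
lemma logAvg_gaussVec_eq {n : ℕ} (A : (Fin N → Bool) → Fin n → ℝ) (z : Fin n → ℝ) :
    logAvg (gaussVec A z) = Real.log ((∑ x, Real.exp (∑ j, A x j * z j)) / 2 ^ N) := by
  unfold logAvg gsum gaussVec
  have hcard : (Fintype.card (Fin N → Bool) : ℝ) = 2 ^ N := by
    simp
  rw [hcard]

/-- **Dense comparison theorem.** -/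
theorem dense_main (hN : 1 ≤ N) (hM : 1 ≤ M) (hf : Measurable f) {L : ℝ} (hL : 0 < L)
    (hfL : ∀ u, |f u| ≤ L) :
    (∃ (n : ℕ) (A : (Fin N → Bool) → Fin n → ℝ),
      ∀ x y, ∑ j, A x j * A y j = M * overlapCov f (overlap x y)) ∧
    ∀ (n : ℕ) (A : (Fin N → Bool) → Fin n → ℝ),
      (∀ x y, ∑ j, A x j * A y j = M * overlapCov f (overlap x y)) →
      |expectedPressure N M f - (M / N : ℝ) * (∫ u, f u ∂(gaussianReal 0 1)) -
        (1 / N : ℝ) * ∫ z, Real.log ((∑ x, Real.exp (∑ j, A x j * z j)) / 2 ^ N)
          ∂(patternLaw n)| ≤ 32 * (M / N : ℝ) * L ^ 3 ∧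
      |expectedPressure N M f - (M / N : ℝ) * (∫ u, f u ∂(gaussianReal 0 1)) -
        (1 / N : ℝ) * ∫ z, (⨆ x, ∑ j, A x j * z j) ∂(patternLaw n)| ≤
          Real.log 2 + 33 * ((M / N : ℝ) ^ (1 / 3 : ℝ)) * L := by
  have hN' : (0 : ℝ) < N := by exact_mod_cast hN
  have hM' : (0 : ℝ) < M := by exact_mod_cast hM
  have hξ := fun x => measurable_centeredEnergy (N := N) hf x
  have hK := abs_centeredEnergy_le (N := N) hfL
  have h0 := integral_centeredEnergy hN hf hfL
  constructor
  · obtain ⟨A, hA⟩ := exists_factor_kernel (ν := patternLaw N) hξ hK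
    refine ⟨_, fun x j => Real.sqrt M * A x j, fun x y => ?_⟩
    have : ∀ j, Real.sqrt M * A x j * (Real.sqrt M * A y j) =
        (Real.sqrt M) ^ 2 * (A x j * A y j) := fun j => by ring
    simp_rw [this]
    rw [← Finset.mul_sum, hA, Real.sq_sqrt hM'.le, kernelOf_centeredEnergy hN hf hfL]
  · intro n A hA
    have hA' : ∀ x y, ∑ j, A x j * A y j =
        M * kernelOf (patternLaw N) (centeredEnergy (N := N) f) x y := by
      intro x y
      rw [hA, kernelOf_centeredEnergy hN hf hfL]
    set m : ℝ := ∫ u, f u ∂(gaussianReal 0 1) with hm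
    have hm' : gaussMean f = m := rfl
    set a := ∫ G, logAvg (patSum (centeredEnergy (N := N) f) G)
      ∂(Measure.pi fun _ : Fin M => patternLaw N) with ha
    have hP : expectedPressure N M f - (M / N : ℝ) * m = (1 / N : ℝ) * a := by
      unfold expectedPressure
      rw [integral_log_partitionFn hf hfL, hm', ← ha]
      field_simp
      ring
    rw [hP]
    constructor
    · have hcmp := lindeberg_compare (M := M) hξ hK h0 A hA'
      simp_rw [logAvg_gaussVec_eq] at hcmp
      rw [← ha] at hcmp
      rw [← mul_sub, abs_mul, abs_of_pos (by positivity : (0 : ℝ) < 1 / N)]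
      calc (1 / N : ℝ) * _ ≤ (1 / N : ℝ) * (4 * M * (2 * L) ^ 3) := by gcongr
        _ = _ := by
          field_simp
          ring
    · -- the maximum
      set SM := ∫ G, ⨆ x, patSum (centeredEnergy (N := N) f) G x
        ∂(Measure.pi fun _ : Fin M => patternLaw N) with hSM
      set HM := ∫ z, (⨆ x, ∑ j, A x j * z j) ∂(patternLaw n) with hHM
      have hlc : Real.log (Fintype.card (Fin N → Bool)) = N * Real.log 2 := by
        have : (Fintype.card (Fin N → Bool) : ℝ) = 2 ^ N := by
          simp
        rw [this, Real.log_pow]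
      have hlog2 : 0 < Real.log 2 := Real.log_pos (by norm_num)
      have hlog2' : Real.log 2 ≤ 1 := by
        have := Real.log_two_lt_d9
        linarith
      -- the low-temperature step at `s = 1`
      have hIS := integrable_iSup_patSum (M := M) (ν := patternLaw N) hξ hK
      have hIL := integrable_logAvg_patSum (M := M) (ν := patternLaw N) hξ hK
      have haU : a ≤ SM := by
        rw [ha, hSM]
        refine integral_mono hIL hIS fun G => ?_
        have := logAvg_smul_le (patSum (centeredEnergy (N := N) f) G) (s := 1) one_pos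
        simpa using this
      have haL : SM - N * Real.log 2 ≤ a := by
        rw [ha, hSM]
        have h1 : ∫ G, ⨆ x, patSum (centeredEnergy (N := N) f) G x
            ∂(Measure.pi fun _ : Fin M => patternLaw N) - N * Real.log 2 =
            ∫ G, ((⨆ x, patSum (centeredEnergy (N := N) f) G x) - N * Real.log 2)
              ∂(Measure.pi fun _ : Fin M => patternLaw N) := by
          rw [integral_sub hIS (integrable_const _)]
          simp
        rw [h1]
        refine integral_mono (hIS.sub (integrable_const _)) hIL fun G => ?_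
        have := le_logAvg_smul (patSum (centeredEnergy (N := N) f) G) (s := 1)
        rw [hlc] at this
        simpa using this
      -- the choice of the inverse temperature
      set t : ℝ := (M / N : ℝ) ^ (1 / 3 : ℝ) with ht
      have htpos : 0 < t := Real.rpow_pos_of_pos (by positivity) _
      have ht3 : t ^ 3 = M / N := by
        rw [ht, ← Real.rpow_natCast, ← Real.rpow_mul (by positivity)]
        norm_num
      set s : ℝ := 1 / (t * L) with hs
      have hspos : 0 < s := by positivity
      have hcmp := iSup_compare (M := M) hξ hK h0 A hA' hspos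
      rw [hlc, ← hSM] at hcmp
      have hHM' : ∫ z, ⨆ x, gaussVec A z x ∂(patternLaw n) = HM := by
        rw [hHM]
        rfl
      rw [hHM'] at hcmp
      have hbound : 4 * (M : ℝ) * (2 * L) ^ 3 * s ^ 2 + N * Real.log 2 / s =
          N * t * L * (32 + Real.log 2) := by
        have hMeq : (M : ℝ) = N * t ^ 3 := by
          rw [ht3]
          field_simp
        rw [hs, hMeq]
        field_simp
        ring
      rw [hbound] at hcmp
      have hcmp' := abs_le.mp hcmp
      have hfinal : |a - HM| ≤ N * Real.log 2 + N * t * L * 33 := by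
        have hpos : 0 < N * t * L := by positivity
        have h1 : N * t * L * (32 + Real.log 2) ≤ N * t * L * 33 := by
          apply mul_le_mul_of_nonneg_left _ hpos.le
          linarith
        have hNlog : 0 < (N : ℝ) * Real.log 2 := by positivity
        rw [abs_le]
        constructor <;> linarith [hcmp'.1, hcmp'.2]
      rw [← mul_sub, abs_mul, abs_of_pos (by positivity : (0 : ℝ) < 1 / N)]
      calc (1 / N : ℝ) * |a - HM| ≤ (1 / N : ℝ) * (N * Real.log 2 + N * t * L * 33) := by gcongr
        _ = _ := by
          field_simp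

end Main

end Vale.Agent.Lib.P157
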