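import Vale.Agent.Lib.P157.AnnealedCrit
import Vale.Agent.Lib.P157.Dense

/-!
Convexity in the inverse temperature and the freezing transition.
-/

open MeasureTheory ProbabilityTheory Filter Topology
open scoped NNReal ENNReal

set_option linter.unusedSectionVars false

namespace Vale.Agent.Lib.P157

section Pointwise

variable {S : Type*} [Fintype S] [Nonempty S]

/-- Convexity of the log-sum-exp function. -/
lemma logAvg_mix_le (a b : S → ℝ) {l : ℝ} (hl0 : 0 ≤ l) (hl1 : l ≤ 1) :
    logAvg (fun x => l * a x + (1 - l) * b x) ≤ l * logAvg a + (1 - l) * logAvg b := by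
  have hcard : (0 : ℝ) < Fintype.card S := by exact_mod_cast Fintype.card_pos
  have hA := gsum_pos a
  have hB := gsum_pos b
  have hC := gsum_pos (fun x => l * a x + (1 - l) * b x)
  unfold logAvg
  rw [Real.log_div hC.ne' hcard.ne', Real.log_div hA.ne' hcard.ne', Real.log_div hB.ne' hcard.ne']
  set la := Real.log (gsum a) with hla
  set lb := Real.log (gsum b) with hlb
  have hkey : gsum (fun x => l * a x + (1 - l) * b x) ≤ Real.exp (l * la + (1 - l) * lb) := by
    have h1 : ∀ x, Real.exp (l * a x + (1 - l) * b x) ≤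
        Real.exp (l * la + (1 - l) * lb) *
          (l * (Real.exp (a x) / gsum a) + (1 - l) * (Real.exp (b x) / gsum b)) := by
      intro x
      have hconv := convexOn_exp.2 (Set.mem_univ (a x - la)) (Set.mem_univ (b x - lb)) hl0
        (sub_nonneg.mpr hl1) (by ring)
      simp only [smul_eq_mul] at hconv
      have e1 : Real.exp (a x - la) = Real.exp (a x) / gsum a := by
        rw [Real.exp_sub, hla, Real.exp_log hA]
      have e2 : Real.exp (b x - lb) = Real.exp (b x) / gsum b := by
        rw [Real.exp_sub, hlb, Real.exp_log hB]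
      rw [e1, e2] at hconv
      have e3 : Real.exp (l * a x + (1 - l) * b x) = Real.exp (l * la + (1 - l) * lb) *
          Real.exp (l * (a x - la) + (1 - l) * (b x - lb)) := by
        rw [← Real.exp_add]
        congr 1
        ring
      rw [e3]
      exact mul_le_mul_of_nonneg_left hconv (Real.exp_pos _).le
    unfold gsum at hA hB ⊢
    calc ∑ x, Real.exp (l * a x + (1 - l) * b x)
        ≤ ∑ x, Real.exp (l * la + (1 - l) * lb) *
          (l * (Real.exp (a x) / ∑ x, Real.exp (a x)) +
            (1 - l) * (Real.exp (b x) / ∑ x, Real.exp (b x))) :=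
          Finset.sum_le_sum fun x _ => h1 x
      _ = Real.exp (l * la + (1 - l) * lb) := by
          rw [← Finset.mul_sum, Finset.sum_add_distrib, ← Finset.mul_sum, ← Finset.mul_sum,
            ← Finset.sum_div, ← Finset.sum_div, div_self hA.ne', div_self hB.ne']
          ring
  have h2 := Real.log_le_log hC hkey
  rw [Real.log_exp] at h2
  nlinarith

/-- Comparison of the log-sum-exp function at two inverse temperatures. -/
lemma log_gsum_smul_le (v : S → ℝ) {θ : ℝ} (hθ1 : θ ≤ 1) :
    θ * Real.log (gsum v) ≤ Real.log (gsum fun x => θ * v x) := by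
  have hA := gsum_pos v
  have hB := gsum_pos fun x => θ * v x
  set m := Real.log (gsum v) with hm
  have h1 : ∀ x, v x ≤ m := by
    intro x
    have h2 : Real.exp (v x) ≤ gsum v :=
      Finset.single_le_sum (f := fun x => Real.exp (v x)) (fun _ _ => (Real.exp_pos _).le)
        (Finset.mem_univ x)
    have := Real.log_le_log (Real.exp_pos _) h2
    rwa [Real.log_exp] at this
  have h3 : Real.exp (θ * m) ≤ gsum fun x => θ * v x := by
    have h4 : ∀ x, Real.exp (v x) * Real.exp (-(1 - θ) * m) ≤ Real.exp (θ * v x) := by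
      intro x
      rw [← Real.exp_add]
      refine Real.exp_le_exp.mpr ?_
      have := mul_le_mul_of_nonneg_left (h1 x) (sub_nonneg.mpr hθ1)
      nlinarith
    have h5 : gsum v * Real.exp (-(1 - θ) * m) ≤ gsum fun x => θ * v x := by
      unfold gsum
      rw [Finset.sum_mul]
      exact Finset.sum_le_sum fun x _ => h4 x
    have h6 : gsum v * Real.exp (-(1 - θ) * m) = Real.exp (θ * m) := by
      have : gsum v = Real.exp m := (Real.exp_log hA).symm
      rw [this, ← Real.exp_add]
      congr 1
      ring
    rwa [h6] at h5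
  have := Real.log_le_log (Real.exp_pos _) h3
  rwa [Real.log_exp] at this

end Pointwise

section Cube

variable {N M : ℕ} {f : ℝ → ℝ}

/-- The energy of a configuration. -/
noncomputable def energy (f : ℝ → ℝ) (G : Fin M → Fin N → ℝ) (x : Fin N → Bool) : ℝ :=
  ∑ a, f (patternField x (G a))

lemma log_partitionFn_smul (s : ℝ) (G : Fin M → Fin N → ℝ) :
    Real.log (partitionFn (fun u => s * f u) G) = logAvg (fun x => s * energy f G x) := by
  unfold partitionFn logAvg gsum energy
  have hcard : (Fintype.card (Fin N → Bool) : ℝ) = 2 ^ N := by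
    simp
  rw [hcard]
  simp_rw [Finset.mul_sum]

lemma measurable_energy (hf : Measurable f) (x : Fin N → Bool) :
    Measurable (fun G : Fin M → Fin N → ℝ => energy f G x) := by
  unfold energy
  exact Finset.measurable_sum _ fun a _ =>
    hf.comp ((measurable_patternField x).comp (measurable_pi_apply a))

lemma abs_energy_le {L : ℝ} (hfL : ∀ u, |f u| ≤ L) (G : Fin M → Fin N → ℝ) (x : Fin N → Bool) :
    |energy f G x| ≤ M * L := by
  unfold energy
  calc _ ≤ ∑ a, |f (patternField x (G a))| := Finset.abs_sum_le_sum_abs _ _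
    _ ≤ ∑ _a : Fin M, L := Finset.sum_le_sum fun a _ => hfL _
    _ = M * L := by simp

lemma abs_smul_pot_le {L : ℝ} (hfL : ∀ u, |f u| ≤ L) (s u : ℝ) :
    |s * f u| ≤ |s| * L := by
  rw [abs_mul]
  exact mul_le_mul_of_nonneg_left (hfL u) (abs_nonneg _)

lemma probP : IsProbabilityMeasure (patternsLaw N M) := by
  unfold patternsLaw
  infer_instance

lemma integrable_logAvg_energy (hf : Measurable f) {L : ℝ} (hfL : ∀ u, |f u| ≤ L) (s : ℝ) :
    Integrable (fun G : Fin M → Fin N → ℝ => logAvg (fun x => s * energy f G x))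
      (patternsLaw N M) := by
  have := probP (N := N) (M := M)
  refine integrable_of_bdd (B := |s| * (M * L))
    (measurable_logAvg fun x => (measurable_energy hf x).const_mul s) fun G => ?_
  refine abs_logAvg_le _ fun x => ?_
  rw [abs_mul]
  exact mul_le_mul_of_nonneg_left (abs_energy_le hfL G x) (abs_nonneg _)

lemma expectedPressure_smul (s : ℝ) :
    expectedPressure N M (fun u => s * f u) =
      (∫ G, logAvg (fun x => s * energy f G x) ∂(patternsLaw N M)) / N := by
  unfold expectedPressure
  simp_rw [log_partitionFn_smul]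

/-- Convexity of the expected pressure in the inverse temperature. -/
lemma expectedPressure_mix_le (hN : 1 ≤ N) (hf : Measurable f) {L : ℝ} (hfL : ∀ u, |f u| ≤ L)
    (s t : ℝ) {l : ℝ} (hl0 : 0 ≤ l) (hl1 : l ≤ 1) :
    expectedPressure N M (fun u => (l * s + (1 - l) * t) * f u) ≤
      l * expectedPressure N M (fun u => s * f u) +
        (1 - l) * expectedPressure N M (fun u => t * f u) := by
  have hN' : (0 : ℝ) < N := by exact_mod_cast hN
  simp_rw [expectedPressure_smul]
  rw [← mul_div_assoc, ← mul_div_assoc, ← add_div]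
  refine div_le_div_of_nonneg_right ?_ hN'.le
  rw [← integral_const_mul, ← integral_const_mul, ← integral_add
    ((integrable_logAvg_energy hf hfL s).const_mul _)
    ((integrable_logAvg_energy hf hfL t).const_mul _)]
  refine integral_mono (integrable_logAvg_energy hf hfL _)
    (((integrable_logAvg_energy hf hfL s).const_mul _).add
      ((integrable_logAvg_energy hf hfL t).const_mul _)) fun G => ?_
  have := logAvg_mix_le (fun x => s * energy f G x) (fun x => t * energy f G x) hl0 hl1
  refine le_trans (le_of_eq ?_) this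
  congr 1
  funext x
  ring

/-- Annealed upper bound: Jensen's inequality. -/
lemma expectedPressure_le_annealed (hN : 1 ≤ N) (hM : 1 ≤ M) {h : ℝ → ℝ} (hh : Measurable h) {L : ℝ}
    (hL : 0 < L) (hhL : ∀ u, |h u| ≤ L) :
    expectedPressure N M h ≤ (M / N : ℝ) * Real.log (annealedConstant h) := by
  have h1 := pressure_sub_annealed (N := N) (M := M) hN hh hhL
  have h2 := (cube_bounds (N := N) (M := M) hN hM hh hL hhL).1
  have hN' : (0 : ℝ) < N := by exact_mod_cast hN
  have h3 : (∫ G, Real.log (normalizedPartition h G) ∂(patternsLaw N M)) / N ≤ 0 :=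
    div_nonpos_of_nonpos_of_nonneg (by linarith) hN'.le
  linarith

/-- The fractional moment bound. -/
lemma expectedPressure_frac_le (hN : 1 ≤ N) (hM : 1 ≤ M) (hf : Measurable f) {L : ℝ} (hL : 0 < L)
    (hfL : ∀ u, |f u| ≤ L) (s : ℝ) {θ : ℝ} (hθ0 : 0 < θ) (hθ1 : θ ≤ 1) :
    θ * expectedPressure N M (fun u => s * f u) ≤
      (1 - θ) * Real.log 2 + (M / N : ℝ) * Real.log (annealedConstant (fun u => (θ * s) * f u)) := by
  have hN' : (0 : ℝ) < N := by exact_mod_cast hN
  have hlc : Real.log (Fintype.card (Fin N → Bool)) = N * Real.log 2 := by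
    have : (Fintype.card (Fin N → Bool) : ℝ) = 2 ^ N := by
      simp
    rw [this, Real.log_pow]
  have hcard : (0 : ℝ) < Fintype.card (Fin N → Bool) := by exact_mod_cast Fintype.card_pos
  have hpt : ∀ G : Fin M → Fin N → ℝ, θ * logAvg (fun x => s * energy f G x) ≤
      logAvg (fun x => (θ * s) * energy f G x) + (1 - θ) * (N * Real.log 2) := by
    intro G
    have h1 := log_gsum_smul_le (fun x => s * energy f G x) hθ1
    unfold logAvg
    rw [Real.log_div (gsum_pos _).ne' hcard.ne', Real.log_div (gsum_pos _).ne' hcard.ne', hlc]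
    have h2 : (fun x => θ * (s * energy f G x)) = fun x => (θ * s) * energy f G x := by
      funext x
      ring
    rw [h2] at h1
    nlinarith
  have hint : θ * (∫ G, logAvg (fun x => s * energy f G x) ∂(patternsLaw N M)) ≤
      (∫ G, logAvg (fun x => (θ * s) * energy f G x) ∂(patternsLaw N M)) +
        (1 - θ) * (N * Real.log 2) := by
    have := probP (N := N) (M := M)
    rw [← integral_const_mul]
    have h3 : (∫ G, logAvg (fun x => (θ * s) * energy f G x) ∂(patternsLaw N M)) +
        (1 - θ) * (N * Real.log 2) =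
        ∫ G, (logAvg (fun x => (θ * s) * energy f G x) + (1 - θ) * (N * Real.log 2))
          ∂(patternsLaw N M) := by
      rw [integral_add (integrable_logAvg_energy hf hfL _) (integrable_const _)]
      simp
    rw [h3]
    exact integral_mono ((integrable_logAvg_energy hf hfL s).const_mul _)
      ((integrable_logAvg_energy hf hfL _).add (integrable_const _)) hpt
  have hann := expectedPressure_le_annealed (N := N) (M := M) hN hM
    (h := fun u => (θ * s) * f u) (hf.const_mul _) (L := |θ * s| * L + 1) (by positivity)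
    (fun u => (abs_smul_pot_le hfL _ _).trans (by linarith))
  rw [expectedPressure_smul] at hann
  rw [expectedPressure_smul]
  have h4 : θ * ((∫ G, logAvg (fun x => s * energy f G x) ∂(patternsLaw N M)) / N) =
      (θ * (∫ G, logAvg (fun x => s * energy f G x) ∂(patternsLaw N M))) / N := by ring
  rw [h4, div_le_iff₀ hN']
  have h5 : ((1 - θ) * Real.log 2 + (M / N : ℝ) *
      Real.log (annealedConstant (fun u => (θ * s) * f u))) * N =
      (1 - θ) * (N * Real.log 2) +
        ((M / N : ℝ) * Real.log (annealedConstant (fun u => (θ * s) * f u))) * N := by ring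
  rw [h5]
  have h6 := (div_le_iff₀ hN').mp hann
  linarith

end Cube

section Limit

variable {f : ℝ → ℝ}

lemma integrable_exp_smul (hf : Measurable f) {L : ℝ} (hfL : ∀ u, |f u| ≤ L) (s : ℝ) :
    Integrable (fun u => Real.exp (s * f u)) (gaussianReal 0 1) :=
  integrable_exp_of_bdd (hf.const_mul s) (fun u => abs_smul_pot_le hfL s u)

/-- The derivative of the cumulant generating function of the potential. -/
lemma hasDerivAt_log_annealed (hf : Measurable f) {L : ℝ} (hfL : ∀ u, |f u| ≤ L) (s : ℝ) :
    HasDerivAt (fun t => Real.log (annealedConstant (fun u => t * f u))) (tiltedMean f s) s := by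
  have hset : integrableExpSet f (gaussianReal 0 1) = Set.univ := by
    ext t
    simp only [Set.mem_univ, iff_true]
    exact integrable_exp_smul hf hfL t
  have h1 : HasDerivAt (mgf f (gaussianReal 0 1))
      (∫ u, f u * Real.exp (s * f u) ∂(gaussianReal 0 1)) s :=
    hasDerivAt_mgf (by simp [hset])
  have h2 : ∀ t, annealedConstant (fun u => t * f u) = mgf f (gaussianReal 0 1) t := fun t => rfl
  have hpos : mgf f (gaussianReal 0 1) s ≠ 0 := by
    rw [← h2]
    exact (annealedConstant_pos (hf.const_mul s) (L := |s| * L)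
      (fun u => abs_smul_pot_le hfL s u)).ne'
  have h3 := h1.log hpos
  simp_rw [h2]
  exact h3

/-- Squeezing of the density ratio. -/
lemma tendsto_floor_div {α : ℝ} (hα : 0 < α) :
    Tendsto (fun N : ℕ => ((⌊α * N⌋₊ : ℝ) / N)) atTop (𝓝 α) :=
  (tendsto_nat_floor_mul_div_atTop hα.le).comp tendsto_natCast_atTop_atTop

lemma eventually_floor_pos {α : ℝ} (hα : 0 < α) : ∀ᶠ N : ℕ in atTop, 1 ≤ ⌊α * N⌋₊ := by
  have h1 : ∀ᶠ n : ℕ in atTop, 1 / α ≤ (n : ℝ) :=
    tendsto_natCast_atTop_atTop.eventually_ge_atTop _
  filter_upwards [h1] with n hn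
  apply Nat.le_floor
  have : 1 ≤ α * n := by
    rw [div_le_iff₀ hα] at hn
    linarith
  simpa using this

/-- **Freezing.** If the annealed formula holds at the critical inverse temperature `sc`, then the
pressure is linear in the inverse temperature beyond `sc`. -/
theorem freezing_limit {α : ℝ} (hα : 0 < α) (hf : Measurable f) {L : ℝ} (hL : 0 < L)
    (hfL : ∀ u, |f u| ≤ L) {sc : ℝ} (hsc : 0 < sc)
    (hREM : α * (sc * tiltedMean f sc - Real.log (annealedConstant (fun u => sc * f u))) =
      Real.log 2)
    (hAnn : Tendsto (fun N : ℕ => expectedPressure N ⌊α * N⌋₊ (fun u => sc * f u)) atTop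
      (𝓝 (α * Real.log (annealedConstant (fun u => sc * f u)))))
    {s : ℝ} (hs : sc ≤ s) :
    Tendsto (fun N : ℕ => expectedPressure N ⌊α * N⌋₊ (fun u => s * f u)) atTop
      (𝓝 (s * (α * tiltedMean f sc) - Real.log 2)) := by
  set ψ : ℝ → ℝ := fun t => Real.log (annealedConstant (fun u => t * f u)) with hψ
  set e := tiltedMean f sc with he
  have hψc : ψ sc = Real.log (annealedConstant (fun u => sc * f u)) := rfl
  rw [← hψc] at hREM hAnn
  rcases eq_or_lt_of_le hs with rfl | hlt
  · have : sc * (α * e) - Real.log 2 = α * ψ sc := by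
      rw [← hREM]
      ring
    rw [this]
    exact hAnn
  have hspos : 0 < s := hsc.trans hlt
  have hevN : ∀ᶠ n : ℕ in atTop, 1 ≤ n := eventually_ge_atTop 1
  have hevM := eventually_floor_pos hα
  have hr := tendsto_floor_div hα
  have hREM' : α * ψ sc = α * (sc * e) - Real.log 2 := by
    rw [← hREM]
    ring
  refine tendsto_order.2 ⟨fun a ha => ?_, fun b hb => ?_⟩
  · -- lower bound through convexity
    set d := s * (α * e) - Real.log 2 - a with hd
    have hdpos : 0 < d := by
      rw [hd]
      linarith
    have hslope := (hasDerivAt_log_annealed hf hfL sc).tendsto_slope_zero_left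
    have hslope2 : Tendsto (fun t : ℝ => (s - sc) * (α * (t⁻¹ • (ψ (sc + t) - ψ sc)))) (𝓝[<] 0)
        (𝓝 ((s - sc) * (α * e))) := (hslope.const_mul α).const_mul (s - sc)
    have hev1 := hslope2.eventually (lt_mem_nhds (show (s - sc) * (α * e) - d / 2 <
      (s - sc) * (α * e) by linarith))
    have hev3 : ∀ᶠ t : ℝ in 𝓝[<] 0, t < 0 := eventually_mem_nhdsWithin
    obtain ⟨t, ht1, ht3⟩ := (hev1.and hev3).exists
    set ε := -t with hε
    have hεpos : 0 < ε := by
      rw [hε]
      linarith
    have htε : t = -ε := by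
      rw [hε]
      ring
    set D := s - sc with hD
    have hDpos : 0 < D := by
      rw [hD]
      linarith
    have hmix : 0 < D + ε := by linarith
    set l := D / (D + ε) with hl
    have hl0 : 0 ≤ l := by positivity
    have h1l : 1 - l = ε / (D + ε) := by
      rw [hl]
      field_simp
      ring
    have hl1' : 0 < 1 - l := by
      rw [h1l]
      positivity
    have hl1 : l ≤ 1 := by linarith
    have hcombo : l * (sc + t) + (1 - l) * s = sc := by
      rw [h1l, hl, htε]
      have hss : s = D + sc := by
        rw [hD]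
        ring
      rw [hss]
      field_simp
      ring
    set P0 := ψ sc with hP0
    set P1 := ψ (sc + t) with hP1
    -- the lower function
    set v : ℕ → ℝ := fun N => (expectedPressure N ⌊α * N⌋₊ (fun u => sc * f u) -
      l * (((⌊α * N⌋₊ : ℝ) / N) * P1)) / (1 - l) with hv
    have hvlim : Tendsto v atTop (𝓝 ((α * P0 - l * (α * P1)) / (1 - l))) :=
      (hAnn.sub ((hr.mul_const _).const_mul l)).div_const _
    have key : (α * P0 - l * (α * P1)) / (1 - l) = α * P0 + D * (α * ((P0 - P1) / ε)) := by
      rw [h1l, hl]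
      field_simp
      ring
    have hSl : t⁻¹ • (P1 - P0) = (P0 - P1) / ε := by
      rw [htε, smul_eq_mul, inv_neg]
      field_simp
      ring
    rw [hSl] at ht1
    have hLε : a < (α * P0 - l * (α * P1)) / (1 - l) := by
      rw [key, hREM']
      have h5 : D * (α * e) = s * (α * e) - sc * (α * e) := by
        rw [hD]
        ring
      have h6 : a = s * (α * e) - Real.log 2 - d := by
        rw [hd]
        ring
      have h7 : α * (sc * e) = sc * (α * e) := by ring
      rw [h6, h7]
      linarith
    filter_upwards [hvlim.eventually (lt_mem_nhds hLε), hevN, hevM] with N hN1 hN2 hN3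
    refine lt_of_lt_of_le hN1 ?_
    simp only [hv]
    rw [div_le_iff₀ hl1']
    have hconv := expectedPressure_mix_le (N := N) (M := ⌊α * N⌋₊) hN2 hf hfL (sc + t) s hl0 hl1
    rw [hcombo] at hconv
    have hann := expectedPressure_le_annealed (N := N) (M := ⌊α * N⌋₊) hN2 hN3
      (h := fun u => (sc + t) * f u) (hf.const_mul _) (L := |sc + t| * L + 1) (by positivity)
      (fun u => (abs_smul_pot_le hfL _ _).trans (by linarith))
    have h8 : l * expectedPressure N ⌊α * N⌋₊ (fun u => (sc + t) * f u) ≤
        l * (((⌊α * N⌋₊ : ℝ) / N) * P1) := mul_le_mul_of_nonneg_left hann hl0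
    nlinarith
  · -- upper bound through the fractional moment
    set θ := sc / s with hθ
    have hθ0 : 0 < θ := by positivity
    have hθ1 : θ ≤ 1 := by
      rw [hθ, div_le_one hspos]
      exact hlt.le
    have hθs : θ * s = sc := by
      rw [hθ]
      field_simp
    set w : ℕ → ℝ := fun N => ((1 - θ) * Real.log 2 + ((⌊α * N⌋₊ : ℝ) / N) * ψ sc) / θ with hw
    have hwlim : Tendsto w atTop (𝓝 (((1 - θ) * Real.log 2 + α * ψ sc) / θ)) :=
      ((hr.mul_const _).const_add _).div_const _
    have hval : ((1 - θ) * Real.log 2 + α * ψ sc) / θ = s * (α * e) - Real.log 2 := by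
      rw [hREM', hθ]
      field_simp
      ring
    rw [hval] at hwlim
    filter_upwards [hwlim.eventually (gt_mem_nhds hb), hevN, hevM] with N hN1 hN2 hN3
    refine lt_of_le_of_lt ?_ hN1
    simp only [hw]
    rw [le_div_iff₀ hθ0]
    have hfr := expectedPressure_frac_le (N := N) (M := ⌊α * N⌋₊) hN2 hN3 hf hL hfL s hθ0 hθ1
    rw [hθs] at hfr
    linarith

/-- The energy integrates. -/
lemma integrable_iSup_energy {N M : ℕ} (hf : Measurable f) {L : ℝ} (hfL : ∀ u, |f u| ≤ L) :
    Integrable (fun G : Fin M → Fin N → ℝ => ⨆ x, energy f G x) (patternsLaw N M) := by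
  have := probP (N := N) (M := M)
  exact integrable_of_bdd (Measurable.iSup fun x => measurable_energy hf x)
    fun G => abs_iSup_le _ fun x => abs_energy_le hfL G x

/-- The expected pressure and the expected ground state energy. -/
lemma pressure_ground_bounds {N M : ℕ} (hN : 1 ≤ N) (hf : Measurable f) {L : ℝ}
    (hfL : ∀ u, |f u| ≤ L) {s : ℝ} (hs : 0 < s) :
    s * ((1 / N : ℝ) * ∫ G, ⨆ x, energy f G x ∂(patternsLaw N M)) - Real.log 2 ≤
        expectedPressure N M (fun u => s * f u) ∧
      expectedPressure N M (fun u => s * f u) ≤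
        s * ((1 / N : ℝ) * ∫ G, ⨆ x, energy f G x ∂(patternsLaw N M)) := by
  have hN' : (0 : ℝ) < N := by exact_mod_cast hN
  have := probP (N := N) (M := M)
  have hlc : Real.log (Fintype.card (Fin N → Bool)) = N * Real.log 2 := by
    have : (Fintype.card (Fin N → Bool) : ℝ) = 2 ^ N := by
      simp
    rw [this, Real.log_pow]
  have hI := integrable_iSup_energy (N := N) (M := M) hf hfL
  have hJ := integrable_logAvg_energy (N := N) (M := M) hf hfL s
  rw [expectedPressure_smul]
  set T := ∫ G, ⨆ x, energy f G x ∂(patternsLaw N M) with hT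
  have h1 : ∫ G, logAvg (fun x => s * energy f G x) ∂(patternsLaw N M) ≤ s * T := by
    rw [hT, ← integral_const_mul]
    exact integral_mono hJ (hI.const_mul s) fun G => logAvg_smul_le _ hs
  have h2 : s * T - N * Real.log 2 ≤ ∫ G, logAvg (fun x => s * energy f G x) ∂(patternsLaw N M) := by
    have h3 : s * T - N * Real.log 2 =
        ∫ G, (s * (⨆ x, energy f G x) - N * Real.log 2) ∂(patternsLaw N M) := by
      rw [integral_sub (hI.const_mul s) (integrable_const _), integral_const_mul]
      simp [hT]
    rw [h3]
    refine integral_mono ((hI.const_mul s).sub (integrable_const _)) hJ fun G => ?_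
    have := le_logAvg_smul (energy f G) (s := s)
    rwa [hlc] at this
  constructor
  · rw [le_div_iff₀ hN']
    have : (s * ((1 / N : ℝ) * T) - Real.log 2) * N = s * T - N * Real.log 2 := by
      field_simp
    rw [this]
    exact h2
  · rw [div_le_iff₀ hN']
    have : s * ((1 / N : ℝ) * T) * N = s * T := by
      field_simp
    rw [this]
    exact h1

/-- **Ground state energy in the frozen phase.** -/
theorem ground_state_limit {α : ℝ} (hα : 0 < α) (hf : Measurable f) {L : ℝ} (hL : 0 < L)
    (hfL : ∀ u, |f u| ≤ L) {sc : ℝ} (hsc : 0 < sc)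
    (hREM : α * (sc * tiltedMean f sc - Real.log (annealedConstant (fun u => sc * f u))) =
      Real.log 2)
    (hAnn : Tendsto (fun N : ℕ => expectedPressure N ⌊α * N⌋₊ (fun u => sc * f u)) atTop
      (𝓝 (α * Real.log (annealedConstant (fun u => sc * f u))))) :
    Tendsto (fun N : ℕ => (1 / N : ℝ) * ∫ G, ⨆ x, energy f G x ∂(patternsLaw N ⌊α * N⌋₊)) atTop
      (𝓝 (α * tiltedMean f sc)) := by
  set X := α * tiltedMean f sc with hX
  have hlog2 : 0 < Real.log 2 := Real.log_pos (by norm_num)
  have hevN : ∀ᶠ n : ℕ in atTop, 1 ≤ n := eventually_ge_atTop 1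
  refine tendsto_order.2 ⟨fun a ha => ?_, fun b hb => ?_⟩
  · -- lower bound: a large inverse temperature
    set s := max sc (2 * Real.log 2 / (X - a)) + 1 with hs
    have hdiff : 0 < X - a := by linarith
    have hs1 : sc ≤ s := by
      rw [hs]
      linarith [le_max_left sc (2 * Real.log 2 / (X - a))]
    have hs2 : 2 * Real.log 2 / (X - a) ≤ s := by
      rw [hs]
      linarith [le_max_right sc (2 * Real.log 2 / (X - a))]
    have hspos : 0 < s := by linarith
    have hlim := freezing_limit hα hf hL hfL hsc hREM hAnn hs1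
    have hval : a * s < s * X - Real.log 2 := by
      rw [div_le_iff₀ hdiff] at hs2
      nlinarith
    filter_upwards [hlim.eventually (lt_mem_nhds hval), hevN] with N hN1 hN2
    have hb := (pressure_ground_bounds (N := N) (M := ⌊α * N⌋₊) hN2 hf hfL hspos).2
    have h3 : a * s < s * ((1 / N : ℝ) * ∫ G, ⨆ x, energy f G x ∂(patternsLaw N ⌊α * N⌋₊)) :=
      hN1.trans_le hb
    have h4 : s * a < s * ((1 / N : ℝ) * ∫ G, ⨆ x, energy f G x ∂(patternsLaw N ⌊α * N⌋₊)) := by
      linarith
    exact lt_of_mul_lt_mul_left h4 hspos.le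
  · -- upper bound: the critical inverse temperature
    have hlim := freezing_limit hα hf hL hfL hsc hREM hAnn (le_refl sc)
    have hval : sc * X - Real.log 2 < sc * b - Real.log 2 := by
      have := mul_lt_mul_of_pos_left hb hsc
      linarith
    filter_upwards [hlim.eventually (gt_mem_nhds hval), hevN] with N hN1 hN2
    have hb2 := (pressure_ground_bounds (N := N) (M := ⌊α * N⌋₊) hN2 hf hfL hsc).1
    have h3 : sc * ((1 / N : ℝ) * ∫ G, ⨆ x, energy f G x ∂(patternsLaw N ⌊α * N⌋₊)) < sc * b := by
      linarith
    exact lt_of_mul_lt_mul_left h3 hsc.le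

end Limit

end Vale.Agent.Lib.P157
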