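import Vale.Agent.Lib.P157.CondMoment

/-!
Elementary facts on the Gaussian noise operator and on the binary entropy.
-/

open MeasureTheory ProbabilityTheory Complex
open scoped NNReal ENNReal

set_option linter.unusedSectionVars false

namespace Vale.Agent.Lib.P157

/-- A rotation of a pair of independent standard Gaussians. -/
lemma map_rotation {ρ σ : ℝ} (h : ρ ^ 2 + σ ^ 2 = 1) :
    ((gaussianReal 0 1).prod (gaussianReal 0 1)).map (fun p : ℝ × ℝ => ρ * p.1 + σ * p.2) =
      gaussianReal 0 1 := by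
  have hm : Measurable (fun p : ℝ × ℝ => ρ * p.1 + σ * p.2) := by fun_prop
  have : IsProbabilityMeasure (((gaussianReal 0 1).prod (gaussianReal 0 1)).map
      (fun p : ℝ × ℝ => ρ * p.1 + σ * p.2)) := Measure.isProbabilityMeasure_map hm.aemeasurable
  refine Measure.ext_of_charFun ?_
  funext t
  rw [charFun_apply_real, charFun_apply_real]
  have hc : Continuous fun v : ℝ => cexp ((t : ℂ) * (v : ℂ) * I) := by fun_prop
  rw [integral_map hm.aemeasurable hc.aestronglyMeasurable]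
  have h1 : ∀ p : ℝ × ℝ, cexp ((t : ℂ) * ((ρ * p.1 + σ * p.2 : ℝ) : ℂ) * I) =
      cexp (((t * ρ : ℝ) : ℂ) * (p.1 : ℂ) * I) * cexp (((t * σ : ℝ) : ℂ) * (p.2 : ℂ) * I) := by
    intro p
    rw [← Complex.exp_add]
    congr 1
    push_cast
    ring
  simp_rw [h1]
  rw [integral_prod_mul (L := ℂ) (fun u : ℝ => cexp (((t * ρ : ℝ) : ℂ) * (u : ℂ) * I))
    (fun w : ℝ => cexp (((t * σ : ℝ) : ℂ) * (w : ℂ) * I))]
  have h2 : ∀ c : ℝ, ∫ u : ℝ, cexp ((c : ℂ) * (u : ℂ) * I) ∂(gaussianReal 0 1) =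
      cexp (-((c : ℂ) ^ 2 / 2)) := by
    intro c
    have := charFun_gaussianReal (μ := 0) (v := 1) c
    rw [charFun_apply_real] at this
    rw [this]
    congr 1
    simp
  rw [h2, h2, h2, ← Complex.exp_add]
  congr 1
  have h3 : ((ρ : ℂ)) ^ 2 + (σ : ℂ) ^ 2 = 1 := by
    have := congrArg (fun x : ℝ => (x : ℂ)) h
    push_cast at this
    exact this
  push_cast
  linear_combination (-(t : ℂ) ^ 2 / 2) * h3

variable {h : ℝ → ℝ}

/-- The noise operator preserves the Gaussian integral. -/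
lemma integral_noiseAvg (hm : Measurable h) {B : ℝ} (hB : ∀ u, |h u| ≤ B) {ρ : ℝ} (hρ : |ρ| ≤ 1) :
    ∫ v, noiseAvg h ρ v ∂(gaussianReal 0 1) = ∫ u, h u ∂(gaussianReal 0 1) := by
  have hρ2 : ρ ^ 2 ≤ 1 := by
    rw [← sq_abs]
    exact pow_le_one₀ (abs_nonneg _) hρ
  set σ := Real.sqrt (1 - ρ ^ 2) with hσ
  have hσ2 : σ ^ 2 = 1 - ρ ^ 2 := Real.sq_sqrt (by linarith)
  have hrot := map_rotation (ρ := ρ) (σ := σ) (by linarith)
  have hmm : Measurable (fun p : ℝ × ℝ => ρ * p.1 + σ * p.2) := by fun_prop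
  conv_rhs => rw [← hrot]
  rw [integral_map hmm.aemeasurable hm.aestronglyMeasurable]
  unfold noiseAvg
  rw [← hσ]
  refine (integral_prod (μ := gaussianReal 0 1) (ν := gaussianReal 0 1)
    (fun p : ℝ × ℝ => h (ρ * p.1 + σ * p.2)) ?_).symm
  exact integrable_of_bdd (hm.comp hmm) fun p => hB _

/-- The Gaussian law is invariant under the sign change. -/
lemma integral_comp_neg_gaussian (g : ℝ → ℝ) :
    ∫ w, g (-w) ∂(gaussianReal 0 1) = ∫ w, g w ∂(gaussianReal 0 1) := by
  have hneg : (gaussianReal 0 1).map (fun x => -x) = gaussianReal 0 1 := by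
    rw [gaussianReal_map_neg]
    simp
  conv_rhs => rw [← hneg]
  exact ((MeasurableEquiv.neg ℝ).measurableEmbedding.integral_map _).symm

/-- The noise operator of an even function is even in the argument. -/
lemma noiseAvg_neg_arg (heven : ∀ u, h (-u) = h u) (ρ v : ℝ) :
    noiseAvg h ρ (-v) = noiseAvg h ρ v := by
  unfold noiseAvg
  rw [← integral_comp_neg_gaussian]
  refine integral_congr_ae (Filter.Eventually.of_forall fun w => ?_)
  simp only
  rw [← heven]
  congr 1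
  ring

/-- The noise operator of an even function is even in the correlation. -/
lemma noiseAvg_neg_corr (heven : ∀ u, h (-u) = h u) (ρ v : ℝ) :
    noiseAvg h (-ρ) v = noiseAvg h ρ v := by
  unfold noiseAvg
  rw [← integral_comp_neg_gaussian]
  refine integral_congr_ae (Filter.Eventually.of_forall fun w => ?_)
  simp only
  rw [← heven]
  congr 1
  rw [neg_sq]
  ring

/-- The noise operator as an integral against a Gaussian law with shifted mean. -/
lemma noiseAvg_eq_integral_shift (hm : Measurable h) {ρ σ : ℝ} (hσ0 : 0 ≤ σ)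
    (hσ : σ ^ 2 = 1 - ρ ^ 2) (v : ℝ) :
    noiseAvg h ρ v = ∫ t, h t ∂(gaussianReal (ρ * v) ⟨σ ^ 2, sq_nonneg _⟩) := by
  have hs : Real.sqrt (1 - ρ ^ 2) = σ := by
    rw [← hσ, Real.sqrt_sq hσ0]
  unfold noiseAvg
  rw [hs]
  have h1 : (gaussianReal 0 1).map (fun w => ρ * v + σ * w) =
      gaussianReal (ρ * v) ⟨σ ^ 2, sq_nonneg _⟩ := by
    have h2 : (fun w : ℝ => ρ * v + σ * w) = (fun t => t + ρ * v) ∘ (fun w => σ * w) := by
      funext w
      simp only [Function.comp]
      ring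
    rw [h2, ← Measure.map_map (by fun_prop) (by fun_prop), gaussianReal_map_const_mul,
      gaussianReal_map_add_const]
    congr 1
    · simp
    · ext
      simp
      rfl
  rw [← h1]
  have hm2 : Measurable (fun w : ℝ => ρ * v + σ * w) := by fun_prop
  exact (integral_map hm2.aemeasurable hm.aestronglyMeasurable).symm

/-- Density form of the Gaussian integral. -/
lemma integral_gaussian_density {m σ : ℝ} (hσ : 0 < σ) (g : ℝ → ℝ) :
    ∫ t, g t ∂(gaussianReal m ⟨σ ^ 2, sq_nonneg _⟩) =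
      ∫ t, (Real.sqrt (2 * Real.pi) * σ)⁻¹ * Real.exp (-(t - m) ^ 2 / (2 * σ ^ 2)) * g t := by
  set w : ℝ≥0 := ⟨σ ^ 2, sq_nonneg _⟩ with hwd
  have hw : (w : ℝ) = σ ^ 2 := rfl
  have hv : w ≠ 0 := by
    intro h0
    have h1 : (w : ℝ) = 0 := by
      rw [h0]
      rfl
    rw [hw] at h1
    have : σ ^ 2 > 0 := by positivity
    linarith
  rw [integral_gaussianReal_eq_integral_smul hv]
  refine integral_congr_ae (Filter.Eventually.of_forall fun t => ?_)
  simp only [gaussianPDFReal, smul_eq_mul]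
  have h1 : Real.sqrt (2 * Real.pi * σ ^ 2) = Real.sqrt (2 * Real.pi) * σ := by
    rw [Real.sqrt_mul (by positivity), Real.sqrt_sq hσ.le]
  rw [hw, h1]

/-- The Gaussian density with variance `σ ^ 2`. -/
lemma pdf_eq {m σ : ℝ} (hσ : 0 < σ) (t : ℝ) :
    gaussianPDFReal m ⟨σ ^ 2, sq_nonneg _⟩ t =
      (Real.sqrt (2 * Real.pi) * σ)⁻¹ * Real.exp (-(t - m) ^ 2 / (2 * σ ^ 2)) := by
  set w : ℝ≥0 := ⟨σ ^ 2, sq_nonneg _⟩ with hwd
  have hw : (w : ℝ) = σ ^ 2 := rfl
  simp only [gaussianPDFReal]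
  have h1 : Real.sqrt (2 * Real.pi * σ ^ 2) = Real.sqrt (2 * Real.pi) * σ := by
    rw [Real.sqrt_mul (by positivity), Real.sqrt_sq hσ.le]
  rw [hw, h1]

end Vale.Agent.Lib.P157
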