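import Mathlib

/-!
Finite Gibbs averages and their derivatives along paths.
-/

set_option linter.unusedSectionVars false

namespace Vale.Agent.Lib.P157

section GibbsCalc

variable {S : Type*} [Fintype S] [Nonempty S]

/-- Partition sum of a finite energy vector. -/
noncomputable def gsum (v : S → ℝ) : ℝ := ∑ x, Real.exp (v x)

/-- Gibbs weight of a configuration. -/
noncomputable def gwt (v : S → ℝ) (x : S) : ℝ := Real.exp (v x) / gsum v

/-- Gibbs average. -/
noncomputable def gavg (v a : S → ℝ) : ℝ := ∑ x, gwt v x * a x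

/-- Gibbs covariance. -/
noncomputable def gcov (v a b : S → ℝ) : ℝ :=
  gavg v (fun x => a x * b x) - gavg v a * gavg v b

/-- Gibbs third joint cumulant. -/
noncomputable def gcum (v a c b : S → ℝ) : ℝ :=
  gavg v (fun x => a x * c x * b x) - gavg v (fun x => a x * c x) * gavg v b
    - gavg v (fun x => a x * b x) * gavg v c - gavg v a * gavg v (fun x => c x * b x)
    + 2 * (gavg v a * gavg v c * gavg v b)

/-- Logarithm of the uniform average of `exp v`. -/
noncomputable def logAvg (v : S → ℝ) : ℝ := Real.log (gsum v / Fintype.card S)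

lemma gsum_pos (v : S → ℝ) : 0 < gsum v :=
  Finset.sum_pos (fun _ _ => Real.exp_pos _) Finset.univ_nonempty

lemma gwt_pos (v : S → ℝ) (x : S) : 0 < gwt v x := div_pos (Real.exp_pos _) (gsum_pos v)

lemma sum_gwt (v : S → ℝ) : ∑ x, gwt v x = 1 := by
  unfold gwt
  rw [← Finset.sum_div]
  exact div_self (gsum_pos v).ne'

lemma abs_gavg_le (v a : S → ℝ) {K : ℝ} (h : ∀ x, |a x| ≤ K) : |gavg v a| ≤ K := by
  unfold gavg
  calc |∑ x, gwt v x * a x| ≤ ∑ x, |gwt v x * a x| := Finset.abs_sum_le_sum_abs _ _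
    _ = ∑ x, gwt v x * |a x| := by
        refine Finset.sum_congr rfl fun x _ => ?_
        rw [abs_mul, abs_of_pos (gwt_pos v x)]
    _ ≤ ∑ x, gwt v x * K :=
        Finset.sum_le_sum fun x _ => mul_le_mul_of_nonneg_left (h x) (gwt_pos v x).le
    _ = K := by rw [← Finset.sum_mul, sum_gwt, one_mul]

lemma gavg_add (v a b : S → ℝ) : gavg v (fun x => a x + b x) = gavg v a + gavg v b := by
  unfold gavg
  rw [← Finset.sum_add_distrib]
  exact Finset.sum_congr rfl fun x _ => by ring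

lemma gavg_sub (v a b : S → ℝ) : gavg v (fun x => a x - b x) = gavg v a - gavg v b := by
  unfold gavg
  rw [← Finset.sum_sub_distrib]
  exact Finset.sum_congr rfl fun x _ => by ring

lemma gavg_const_mul (v a : S → ℝ) (c : ℝ) : gavg v (fun x => c * a x) = c * gavg v a := by
  unfold gavg
  rw [Finset.mul_sum]
  exact Finset.sum_congr rfl fun x _ => by ring

lemma gavg_sum {ι : Type*} (s : Finset ι) (v : S → ℝ) (a : ι → S → ℝ) :
    gavg v (fun x => ∑ i ∈ s, a i x) = ∑ i ∈ s, gavg v (a i) := by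
  unfold gavg
  simp_rw [Finset.mul_sum]
  rw [Finset.sum_comm]

lemma abs_gcov_le (v a b : S → ℝ) {Ka Kb : ℝ} (ha : ∀ x, |a x| ≤ Ka) (hb : ∀ x, |b x| ≤ Kb) :
    |gcov v a b| ≤ 2 * (Ka * Kb) := by
  obtain ⟨x0⟩ := (inferInstance : Nonempty S)
  have hKa : 0 ≤ Ka := (abs_nonneg _).trans (ha x0)
  have hKb : 0 ≤ Kb := (abs_nonneg _).trans (hb x0)
  unfold gcov
  have h1 : |gavg v (fun x => a x * b x)| ≤ Ka * Kb := abs_gavg_le v _ fun x => by
    rw [abs_mul]
    exact mul_le_mul (ha x) (hb x) (abs_nonneg _) hKa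
  have h2 : |gavg v a * gavg v b| ≤ Ka * Kb := by
    rw [abs_mul]
    exact mul_le_mul (abs_gavg_le v a ha) (abs_gavg_le v b hb) (abs_nonneg _) hKa
  calc _ ≤ |gavg v (fun x => a x * b x)| + |gavg v a * gavg v b| := abs_sub _ _
    _ ≤ _ := by linarith

lemma abs_gcum_le (v a c b : S → ℝ) {Ka Kc Kb : ℝ} (ha : ∀ x, |a x| ≤ Ka) (hc : ∀ x, |c x| ≤ Kc)
    (hb : ∀ x, |b x| ≤ Kb) : |gcum v a c b| ≤ 6 * (Ka * Kc * Kb) := by
  obtain ⟨x0⟩ := (inferInstance : Nonempty S)
  have hKa : 0 ≤ Ka := (abs_nonneg _).trans (ha x0)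
  have hKb : 0 ≤ Kb := (abs_nonneg _).trans (hb x0)
  have hKc : 0 ≤ Kc := (abs_nonneg _).trans (hc x0)
  have hac : ∀ x, |a x * c x| ≤ Ka * Kc := fun x => by
    rw [abs_mul]; exact mul_le_mul (ha x) (hc x) (abs_nonneg _) hKa
  have hab : ∀ x, |a x * b x| ≤ Ka * Kb := fun x => by
    rw [abs_mul]; exact mul_le_mul (ha x) (hb x) (abs_nonneg _) hKa
  have hcb : ∀ x, |c x * b x| ≤ Kc * Kb := fun x => by
    rw [abs_mul]; exact mul_le_mul (hc x) (hb x) (abs_nonneg _) hKc
  have hacb : ∀ x, |a x * c x * b x| ≤ Ka * Kc * Kb := fun x => by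
    rw [abs_mul]; exact mul_le_mul (hac x) (hb x) (abs_nonneg _) (by positivity)
  have e0 := abs_gavg_le v _ hacb
  have e1 := abs_gavg_le v _ hac
  have e2 := abs_gavg_le v _ hab
  have e3 := abs_gavg_le v _ hcb
  have ea := abs_gavg_le v _ ha
  have eb := abs_gavg_le v _ hb
  have ec := abs_gavg_le v _ hc
  set A := gavg v (fun x => a x * c x * b x)
  set B := gavg v (fun x => a x * c x)
  set C := gavg v (fun x => a x * b x)
  set D := gavg v (fun x => c x * b x)
  set p := gavg v a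
  set q := gavg v c
  set r := gavg v b
  have t1 : |B * r| ≤ Ka * Kc * Kb := by
    rw [abs_mul]; exact mul_le_mul e1 eb (abs_nonneg _) (by positivity)
  have t2 : |C * q| ≤ Ka * Kc * Kb := by
    rw [abs_mul]
    calc |C| * |q| ≤ (Ka * Kb) * Kc := mul_le_mul e2 ec (abs_nonneg _) (by positivity)
      _ = _ := by ring
  have t3 : |p * D| ≤ Ka * Kc * Kb := by
    rw [abs_mul]
    calc |p| * |D| ≤ Ka * (Kc * Kb) := mul_le_mul ea e3 (abs_nonneg _) hKa
      _ = _ := by ring
  have t4 : |2 * (p * q * r)| ≤ 2 * (Ka * Kc * Kb) := by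
    rw [abs_mul, abs_mul, abs_mul]
    have : |p| * |q| * |r| ≤ Ka * Kc * Kb :=
      mul_le_mul (mul_le_mul ea ec (abs_nonneg _) hKa) eb (abs_nonneg _) (by positivity)
    simpa using mul_le_mul_of_nonneg_left this (by norm_num : (0:ℝ) ≤ 2)
  unfold gcum
  calc |A - B * r - C * q - p * D + 2 * (p * q * r)|
      ≤ |A| + |B * r| + |C * q| + |p * D| + |2 * (p * q * r)| := by
        have h1 := abs_add_le (A - B * r - C * q - p * D) (2 * (p * q * r))
        have h2 := abs_sub (A - B * r - C * q) (p * D)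
        have h3 := abs_sub (A - B * r) (C * q)
        have h4 := abs_sub A (B * r)
        linarith
    _ ≤ _ := by linarith

section Deriv

variable {w : ℝ → S → ℝ} {w' : S → ℝ} {τ0 : ℝ}

lemma hasDerivAt_gsum (h : ∀ x, HasDerivAt (fun τ => w τ x) (w' x) τ0) :
    HasDerivAt (fun τ => gsum (w τ)) (gsum (w τ0) * gavg (w τ0) w') τ0 := by
  have h1 : HasDerivAt (fun τ => gsum (w τ)) (∑ x, Real.exp (w τ0 x) * w' x) τ0 := by
    unfold gsum
    exact HasDerivAt.fun_sum fun x _ => (h x).exp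
  have h2 : gsum (w τ0) * gavg (w τ0) w' = ∑ x, Real.exp (w τ0 x) * w' x := by
    unfold gavg gwt
    rw [Finset.mul_sum]
    refine Finset.sum_congr rfl fun x _ => ?_
    have := (gsum_pos (w τ0)).ne'
    field_simp
  rw [h2]
  exact h1

lemma hasDerivAt_logAvg (h : ∀ x, HasDerivAt (fun τ => w τ x) (w' x) τ0) :
    HasDerivAt (fun τ => logAvg (w τ)) (gavg (w τ0) w') τ0 := by
  have hcard : (0 : ℝ) < Fintype.card S := by exact_mod_cast Fintype.card_pos
  have h1 := (hasDerivAt_gsum h).div_const (Fintype.card S : ℝ)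
  have hpos : gsum (w τ0) / Fintype.card S ≠ 0 := (div_pos (gsum_pos _) hcard).ne'
  have h2 := h1.log hpos
  have h3 : gsum (w τ0) * gavg (w τ0) w' / (Fintype.card S : ℝ) / (gsum (w τ0) / Fintype.card S) =
      gavg (w τ0) w' := by
    have := (gsum_pos (w τ0)).ne'
    have := hcard.ne'
    field_simp
  rw [h3] at h2
  exact h2

lemma hasDerivAt_gwt (h : ∀ x, HasDerivAt (fun τ => w τ x) (w' x) τ0) (x : S) :
    HasDerivAt (fun τ => gwt (w τ) x) (gwt (w τ0) x * (w' x - gavg (w τ0) w')) τ0 := by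
  have h1 := (h x).exp.fun_div (hasDerivAt_gsum h) (gsum_pos (w τ0)).ne'
  refine h1.congr_deriv ?_
  unfold gwt
  have := (gsum_pos (w τ0)).ne'
  field_simp

lemma hasDerivAt_gavg (h : ∀ x, HasDerivAt (fun τ => w τ x) (w' x) τ0) (a : S → ℝ) :
    HasDerivAt (fun τ => gavg (w τ) a) (gcov (w τ0) a w') τ0 := by
  have h1 : HasDerivAt (fun τ => gavg (w τ) a)
      (∑ x, gwt (w τ0) x * (w' x - gavg (w τ0) w') * a x) τ0 := by
    unfold gavg
    exact HasDerivAt.fun_sum fun x _ => (hasDerivAt_gwt h x).mul_const _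
  refine h1.congr_deriv ?_
  unfold gcov
  have h2 : ∑ x, gwt (w τ0) x * (w' x - gavg (w τ0) w') * a x =
      ∑ x, gwt (w τ0) x * (a x * w' x) - gavg (w τ0) a * gavg (w τ0) w' := by
    have h3 : gavg (w τ0) a * gavg (w τ0) w' =
        ∑ x, gwt (w τ0) x * a x * gavg (w τ0) w' := by
      conv_lhs => rw [gavg]
      rw [Finset.sum_mul]
    rw [h3, ← Finset.sum_sub_distrib]
    exact Finset.sum_congr rfl fun x _ => by ring
  rw [h2]
  rfl

lemma hasDerivAt_gcov (h : ∀ x, HasDerivAt (fun τ => w τ x) (w' x) τ0) (a c : S → ℝ) :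
    HasDerivAt (fun τ => gcov (w τ) a c) (gcum (w τ0) a c w') τ0 := by
  have h1 := hasDerivAt_gavg h (fun x => a x * c x)
  have h2 := (hasDerivAt_gavg h a).fun_mul (hasDerivAt_gavg h c)
  have h3 := h1.fun_sub h2
  refine h3.congr_deriv ?_
  unfold gcum gcov
  ring

end Deriv

/-- Taylor bound for the Gibbs average along a line. -/
lemma gavg_line_taylor (y a : S → ℝ) {K : ℝ} (ha : ∀ x, |a x| ≤ K) (r : ℝ) :
    |gavg (fun x => y x + r * a x) a - gavg y a - r * gcov y a a| ≤ 6 * r ^ 2 * K ^ 3 := by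
  obtain ⟨x0⟩ := (inferInstance : Nonempty S)
  have hK : 0 ≤ K := (abs_nonneg _).trans (ha x0)
  set w : ℝ → S → ℝ := fun τ x => y x + τ * a x with hw
  have hd : ∀ τ x, HasDerivAt (fun τ => w τ x) (a x) τ := by
    intro τ x
    have := ((hasDerivAt_id τ).mul_const (a x)).const_add (y x)
    simpa [hw] using this
  have hw0 : w 0 = y := by
    funext x
    simp [hw]
  have hcum : ∀ τ, ‖gcum (w τ) a a a‖ ≤ 6 * K ^ 3 := by
    intro τ
    have := abs_gcum_le (w τ) a a a ha ha ha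
    calc _ ≤ 6 * (K * K * K) := this
      _ = _ := by ring
  have hcovdiff : ∀ τ, |gcov (w τ) a a - gcov y a a| ≤ 6 * K ^ 3 * |τ| := by
    intro τ
    have := Convex.norm_image_sub_le_of_norm_hasDerivWithin_le (f := fun τ => gcov (w τ) a a)
      (f' := fun τ => gcum (w τ) a a a) (s := Set.univ) (C := 6 * K ^ 3) (x := 0) (y := τ)
      (fun t _ => (hasDerivAt_gcov (hd t) a a).hasDerivWithinAt)
      (fun t _ => hcum t) convex_univ (Set.mem_univ _) (Set.mem_univ _)
    simpa [hw0] using this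
  have hbase : ∀ τ, HasDerivAt (fun τ => gavg (w τ) a - gavg y a - τ * gcov y a a)
      (gcov (w τ) a a - gcov y a a) τ := by
    intro τ
    have h1 := hasDerivAt_gavg (hd τ) a
    have h2 := (hasDerivAt_id' τ).mul_const (gcov y a a)
    have h3 := (h1.sub_const (gavg y a)).fun_sub h2
    refine h3.congr_deriv ?_
    simp
  have hbd : ∀ τ ∈ Set.uIcc 0 r, ‖gcov (w τ) a a - gcov y a a‖ ≤ 6 * K ^ 3 * |r| := by
    intro τ hτ
    refine (hcovdiff τ).trans ?_
    have h1 : |τ| ≤ |r| := by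
      rcases Set.mem_uIcc.mp hτ with ⟨h1, h2⟩ | ⟨h1, h2⟩
      · rw [abs_of_nonneg h1, abs_of_nonneg (h1.trans h2)]
        exact h2
      · rw [abs_of_nonpos h2, abs_of_nonpos (h1.trans h2)]
        linarith
    exact mul_le_mul_of_nonneg_left h1 (by positivity)
  have := Convex.norm_image_sub_le_of_norm_hasDerivWithin_le
    (f := fun τ => gavg (w τ) a - gavg y a - τ * gcov y a a)
    (f' := fun τ => gcov (w τ) a a - gcov y a a) (s := Set.uIcc 0 r) (C := 6 * K ^ 3 * |r|)
    (x := 0) (y := r)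
    (fun t _ => (hbase t).hasDerivWithinAt) hbd (convex_uIcc 0 r) Set.left_mem_uIcc
    Set.right_mem_uIcc
  simp only [Real.norm_eq_abs, hw0, zero_mul, sub_self, sub_zero] at this
  simp only [hw] at this
  calc _ ≤ 6 * K ^ 3 * |r| * |r| := this
    _ = 6 * K ^ 3 * (|r| * |r|) := by ring
    _ = _ := by rw [abs_mul_abs_self]; ring

/-- Lipschitz bound for the Gibbs covariance along a line. -/
lemma gcov_line_lipschitz (y a b : S → ℝ) {K : ℝ} (ha : ∀ x, |a x| ≤ K) (hb : ∀ x, |b x| ≤ K)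
    (r : ℝ) : |gcov (fun x => y x + r * b x) a a - gcov y a a| ≤ 6 * K ^ 3 * |r| := by
  set w : ℝ → S → ℝ := fun τ x => y x + τ * b x with hw
  have hd : ∀ τ x, HasDerivAt (fun τ => w τ x) (b x) τ := by
    intro τ x
    have := ((hasDerivAt_id τ).mul_const (b x)).const_add (y x)
    simpa [hw] using this
  have hw0 : w 0 = y := by
    funext x
    simp [hw]
  have := Convex.norm_image_sub_le_of_norm_hasDerivWithin_le (f := fun τ => gcov (w τ) a a)
    (f' := fun τ => gcum (w τ) a a b) (s := Set.univ) (C := 6 * K ^ 3) (x := 0) (y := r)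
    (fun t _ => (hasDerivAt_gcov (hd t) a a).hasDerivWithinAt)
    (fun t _ => by
      have := abs_gcum_le (w t) a a b ha ha hb
      calc ‖gcum (w t) a a b‖ ≤ 6 * (K * K * K) := this
        _ = _ := by ring)
    convex_univ (Set.mem_univ _) (Set.mem_univ _)
  simp only [Real.norm_eq_abs, sub_zero, hw0] at this
  simpa [hw] using this

end GibbsCalc

end Vale.Agent.Lib.P157
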