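import Vale.Agent.Lib.P157.Basic
import Vale.Agent.Lib.P157.Concentration
import Vale.Agent.Lib.P157.GibbsCalc

/-!
Gaussian integration by parts.
-/

open MeasureTheory ProbabilityTheory
open scoped NNReal ENNReal

set_option linter.unusedSectionVars false

namespace Vale.Agent.Lib.P157

lemma hasDerivAt_gaussianPDFReal (v : ℝ) :
    HasDerivAt (gaussianPDFReal 0 1) (-v * gaussianPDFReal 0 1 v) v := by
  have h1 : gaussianPDFReal 0 1 = fun x => (Real.sqrt (2 * Real.pi * (1 : ℝ≥0)))⁻¹ *
      Real.exp (-(x - 0) ^ 2 / (2 * (1 : ℝ≥0))) := rfl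
  rw [h1]
  have h2 : HasDerivAt (fun x : ℝ => -(x - 0) ^ 2 / (2 * ((1 : ℝ≥0) : ℝ))) (-v) v := by
    have h3 : HasDerivAt (fun x : ℝ => (x - 0) ^ 2) (2 * (v - 0) ^ 1 * 1) v :=
      ((hasDerivAt_id' v).sub_const 0).fun_pow 2
    have h4 := (h3.neg).div_const (2 * ((1 : ℝ≥0) : ℝ))
    refine h4.congr_deriv ?_
    simp
    ring
  have h5 := (h2.exp).const_mul ((Real.sqrt (2 * Real.pi * ((1 : ℝ≥0) : ℝ)))⁻¹)
  refine h5.congr_deriv ?_
  ring

lemma integrable_mul_gaussianPDFReal :
    Integrable (fun v : ℝ => v * gaussianPDFReal 0 1 v) := by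
  have h1 : (fun v : ℝ => v * gaussianPDFReal 0 1 v) =
      fun v => (Real.sqrt (2 * Real.pi * ((1 : ℝ≥0) : ℝ)))⁻¹ * (v * Real.exp (-(1 / 2) * v ^ 2)) := by
    funext v
    have : gaussianPDFReal 0 1 v = (Real.sqrt (2 * Real.pi * ((1 : ℝ≥0) : ℝ)))⁻¹ *
      Real.exp (-(v - 0) ^ 2 / (2 * ((1 : ℝ≥0) : ℝ))) := rfl
    rw [this]
    have h2 : -(v - 0) ^ 2 / (2 * ((1 : ℝ≥0) : ℝ)) = -(1 / 2) * v ^ 2 := by
      simp
      ring
    rw [h2]
    ring
  rw [h1]
  exact (integrable_mul_exp_neg_mul_sq (by norm_num : (0 : ℝ) < 1 / 2)).const_mul _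

/-- One-dimensional Gaussian integration by parts (Stein's identity). -/
lemma gaussian_ibp {h h' : ℝ → ℝ} (hd : ∀ v, HasDerivAt h (h' v) v) {B B' : ℝ}
    (hb : ∀ v, |h v| ≤ B) (hb' : ∀ v, |h' v| ≤ B') (hm' : Measurable h') :
    ∫ v, v * h v ∂(gaussianReal 0 1) = ∫ v, h' v ∂(gaussianReal 0 1) := by
  have hne : (1 : ℝ≥0) ≠ 0 := one_ne_zero
  rw [integral_gaussianReal_eq_integral_smul hne, integral_gaussianReal_eq_integral_smul hne]
  set P := gaussianPDFReal 0 1 with hP
  have hcont : Continuous h :=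
    continuous_iff_continuousAt.mpr fun v => (hd v).continuousAt
  have hPint : Integrable P := integrable_gaussianPDFReal 0 1
  have hvPint : Integrable (fun v => v * P v) := integrable_mul_gaussianPDFReal
  have hPm : Measurable P := measurable_gaussianPDFReal 0 1
  have huv' : Integrable (h * fun v => -v * P v) := by
    have h1 : Integrable (fun v => B * |v * P v|) := hvPint.abs.const_mul B
    refine h1.mono' (hcont.measurable.mul
      (((measurable_id.neg).mul hPm))).aestronglyMeasurable ?_
    refine Filter.Eventually.of_forall fun v => ?_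
    simp only [Pi.mul_apply, Real.norm_eq_abs, abs_mul, abs_neg]
    have := hb v
    have hnn : 0 ≤ |v| * |P v| := by positivity
    calc |h v| * (|v| * |P v|) ≤ B * (|v| * |P v|) := by gcongr
      _ = _ := rfl
  have hu'v : Integrable (h' * P) := by
    have h1 : Integrable (fun v => B' * |P v|) := hPint.abs.const_mul B'
    refine h1.mono' (hm'.mul hPm).aestronglyMeasurable ?_
    refine Filter.Eventually.of_forall fun v => ?_
    simp only [Pi.mul_apply, Real.norm_eq_abs, abs_mul]
    exact mul_le_mul_of_nonneg_right (hb' v) (abs_nonneg _)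
  have huv : Integrable (h * P) := by
    have h1 : Integrable (fun v => B * |P v|) := hPint.abs.const_mul B
    refine h1.mono' (hcont.measurable.mul hPm).aestronglyMeasurable ?_
    refine Filter.Eventually.of_forall fun v => ?_
    simp only [Pi.mul_apply, Real.norm_eq_abs, abs_mul]
    exact mul_le_mul_of_nonneg_right (hb v) (abs_nonneg _)
  have key := integral_mul_deriv_eq_deriv_mul_of_integrable (u := h) (v := P) (u' := h')
    (v' := fun v => -v * P v) (fun x _ => hd x) (fun x _ => hasDerivAt_gaussianPDFReal x)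
    huv' hu'v huv
  have e1 : ∫ x, P x • (x * h x) = -∫ x, h x * (-x * P x) := by
    rw [← integral_neg]
    congr 1
    ext x
    simp only [smul_eq_mul]
    ring
  have e2 : ∫ x, P x • h' x = ∫ x, h' x * P x := by
    congr 1
    ext x
    simp only [smul_eq_mul]
    ring
  rw [e1, e2, key, neg_neg]

/-- Fubini along one coordinate of a finite product. -/
lemma integral_pi_insertNth {X : Type*} [MeasurableSpace X] {m : ℕ} (ν : Fin (m + 1) → Measure X)
    [∀ a, IsProbabilityMeasure (ν a)] (i : Fin (m + 1))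
    (F : (Fin (m + 1) → X) → ℝ) (hF : Integrable F (Measure.pi ν)) :
    ∫ g, F g ∂(Measure.pi ν) =
      ∫ h, ∫ v, F (Fin.insertNth (α := fun _ => X) i v h) ∂(ν i)
        ∂(Measure.pi fun j : Fin m => ν (i.succAbove j)) := by
  have hmp := measurePreserving_piFinSuccAbove ν i
  set e := MeasurableEquiv.piFinSuccAbove (fun _ : Fin (m + 1) => X) i with he
  have hsymm : ∀ p : X × (Fin m → X), e.symm p = Fin.insertNth (α := fun _ => X) i p.1 p.2 := by
    intro p
    simp [he, MeasurableEquiv.piFinSuccAbove, Fin.insertNthEquiv]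
  have h1 : ∫ g, F g ∂(Measure.pi ν) =
      ∫ p, F (e.symm p) ∂((ν i).prod (Measure.pi fun j : Fin m => ν (Fin.succAbove i j))) := by
    rw [← hmp.integral_comp' (fun p => F (e.symm p))]
    simp
  have hint : Integrable (fun p => F (e.symm p))
      ((ν i).prod (Measure.pi fun j : Fin m => ν (Fin.succAbove i j))) :=
    (hmp.symm e).integrable_comp_of_integrable (g := F) hF
  rw [h1, integral_prod_symm _ hint]
  simp only [hsymm]

section GibbsIBP

variable {S : Type*} [Fintype S] [Nonempty S]

lemma measurable_gsum {Ω : Type*} [MeasurableSpace Ω] {v : Ω → S → ℝ}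
    (hv : ∀ x, Measurable fun ω => v ω x) : Measurable fun ω => gsum (v ω) := by
  unfold gsum
  exact Finset.measurable_sum _ fun x _ => Real.measurable_exp.comp (hv x)

lemma measurable_gavg {Ω : Type*} [MeasurableSpace Ω] {v a : Ω → S → ℝ}
    (hv : ∀ x, Measurable fun ω => v ω x) (ha : ∀ x, Measurable fun ω => a ω x) :
    Measurable fun ω => gavg (v ω) (a ω) := by
  unfold gavg gwt
  refine Finset.measurable_sum _ fun x _ => ?_
  exact ((Real.measurable_exp.comp (hv x)).div (measurable_gsum hv)).mul (ha x)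

lemma measurable_gcov {Ω : Type*} [MeasurableSpace Ω] {v a b : Ω → S → ℝ}
    (hv : ∀ x, Measurable fun ω => v ω x) (ha : ∀ x, Measurable fun ω => a ω x)
    (hb : ∀ x, Measurable fun ω => b ω x) :
    Measurable fun ω => gcov (v ω) (a ω) (b ω) := by
  unfold gcov
  exact (measurable_gavg hv fun x => (ha x).mul (hb x)).sub
    ((measurable_gavg hv ha).mul (measurable_gavg hv hb))

lemma measurable_logAvg {Ω : Type*} [MeasurableSpace Ω] {v : Ω → S → ℝ}
    (hv : ∀ x, Measurable fun ω => v ω x) : Measurable fun ω => logAvg (v ω) := by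
  unfold logAvg
  exact Real.measurable_log.comp ((measurable_gsum hv).div_const _)

/-- One-dimensional Gaussian integration by parts for a Gibbs average along a line. -/
lemma gavg_ibp_line (v0 a b : S → ℝ) {K K' : ℝ} (ha : ∀ x, |a x| ≤ K) (hb : ∀ x, |b x| ≤ K') :
    ∫ t, t * gavg (fun x => v0 x + t * b x) a ∂(gaussianReal 0 1) =
      ∫ t, gcov (fun x => v0 x + t * b x) a b ∂(gaussianReal 0 1) := by
  have hd : ∀ t, HasDerivAt (fun t => gavg (fun x => v0 x + t * b x) a)
      (gcov (fun x => v0 x + t * b x) a b) t := by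
    intro t
    refine hasDerivAt_gavg (w := fun t x => v0 x + t * b x) (w' := b) (fun x => ?_) a
    have := ((hasDerivAt_id' t).mul_const (b x)).const_add (v0 x)
    simpa using this
  refine gaussian_ibp hd (B := K) (B' := 2 * (K * K')) (fun t => abs_gavg_le _ _ ha)
    (fun t => abs_gcov_le _ _ _ ha hb) ?_
  refine measurable_gcov (v := fun t x => v0 x + t * b x) (a := fun _ => a) (b := fun _ => b)
    (fun x => ?_) (fun x => measurable_const) (fun x => measurable_const)
  exact (measurable_id.mul_const _).const_add _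

/-- Integrability of a Gibbs average multiplied by a Gaussian coordinate. -/
lemma integrable_coord_mul {n : ℕ} (j : Fin n) {φ : (Fin n → ℝ) → ℝ} (hφ : Measurable φ) {K : ℝ}
    (hK : ∀ z, |φ z| ≤ K) : Integrable (fun z => z j * φ z) (patternLaw n) := by
  have hcoord : Integrable (fun z : Fin n → ℝ => z j) (patternLaw n) := by
    unfold patternLaw
    have h0 : Integrable (fun u : ℝ => u) (gaussianReal 0 1) := by
      have := (memLp_id_gaussianReal (μ := 0) (v := 1) 1).integrable (by simp)
      exact this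
    exact integrable_comp_eval (μ := fun _ : Fin n => gaussianReal 0 1) (i := j) h0
  have h1 : Integrable (fun z : Fin n → ℝ => K * |z j|) (patternLaw n) :=
    hcoord.abs.const_mul K
  refine h1.mono' (((measurable_pi_apply j).mul hφ).aestronglyMeasurable) ?_
  refine Filter.Eventually.of_forall fun z => ?_
  rw [Real.norm_eq_abs, abs_mul, mul_comm]
  exact mul_le_mul_of_nonneg_right (hK z) (abs_nonneg _)

/-- Multi-dimensional Gaussian integration by parts for a Gibbs average. -/
lemma gavg_ibp_coord {n : ℕ} (j : Fin n) (v0 a : S → ℝ) (b : Fin n → S → ℝ) {K K' : ℝ}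
    (ha : ∀ x, |a x| ≤ K) (hb : ∀ l x, |b l x| ≤ K') :
    ∫ z, z j * gavg (fun x => v0 x + ∑ l, z l * b l x) a ∂(patternLaw n) =
      ∫ z, gcov (fun x => v0 x + ∑ l, z l * b l x) a (b j) ∂(patternLaw n) := by
  obtain ⟨m, rfl⟩ : ∃ m, n = m + 1 := ⟨n - 1, by have := j.pos; omega⟩
  have hvm : ∀ x, Measurable fun z : Fin (m + 1) → ℝ => v0 x + ∑ l, z l * b l x := fun x =>
    (Finset.measurable_sum _ fun l _ => (measurable_pi_apply l).mul_const _).const_add _
  have hm1 : Measurable fun z : Fin (m + 1) → ℝ => gavg (fun x => v0 x + ∑ l, z l * b l x) a :=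
    measurable_gavg (a := fun _ => a) hvm fun x => measurable_const
  have hm2 : Measurable fun z : Fin (m + 1) → ℝ =>
      gcov (fun x => v0 x + ∑ l, z l * b l x) a (b j) :=
    measurable_gcov (a := fun _ => a) (b := fun _ => b j) hvm
      (fun x => measurable_const) (fun x => measurable_const)
  have hi1 : Integrable (fun z : Fin (m + 1) → ℝ =>
      z j * gavg (fun x => v0 x + ∑ l, z l * b l x) a) (patternLaw (m + 1)) :=
    integrable_coord_mul j hm1 (K := K) fun z => abs_gavg_le _ _ ha
  have hi2 : Integrable (fun z : Fin (m + 1) → ℝ =>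
      gcov (fun x => v0 x + ∑ l, z l * b l x) a (b j)) (patternLaw (m + 1)) :=
    integrable_of_bdd hm2 (B := 2 * (K * K')) fun z => abs_gcov_le _ _ _ ha (hb j)
  unfold patternLaw at hi1 hi2 ⊢
  rw [integral_pi_insertNth (fun _ => gaussianReal 0 1) j _ hi1,
    integral_pi_insertNth (fun _ => gaussianReal 0 1) j _ hi2]
  congr 1
  ext w
  have hsplit : ∀ (t : ℝ) (x : S),
      v0 x + ∑ l, (Fin.insertNth (α := fun _ => ℝ) j t w : Fin (m + 1) → ℝ) l * b l x =
        (v0 x + ∑ l', w l' * b (j.succAbove l') x) + t * b j x := by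
    intro t x
    rw [Fin.sum_univ_succAbove _ j]
    simp only [Fin.insertNth_apply_same, Fin.insertNth_apply_succAbove]
    ring
  simp only [hsplit, Fin.insertNth_apply_same]
  exact gavg_ibp_line (fun x => v0 x + ∑ l', w l' * b (j.succAbove l') x) a (b j) ha (hb j)

end GibbsIBP

end Vale.Agent.Lib.P157
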