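import Vale.Agent.Lib.P157.Concentration

/-!
Abstract annealed partition functions on a finite configuration space with independent patterns.
-/

open MeasureTheory ProbabilityTheory
open scoped NNReal ENNReal

set_option linter.unusedSectionVars false

namespace Vale.Agent.Lib.P157

section Abstract

variable {S X : Type*} [Fintype S] [MeasurableSpace X]

/-- The weight of a configuration, normalized to have mean one. -/
noncomputable def wt (φ : S → X → ℝ) (c0 : ℝ) {M : ℕ} (x : S) (G : Fin M → X) : ℝ :=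
  ∏ a, (Real.exp (φ x (G a)) / c0)

/-- The normalized partition function. -/
noncomputable def avgWt (φ : S → X → ℝ) (c0 : ℝ) {M : ℕ} (G : Fin M → X) : ℝ :=
  (∑ x, wt φ c0 x G) / Fintype.card S

variable {φ : S → X → ℝ} {c0 : ℝ} {M : ℕ}

lemma wt_pos (hc0 : 0 < c0) (x : S) (G : Fin M → X) : 0 < wt φ c0 x G :=
  Finset.prod_pos fun _ _ => div_pos (Real.exp_pos _) hc0

lemma avgWt_pos [Nonempty S] (hc0 : 0 < c0) (G : Fin M → X) : 0 < avgWt φ c0 G := by
  unfold avgWt
  refine div_pos (Finset.sum_pos (fun x _ => wt_pos hc0 x G) Finset.univ_nonempty) ?_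
  exact_mod_cast Fintype.card_pos

lemma wt_update [DecidableEq S] (hc0 : 0 < c0) (x : S) (G : Fin M → X) (a : Fin M) (v : X) :
    wt φ c0 x (Function.update G a v) = wt φ c0 x G * Real.exp (φ x v - φ x (G a)) := by
  unfold wt
  rw [← Finset.mul_prod_erase Finset.univ _ (Finset.mem_univ a),
    ← Finset.mul_prod_erase Finset.univ (fun b => Real.exp (φ x (G b)) / c0) (Finset.mem_univ a)]
  have h1 : ∏ b ∈ Finset.univ.erase a, (Real.exp (φ x (Function.update G a v b)) / c0) =
      ∏ b ∈ Finset.univ.erase a, (Real.exp (φ x (G b)) / c0) := by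
    refine Finset.prod_congr rfl fun b hb => ?_
    rw [Function.update_of_ne (Finset.ne_of_mem_erase hb)]
  rw [h1, Function.update_self, Real.exp_sub]
  field_simp

lemma avgWt_update_le [DecidableEq S] [Nonempty S] (hc0 : 0 < c0) {L : ℝ}
    (hL : ∀ x g, |φ x g| ≤ L) (G : Fin M → X) (a : Fin M) (v : X) :
    avgWt φ c0 (Function.update G a v) ≤ avgWt φ c0 G * Real.exp (2 * L) := by
  unfold avgWt
  rw [div_mul_eq_mul_div, Finset.sum_mul]
  have hcard : (0 : ℝ) < Fintype.card S := by exact_mod_cast Fintype.card_pos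
  refine div_le_div_of_nonneg_right ?_ hcard.le
  refine Finset.sum_le_sum fun x _ => ?_
  rw [wt_update hc0]
  refine mul_le_mul_of_nonneg_left ?_ (wt_pos hc0 x G).le
  apply Real.exp_le_exp.mpr
  have h1 := abs_le.mp (hL x v)
  have h2 := abs_le.mp (hL x (G a))
  linarith [h1.2, h2.1]

lemma log_avgWt_update [DecidableEq S] [Nonempty S] (hc0 : 0 < c0) {L : ℝ}
    (hL : ∀ x g, |φ x g| ≤ L) (G : Fin M → X) (a : Fin M) (v : X) :
    |Real.log (avgWt φ c0 (Function.update G a v)) - Real.log (avgWt φ c0 G)| ≤ 2 * L := by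
  have hpos := avgWt_pos (φ := φ) hc0 G
  have hpos' := avgWt_pos (φ := φ) hc0 (Function.update G a v)
  have h1 : Real.log (avgWt φ c0 (Function.update G a v)) ≤ Real.log (avgWt φ c0 G) + 2 * L := by
    have := Real.log_le_log hpos' (avgWt_update_le hc0 hL G a v)
    rwa [Real.log_mul hpos.ne' (Real.exp_pos _).ne', Real.log_exp] at this
  have h2 : Real.log (avgWt φ c0 G) ≤ Real.log (avgWt φ c0 (Function.update G a v)) + 2 * L := by
    have h3 := avgWt_update_le (φ := φ) hc0 hL (Function.update G a v) a (G a)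
    have h4 : Function.update (Function.update G a v) a (G a) = G := by simp
    rw [h4] at h3
    have := Real.log_le_log hpos h3
    rwa [Real.log_mul hpos'.ne' (Real.exp_pos _).ne', Real.log_exp] at this
  rw [abs_le]
  constructor <;> linarith

lemma wt_bound (hc0 : 0 < c0) {L : ℝ} (hL : ∀ x g, |φ x g| ≤ L)
    (hc0L : Real.exp (-L) ≤ c0) (hc0U : c0 ≤ Real.exp L) (x : S) (G : Fin M → X) :
    Real.exp (-(2 * L * M)) ≤ wt φ c0 x G ∧ wt φ c0 x G ≤ Real.exp (2 * L * M) := by
  have hfac : ∀ g, Real.exp (-(2 * L)) ≤ Real.exp (φ x g) / c0 ∧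
      Real.exp (φ x g) / c0 ≤ Real.exp (2 * L) := by
    intro g
    have h1 := abs_le.mp (hL x g)
    constructor
    · rw [le_div_iff₀ hc0]
      calc Real.exp (-(2 * L)) * c0 ≤ Real.exp (-(2 * L)) * Real.exp L := by gcongr
        _ = Real.exp (-L) := by rw [← Real.exp_add]; congr 1; ring
        _ ≤ Real.exp (φ x g) := Real.exp_le_exp.mpr (by linarith [h1.1])
    · rw [div_le_iff₀ hc0]
      calc Real.exp (φ x g) ≤ Real.exp L := Real.exp_le_exp.mpr (by linarith [h1.2])
        _ = Real.exp (2 * L) * Real.exp (-L) := by rw [← Real.exp_add]; congr 1; ring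
        _ ≤ Real.exp (2 * L) * c0 := by gcongr
  constructor
  · calc Real.exp (-(2 * L * M)) = ∏ _a : Fin M, Real.exp (-(2 * L)) := by
          rw [Finset.prod_const, ← Real.exp_nat_mul]
          simp only [Finset.card_univ, Fintype.card_fin]
          congr 1; ring
      _ ≤ wt φ c0 x G := Finset.prod_le_prod (fun _ _ => (Real.exp_pos _).le)
          (fun a _ => (hfac (G a)).1)
  · calc wt φ c0 x G ≤ ∏ _a : Fin M, Real.exp (2 * L) :=
          Finset.prod_le_prod (fun a _ => div_nonneg (Real.exp_pos _).le hc0.le)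
          (fun a _ => (hfac (G a)).2)
      _ = Real.exp (2 * L * M) := by
          rw [Finset.prod_const, ← Real.exp_nat_mul]
          simp only [Finset.card_univ, Fintype.card_fin]
          congr 1; ring

lemma avgWt_bound [Nonempty S] (hc0 : 0 < c0) {L : ℝ} (hL : ∀ x g, |φ x g| ≤ L)
    (hc0L : Real.exp (-L) ≤ c0) (hc0U : c0 ≤ Real.exp L) (G : Fin M → X) :
    Real.exp (-(2 * L * M)) ≤ avgWt φ c0 G ∧ avgWt φ c0 G ≤ Real.exp (2 * L * M) := by
  have hcard : (0 : ℝ) < Fintype.card S := by exact_mod_cast Fintype.card_pos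
  unfold avgWt
  constructor
  · rw [le_div_iff₀ hcard]
    calc Real.exp (-(2 * L * M)) * Fintype.card S
        = ∑ _x : S, Real.exp (-(2 * L * M)) := by
          rw [Finset.sum_const, Finset.card_univ, nsmul_eq_mul, mul_comm]
      _ ≤ _ := Finset.sum_le_sum fun x _ => (wt_bound hc0 hL hc0L hc0U x G).1
  · rw [div_le_iff₀ hcard]
    calc _ ≤ ∑ _x : S, Real.exp (2 * L * M) :=
          Finset.sum_le_sum fun x _ => (wt_bound hc0 hL hc0L hc0U x G).2
      _ = _ := by rw [Finset.sum_const, Finset.card_univ, nsmul_eq_mul, mul_comm]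

lemma abs_log_avgWt_le [Nonempty S] (hc0 : 0 < c0) {L : ℝ} (hL : ∀ x g, |φ x g| ≤ L)
    (hc0L : Real.exp (-L) ≤ c0) (hc0U : c0 ≤ Real.exp L) (G : Fin M → X) :
    |Real.log (avgWt φ c0 G)| ≤ 2 * L * M := by
  have hb := avgWt_bound hc0 hL hc0L hc0U G
  have hpos := avgWt_pos (φ := φ) hc0 G
  rw [abs_le]
  constructor
  · have := Real.log_le_log (Real.exp_pos _) hb.1
    rwa [Real.log_exp] at this
  · have := Real.log_le_log hpos hb.2
    rwa [Real.log_exp] at this

lemma measurable_wt (hφ : ∀ x, Measurable (φ x)) (x : S) :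
    Measurable (fun G : Fin M → X => wt φ c0 x G) := by
  unfold wt
  refine Finset.measurable_prod _ fun a _ => ?_
  exact (Real.measurable_exp.comp ((hφ x).comp (measurable_pi_apply a))).div_const _

lemma measurable_avgWt (hφ : ∀ x, Measurable (φ x)) :
    Measurable (fun G : Fin M → X => avgWt φ c0 G) := by
  unfold avgWt
  exact (Finset.measurable_sum _ fun x _ => measurable_wt hφ x).div_const _

end Abstract

end Vale.Agent.Lib.P157
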