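import Vale.Agent.Lib.P157.Lindeberg

/-!
The Gaussian comparison theorem.
-/

open MeasureTheory ProbabilityTheory
open scoped NNReal ENNReal

set_option linter.unusedSectionVars false

namespace Vale.Agent.Lib.P157

section Main

variable {S : Type*} [Fintype S] [Nonempty S]
variable {X : Type*} [MeasurableSpace X] {ν : Measure X} [IsProbabilityMeasure ν]
  {ξ : S → X → ℝ} {K : ℝ}

/-- The Gaussian energy vector attached to a matrix `A`. -/
noncomputable def gaussVec {n : ℕ} (A : S → Fin n → ℝ) (z : Fin n → ℝ) (x : S) : ℝ :=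
  ∑ j, A x j * z j

lemma measurable_gaussVec {n : ℕ} (A : S → Fin n → ℝ) (x : S) :
    Measurable fun z : Fin n → ℝ => gaussVec A z x := by
  unfold gaussVec
  exact Finset.measurable_sum _ fun j _ => (measurable_pi_apply j).const_mul _

lemma integrable_coord {n : ℕ} (j : Fin n) :
    Integrable (fun z : Fin n → ℝ => z j) (patternLaw n) := by
  unfold patternLaw
  have h0 : Integrable (fun u : ℝ => u) (gaussianReal 0 1) := by
    have := (memLp_id_gaussianReal (μ := 0) (v := 1) 1).integrable (by simp)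
    exact this
  exact integrable_comp_eval (μ := fun _ : Fin n => gaussianReal 0 1) (i := j) h0

lemma integrable_gaussVec {n : ℕ} (A : S → Fin n → ℝ) (x : S) :
    Integrable (fun z : Fin n → ℝ => gaussVec A z x) (patternLaw n) := by
  unfold gaussVec
  exact integrable_finsetSum _ fun j _ => (integrable_coord j).const_mul _

lemma integrable_sum_abs_gaussVec {n : ℕ} (A : S → Fin n → ℝ) :
    Integrable (fun z : Fin n → ℝ => ∑ x, |gaussVec A z x|) (patternLaw n) :=
  integrable_finsetSum _ fun x _ => (integrable_gaussVec A x).abs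

/-- The Gaussian half of the derivative: Stein's identity. -/
lemma gauss_part {n : ℕ} (A : S → Fin n → ℝ) (C : S → S → ℝ) (c' : ℝ)
    (hA : ∀ x y, ∑ j, A x j * A y j = c' * C x y) (hQ : ∃ B, ∀ y, |Qf C y| ≤ B)
    (c : S → ℝ) (t : ℝ) :
    ∫ z, gavg (fun x => c x + t * gaussVec A z x) (gaussVec A z) ∂(patternLaw n) =
      t * (c' * ∫ z, Qf C (fun x => c x + t * gaussVec A z x) ∂(patternLaw n)) := by
  obtain ⟨BQ, hBQ⟩ := hQ
  set KA : ℝ := ∑ x, ∑ j, |A x j| with hKA
  have hAb : ∀ x j, |A x j| ≤ KA := by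
    intro x j
    calc |A x j| ≤ ∑ j', |A x j'| :=
          Finset.single_le_sum (f := fun j' => |A x j'|) (fun _ _ => abs_nonneg _) (Finset.mem_univ j)
      _ ≤ KA := Finset.single_le_sum (f := fun x' => ∑ j', |A x' j'|)
          (fun _ _ => Finset.sum_nonneg fun _ _ => abs_nonneg _) (Finset.mem_univ x)
  have hY : ∀ x, Measurable fun z : Fin n → ℝ => c x + t * gaussVec A z x := fun x =>
    ((measurable_gaussVec A x).const_mul t).const_add _
  have hform : ∀ (z : Fin n → ℝ) (x : S), c x + t * gaussVec A z x =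
      c x + ∑ l, z l * (t * A x l) := by
    intro z x
    unfold gaussVec
    rw [Finset.mul_sum]
    congr 1
    refine Finset.sum_congr rfl fun l _ => by ring
  have hsplit : ∀ z : Fin n → ℝ, gavg (fun x => c x + t * gaussVec A z x) (gaussVec A z) =
      ∑ j, z j * gavg (fun x => c x + t * gaussVec A z x) (fun x => A x j) := by
    intro z
    have h1 : gaussVec A z = fun x => ∑ j, z j * A x j := by
      funext x
      unfold gaussVec
      refine Finset.sum_congr rfl fun j _ => by ring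
    rw [h1, gavg_sum]
    refine Finset.sum_congr rfl fun j _ => ?_
    rw [gavg_const_mul, ← h1]
  simp_rw [hsplit]
  have hint1 : ∀ j, Integrable (fun z : Fin n → ℝ =>
      z j * gavg (fun x => c x + t * gaussVec A z x) (fun x => A x j)) (patternLaw n) := by
    intro j
    refine integrable_coord_mul j (K := KA)
      (measurable_gavg (a := fun _ x => A x j) hY fun x => measurable_const) fun z => ?_
    exact abs_gavg_le _ _ fun x => hAb x j
  rw [integral_finsetSum _ fun j _ => hint1 j]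
  have hibp : ∀ j, ∫ z, z j * gavg (fun x => c x + t * gaussVec A z x) (fun x => A x j)
      ∂(patternLaw n) =
      t * ∫ z, gcov (fun x => c x + t * gaussVec A z x) (fun x => A x j) (fun x => A x j)
      ∂(patternLaw n) := by
    intro j
    have h1 := gavg_ibp_coord j c (fun x => A x j) (fun l x => t * A x l) (K := KA)
      (K' := |t| * KA) (fun x => hAb x j) (fun l x => by
        rw [abs_mul]
        exact mul_le_mul_of_nonneg_left (hAb x l) (abs_nonneg _))
    simp_rw [← hform] at h1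
    rw [h1, ← integral_const_mul]
    congr 1
    ext z
    exact gcov_const_mul_right _ _ _ t
  simp_rw [hibp]
  rw [← Finset.mul_sum]
  congr 1
  have hint2 : ∀ j, Integrable (fun z : Fin n → ℝ =>
      gcov (fun x => c x + t * gaussVec A z x) (fun x => A x j) (fun x => A x j))
      (patternLaw n) := by
    intro j
    refine integrable_of_bdd (B := 2 * (KA * KA))
      (measurable_gcov (a := fun _ x => A x j) (b := fun _ x => A x j) hY
        (fun x => measurable_const) (fun x => measurable_const)) fun z => ?_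
    exact abs_gcov_le _ _ _ (fun x => hAb x j) (fun x => hAb x j)
  rw [← integral_finsetSum _ fun j _ => hint2 j, ← integral_const_mul]
  congr 1
  ext z
  exact sum_gcov_columns A C c' hA _

/-- The interpolating energy vector. -/
noncomputable def pathY {M n : ℕ} (ξ : S → X → ℝ) (A : S → Fin n → ℝ) (θ : ℝ)
    (ω : (Fin M → X) × (Fin n → ℝ)) (x : S) : ℝ :=
  Real.sin θ * patSum ξ ω.1 x + Real.cos θ * gaussVec A ω.2 x

lemma measurable_pathY {M n : ℕ} (hξ : ∀ x, Measurable (ξ x)) (A : S → Fin n → ℝ) (θ : ℝ) (x : S) :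
    Measurable fun ω : (Fin M → X) × (Fin n → ℝ) => pathY ξ A θ ω x := by
  unfold pathY
  exact (((measurable_patSum hξ x).comp measurable_fst).const_mul _).add
    (((measurable_gaussVec A x).comp measurable_snd).const_mul _)

lemma hasDerivAt_pathY {M n : ℕ} (ξ : S → X → ℝ) (A : S → Fin n → ℝ)
    (ω : (Fin M → X) × (Fin n → ℝ)) (θ : ℝ) (x : S) :
    HasDerivAt (fun θ => pathY ξ A θ ω x)
      (Real.cos θ * patSum ξ ω.1 x - Real.sin θ * gaussVec A ω.2 x) θ := by
  unfold pathY
  have h1 := (Real.hasDerivAt_sin θ).mul_const (patSum ξ ω.1 x)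
  have h2 := (Real.hasDerivAt_cos θ).mul_const (gaussVec A ω.2 x)
  have h3 := h1.fun_add h2
  refine h3.congr_deriv ?_
  ring

variable {M n : ℕ}

/-- The interpolation function and its derivative. -/
lemma hasDerivAt_phi (hξ : ∀ x, Measurable (ξ x)) (hK : ∀ x g, |ξ x g| ≤ K) (A : S → Fin n → ℝ)
    (θ : ℝ) :
    HasDerivAt (fun θ => ∫ ω, logAvg (pathY ξ A θ ω)
        ∂((Measure.pi fun _ : Fin M => ν).prod (patternLaw n)))
      (∫ ω, gavg (pathY ξ A θ ω)
        (fun x => Real.cos θ * patSum ξ ω.1 x - Real.sin θ * gaussVec A ω.2 x)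
        ∂((Measure.pi fun _ : Fin M => ν).prod (patternLaw n))) θ := by
  set μ : Measure ((Fin M → X) × (Fin n → ℝ)) :=
    (Measure.pi fun _ : Fin M => ν).prod (patternLaw n) with hμ
  obtain ⟨x0⟩ := (inferInstance : Nonempty S)
  obtain ⟨g0⟩ : Nonempty X := nonempty_of_isProbabilityMeasure ν
  have hKnn : 0 ≤ K := (abs_nonneg _).trans (hK x0 g0)
  set bound : (Fin M → X) × (Fin n → ℝ) → ℝ := fun ω => M * K + ∑ x, |gaussVec A ω.2 x| with hbound
  have hbint : Integrable bound μ := by
    refine (integrable_const _).add ?_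
    exact (integrable_sum_abs_gaussVec A).comp_snd _
  have hgv : ∀ (ω : (Fin M → X) × (Fin n → ℝ)) (x : S), |gaussVec A ω.2 x| ≤ ∑ x', |gaussVec A ω.2 x'| :=
    fun ω x => Finset.single_le_sum (f := fun x' => |gaussVec A ω.2 x'|)
      (fun _ _ => abs_nonneg _) (Finset.mem_univ x)
  have hsumnn : ∀ ω : (Fin M → X) × (Fin n → ℝ), 0 ≤ ∑ x, |gaussVec A ω.2 x| := fun ω =>
    Finset.sum_nonneg fun _ _ => abs_nonneg _
  have hMK : (0 : ℝ) ≤ M * K := by positivity
  have hYb : ∀ (θ : ℝ) (ω : (Fin M → X) × (Fin n → ℝ)) (x : S),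
      |Real.cos θ * patSum ξ ω.1 x - Real.sin θ * gaussVec A ω.2 x| ≤ bound ω := by
    intro θ ω x
    have h1 : |Real.cos θ * patSum ξ ω.1 x| ≤ M * K := by
      rw [abs_mul]
      calc |Real.cos θ| * |patSum ξ ω.1 x| ≤ 1 * (M * K) :=
            mul_le_mul (Real.abs_cos_le_one θ) (abs_patSum_le hK ω.1 x) (abs_nonneg _) (by norm_num)
        _ = _ := one_mul _
    have h2 : |Real.sin θ * gaussVec A ω.2 x| ≤ ∑ x', |gaussVec A ω.2 x'| := by
      rw [abs_mul]
      calc |Real.sin θ| * |gaussVec A ω.2 x| ≤ 1 * ∑ x', |gaussVec A ω.2 x'| :=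
            mul_le_mul (Real.abs_sin_le_one θ) (hgv ω x) (abs_nonneg _) (by norm_num)
        _ = _ := one_mul _
    calc _ ≤ _ := abs_sub _ _
      _ ≤ _ := add_le_add h1 h2
  have hYb' : ∀ (θ : ℝ) (ω : (Fin M → X) × (Fin n → ℝ)) (x : S), |pathY ξ A θ ω x| ≤ bound ω := by
    intro θ ω x
    have h1 : |Real.sin θ * patSum ξ ω.1 x| ≤ M * K := by
      rw [abs_mul]
      calc |Real.sin θ| * |patSum ξ ω.1 x| ≤ 1 * (M * K) :=
            mul_le_mul (Real.abs_sin_le_one θ) (abs_patSum_le hK ω.1 x) (abs_nonneg _) (by norm_num)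
        _ = _ := one_mul _
    have h2 : |Real.cos θ * gaussVec A ω.2 x| ≤ ∑ x', |gaussVec A ω.2 x'| := by
      rw [abs_mul]
      calc |Real.cos θ| * |gaussVec A ω.2 x| ≤ 1 * ∑ x', |gaussVec A ω.2 x'| :=
            mul_le_mul (Real.abs_cos_le_one θ) (hgv ω x) (abs_nonneg _) (by norm_num)
        _ = _ := one_mul _
    unfold pathY
    calc _ ≤ _ := abs_add_le _ _
      _ ≤ _ := add_le_add h1 h2
  have hmeasF : ∀ θ, Measurable fun ω : (Fin M → X) × (Fin n → ℝ) => logAvg (pathY ξ A θ ω) :=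
    fun θ => measurable_logAvg fun x => measurable_pathY hξ A θ x
  have hmeasF' : ∀ θ, Measurable fun ω : (Fin M → X) × (Fin n → ℝ) => gavg (pathY ξ A θ ω)
      (fun x => Real.cos θ * patSum ξ ω.1 x - Real.sin θ * gaussVec A ω.2 x) := by
    intro θ
    refine measurable_gavg (fun x => measurable_pathY hξ A θ x) fun x => ?_
    exact (((measurable_patSum hξ x).comp measurable_fst).const_mul _).sub
      (((measurable_gaussVec A x).comp measurable_snd).const_mul _)
  have hFint : Integrable (fun ω => logAvg (pathY ξ A θ ω)) μ := by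
    refine hbint.mono' (hmeasF θ).aestronglyMeasurable (Filter.Eventually.of_forall fun ω => ?_)
    rw [Real.norm_eq_abs]
    exact abs_logAvg_le _ (hYb' θ ω)
  refine (hasDerivAt_integral_of_dominated_loc_of_deriv_le (s := Set.univ) (bound := bound)
    (F := fun θ ω => logAvg (pathY ξ A θ ω))
    (F' := fun θ ω => gavg (pathY ξ A θ ω)
      (fun x => Real.cos θ * patSum ξ ω.1 x - Real.sin θ * gaussVec A ω.2 x))
    Filter.univ_mem (Filter.Eventually.of_forall fun θ => (hmeasF θ).aestronglyMeasurable)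
    hFint (hmeasF' θ).aestronglyMeasurable ?_ hbint ?_).2
  · refine Filter.Eventually.of_forall fun ω θ' _ => ?_
    rw [Real.norm_eq_abs]
    exact abs_gavg_le _ _ (hYb θ' ω)
  · refine Filter.Eventually.of_forall fun ω θ' _ => ?_
    exact hasDerivAt_logAvg (w := fun θ => pathY ξ A θ ω)
      (w' := fun x => Real.cos θ' * patSum ξ ω.1 x - Real.sin θ' * gaussVec A ω.2 x)
      (fun x => hasDerivAt_pathY ξ A ω θ' x)

/-- The derivative of the interpolation is of third order. -/
lemma abs_deriv_phi_le (hξ : ∀ x, Measurable (ξ x)) (hK : ∀ x g, |ξ x g| ≤ K)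
    (h0 : ∀ x, ∫ g, ξ x g ∂ν = 0) (A : S → Fin n → ℝ)
    (hA : ∀ x y, ∑ j, A x j * A y j = M * kernelOf ν ξ x y) (θ : ℝ) :
    |∫ ω, gavg (pathY ξ A θ ω)
        (fun x => Real.cos θ * patSum ξ ω.1 x - Real.sin θ * gaussVec A ω.2 x)
        ∂((Measure.pi fun _ : Fin M => ν).prod (patternLaw n))| ≤
      |Real.cos θ| * (Real.sin θ) ^ 2 * (12 * M * K ^ 3) := by
  set π' : Measure (Fin M → X) := Measure.pi fun _ : Fin M => ν with hπ'
  set γ' : Measure (Fin n → ℝ) := patternLaw n with hγ'
  set μ : Measure ((Fin M → X) × (Fin n → ℝ)) := π'.prod γ' with hμ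
  set r : ℝ := Real.sin θ with hr
  set t : ℝ := Real.cos θ with ht
  obtain ⟨x0⟩ := (inferInstance : Nonempty S)
  obtain ⟨g0⟩ : Nonempty X := nonempty_of_isProbabilityMeasure ν
  have hKnn : 0 ≤ K := (abs_nonneg _).trans (hK x0 g0)
  have hY : ∀ x, Measurable fun ω : (Fin M → X) × (Fin n → ℝ) => pathY ξ A θ ω x :=
    fun x => measurable_pathY hξ A θ x
  -- the three pieces
  set I1 : ℝ := ∫ ω, gavg (pathY ξ A θ ω) (patSum ξ ω.1) ∂μ with hI1
  set I2 : ℝ := ∫ ω, gavg (pathY ξ A θ ω) (gaussVec A ω.2) ∂μ with hI2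
  set T : ℝ := ∫ ω, Qf (kernelOf ν ξ) (pathY ξ A θ ω) ∂μ with hT
  have hint1 : Integrable (fun ω => gavg (pathY ξ A θ ω) (patSum ξ ω.1)) μ :=
    integrable_of_bdd (B := M * K)
      (measurable_gavg hY fun x => (measurable_patSum hξ x).comp measurable_fst)
      fun ω => abs_gavg_le _ _ (abs_patSum_le hK ω.1)
  have hint2 : Integrable (fun ω => gavg (pathY ξ A θ ω) (gaussVec A ω.2)) μ := by
    have hb : Integrable (fun ω : (Fin M → X) × (Fin n → ℝ) => ∑ x, |gaussVec A ω.2 x|) μ :=
      (integrable_sum_abs_gaussVec A).comp_snd _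
    refine hb.mono' (measurable_gavg hY fun x =>
      (measurable_gaussVec A x).comp measurable_snd).aestronglyMeasurable
      (Filter.Eventually.of_forall fun ω => ?_)
    rw [Real.norm_eq_abs]
    exact abs_gavg_le _ _ fun x => Finset.single_le_sum (f := fun x' => |gaussVec A ω.2 x'|)
      (fun _ _ => abs_nonneg _) (Finset.mem_univ x)
  have hintQ : Integrable (fun ω => Qf (kernelOf ν ξ) (pathY ξ A θ ω)) μ :=
    integrable_of_bdd (B := 2 * (K * K)) (measurable_Qf _ hY) fun ω => abs_Qf_le hξ hK _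
  -- splitting the integrand
  have hsplit : ∫ ω, gavg (pathY ξ A θ ω)
      (fun x => t * patSum ξ ω.1 x - r * gaussVec A ω.2 x) ∂μ = t * I1 - r * I2 := by
    have h1 : ∀ ω : (Fin M → X) × (Fin n → ℝ), gavg (pathY ξ A θ ω)
        (fun x => t * patSum ξ ω.1 x - r * gaussVec A ω.2 x) =
        t * gavg (pathY ξ A θ ω) (patSum ξ ω.1) - r * gavg (pathY ξ A θ ω) (gaussVec A ω.2) := by
      intro ω
      rw [gavg_sub, gavg_const_mul, gavg_const_mul]
    simp_rw [h1]
    rw [integral_sub (hint1.const_mul t) (hint2.const_mul r), integral_const_mul,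
      integral_const_mul]
  -- Gaussian part through Stein's identity
  have hI2eq : I2 = t * (M * T) := by
    simp only [hI2, hT, hμ]
    rw [integral_prod _ hint2, integral_prod _ hintQ]
    have h1 : ∀ G : Fin M → X, ∫ z, gavg (pathY ξ A θ (G, z)) (gaussVec A z) ∂γ' =
        t * (M * ∫ z, Qf (kernelOf ν ξ) (pathY ξ A θ (G, z)) ∂γ') := by
      intro G
      exact gauss_part A (kernelOf ν ξ) M hA ⟨_, abs_Qf_le hξ hK⟩
        (fun x => r * patSum ξ G x) t
    simp_rw [h1]
    rw [integral_const_mul, integral_const_mul]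
  -- pattern part through the Taylor estimate
  have hI1eq : |I1 - M * (r * T)| ≤ M * (12 * r ^ 2 * K ^ 3) := by
    simp only [hI1, hT, hμ]
    rw [integral_prod_symm _ hint1, integral_prod_symm _ hintQ]
    have hfield : ∀ (G : Fin M → X) (z : Fin n → ℝ) (x : S),
        pathY ξ A θ (G, z) x = t * gaussVec A z x + r * patSum ξ G x := by
      intro G z x
      simp only [pathY, hr, ht]
      ring
    have hi1 : Integrable (fun z : Fin n → ℝ =>
        ∫ G, gavg (pathY ξ A θ (G, z)) (patSum ξ G) ∂π') γ' :=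
      hint1.integral_prod_right
    have hi2 : Integrable (fun z : Fin n → ℝ =>
        ∫ G, Qf (kernelOf ν ξ) (pathY ξ A θ (G, z)) ∂π') γ' :=
      hintQ.integral_prod_right
    rw [← integral_const_mul, ← integral_const_mul, ← integral_sub hi1
      ((hi2.const_mul r).const_mul (M : ℝ))]
    have := norm_integral_le_of_norm_le_const (μ := γ')
      (f := fun z => ∫ G, gavg (pathY ξ A θ (G, z)) (patSum ξ G) ∂π' -
        M * (r * ∫ G, Qf (kernelOf ν ξ) (pathY ξ A θ (G, z)) ∂π'))
      (C := M * (12 * r ^ 2 * K ^ 3))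
      (Filter.Eventually.of_forall fun z => by
        have h2 := pattern_sum_bound (M := M) hξ hK h0 (fun x => t * gaussVec A z x) r
        simp_rw [← hfield] at h2
        simpa using h2)
    have hprob : IsProbabilityMeasure γ' := by
      simp only [hγ']
      infer_instance
    simpa using this
  have hfinal : t * I1 - r * I2 = t * (I1 - M * (r * T)) := by
    rw [hI2eq]
    ring
  rw [hsplit, hfinal, abs_mul]
  calc |t| * |I1 - M * (r * T)| ≤ |t| * (M * (12 * r ^ 2 * K ^ 3)) := by gcongr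
    _ = _ := by ring

/-- **Gaussian comparison.** -/
theorem lindeberg_compare (hξ : ∀ x, Measurable (ξ x)) (hK : ∀ x g, |ξ x g| ≤ K)
    (h0 : ∀ x, ∫ g, ξ x g ∂ν = 0) (A : S → Fin n → ℝ)
    (hA : ∀ x y, ∑ j, A x j * A y j = M * kernelOf ν ξ x y) :
    |∫ G, logAvg (patSum ξ G) ∂(Measure.pi fun _ : Fin M => ν) -
      ∫ z, logAvg (gaussVec A z) ∂(patternLaw n)| ≤ 4 * M * K ^ 3 := by
  set φ : ℝ → ℝ := fun θ => ∫ ω, logAvg (pathY ξ A θ ω)
    ∂((Measure.pi fun _ : Fin M => ν).prod (patternLaw n)) with hφ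
  set φ' : ℝ → ℝ := fun θ => ∫ ω, gavg (pathY ξ A θ ω)
    (fun x => Real.cos θ * patSum ξ ω.1 x - Real.sin θ * gaussVec A ω.2 x)
    ∂((Measure.pi fun _ : Fin M => ν).prod (patternLaw n)) with hφ'
  have hd : ∀ θ, HasDerivAt φ (φ' θ) θ := fun θ => hasDerivAt_phi hξ hK A θ
  have hbd : ∀ θ, |φ' θ| ≤ |Real.cos θ| * (Real.sin θ) ^ 2 * (12 * M * K ^ 3) :=
    fun θ => abs_deriv_phi_le hξ hK h0 A hA θ
  obtain ⟨x0⟩ := (inferInstance : Nonempty S)
  obtain ⟨g0⟩ : Nonempty X := nonempty_of_isProbabilityMeasure ν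
  have hKnn : 0 ≤ K := (abs_nonneg _).trans (hK x0 g0)
  set B : ℝ := 4 * M * K ^ 3 with hB
  have hBnn : 0 ≤ B := by positivity
  have hsin3 : ∀ θ, HasDerivAt (fun θ => B * Real.sin θ ^ 3)
      (3 * Real.cos θ * (Real.sin θ) ^ 2 * B) θ := by
    intro θ
    have h1 := ((Real.hasDerivAt_sin θ).fun_pow 3).const_mul B
    refine h1.congr_deriv ?_
    simp
    ring
  have hcosnn : ∀ θ ∈ interior (Set.Icc (0 : ℝ) (Real.pi / 2)), 0 ≤ Real.cos θ := by
    intro θ hθ
    rw [interior_Icc] at hθ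
    exact Real.cos_nonneg_of_mem_Icc ⟨by linarith [hθ.1, Real.pi_pos], hθ.2.le⟩
  have hanti : AntitoneOn (fun θ => φ θ - B * Real.sin θ ^ 3) (Set.Icc 0 (Real.pi / 2)) := by
    refine antitoneOn_of_deriv_nonpos (convex_Icc _ _) ?_ ?_ ?_
    · exact fun θ _ => ((hd θ).fun_sub (hsin3 θ)).continuousAt.continuousWithinAt
    · exact fun θ _ => ((hd θ).fun_sub (hsin3 θ)).differentiableAt.differentiableWithinAt
    · intro θ hθ
      rw [((hd θ).fun_sub (hsin3 θ)).deriv]
      have h1 := (abs_le.mp (hbd θ)).2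
      rw [abs_of_nonneg (hcosnn θ hθ)] at h1
      have h2 : 3 * Real.cos θ * Real.sin θ ^ 2 * B =
          Real.cos θ * Real.sin θ ^ 2 * (12 * M * K ^ 3) := by
        simp only [hB]
        ring
      linarith
  have hmono : MonotoneOn (fun θ => φ θ + B * Real.sin θ ^ 3) (Set.Icc 0 (Real.pi / 2)) := by
    refine monotoneOn_of_deriv_nonneg (convex_Icc _ _) ?_ ?_ ?_
    · exact fun θ _ => ((hd θ).fun_add (hsin3 θ)).continuousAt.continuousWithinAt
    · exact fun θ _ => ((hd θ).fun_add (hsin3 θ)).differentiableAt.differentiableWithinAt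
    · intro θ hθ
      rw [((hd θ).fun_add (hsin3 θ)).deriv]
      have h1 := (abs_le.mp (hbd θ)).1
      rw [abs_of_nonneg (hcosnn θ hθ)] at h1
      have h2 : 3 * Real.cos θ * Real.sin θ ^ 2 * B =
          Real.cos θ * Real.sin θ ^ 2 * (12 * M * K ^ 3) := by
        simp only [hB]
        ring
      linarith
  have hpi : (0 : ℝ) ≤ Real.pi / 2 := by positivity
  have h0mem : (0 : ℝ) ∈ Set.Icc (0 : ℝ) (Real.pi / 2) := ⟨le_refl _, hpi⟩
  have h1mem : (Real.pi / 2) ∈ Set.Icc (0 : ℝ) (Real.pi / 2) := ⟨hpi, le_refl _⟩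
  have h1 := hanti h0mem h1mem hpi
  have h2 := hmono h0mem h1mem hpi
  simp only [Real.sin_zero, Real.sin_pi_div_two] at h1 h2
  have e1 : φ (Real.pi / 2) = ∫ G, logAvg (patSum ξ G) ∂(Measure.pi fun _ : Fin M => ν) := by
    simp only [hφ]
    have h3 : ∀ ω : (Fin M → X) × (Fin n → ℝ), pathY ξ A (Real.pi / 2) ω = patSum ξ ω.1 := by
      intro ω
      funext x
      simp [pathY]
    simp_rw [h3]
    have h4 := integral_fun_fst (μ := Measure.pi fun _ : Fin M => ν) (ν := patternLaw n)
      (fun G => logAvg (patSum ξ G))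
    simpa using h4
  have e2 : φ 0 = ∫ z, logAvg (gaussVec A z) ∂(patternLaw n) := by
    simp only [hφ]
    have h3 : ∀ ω : (Fin M → X) × (Fin n → ℝ), pathY ξ A 0 ω = gaussVec A ω.2 := by
      intro ω
      funext x
      simp [pathY]
    simp_rw [h3]
    have h4 := integral_fun_snd (μ := Measure.pi fun _ : Fin M => ν) (ν := patternLaw n)
      (fun z => logAvg (gaussVec A z))
    simpa using h4
  rw [← e1, ← e2, abs_le]
  constructor
  · simp at h2
    linarith
  · simp at h1
    linarith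

end Main

end Vale.Agent.Lib.P157
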