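import Vale.Agent.Lib.P157.DefsDense
import Vale.Agent.Lib.P157.Cube
import Vale.Agent.Lib.P157.LindebergMain

/-!
The joint law of two fields and the covariance kernel of a pattern.
-/

open MeasureTheory ProbabilityTheory Complex
open scoped NNReal ENNReal

set_option linter.unusedSectionVars false

namespace Vale.Agent.Lib.P157

variable {N : ℕ}

lemma abs_overlap_le (x y : Fin N → Bool) : |overlap x y| ≤ 1 := by
  unfold overlap
  rcases Nat.eq_zero_or_pos N with h | h
  · subst h
    simp
  have hN : (0 : ℝ) < N := by exact_mod_cast h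
  rw [abs_div, abs_of_pos hN, div_le_one hN]
  calc |∑ i, spinValue (x i) * spinValue (y i)|
      ≤ ∑ i, |spinValue (x i) * spinValue (y i)| := Finset.abs_sum_le_sum_abs _ _
    _ ≤ ∑ _i : Fin N, (1 : ℝ) := by
        refine Finset.sum_le_sum fun i _ => ?_
        rw [abs_le]
        cases x i <;> cases y i <;> norm_num [spinValue]
    _ = N := by simp

lemma sum_overlap_sq (hN : 1 ≤ N) (x y : Fin N → Bool) (a b : ℝ) :
    ∑ i, ((a * spinValue (x i) + b * spinValue (y i)) / Real.sqrt N) ^ 2 =
      a ^ 2 + b ^ 2 + 2 * a * b * overlap x y := by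
  have hN0 : (N : ℝ) ≠ 0 := by
    have : (0 : ℝ) < N := by exact_mod_cast hN
    exact this.ne'
  have hsq : Real.sqrt N ^ 2 = N := Real.sq_sqrt (Nat.cast_nonneg _)
  have h1 : ∀ i, ((a * spinValue (x i) + b * spinValue (y i)) / Real.sqrt N) ^ 2 =
      (a ^ 2 + b ^ 2 + 2 * a * b * (spinValue (x i) * spinValue (y i))) / N := by
    intro i
    rw [div_pow, hsq]
    congr 1
    have h2 := spinValue_sq (x i)
    have h3 := spinValue_sq (y i)
    calc (a * spinValue (x i) + b * spinValue (y i)) ^ 2
        = a ^ 2 * spinValue (x i) ^ 2 + b ^ 2 * spinValue (y i) ^ 2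
          + 2 * a * b * (spinValue (x i) * spinValue (y i)) := by ring
      _ = _ := by rw [h2, h3]; ring
  simp_rw [h1]
  rw [← Finset.sum_div, Finset.sum_add_distrib, Finset.sum_add_distrib, ← Finset.mul_sum]
  simp only [Finset.sum_const, Finset.card_univ, Fintype.card_fin, nsmul_eq_mul]
  unfold overlap
  field_simp

/-- The joint law of the two fields at `x` and `y`. -/
lemma joint_law (hN : 1 ≤ N) (x y : Fin N → Bool) :
    (patternLaw N).map (fun g => (patternField x g, patternField y g)) =
      ((gaussianReal 0 1).prod (gaussianReal 0 1)).map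
        (fun p : ℝ × ℝ => (p.1, overlap x y * p.1 +
          Real.sqrt (1 - overlap x y ^ 2) * p.2)) := by
  set ρ := overlap x y with hρ
  set σ := Real.sqrt (1 - ρ ^ 2) with hσ
  have hσsq : σ ^ 2 = 1 - ρ ^ 2 := by
    apply Real.sq_sqrt
    have := abs_overlap_le x y
    have h2 : ρ ^ 2 ≤ 1 := by
      rw [← sq_abs]
      exact pow_le_one₀ (abs_nonneg _) this
    linarith
  have hm1 : Measurable (fun g : Fin N → ℝ => (patternField x g, patternField y g)) :=
    (measurable_patternField x).prodMk (measurable_patternField y)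
  have hm2 : Measurable (fun p : ℝ × ℝ => (p.1, ρ * p.1 + σ * p.2)) := by fun_prop
  have : IsProbabilityMeasure ((patternLaw N).map
      (fun g => (patternField x g, patternField y g))) :=
    Measure.isProbabilityMeasure_map hm1.aemeasurable
  have : IsProbabilityMeasure (((gaussianReal 0 1).prod (gaussianReal 0 1)).map
      (fun p : ℝ × ℝ => (p.1, ρ * p.1 + σ * p.2))) :=
    Measure.isProbabilityMeasure_map hm2.aemeasurable
  refine Measure.ext_of_charFunDual ?_
  funext L
  rw [charFunDual_apply, charFunDual_apply]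
  have hc : Continuous fun v : ℝ × ℝ => cexp ((L v : ℂ) * I) := by fun_prop
  rw [integral_map hm1.aemeasurable hc.aestronglyMeasurable,
    integral_map hm2.aemeasurable hc.aestronglyMeasurable]
  set a := L (1, 0) with ha
  set b := L (0, 1) with hb
  have hL : ∀ u v : ℝ, L (u, v) = a * u + b * v := by
    intro u v
    have : ((u, v) : ℝ × ℝ) = u • ((1, 0) : ℝ × ℝ) + v • ((0, 1) : ℝ × ℝ) := by
      ext <;> simp
    rw [this, map_add, map_smul, map_smul]
    simp only [smul_eq_mul]
    ring
  -- left side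
  have hleft : ∫ g, cexp ((L (patternField x g, patternField y g) : ℂ) * I) ∂(patternLaw N) =
      cexp (-(((a ^ 2 + b ^ 2 + 2 * a * b * ρ : ℝ) : ℂ) / 2)) := by
    have h1 : ∀ g : Fin N → ℝ, L (patternField x g, patternField y g) =
        ∑ i, g i * ((a * spinValue (x i) + b * spinValue (y i)) / Real.sqrt N) := by
      intro g
      rw [hL]
      unfold patternField
      rw [mul_div_assoc', mul_div_assoc', ← add_div, Finset.mul_sum, Finset.mul_sum,
        ← Finset.sum_add_distrib, Finset.sum_div]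
      refine Finset.sum_congr rfl fun i _ => ?_
      field_simp
    simp_rw [h1]
    rw [integral_cexp_linear]
    rw [sum_overlap_sq hN]
  -- right side
  have hright : ∫ p : ℝ × ℝ, cexp ((L (p.1, ρ * p.1 + σ * p.2) : ℂ) * I)
      ∂((gaussianReal 0 1).prod (gaussianReal 0 1)) =
      cexp (-(((a ^ 2 + b ^ 2 + 2 * a * b * ρ : ℝ) : ℂ) / 2)) := by
    have h1 : ∀ p : ℝ × ℝ, cexp ((L (p.1, ρ * p.1 + σ * p.2) : ℂ) * I) =
        cexp ((((a + b * ρ) : ℝ) : ℂ) * (p.1 : ℂ) * I) *
          cexp (((b * σ : ℝ) : ℂ) * (p.2 : ℂ) * I) := by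
      intro p
      rw [← Complex.exp_add, hL]
      congr 1
      push_cast
      ring
    simp_rw [h1]
    rw [integral_prod_mul (L := ℂ) (fun u : ℝ => cexp (((a + b * ρ : ℝ) : ℂ) * (u : ℂ) * I))
      (fun w : ℝ => cexp (((b * σ : ℝ) : ℂ) * (w : ℂ) * I))]
    have h2 : ∀ c : ℝ, ∫ u : ℝ, cexp ((c : ℂ) * (u : ℂ) * I) ∂(gaussianReal 0 1) =
        cexp (-((c : ℂ) ^ 2 / 2)) := by
      intro c
      have := charFun_gaussianReal (μ := 0) (v := 1) c
      rw [charFun_apply_real] at this
      rw [this]
      congr 1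
      simp
    rw [h2, h2, ← Complex.exp_add]
    congr 1
    have h3 : ((σ : ℂ)) ^ 2 = 1 - (ρ : ℂ) ^ 2 := by
      have := congrArg (fun t : ℝ => (t : ℂ)) hσsq
      push_cast at this
      exact this
    push_cast
    have h4 : ((a : ℂ) + b * ρ) ^ 2 + (b * σ) ^ 2 = a ^ 2 + b ^ 2 + 2 * a * b * ρ := by
      have : ((b : ℂ) * σ) ^ 2 = b ^ 2 * σ ^ 2 := by ring
      rw [this, h3]
      ring
    linear_combination (-1 / 2 : ℂ) * h4
  rw [hleft, hright]

end Vale.Agent.Lib.P157
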