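import Vale.Agent.Lib.P157.GaussIBP

/-!
Gaussian comparison for sums of independent bounded random energy vectors.
-/

open MeasureTheory ProbabilityTheory
open scoped NNReal ENNReal

set_option linter.unusedSectionVars false

namespace Vale.Agent.Lib.P157

section Lindeberg

variable {S : Type*} [Fintype S] [Nonempty S]

/-- The quadratic form in the Gibbs measure attached to a kernel `C`. -/
noncomputable def Qf (C : S → S → ℝ) (y : S → ℝ) : ℝ :=
  ∑ x, gwt y x * C x x - ∑ x, ∑ x', gwt y x * gwt y x' * C x x'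

lemma gcov_self_eq (y a : S → ℝ) :
    gcov y a a = ∑ x, gwt y x * (a x * a x) - ∑ x, ∑ x', gwt y x * gwt y x' * (a x * a x') := by
  unfold gcov gavg
  congr 1
  rw [Finset.sum_mul]
  refine Finset.sum_congr rfl fun x _ => ?_
  rw [Finset.mul_sum]
  refine Finset.sum_congr rfl fun x' _ => by ring

/-- The matrix identity linking the Gaussian columns to the kernel. -/
lemma sum_gcov_columns {n : ℕ} (A : S → Fin n → ℝ) (C : S → S → ℝ) (c : ℝ)
    (hA : ∀ x y, ∑ j, A x j * A y j = c * C x y) (y : S → ℝ) :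
    ∑ j, gcov y (fun x => A x j) (fun x => A x j) = c * Qf C y := by
  simp_rw [gcov_self_eq]
  rw [Finset.sum_sub_distrib]
  unfold Qf
  rw [mul_sub]
  congr 1
  · rw [Finset.sum_comm, Finset.mul_sum]
    refine Finset.sum_congr rfl fun x _ => ?_
    rw [← Finset.mul_sum, hA]
    ring
  · rw [Finset.mul_sum]
    have h1 : ∑ j, ∑ x, ∑ x', gwt y x * gwt y x' * (A x j * A x' j) =
        ∑ x, ∑ j, ∑ x', gwt y x * gwt y x' * (A x j * A x' j) := Finset.sum_comm
    rw [h1]
    refine Finset.sum_congr rfl fun x _ => ?_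
    rw [Finset.sum_comm, Finset.mul_sum]
    refine Finset.sum_congr rfl fun x' _ => ?_
    rw [← Finset.mul_sum, hA]
    ring

lemma gcov_const_mul_right (v a b : S → ℝ) (c : ℝ) :
    gcov v a (fun x => c * b x) = c * gcov v a b := by
  unfold gcov
  have h1 : (fun x => a x * (c * b x)) = fun x => c * (a x * b x) := by
    funext x
    ring
  rw [h1, gavg_const_mul, gavg_const_mul]
  ring

lemma abs_logAvg_le (v : S → ℝ) {B : ℝ} (h : ∀ x, |v x| ≤ B) : |logAvg v| ≤ B := by
  have hcard : (0 : ℝ) < Fintype.card S := by exact_mod_cast Fintype.card_pos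
  have hpos : 0 < gsum v / Fintype.card S := div_pos (gsum_pos v) hcard
  have hU : gsum v / Fintype.card S ≤ Real.exp B := by
    rw [div_le_iff₀ hcard]
    unfold gsum
    calc ∑ x, Real.exp (v x) ≤ ∑ _x : S, Real.exp B :=
          Finset.sum_le_sum fun x _ => Real.exp_le_exp.mpr (abs_le.mp (h x)).2
      _ = _ := by rw [Finset.sum_const, Finset.card_univ, nsmul_eq_mul, mul_comm]
  have hL : Real.exp (-B) ≤ gsum v / Fintype.card S := by
    rw [le_div_iff₀ hcard]
    unfold gsum
    calc _ = ∑ _x : S, Real.exp (-B) := by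
          rw [Finset.sum_const, Finset.card_univ, nsmul_eq_mul, mul_comm]
      _ ≤ _ := Finset.sum_le_sum fun x _ => Real.exp_le_exp.mpr (by linarith [(abs_le.mp (h x)).1])
  rw [abs_le]
  unfold logAvg
  constructor
  · have := Real.log_le_log (Real.exp_pos _) hL
    rwa [Real.log_exp] at this
  · have := Real.log_le_log hpos hU
    rwa [Real.log_exp] at this

variable {X : Type*} [MeasurableSpace X] {ν : Measure X} [IsProbabilityMeasure ν]
  {ξ : S → X → ℝ} {K : ℝ}

/-- The kernel of the covariance. -/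
noncomputable def kernelOf (ν : Measure X) (ξ : S → X → ℝ) (x y : S) : ℝ :=
  ∫ g, ξ x g * ξ y g ∂ν

lemma integrable_xi (hξ : ∀ x, Measurable (ξ x)) (hK : ∀ x g, |ξ x g| ≤ K) (x : S) :
    Integrable (ξ x) ν := integrable_of_bdd (hξ x) (hK x)

lemma integrable_xi_mul (hξ : ∀ x, Measurable (ξ x)) (hK : ∀ x g, |ξ x g| ≤ K) (x y : S) :
    Integrable (fun g => ξ x g * ξ y g) ν :=
  integrable_of_bdd (B := K * K) ((hξ x).mul (hξ y)) fun g => by
    rw [abs_mul]
    exact mul_le_mul (hK x g) (hK y g) (abs_nonneg _) ((abs_nonneg _).trans (hK x g))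

lemma Qf_eq_integral (hξ : ∀ x, Measurable (ξ x)) (hK : ∀ x g, |ξ x g| ≤ K) (y : S → ℝ) :
    Qf (kernelOf ν ξ) y = ∫ g, gcov y (fun x => ξ x g) (fun x => ξ x g) ∂ν := by
  simp_rw [gcov_self_eq]
  have hi := integrable_xi_mul (ν := ν) hξ hK
  rw [integral_sub]
  · unfold Qf
    congr 1
    · rw [integral_finsetSum _ fun x _ => (hi x x).const_mul _]
      refine Finset.sum_congr rfl fun x _ => ?_
      rw [integral_const_mul]
      rfl
    · rw [integral_finsetSum]
      · refine Finset.sum_congr rfl fun x _ => ?_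
        rw [integral_finsetSum _ fun x' _ => (hi x x').const_mul _]
        refine Finset.sum_congr rfl fun x' _ => ?_
        rw [integral_const_mul]
        rfl
      · exact fun x _ => integrable_finsetSum _ fun x' _ => (hi x x').const_mul _
  · exact integrable_finsetSum _ fun x _ => (hi x x).const_mul _
  · exact integrable_finsetSum _ fun x _ => integrable_finsetSum _ fun x' _ =>
      (hi x x').const_mul _

lemma abs_Qf_le (hξ : ∀ x, Measurable (ξ x)) (hK : ∀ x g, |ξ x g| ≤ K) (y : S → ℝ) :
    |Qf (kernelOf ν ξ) y| ≤ 2 * (K * K) := by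
  rw [Qf_eq_integral hξ hK]
  have := norm_integral_le_of_norm_le_const (μ := ν)
    (f := fun g => gcov y (fun x => ξ x g) (fun x => ξ x g)) (C := 2 * (K * K))
    (Filter.Eventually.of_forall fun g => by
      simpa using abs_gcov_le y _ _ (fun x => hK x g) (fun x => hK x g))
  simpa using this

lemma measurable_Qf {Ω : Type*} [MeasurableSpace Ω] {v : Ω → S → ℝ} (C : S → S → ℝ)
    (hv : ∀ x, Measurable fun ω => v ω x) : Measurable fun ω => Qf C (v ω) := by
  have hw : ∀ x, Measurable fun ω => gwt (v ω) x := fun x =>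
    (Real.measurable_exp.comp (hv x)).div (measurable_gsum hv)
  unfold Qf
  refine (Finset.measurable_sum _ fun x _ => (hw x).mul_const _).sub
    (Finset.measurable_sum _ fun x _ => Finset.measurable_sum _ fun x' _ =>
      ((hw x).mul (hw x')).mul_const _)

/-- The one-pattern estimate behind the comparison. -/
lemma one_pattern_bound (hξ : ∀ x, Measurable (ξ x)) (hK : ∀ x g, |ξ x g| ≤ K)
    (h0 : ∀ x, ∫ g, ξ x g ∂ν = 0) (y : S → ℝ) (r : ℝ) :
    |∫ g, gavg (fun x => y x + r * ξ x g) (fun x => ξ x g) ∂ν -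
        r * ∫ g, Qf (kernelOf ν ξ) (fun x => y x + r * ξ x g) ∂ν| ≤ 12 * r ^ 2 * K ^ 3 := by
  obtain ⟨x0⟩ := (inferInstance : Nonempty S)
  obtain ⟨g0⟩ : Nonempty X := nonempty_of_isProbabilityMeasure ν
  have hKnn : 0 ≤ K := (abs_nonneg _).trans (hK x0 g0)
  have hY : ∀ x, Measurable fun g => y x + r * ξ x g := fun x =>
    ((hξ x).const_mul r).const_add _
  -- integrability
  have hI1 : Integrable (fun g => gavg (fun x => y x + r * ξ x g) (fun x => ξ x g)) ν :=
    integrable_of_bdd (measurable_gavg hY hξ) fun g => abs_gavg_le _ _ fun x => hK x g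
  have hI2 : Integrable (fun g => gavg y (fun x => ξ x g)) ν :=
    integrable_of_bdd (measurable_gavg (v := fun _ => y) (fun x => measurable_const) hξ)
      fun g => abs_gavg_le _ _ fun x => hK x g
  have hI3 : Integrable (fun g => gcov y (fun x => ξ x g) (fun x => ξ x g)) ν :=
    integrable_of_bdd (B := 2 * (K * K))
      (measurable_gcov (v := fun _ => y) (fun x => measurable_const) hξ hξ)
      fun g => abs_gcov_le _ _ _ (fun x => hK x g) (fun x => hK x g)
  have hI4 : Integrable (fun g => Qf (kernelOf ν ξ) (fun x => y x + r * ξ x g)) ν :=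
    integrable_of_bdd (B := 2 * (K * K)) (measurable_Qf _ hY) fun g => abs_Qf_le hξ hK _
  -- the mean-zero term vanishes
  have hzero : ∫ g, gavg y (fun x => ξ x g) ∂ν = 0 := by
    unfold gavg
    rw [integral_finsetSum _ fun x _ => (integrable_xi hξ hK x).const_mul _]
    refine Finset.sum_eq_zero fun x _ => ?_
    rw [integral_const_mul, h0, mul_zero]
  -- Taylor expansion integrated
  have hTaylor : |∫ g, gavg (fun x => y x + r * ξ x g) (fun x => ξ x g) ∂ν -
      r * Qf (kernelOf ν ξ) y| ≤ 6 * r ^ 2 * K ^ 3 := by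
    rw [Qf_eq_integral hξ hK]
    have h1 : ∫ g, gavg (fun x => y x + r * ξ x g) (fun x => ξ x g) ∂ν -
        r * ∫ g, gcov y (fun x => ξ x g) (fun x => ξ x g) ∂ν =
        ∫ g, (gavg (fun x => y x + r * ξ x g) (fun x => ξ x g) - gavg y (fun x => ξ x g) -
          r * gcov y (fun x => ξ x g) (fun x => ξ x g)) ∂ν := by
      have h2 : Integrable (fun g => gavg (fun x => y x + r * ξ x g) (fun x => ξ x g) -
          gavg y (fun x => ξ x g)) ν := hI1.sub hI2
      rw [integral_sub h2 (hI3.const_mul r), integral_sub hI1 hI2, hzero, integral_const_mul]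
      ring
    rw [h1]
    have := norm_integral_le_of_norm_le_const (μ := ν)
      (f := fun g => gavg (fun x => y x + r * ξ x g) (fun x => ξ x g) - gavg y (fun x => ξ x g) -
        r * gcov y (fun x => ξ x g) (fun x => ξ x g)) (C := 6 * r ^ 2 * K ^ 3)
      (Filter.Eventually.of_forall fun g => by
        simpa using gavg_line_taylor y (fun x => ξ x g) (fun x => hK x g) r)
    simpa using this
  -- Lipschitz estimate of the quadratic form
  have hLip : ∀ g, |Qf (kernelOf ν ξ) (fun x => y x + r * ξ x g) - Qf (kernelOf ν ξ) y| ≤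
      6 * K ^ 3 * |r| := by
    intro g
    rw [Qf_eq_integral hξ hK, Qf_eq_integral hξ hK]
    have hi5 : Integrable (fun g' => gcov (fun x => y x + r * ξ x g) (fun x => ξ x g')
        (fun x => ξ x g')) ν :=
      integrable_of_bdd (B := 2 * (K * K))
        (measurable_gcov (v := fun _ => fun x => y x + r * ξ x g)
          (fun x => measurable_const) hξ hξ)
        fun g' => abs_gcov_le _ _ _ (fun x => hK x g') (fun x => hK x g')
    rw [← integral_sub hi5 hI3]
    have := norm_integral_le_of_norm_le_const (μ := ν)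
      (f := fun g' => gcov (fun x => y x + r * ξ x g) (fun x => ξ x g') (fun x => ξ x g') -
        gcov y (fun x => ξ x g') (fun x => ξ x g')) (C := 6 * K ^ 3 * |r|)
      (Filter.Eventually.of_forall fun g' => by
        simpa using gcov_line_lipschitz y (fun x => ξ x g') (fun x => ξ x g) (fun x => hK x g')
          (fun x => hK x g) r)
    simpa using this
  have hLip2 : |∫ g, Qf (kernelOf ν ξ) (fun x => y x + r * ξ x g) ∂ν - Qf (kernelOf ν ξ) y| ≤
      6 * K ^ 3 * |r| := by
    have h1 : ∫ g, Qf (kernelOf ν ξ) (fun x => y x + r * ξ x g) ∂ν - Qf (kernelOf ν ξ) y =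
        ∫ g, (Qf (kernelOf ν ξ) (fun x => y x + r * ξ x g) - Qf (kernelOf ν ξ) y) ∂ν := by
      rw [integral_sub hI4 (integrable_const _)]
      simp
    rw [h1]
    have := norm_integral_le_of_norm_le_const (μ := ν)
      (f := fun g => Qf (kernelOf ν ξ) (fun x => y x + r * ξ x g) - Qf (kernelOf ν ξ) y)
      (C := 6 * K ^ 3 * |r|) (Filter.Eventually.of_forall fun g => by simpa using hLip g)
    simpa using this
  have hLip3 : |r * Qf (kernelOf ν ξ) y - r * ∫ g, Qf (kernelOf ν ξ) (fun x => y x + r * ξ x g) ∂ν| ≤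
      6 * r ^ 2 * K ^ 3 := by
    rw [← mul_sub, abs_mul, abs_sub_comm]
    calc |r| * _ ≤ |r| * (6 * K ^ 3 * |r|) := by gcongr
      _ = 6 * (|r| * |r|) * K ^ 3 := by ring
      _ = _ := by rw [abs_mul_abs_self]; ring
  calc _ = |(∫ g, gavg (fun x => y x + r * ξ x g) (fun x => ξ x g) ∂ν - r * Qf (kernelOf ν ξ) y) +
        (r * Qf (kernelOf ν ξ) y - r * ∫ g, Qf (kernelOf ν ξ) (fun x => y x + r * ξ x g) ∂ν)| := by
        congr 1
        ring
    _ ≤ _ := abs_add_le _ _
    _ ≤ 6 * r ^ 2 * K ^ 3 + 6 * r ^ 2 * K ^ 3 := add_le_add hTaylor hLip3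
    _ = _ := by ring

/-- The sum of the first patterns as an energy vector. -/
noncomputable def patSum {M : ℕ} (ξ : S → X → ℝ) (G : Fin M → X) (x : S) : ℝ :=
  ∑ a, ξ x (G a)

lemma abs_patSum_le {M : ℕ} (hK : ∀ x g, |ξ x g| ≤ K) (G : Fin M → X) (x : S) :
    |patSum ξ G x| ≤ M * K := by
  unfold patSum
  calc |∑ a, ξ x (G a)| ≤ ∑ a, |ξ x (G a)| := Finset.abs_sum_le_sum_abs _ _
    _ ≤ ∑ _a : Fin M, K := Finset.sum_le_sum fun a _ => hK x _
    _ = _ := by simp

lemma measurable_patSum {M : ℕ} (hξ : ∀ x, Measurable (ξ x)) (x : S) :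
    Measurable fun G : Fin M → X => patSum ξ G x := by
  unfold patSum
  exact Finset.measurable_sum _ fun a _ => (hξ x).comp (measurable_pi_apply a)

/-- The estimate for one pattern inside the full product. -/
lemma pattern_coord_bound {M : ℕ} (hξ : ∀ x, Measurable (ξ x)) (hK : ∀ x g, |ξ x g| ≤ K)
    (h0 : ∀ x, ∫ g, ξ x g ∂ν = 0) (c : S → ℝ) (r : ℝ) (a : Fin M) :
    |∫ G, gavg (fun x => c x + r * patSum ξ G x) (fun x => ξ x (G a))
          ∂(Measure.pi fun _ : Fin M => ν) -
        r * ∫ G, Qf (kernelOf ν ξ) (fun x => c x + r * patSum ξ G x)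
          ∂(Measure.pi fun _ : Fin M => ν)| ≤ 12 * r ^ 2 * K ^ 3 := by
  obtain ⟨m, rfl⟩ : ∃ m, M = m + 1 := ⟨M - 1, by have := a.pos; omega⟩
  have hY : ∀ x, Measurable fun G : Fin (m + 1) → X => c x + r * patSum ξ G x := fun x =>
    ((measurable_patSum hξ x).const_mul r).const_add _
  have hi1 : Integrable (fun G : Fin (m + 1) → X =>
      gavg (fun x => c x + r * patSum ξ G x) (fun x => ξ x (G a)))
      (Measure.pi fun _ : Fin (m + 1) => ν) :=
    integrable_of_bdd (measurable_gavg hY fun x => (hξ x).comp (measurable_pi_apply a))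
      fun G => abs_gavg_le _ _ fun x => hK x _
  have hi2 : Integrable (fun G : Fin (m + 1) → X =>
      Qf (kernelOf ν ξ) (fun x => c x + r * patSum ξ G x))
      (Measure.pi fun _ : Fin (m + 1) => ν) :=
    integrable_of_bdd (B := 2 * (K * K)) (measurable_Qf _ hY) fun G => abs_Qf_le hξ hK _
  rw [integral_pi_insertNth (fun _ => ν) a _ hi1, integral_pi_insertNth (fun _ => ν) a _ hi2]
  have hsplit : ∀ (g : X) (H : Fin m → X) (x : S),
      c x + r * patSum ξ (Fin.insertNth (α := fun _ => X) a g H) x =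
        (c x + r * patSum ξ H x) + r * ξ x g := by
    intro g H x
    unfold patSum
    rw [Fin.sum_univ_succAbove _ a]
    simp only [Fin.insertNth_apply_same, Fin.insertNth_apply_succAbove]
    ring
  simp only [hsplit, Fin.insertNth_apply_same]
  set π' : Measure (Fin m → X) := Measure.pi fun _ : Fin m => ν with hπ'
  have hm1 : Measurable fun p : (Fin m → X) × X =>
      gavg (fun x => (c x + r * patSum ξ p.1 x) + r * ξ x p.2) (fun x => ξ x p.2) := by
    refine measurable_gavg (fun x => ?_) (fun x => (hξ x).comp measurable_snd)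
    exact (((measurable_patSum hξ x).comp measurable_fst).const_mul r |>.const_add _).add
      (((hξ x).comp measurable_snd).const_mul r)
  have hm2 : Measurable fun p : (Fin m → X) × X =>
      Qf (kernelOf ν ξ) (fun x => (c x + r * patSum ξ p.1 x) + r * ξ x p.2) := by
    refine measurable_Qf _ fun x => ?_
    exact (((measurable_patSum hξ x).comp measurable_fst).const_mul r |>.const_add _).add
      (((hξ x).comp measurable_snd).const_mul r)
  have hI1 : Integrable (fun H : Fin m → X => ∫ g,
      gavg (fun x => (c x + r * patSum ξ H x) + r * ξ x g) (fun x => ξ x g) ∂ν) π' := by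
    refine integrable_of_bdd (B := K) (hm1.stronglyMeasurable.integral_prod_right' (ν := ν)).measurable
      fun H => ?_
    have := norm_integral_le_of_norm_le_const (μ := ν)
      (f := fun g => gavg (fun x => (c x + r * patSum ξ H x) + r * ξ x g) (fun x => ξ x g)) (C := K)
      (Filter.Eventually.of_forall fun g => by
        simpa using abs_gavg_le _ _ fun x => hK x g)
    simpa using this
  have hI2 : Integrable (fun H : Fin m → X => ∫ g,
      Qf (kernelOf ν ξ) (fun x => (c x + r * patSum ξ H x) + r * ξ x g) ∂ν) π' := by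
    refine integrable_of_bdd (B := 2 * (K * K))
      (hm2.stronglyMeasurable.integral_prod_right' (ν := ν)).measurable fun H => ?_
    have := norm_integral_le_of_norm_le_const (μ := ν)
      (f := fun g => Qf (kernelOf ν ξ) (fun x => (c x + r * patSum ξ H x) + r * ξ x g))
      (C := 2 * (K * K))
      (Filter.Eventually.of_forall fun g => by simpa using abs_Qf_le hξ hK _)
    simpa using this
  rw [← integral_const_mul, ← integral_sub hI1 (hI2.const_mul r)]
  have hprob : IsProbabilityMeasure π' := by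
    simp only [hπ']
    infer_instance
  have := norm_integral_le_of_norm_le_const (μ := π')
    (f := fun H => ∫ g, gavg (fun x => (c x + r * patSum ξ H x) + r * ξ x g) (fun x => ξ x g) ∂ν -
      r * ∫ g, Qf (kernelOf ν ξ) (fun x => (c x + r * patSum ξ H x) + r * ξ x g) ∂ν)
    (C := 12 * r ^ 2 * K ^ 3)
    (Filter.Eventually.of_forall fun H => by
      simpa using one_pattern_bound hξ hK h0 (fun x => c x + r * patSum ξ H x) r)
  simpa using this

/-- The estimate for the full sum of patterns, for fixed external field `c`. -/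
lemma pattern_sum_bound {M : ℕ} (hξ : ∀ x, Measurable (ξ x)) (hK : ∀ x g, |ξ x g| ≤ K)
    (h0 : ∀ x, ∫ g, ξ x g ∂ν = 0) (c : S → ℝ) (r : ℝ) :
    |∫ G, gavg (fun x => c x + r * patSum ξ G x) (patSum ξ G) ∂(Measure.pi fun _ : Fin M => ν) -
        M * (r * ∫ G, Qf (kernelOf ν ξ) (fun x => c x + r * patSum ξ G x)
          ∂(Measure.pi fun _ : Fin M => ν))| ≤ M * (12 * r ^ 2 * K ^ 3) := by
  have hY : ∀ x, Measurable fun G : Fin M → X => c x + r * patSum ξ G x := fun x =>
    ((measurable_patSum hξ x).const_mul r).const_add _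
  have hi : ∀ a : Fin M, Integrable (fun G : Fin M → X =>
      gavg (fun x => c x + r * patSum ξ G x) (fun x => ξ x (G a)))
      (Measure.pi fun _ : Fin M => ν) := fun a =>
    integrable_of_bdd (measurable_gavg hY fun x => (hξ x).comp (measurable_pi_apply a))
      fun G => abs_gavg_le _ _ fun x => hK x _
  have hs : ∀ G : Fin M → X, gavg (fun x => c x + r * patSum ξ G x) (patSum ξ G) =
      ∑ a, gavg (fun x => c x + r * patSum ξ G x) (fun x => ξ x (G a)) := by
    intro G
    unfold patSum
    rw [← gavg_sum]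
  simp_rw [hs]
  rw [integral_finsetSum _ fun a _ => hi a]
  set T : ℝ := r * ∫ G, Qf (kernelOf ν ξ) (fun x => c x + r * patSum ξ G x)
      ∂(Measure.pi fun _ : Fin M => ν) with hT
  have hsum : ∑ a : Fin M, (∫ G, gavg (fun x => c x + r * patSum ξ G x) (fun x => ξ x (G a))
      ∂(Measure.pi fun _ : Fin M => ν)) - M * T =
      ∑ a : Fin M, ((∫ G, gavg (fun x => c x + r * patSum ξ G x) (fun x => ξ x (G a))
      ∂(Measure.pi fun _ : Fin M => ν)) - T) := by
    rw [Finset.sum_sub_distrib]
    simp
  rw [hsum]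
  calc _ ≤ ∑ a : Fin M, |(∫ G, gavg (fun x => c x + r * patSum ξ G x) (fun x => ξ x (G a))
      ∂(Measure.pi fun _ : Fin M => ν)) - T| := Finset.abs_sum_le_sum_abs _ _
    _ ≤ ∑ _a : Fin M, 12 * r ^ 2 * K ^ 3 := Finset.sum_le_sum fun a _ =>
        pattern_coord_bound hξ hK h0 c r a
    _ = _ := by simp

end Lindeberg

end Vale.Agent.Lib.P157
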