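import Mathlib

/-!
An abstract energy comparison along expansive trajectories: from the increment relation
`e_{k+1}(r) ≈ e_k(r) + h Ψ(Q_k(r))`, where `Q_k / 2` is the slope of the convex function `e_k`,
to the variational formula for the terminal value.
-/

open MeasureTheory
open scoped NNReal ENNReal

set_option linter.unusedSectionVars false

namespace Vale.Agent.Lib.P157

section Expansive

/-- An expansive map does not increase integrals of nonnegative functions. -/
lemma lintegral_comp_le_of_antilipschitz {T : ℝ → ℝ} (hT : AntilipschitzWith 1 T)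
    (hTm : Measurable T) {I J : Set ℝ} (hIJ : Set.MapsTo T I J) {g : ℝ → ℝ≥0∞} (hg : Measurable g)
    (hJ : MeasurableSet J) :
    ∫⁻ x in I, g (T x) ≤ ∫⁻ u in J, g u := by
  have hmap : (volume.restrict I).map T ≤ volume.restrict J := by
    refine Measure.le_iff.mpr fun A hA => ?_
    rw [Measure.map_apply hTm hA, Measure.restrict_apply (hTm hA), Measure.restrict_apply hA]
    have h1 := hT.le_hausdorffMeasure_image (d := 1) zero_le_one (T ⁻¹' A ∩ I)
    rw [MeasureTheory.hausdorffMeasure_real] at h1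
    simp only [ENNReal.coe_one, ENNReal.one_rpow, one_mul] at h1
    refine h1.trans (measure_mono ?_)
    rintro _ ⟨x, ⟨hxA, hxI⟩, rfl⟩
    exact ⟨hxA, hIJ hxI⟩
  calc ∫⁻ x in I, g (T x) = ∫⁻ u, g u ∂((volume.restrict I).map T) := (lintegral_map hg hTm).symm
    _ ≤ ∫⁻ u, g u ∂(volume.restrict J) := lintegral_mono' hmap le_rfl

/-- A monotone map with slopes at least one is expansive. -/
lemma antilipschitz_of_expansive {T : ℝ → ℝ} (hT : ∀ x y, x ≤ y → y - x ≤ T y - T x) :
    AntilipschitzWith 1 T := by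
  refine AntilipschitzWith.of_le_mul_dist fun x y => ?_
  simp only [NNReal.coe_one, one_mul]
  rcases le_total x y with h | h
  · rw [dist_comm, Real.dist_eq, Real.dist_eq, abs_of_nonneg (by linarith), abs_sub_comm (T x),
      abs_of_nonneg (by linarith [hT x y h])]
    exact hT x y h
  · rw [Real.dist_eq, Real.dist_eq, abs_of_nonneg (by linarith),
      abs_of_nonneg (by linarith [hT y x h])]
    exact hT y x h

/-- Selection of a good starting point for finitely many expansive trajectories. -/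
lemma exists_sum_le {a b : ℝ} (hab : a < b) {J : Set ℝ} (hJ : MeasurableSet J) {K : ℕ}
    (Φ : ℕ → ℝ → ℝ) (hΦ : ∀ k < K, AntilipschitzWith 1 (Φ k)) (hΦm : ∀ k < K, Measurable (Φ k))
    (hmaps : ∀ k < K, Set.MapsTo (Φ k) (Set.Icc a b) J) (ε : ℕ → ℝ → ℝ)
    (hε : ∀ k < K, Measurable (ε k)) (hnn : ∀ k < K, ∀ r ∈ J, 0 ≤ ε k r)
    (hint : ∀ k < K, IntegrableOn (ε k) J) {δ : ℝ} (hδ0 : 0 ≤ δ)
    (hδ : ∀ k < K, ∫ r in J, ε k r ≤ δ) :
    ∃ r ∈ Set.Icc a b, ∑ k ∈ Finset.range K, ε k (Φ k r) ≤ K * δ / (b - a) := by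
  set I := Set.Icc a b with hI
  have hd : 0 < b - a := by linarith
  set μ : Measure ℝ := volume.restrict I with hμ
  have hμI : μ Set.univ = ENNReal.ofReal (b - a) := by
    rw [hμ, Measure.restrict_apply_univ, hI, Real.volume_Icc]
  have hμ0 : μ ≠ 0 := by
    intro h
    have : μ Set.univ = 0 := by rw [h]; rfl
    rw [hμI, ENNReal.ofReal_eq_zero] at this
    linarith
  set F : ℝ → ℝ≥0∞ := fun r => ∑ k ∈ Finset.range K, ENNReal.ofReal (ε k (Φ k r)) with hF
  have hFm : Measurable F := by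
    refine Finset.measurable_sum _ fun k hk => ?_
    have hk' := Finset.mem_range.mp hk
    exact ((hε k hk').comp (hΦm k hk')).ennreal_ofReal
  have hNull : μ Iᶜ = 0 := by
    rw [hμ, Measure.restrict_apply (measurableSet_Icc.compl)]
    rw [Set.compl_inter_self, measure_empty]
  obtain ⟨r, hrI, hr⟩ := exists_notMem_null_le_laverage hμ0 hFm.aemeasurable hNull
  have hrI' : r ∈ I := by
    by_contra hcon
    exact hrI hcon
  have hbound : ∫⁻ x, F x ∂μ ≤ K * ENNReal.ofReal δ := by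
    simp only [hF]
    rw [lintegral_finsetSum _ fun k hk =>
      (show Measurable (fun x => ENNReal.ofReal (ε k (Φ k x))) from
        ((hε k (Finset.mem_range.mp hk)).comp (hΦm k (Finset.mem_range.mp hk))).ennreal_ofReal)]
    calc ∑ k ∈ Finset.range K, ∫⁻ x, ENNReal.ofReal (ε k (Φ k x)) ∂μ
        ≤ ∑ _k ∈ Finset.range K, ENNReal.ofReal δ := by
          refine Finset.sum_le_sum fun k hk => ?_
          have hk' := Finset.mem_range.mp hk
          have h1 := lintegral_comp_le_of_antilipschitz (hΦ k hk') (hΦm k hk') (hmaps k hk')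
            (g := fun u => ENNReal.ofReal (ε k u)) (hε k hk').ennreal_ofReal hJ
          refine h1.trans ?_
          rw [← ofReal_integral_eq_lintegral_ofReal (hint k hk')
            ((ae_restrict_iff' hJ).mpr (Filter.Eventually.of_forall fun r hr => hnn k hk' r hr))]
          exact ENNReal.ofReal_le_ofReal (hδ k hk')
      _ = _ := by
          simp
  refine ⟨r, hrI', ?_⟩
  have hsumnn : ∀ k ∈ Finset.range K, 0 ≤ ε k (Φ k r) := fun k hk =>
    hnn k (Finset.mem_range.mp hk) _ (hmaps k (Finset.mem_range.mp hk) hrI')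
  have hFr : F r = ENNReal.ofReal (∑ k ∈ Finset.range K, ε k (Φ k r)) := by
    simp only [hF]
    rw [ENNReal.ofReal_sum_of_nonneg hsumnn]
  have hrhs : 0 ≤ (K : ℝ) * δ / (b - a) := by positivity
  rw [laverage_eq, hμI, hFr] at hr
  have h2 : ENNReal.ofReal (∑ k ∈ Finset.range K, ε k (Φ k r)) ≤
      ENNReal.ofReal ((K : ℝ) * δ / (b - a)) := by
    refine hr.trans ?_
    rw [ENNReal.ofReal_div_of_pos hd, ENNReal.ofReal_mul (by positivity)]
    refine ENNReal.div_le_div_right (hbound.trans (le_of_eq ?_)) _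
    simp
  exact (ENNReal.ofReal_le_ofReal_iff hrhs).mp h2

end Expansive

section Shift

/-- The integral of a shift difference of a monotone function with values in the unit interval. -/
lemma integral_shift_le {Q : ℝ → ℝ} (hQ : Monotone Q) (h0 : ∀ r, 0 ≤ Q r) (h1 : ∀ r, Q r ≤ 1)
    {a b t : ℝ} (hab : a ≤ b) (ht : 0 ≤ t) :
    ∫ r in Set.Icc a b, (Q (r + t) - Q r) ≤ t := by
  have hint : ∀ c d : ℝ, IntervalIntegrable Q volume c d := fun c d => hQ.intervalIntegrable
  have hQt : Monotone (fun r => Q (r + t)) := fun x y hxy => hQ (by linarith)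
  have hint2 : ∀ c d : ℝ, IntervalIntegrable (fun r => Q (r + t)) volume c d :=
    fun c d => hQt.intervalIntegrable
  rw [integral_Icc_eq_integral_Ioc, ← intervalIntegral.integral_of_le hab,
    intervalIntegral.integral_sub (hint2 a b) (hint a b),
    intervalIntegral.integral_comp_add_right (f := Q),
    intervalIntegral.integral_interval_sub_interval_comm (hint _ _) (hint _ _) (hint _ _)]
  have e1 : ∫ r in b..b + t, Q r ≤ t := by
    have := intervalIntegral.integral_mono_on (a := b) (b := b + t) (f := Q) (g := fun _ => (1 : ℝ))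
      (by linarith) (hint _ _) (by simp) (fun x _ => h1 x)
    simpa using this
  have e2 : 0 ≤ ∫ r in a..a + t, Q r :=
    intervalIntegral.integral_nonneg (by linarith) fun x _ => h0 x
  have e3 := intervalIntegral.integral_symm (μ := volume) (f := Q) a (a + t)
  have e4 := intervalIntegral.integral_symm (μ := volume) (f := Q) b (b + t)
  linarith

end Shift

/-- The data of the energy comparison. -/
structure RSData (K : ℕ) (h : ℝ) (Ψ : ℝ → ℝ) (r₁ R : ℝ) (e Q ε : ℕ → ℝ → ℝ) : Prop where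
  Q_mono : ∀ k, Monotone (Q k)
  Q_nonneg : ∀ k r, 0 ≤ Q k r
  Q_le_one : ∀ k r, Q k r ≤ 1
  tan_lower : ∀ k r r', 0 ≤ r → r ≤ r' → (r' - r) * Q k r / 2 ≤ e k r' - e k r
  tan_upper : ∀ k r r', 0 ≤ r → r ≤ r' → e k r' - e k r ≤ (r' - r) * Q k r' / 2
  inc : ∀ k < K, ∀ r ∈ Set.Icc r₁ R, |e (k + 1) r - e k r - h * Ψ (Q k r)| ≤ h * ε k r
  ε_meas : ∀ k < K, Measurable (ε k)
  ε_nonneg : ∀ k < K, ∀ r ∈ Set.Icc r₁ R, 0 ≤ ε k r
  ε_int : ∀ k < K, IntegrableOn (ε k) (Set.Icc r₁ R)

section Upper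

variable {K : ℕ} {h : ℝ} {Ψ : ℝ → ℝ} {r₁ R : ℝ} {e Q ε : ℕ → ℝ → ℝ}

/-- The backward trajectory of the adaptive path. -/
noncomputable def trajStep (K : ℕ) (T : ℕ → ℝ → ℝ) : ℕ → ℝ → ℝ
  | 0, r => r
  | n + 1, r => T (K - 1 - n) (trajStep K T n r)

/-- **Upper bound** for the terminal value. -/
theorem rs_upper (d : RSData K h Ψ r₁ R e Q ε) (hh : 0 < h) (hr₁ : 0 ≤ r₁) {δ : ℝ} (hδ0 : 0 ≤ δ)
    (hδ : ∀ k < K, ∫ r in Set.Icc r₁ R, ε k r ≤ δ) {ρ α B κ : ℝ} (hρ : r₁ < ρ)
    (hKh : K * h ≤ α) (hR : ρ + 2 * α * B ≤ R) (β : ℝ → ℝ)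
    (hβ0 : ∀ y ∈ Set.Icc (0 : ℝ) 1, 0 ≤ β y) (hβB : ∀ y ∈ Set.Icc (0 : ℝ) 1, β y ≤ B)
    (hβm : MonotoneOn β (Set.Icc 0 1))
    (htan : ∀ p ∈ Set.Icc (0 : ℝ) 1, ∀ y ∈ Set.Icc (0 : ℝ) 1, Ψ y + β y * (p - y) - κ ≤ Ψ p)
    (J : ℝ → ℝ) (hJ0 : ∀ r, 0 ≤ r → J (Q 0 r) ≤ r * Q 0 r / 2 - e 0 r) :
    ∃ q ∈ Set.Icc (0 : ℝ) 1,
      e K 0 ≤ K * h * Ψ q - J q + ρ / 2 + K * h * κ + h * (K * δ / (ρ - r₁)) := by
  have hQmem : ∀ k r, Q k r ∈ Set.Icc (0 : ℝ) 1 := fun k r => ⟨d.Q_nonneg k r, d.Q_le_one k r⟩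
  have hB : 0 ≤ B := (hβ0 0 ⟨le_rfl, zero_le_one⟩).trans (hβB 0 ⟨le_rfl, zero_le_one⟩)
  set T : ℕ → ℝ → ℝ := fun k r => r + 2 * h * β (Q k r) with hT
  have hTexp : ∀ k x y, x ≤ y → y - x ≤ T k y - T k x := by
    intro k x y hxy
    have h1 : β (Q k x) ≤ β (Q k y) := hβm (hQmem k x) (hQmem k y) (d.Q_mono k hxy)
    simp only [hT]
    nlinarith
  set traj := trajStep K T with htraj
  have htrajexp : ∀ n x y, x ≤ y → y - x ≤ traj n y - traj n x := by
    intro n
    induction n with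
    | zero =>
      intro x y _
      simp [htraj, trajStep]
    | succ n ih =>
      intro x y hxy
      have h1 := ih x y hxy
      have h2 := hTexp (K - 1 - n) (traj n x) (traj n y) (by linarith)
      simp only [htraj, trajStep] at h1 h2 ⊢
      linarith
  have htrajmono : ∀ n, Monotone (traj n) := by
    intro n x y hxy
    have := htrajexp n x y hxy
    linarith
  -- the range of the trajectories
  have hrange : ∀ n, n ≤ K → ∀ r ∈ Set.Icc r₁ ρ,
      r₁ ≤ traj n r ∧ traj n r ≤ ρ + 2 * (n * h) * B := by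
    intro n
    induction n with
    | zero =>
      intro _ r hr
      simp only [htraj, trajStep]
      simpa using hr
    | succ n ih =>
      intro hn r hr
      obtain ⟨h1, h2⟩ := ih (by omega) r hr
      have h3 := hβ0 _ (hQmem (K - 1 - n) (traj n r))
      have h4 := hβB _ (hQmem (K - 1 - n) (traj n r))
      have e : traj (n + 1) r = traj n r + 2 * h * β (Q (K - 1 - n) (traj n r)) := rfl
      rw [e]
      push_cast
      constructor
      · have : 0 ≤ 2 * h * β (Q (K - 1 - n) (traj n r)) := by positivity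
        linarith
      · have : 2 * h * β (Q (K - 1 - n) (traj n r)) ≤ 2 * h * B :=
          mul_le_mul_of_nonneg_left h4 (by positivity)
        nlinarith
  have hrange2 : ∀ n, n ≤ K → ∀ r ∈ Set.Icc r₁ ρ, traj n r ∈ Set.Icc r₁ R := by
    intro n hn r hr
    obtain ⟨h1, h2⟩ := hrange n hn r hr
    refine ⟨h1, h2.trans ?_⟩
    have h3 : (n : ℝ) * h ≤ α := by
      have : (n : ℝ) ≤ K := by exact_mod_cast hn
      nlinarith
    nlinarith
  -- select a good starting point
  set ε' : ℕ → ℝ → ℝ := fun n => ε (K - 1 - n) with hε'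
  have hKlt : ∀ n < K, K - 1 - n < K := fun n hn => by omega
  obtain ⟨r, hr, hsel⟩ := exists_sum_le hρ (measurableSet_Icc (a := r₁) (b := R)) (K := K)
    (fun n => traj n) (fun n _ => antilipschitz_of_expansive (htrajexp n))
    (fun n _ => (htrajmono n).measurable)
    (fun n hn x hx => hrange2 n hn.le x hx) ε'
    (fun n hn => d.ε_meas _ (hKlt n hn)) (fun n hn x hx => d.ε_nonneg _ (hKlt n hn) x hx)
    (fun n hn => d.ε_int _ (hKlt n hn)) hδ0 (fun n hn => hδ _ (hKlt n hn))
  have hr0 : 0 ≤ r := hr₁.trans hr.1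
  -- the quantities along the trajectory
  set Rn : ℕ → ℝ := fun n => traj n r with hRn
  set y : ℕ → ℝ := fun n => Q (K - 1 - n) (Rn n) with hy
  set b : ℕ → ℝ := fun n => β (y n) with hb
  have hRsucc : ∀ n, Rn (n + 1) = Rn n + 2 * h * b n := fun n => rfl
  have hRsum : ∀ n, Rn n = r + 2 * h * ∑ i ∈ Finset.range n, b i := by
    intro n
    induction n with
    | zero => simp [hRn, htraj, trajStep]
    | succ n ih =>
      rw [hRsucc, ih, Finset.sum_range_succ]
      ring
  have hRnn : ∀ n, n ≤ K → 0 ≤ Rn n := fun n hn => hr₁.trans (hrange n hn r hr).1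
  have hbnn : ∀ n, 0 ≤ b n := fun n => hβ0 _ (hQmem _ _)
  -- the main telescoping inequality
  have hmain : ∀ n, n ≤ K → e K r ≤ e (K - n) (Rn n) +
      h * ∑ i ∈ Finset.range n, (Ψ (y i) - b i * y i + ε' i (Rn i)) := by
    intro n
    induction n with
    | zero =>
      intro _
      simp [hRn, htraj, trajStep]
    | succ n ih =>
      intro hn
      have hnlt : n < K := by omega
      have h1 := ih (by omega)
      rw [Finset.sum_range_succ]
      set k := K - 1 - n with hk
      have hkn : K - n = k + 1 := by omega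
      have hkn' : K - (n + 1) = k := by omega
      rw [hkn] at h1
      rw [hkn']
      have hinc := d.inc k (hKlt n hnlt) (Rn n) (hrange2 n hnlt.le r hr)
      have hinc' := (abs_le.mp hinc).2
      have htanl := d.tan_lower k (Rn n) (Rn (n + 1)) (hRnn n hnlt.le) (by
        rw [hRsucc]
        have := hbnn n
        have : 0 ≤ 2 * h * b n := by positivity
        linarith)
      have e1 : (Rn (n + 1) - Rn n) * Q k (Rn n) / 2 = h * (b n * y n) := by
        rw [hRsucc]
        simp only [hy, ← hk]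
        ring
      rw [e1] at htanl
      have e2 : Q k (Rn n) = y n := rfl
      have e3 : ε k (Rn n) = ε' n (Rn n) := rfl
      rw [e2, e3] at hinc'
      have e4 : h * (∑ i ∈ Finset.range n, (Ψ (y i) - b i * y i + ε' i (Rn i)) +
          (Ψ (y n) - b n * y n + ε' n (Rn n))) =
          h * ∑ i ∈ Finset.range n, (Ψ (y i) - b i * y i + ε' i (Rn i)) +
            (h * Ψ (y n) - h * (b n * y n) + h * ε' n (Rn n)) := by ring
      rw [e4]
      linarith
  have hfinal := hmain K le_rfl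
  rw [Nat.sub_self] at hfinal
  set q := Q 0 (Rn K) with hq
  have hqmem : q ∈ Set.Icc (0 : ℝ) 1 := hQmem 0 _
  refine ⟨q, hqmem, ?_⟩
  have hJq := hJ0 (Rn K) (hRnn K le_rfl)
  rw [← hq] at hJq
  have hRK := hRsum K
  -- the tangent bound
  have htsum : ∑ i ∈ Finset.range K, (Ψ (y i) + b i * (q - y i)) ≤
      K * (Ψ q + κ) := by
    calc _ ≤ ∑ _i ∈ Finset.range K, (Ψ q + κ) := by
          refine Finset.sum_le_sum fun i _ => ?_
          have := htan q hqmem (y i) (hQmem _ _)
          simp only [hb]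
          linarith
      _ = _ := by
          simp
          ring
  have hsplit : h * ∑ i ∈ Finset.range K, (Ψ (y i) - b i * y i + ε' i (Rn i)) + h * (∑ i ∈ Finset.range K, b i) * q
      = h * ∑ i ∈ Finset.range K, (Ψ (y i) + b i * (q - y i)) +
        h * ∑ i ∈ Finset.range K, ε' i (Rn i) := by
    rw [mul_assoc, ← mul_add, ← mul_add]
    congr 1
    rw [Finset.sum_mul, ← Finset.sum_add_distrib, ← Finset.sum_add_distrib]
    refine Finset.sum_congr rfl fun i _ => ?_
    ring
  have he0 : e 0 (Rn K) ≤ r * q / 2 + h * (∑ i ∈ Finset.range K, b i) * q - J q := by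
    have : Rn K * q / 2 = r * q / 2 + h * (∑ i ∈ Finset.range K, b i) * q := by
      rw [hRK]
      ring
    linarith
  have hmono0 : e K 0 ≤ e K r := by
    have := d.tan_lower K 0 r le_rfl hr0
    have h2 : 0 ≤ (r - 0) * Q K 0 / 2 := by
      have := d.Q_nonneg K 0
      have : 0 ≤ r - 0 := by linarith
      positivity
    linarith
  have hrq : r * q / 2 ≤ ρ / 2 := by
    have h3 : r * q ≤ ρ * 1 := mul_le_mul hr.2 hqmem.2 hqmem.1 (by linarith [hr.1])
    linarith
  have hhsum : h * ∑ i ∈ Finset.range K, ε' i (Rn i) ≤ h * (K * δ / (ρ - r₁)) :=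
    mul_le_mul_of_nonneg_left hsel hh.le
  have hhsum2 : h * ∑ i ∈ Finset.range K, (Ψ (y i) + b i * (q - y i)) ≤ h * (K * (Ψ q + κ)) :=
    mul_le_mul_of_nonneg_left htsum hh.le
  have e9 : h * (K * (Ψ q + κ)) = K * h * Ψ q + K * h * κ := by ring
  linarith

end Upper

section Lower

variable {K : ℕ} {h : ℝ} {Ψ : ℝ → ℝ} {r₁ R : ℝ} {e Q ε : ℕ → ℝ → ℝ}

/-- **Lower bound** for the terminal value. -/
theorem rs_lower (d : RSData K h Ψ r₁ R e Q ε) (hh : 0 < h) (hr₁ : 0 ≤ r₁) {δ : ℝ} (hδ0 : 0 ≤ δ)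
    (hδ : ∀ k < K, ∫ r in Set.Icc r₁ R, ε k r ≤ δ) {ρ g κ q : ℝ} (hρ : 0 < ρ)
    (hq : q ∈ Set.Icc (0 : ℝ) 1) (hg : 0 ≤ g) (hR : r₁ + ρ + 2 * g * (K * h) ≤ R)
    (htan : ∀ p ∈ Set.Icc (0 : ℝ) 1, Ψ q + g * (p - q) - κ ≤ Ψ p)
    (J : ℝ → ℝ) (hJ : ∀ r, 0 ≤ r → r * q / 2 - e 0 r ≤ J q) :
    K * h * Ψ q - J q - K * h * κ - (r₁ + ρ) / 2 -
      h * (K * (δ + g * (2 * h * g)) / ρ) ≤ e K 0 := by
  have hQmem : ∀ k r, Q k r ∈ Set.Icc (0 : ℝ) 1 := fun k r => ⟨d.Q_nonneg k r, d.Q_le_one k r⟩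
  set t := 2 * h * g with ht
  have ht0 : 0 ≤ t := by positivity
  set Φ : ℕ → ℝ → ℝ := fun n u => r₁ + u + n * t with hΦ
  set ε' : ℕ → ℝ → ℝ := fun n r => ε (K - 1 - n) r +
    g * (Q (K - 1 - n) (r + t) - Q (K - 1 - n) r) with hε'
  have hKlt : ∀ n < K, K - 1 - n < K := fun n hn => by omega
  have hshiftnn : ∀ k r, 0 ≤ g * (Q k (r + t) - Q k r) := fun k r =>
    mul_nonneg hg (sub_nonneg.mpr (d.Q_mono k (by linarith)))
  have hΦmem : ∀ n, n ≤ K → ∀ u ∈ Set.Icc (0 : ℝ) ρ, Φ n u ∈ Set.Icc r₁ R := by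
    intro n hn u hu
    have h1 : (n : ℝ) * t ≤ 2 * g * (K * h) := by
      have : (n : ℝ) ≤ K := by exact_mod_cast hn
      calc (n : ℝ) * t ≤ K * t := mul_le_mul_of_nonneg_right this ht0
        _ = _ := by simp only [ht]; ring
    have h2 : 0 ≤ (n : ℝ) * t := by positivity
    simp only [hΦ]
    exact ⟨by linarith [hu.1], by linarith [hu.2]⟩
  have hQmeas : ∀ k, Measurable (Q k) := fun k => (d.Q_mono k).measurable
  have hsi1 : ∀ k, IntegrableOn (fun r => Q k (r + t)) (Set.Icc r₁ R) := by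
    intro k
    have hm : Monotone (fun r => Q k (r + t)) := fun x y hxy => d.Q_mono k (by linarith)
    exact (hm.monotoneOn _).integrableOn_isCompact isCompact_Icc
  have hsi2 : ∀ k, IntegrableOn (Q k) (Set.Icc r₁ R) := fun k =>
    ((d.Q_mono k).monotoneOn _).integrableOn_isCompact isCompact_Icc
  have hsi : ∀ k, IntegrableOn (fun r => g * (Q k (r + t) - Q k r)) (Set.Icc r₁ R) := fun k =>
    ((hsi1 k).sub (hsi2 k)).const_mul g
  obtain ⟨u, hu, hsel⟩ := exists_sum_le hρ (measurableSet_Icc (a := r₁) (b := R)) (K := K)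
    Φ (fun n _ => antilipschitz_of_expansive fun x y hxy => by
      simp only [hΦ]
      linarith)
    (fun n _ => by
      simp only [hΦ]
      fun_prop)
    (fun n hn x hx => hΦmem n hn.le x hx) ε'
    (fun n hn => (d.ε_meas _ (hKlt n hn)).add
      (((hQmeas _).comp (measurable_add_const t)).sub (hQmeas _) |>.const_mul g))
    (fun n hn x hx => add_nonneg (d.ε_nonneg _ (hKlt n hn) x hx) (hshiftnn _ _))
    (fun n hn => (d.ε_int _ (hKlt n hn)).add (hsi _))
    (δ := δ + g * t) (by positivity)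
    (fun n hn => by
      simp only [hε']
      rw [integral_add (d.ε_int _ (hKlt n hn)) (hsi _), integral_const_mul]
      have h1 := hδ _ (hKlt n hn)
      have hab : r₁ ≤ R := by
        have := hΦmem 0 (by omega) 0 ⟨le_rfl, hρ.le⟩
        exact this.1.trans this.2
      have h2 := integral_shift_le (d.Q_mono (K - 1 - n)) (d.Q_nonneg _) (d.Q_le_one _) hab ht0
      have h3 := mul_le_mul_of_nonneg_left h2 hg
      linarith)
  set rn : ℕ → ℝ := fun n => Φ n u with hrn
  have hrnn : ∀ n, n ≤ K → 0 ≤ rn n := fun n hn => hr₁.trans (hΦmem n hn u hu).1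
  have hrsucc : ∀ n, rn (n + 1) = rn n + t := by
    intro n
    simp only [hrn, hΦ]
    push_cast
    ring
  -- telescoping
  have hmain : ∀ n, n ≤ K → e (K - n) (rn n) + n * (h * (Ψ q - g * q - κ)) -
      h * ∑ i ∈ Finset.range n, ε' i (rn i) ≤ e K (rn 0) := by
    intro n
    induction n with
    | zero =>
      intro _
      simp
    | succ n ih =>
      intro hn
      have hnlt : n < K := by omega
      have h1 := ih (by omega)
      set k := K - 1 - n with hk
      have hkn : K - n = k + 1 := by omega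
      have hkn' : K - (n + 1) = k := by omega
      rw [hkn] at h1
      rw [hkn', Finset.sum_range_succ]
      have hinc := d.inc k (hKlt n hnlt) (rn n) (hΦmem n hnlt.le u hu)
      have hinc' := (abs_le.mp hinc).1
      have htanu := d.tan_upper k (rn n) (rn (n + 1)) (hrnn n hnlt.le) (by
        rw [hrsucc]
        linarith)
      have e1 : (rn (n + 1) - rn n) * Q k (rn (n + 1)) / 2 = h * g * Q k (rn n + t) := by
        rw [hrsucc]
        simp only [ht]
        ring
      rw [e1] at htanu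
      have hy := htan (Q k (rn n)) (hQmem k _)
      have e2 : ε' n (rn n) = ε k (rn n) + g * (Q k (rn n + t) - Q k (rn n)) := rfl
      rw [e2]
      push_cast
      have hy2 : h * (Ψ q + g * (Q k (rn n) - q) - κ) ≤ h * Ψ (Q k (rn n)) :=
        mul_le_mul_of_nonneg_left hy hh.le
      nlinarith
  have hfinal := hmain K le_rfl
  rw [Nat.sub_self] at hfinal
  have hJe := hJ (rn K) (hrnn K le_rfl)
  have hrK : (K : ℝ) * t ≤ rn K := by
    simp only [hrn, hΦ]
    have := hu.1
    linarith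
  have hrq : (K : ℝ) * t * q ≤ rn K * q := mul_le_mul_of_nonneg_right hrK hq.1
  have hup : e K (rn 0) ≤ e K 0 + (r₁ + ρ) / 2 := by
    have h0 : rn 0 = r₁ + u := by
      simp [hrn, hΦ]
    have h1 := d.tan_upper K 0 (rn 0) le_rfl (hrnn 0 (by omega))
    have h2 := d.Q_le_one K (rn 0)
    have h3 := d.Q_nonneg K (rn 0)
    have h4 : 0 ≤ rn 0 := hrnn 0 (by omega)
    have h5 : (rn 0 - 0) * Q K (rn 0) / 2 ≤ rn 0 / 2 := by
      nlinarith
    rw [h0] at h5 ⊢
    have := hu.2
    rw [h0] at h1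
    linarith
  have hsel2 : h * ∑ i ∈ Finset.range K, ε' i (rn i) ≤ h * (K * (δ + g * t) / ρ) := by
    refine mul_le_mul_of_nonneg_left ?_ hh.le
    have e0 : ρ - 0 = ρ := by ring
    rw [e0] at hsel
    exact hsel
  have hsimp : (K : ℝ) * t * q / 2 = K * (h * g * q) := by
    simp only [ht]
    ring
  have e5 : (K : ℝ) * (h * (Ψ q - g * q - κ)) = K * h * Ψ q - K * (h * g * q) - K * h * κ := by ring
  have hrq2 : (K : ℝ) * t * q / 2 ≤ rn K * q / 2 := by linarith
  rw [hsimp] at hrq2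
  rw [e5] at hfinal
  linarith

end Lower

section Tangent

variable {Ψ : ℝ → ℝ}

/-- The increments of a convex function are monotone. -/
lemma convex_increment_mono (hc : ConvexOn ℝ (Set.Icc 0 1) Ψ) {a b d : ℝ} (hd : 0 < d)
    (ha : 0 ≤ a) (hab : a ≤ b) (hb : b + d ≤ 1) :
    Ψ (a + d) - Ψ a ≤ Ψ (b + d) - Ψ b := by
  have ma : a ∈ Set.Icc (0 : ℝ) 1 := ⟨ha, by linarith⟩
  have mad : a + d ∈ Set.Icc (0 : ℝ) 1 := ⟨by linarith, by linarith⟩
  have mbd : b + d ∈ Set.Icc (0 : ℝ) 1 := ⟨by linarith, hb⟩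
  have mb : b ∈ Set.Icc (0 : ℝ) 1 := ⟨by linarith, by linarith⟩
  have hpos : 0 < b + d - a := by linarith
  have h1 := hc.secant_mono ma mad mbd (by linarith) (by linarith) (by linarith : a + d ≤ b + d)
  have h2 := hc.secant_mono mbd ma mb (by linarith) (by linarith) hab
  have e1 : a + d - a = d := by ring
  have e2 : b - (b + d) = -d := by ring
  have e3 : a - (b + d) = -(b + d - a) := by ring
  have e4 : (Ψ a - Ψ (b + d)) / -(b + d - a) = (Ψ (b + d) - Ψ a) / (b + d - a) := by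
    rw [div_neg, ← neg_div, neg_sub]
  have e5 : (Ψ b - Ψ (b + d)) / -d = (Ψ (b + d) - Ψ b) / d := by
    rw [div_neg, ← neg_div, neg_sub]
  rw [e1] at h1
  rw [e2, e3, e4, e5] at h2
  have h3 : (Ψ (a + d) - Ψ a) / d ≤ (Ψ (b + d) - Ψ b) / d := h1.trans h2
  exact (div_le_div_iff_of_pos_right hd).mp h3

/-- The selection of approximate tangent lines of a convex nondecreasing function. -/
lemma exists_tangent_selection (hc : ConvexOn ℝ (Set.Icc 0 1) Ψ)
    (hm : ∀ a b, 0 ≤ a → a ≤ b → b ≤ 1 → Ψ a ≤ Ψ b) {κ : ℝ} (hκ : 0 < κ)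
    {K : ℝ} (hK : 0 ≤ K)
    (hmod : ∀ a b, 0 ≤ a → a ≤ 1 → 0 ≤ b → b ≤ 1 → |Ψ a - Ψ b| ≤ κ / 4 + K * |a - b|) :
    ∃ (β : ℝ → ℝ) (B : ℝ), (∀ y ∈ Set.Icc (0 : ℝ) 1, 0 ≤ β y) ∧
      (∀ y ∈ Set.Icc (0 : ℝ) 1, β y ≤ B) ∧ MonotoneOn β (Set.Icc 0 1) ∧
      ∀ p ∈ Set.Icc (0 : ℝ) 1, ∀ y ∈ Set.Icc (0 : ℝ) 1, Ψ y + β y * (p - y) - κ ≤ Ψ p := by
  set d := min 1 (κ / (4 * (K + 1))) with hd
  have hd0 : 0 < d := lt_min one_pos (by positivity)
  have hd1 : d ≤ 1 := min_le_left _ _
  have hdK : K * d ≤ κ / 4 := by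
    have h1 : d ≤ κ / (4 * (K + 1)) := min_le_right _ _
    calc K * d ≤ (K + 1) * (κ / (4 * (K + 1))) :=
          mul_le_mul (by linarith) h1 hd0.le (by linarith)
      _ = κ / 4 := by
          field_simp
  set κ₁ := κ / 2 with hκ₁
  have hosc : ∀ a, 0 ≤ a → a + d ≤ 1 → Ψ (a + d) - Ψ a ≤ κ₁ := by
    intro a ha had
    have h1 := hmod (a + d) a (by linarith) had ha (by linarith)
    have e : a + d - a = d := by ring
    rw [e, abs_of_pos hd0] at h1
    have := le_abs_self (Ψ (a + d) - Ψ a)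
    simp only [hκ₁]
    linarith
  set low : ℝ → ℝ := fun y => min y (1 - d) with hlow
  have hlow0 : ∀ y ∈ Set.Icc (0 : ℝ) 1, 0 ≤ low y := fun y hy => le_min hy.1 (by linarith)
  have hlow1 : ∀ y, low y + d ≤ 1 := fun y => by
    have : low y ≤ 1 - d := min_le_right _ _
    linarith
  have hlowle : ∀ y, low y ≤ y := fun y => min_le_left _ _
  have hlowup : ∀ y ∈ Set.Icc (0 : ℝ) 1, y ≤ low y + d := by
    intro y hy
    simp only [hlow]
    rcases le_total y (1 - d) with h | h
    · rw [min_eq_left h]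
      linarith
    · rw [min_eq_right h]
      linarith [hy.2]
  set β : ℝ → ℝ := fun y => (Ψ (low y + d) - Ψ (low y)) / d with hβ
  refine ⟨β, (Ψ 1 - Ψ 0) / d, ?_, ?_, ?_, ?_⟩
  · intro y hy
    exact div_nonneg (sub_nonneg.mpr (hm _ _ (hlow0 y hy) (by linarith) (hlow1 y))) hd0.le
  · intro y hy
    refine div_le_div_of_nonneg_right ?_ hd0.le
    have h1 := hm _ _ (by linarith [hlow0 y hy]) (hlow1 y) le_rfl
    have h2 := hm 0 (low y) le_rfl (hlow0 y hy) (by linarith [hlow1 y])
    linarith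
  · intro y hy z hz hyz
    refine div_le_div_of_nonneg_right ?_ hd0.le
    exact convex_increment_mono hc hd0 (hlow0 y hy) (min_le_min_right _ hyz) (hlow1 z)
  · intro p hp y hy
    set a := low y with ha
    set c := a + d with hc'
    have ha0 := hlow0 y hy
    have hc1 : c ≤ 1 := hlow1 y
    have hay : a ≤ y := hlowle y
    have hyc : y ≤ c := hlowup y hy
    have hβdef : β y = (Ψ c - Ψ a) / d := rfl
    have hβd : β y * d = Ψ c - Ψ a := by
      rw [hβdef]
      field_simp
    have hβ0 : 0 ≤ β y := div_nonneg (sub_nonneg.mpr (hm _ _ ha0 (by linarith) hc1)) hd0.le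
    have hos := hosc a ha0 hc1
    have hΨya : Ψ y ≤ Ψ a + κ₁ := by
      have := hm y c (by linarith) hyc hc1
      linarith
    have hΨyc : Ψ y ≤ Ψ c := hm y c (by linarith) hyc hc1
    have hκ2 : κ = 2 * κ₁ := by
      simp only [hκ₁]
      ring
    have mA : a ∈ Set.Icc (0 : ℝ) 1 := ⟨ha0, by linarith⟩
    have mC : c ∈ Set.Icc (0 : ℝ) 1 := ⟨by linarith, hc1⟩
    rcases le_total c p with h1 | h1
    · -- to the right
      rcases eq_or_lt_of_le h1 with h2 | h2
      · rw [← h2]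
        have : β y * (c - y) ≤ β y * d := mul_le_mul_of_nonneg_left (by linarith) hβ0
        linarith
      have hsec := hc.secant_mono mC mA hp (by linarith) (by linarith) (by linarith : a ≤ p)
      have e1 : a - c = -d := by
        simp only [hc']
        ring
      have e2 : (Ψ a - Ψ c) / -d = β y := by
        rw [div_neg, ← neg_div, neg_sub]
      rw [e1, e2] at hsec
      have hpc : 0 < p - c := by linarith
      rw [le_div_iff₀ hpc] at hsec
      have : β y * (c - y) ≤ β y * d := mul_le_mul_of_nonneg_left (by linarith) hβ0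
      nlinarith
    · rcases le_total p a with h2 | h2
      · -- to the left
        rcases eq_or_lt_of_le h2 with h3 | h3
        · rw [h3]
          have : β y * (a - y) ≤ 0 := mul_nonpos_of_nonneg_of_nonpos hβ0 (by linarith)
          linarith
        have hsec := hc.secant_mono mA hp mC (by linarith) (by linarith) (by linarith : p ≤ c)
        have e1 : c - a = d := by
          simp only [hc']
          ring
        rw [e1] at hsec
        have e2 : p - a = -(a - p) := by ring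
        have e3 : (Ψ p - Ψ a) / -(a - p) = (Ψ a - Ψ p) / (a - p) := by
          rw [div_neg, ← neg_div, neg_sub]
        rw [e2, e3] at hsec
        have hap : 0 < a - p := by linarith
        rw [div_le_iff₀ hap] at hsec
        have e4 : (Ψ c - Ψ a) / d = β y := rfl
        rw [e4] at hsec
        have : β y * (a - y) ≤ 0 := mul_nonpos_of_nonneg_of_nonpos hβ0 (by linarith)
        nlinarith
      · -- inside
        have h3 : Ψ a ≤ Ψ p := hm a p ha0 h2 hp.2
        have h4 : β y * (p - y) ≤ β y * d := mul_le_mul_of_nonneg_left (by linarith) hβ0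
        linarith

end Tangent

end Vale.Agent.Lib.P157
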