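import Vale.Agent.Lib.P157.RSConvex
import Vale.Agent.Lib.P157.Joint

/-!
The cavity comparison: the conditional mean of a new weight under a Gibbs measure on the cube
is close, in `L²`, to a one dimensional noise average determined by the overlap `q`.
-/

open MeasureTheory ProbabilityTheory
open scoped NNReal ENNReal

set_option linter.unusedSectionVars false

namespace Vale.Agent.Lib.P157

section Defs

variable {N : ℕ}

/-- The Gibbs magnetization at a site. -/
noncomputable def magn (v : (Fin N → Bool) → ℝ) (i : Fin N) : ℝ :=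
  gavg v fun x => spinValue (x i)

/-- The self overlap of the Gibbs magnetization. -/
noncomputable def qOf (v : (Fin N → Bool) → ℝ) : ℝ := (∑ i, magn v i ^ 2) / N

/-- The Gibbs covariance of two spins. -/
noncomputable def corrSpin (v : (Fin N → Bool) → ℝ) (i j : Fin N) : ℝ :=
  gcov v (fun x => spinValue (x i)) (fun x => spinValue (x j))

/-- The normalized sum of squares of the spin covariances. -/
noncomputable def c2Of (v : (Fin N → Bool) → ℝ) : ℝ :=
  (∑ i, ∑ j, corrSpin v i j ^ 2) / (N : ℝ) ^ 2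

/-- The mean entropy of the conditional mean of a new weight. -/
noncomputable def thetaOf (U : ℝ → ℝ) (v : (Fin N → Bool) → ℝ) : ℝ :=
  ∫ g, entFn (gavg v fun x => U (patternField x g)) ∂(patternLaw N)

/-- The overlap of a configuration with the magnetization. -/
noncomputable def ovM (v : (Fin N → Bool) → ℝ) (x : Fin N → Bool) : ℝ :=
  (∑ i, spinValue (x i) * magn v i) / N

/-- The two replica mean fluctuation of the overlap around `q`. -/
noncomputable def thermOf (v : (Fin N → Bool) → ℝ) : ℝ :=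
  ∑ x, ∑ x', gwt v x * gwt v x' * |overlap x x' - qOf v|

/-- The `L²` distance of the cavity comparison. -/
noncomputable def deltaOf (U : ℝ → ℝ) (v : (Fin N → Bool) → ℝ) : ℝ :=
  (∑ x, ∑ x', gwt v x * gwt v x' * corrFn U U (overlap x x')) -
    2 * (∑ x, gwt v x * corrFn U U (ovM v x)) + corrFn U U (qOf v)

end Defs

section Basics

variable {N : ℕ} (v : (Fin N → Bool) → ℝ)

lemma abs_spinValue (b : Bool) : |spinValue b| = 1 := by
  cases b <;> simp [spinValue]

lemma abs_magn_le (i : Fin N) : |magn v i| ≤ 1 :=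
  abs_gavg_le v _ fun x => (abs_spinValue _).le

lemma qOf_nonneg : 0 ≤ qOf v := by
  unfold qOf
  positivity

lemma qOf_le_one (hN : 1 ≤ N) : qOf v ≤ 1 := by
  have hN' : (0 : ℝ) < N := by exact_mod_cast hN
  unfold qOf
  rw [div_le_one hN']
  calc ∑ i, magn v i ^ 2 ≤ ∑ _i : Fin N, (1 : ℝ) := Finset.sum_le_sum fun i _ => by
        rw [← sq_abs]
        exact pow_le_one₀ (abs_nonneg _) (abs_magn_le v i)
    _ = N := by simp

lemma abs_qOf_le (hN : 1 ≤ N) : |qOf v| ≤ 1 := by
  rw [abs_of_nonneg (qOf_nonneg v)]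
  exact qOf_le_one v hN

lemma abs_ovM_le (hN : 1 ≤ N) (x : Fin N → Bool) : |ovM v x| ≤ 1 := by
  have hN' : (0 : ℝ) < N := by exact_mod_cast hN
  unfold ovM
  rw [abs_div, abs_of_pos hN', div_le_one hN']
  calc _ ≤ ∑ i, |spinValue (x i) * magn v i| := Finset.abs_sum_le_sum_abs _ _
    _ ≤ ∑ _i : Fin N, (1 : ℝ) := Finset.sum_le_sum fun i _ => by
        rw [abs_mul, abs_spinValue, one_mul]
        exact abs_magn_le v i
    _ = N := by simp

/-- The overlap with the magnetization is the average of the two replica overlap. -/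
lemma ovM_eq (x : Fin N → Bool) : ovM v x = ∑ x', gwt v x' * overlap x x' := by
  unfold ovM overlap
  simp_rw [mul_div_assoc', Finset.mul_sum]
  rw [← Finset.sum_div]
  congr 1
  have h : ∀ i, spinValue (x i) * magn v i =
      ∑ x', gwt v x' * (spinValue (x i) * spinValue (x' i)) := by
    intro i
    unfold magn gavg
    rw [Finset.mul_sum]
    refine Finset.sum_congr rfl fun x' _ => ?_
    ring
  simp_rw [h]
  rw [Finset.sum_comm]

lemma qOf_eq_avg_ovM : qOf v = ∑ x, gwt v x * ovM v x := by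
  unfold ovM qOf
  simp_rw [mul_div_assoc', Finset.mul_sum]
  rw [← Finset.sum_div]
  congr 1
  rw [Finset.sum_comm]
  refine Finset.sum_congr rfl fun i _ => ?_
  rw [sq]
  nth_rw 1 [magn]
  unfold gavg
  rw [Finset.sum_mul]
  refine Finset.sum_congr rfl fun x _ => ?_
  ring

end Basics

section Thermal

variable {N : ℕ} (v : (Fin N → Bool) → ℝ)

/-- Jensen for a Gibbs weight. -/
lemma sq_sum_gwt_le (a : (Fin N → Bool) → ℝ) :
    (∑ x, gwt v x * a x) ^ 2 ≤ ∑ x, gwt v x * a x ^ 2 := by
  have hcs := Finset.sum_mul_sq_le_sq_mul_sq (Finset.univ : Finset (Fin N → Bool))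
    (fun x => Real.sqrt (gwt v x)) (fun x => Real.sqrt (gwt v x) * a x)
  have e1 : ∀ x, Real.sqrt (gwt v x) * (Real.sqrt (gwt v x) * a x) = gwt v x * a x := by
    intro x
    rw [← mul_assoc, Real.mul_self_sqrt (gwt_pos v x).le]
  have e2 : ∀ x, Real.sqrt (gwt v x) ^ 2 = gwt v x := fun x => Real.sq_sqrt (gwt_pos v x).le
  have e3 : ∀ x, (Real.sqrt (gwt v x) * a x) ^ 2 = gwt v x * a x ^ 2 := by
    intro x
    rw [mul_pow, e2]
  simp only [e1, e2, e3] at hcs
  rw [sum_gwt, one_mul] at hcs
  exact hcs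

/-- Interchange of a four fold finite sum. -/
lemma sum4_comm {α β γ δ : Type*} [Fintype α] [Fintype β] [Fintype γ] [Fintype δ]
    (F : α → β → γ → δ → ℝ) :
    ∑ a, ∑ b, ∑ c, ∑ d, F a b c d = ∑ c, ∑ d, ∑ a, ∑ b, F a b c d := by
  calc ∑ a, ∑ b, ∑ c, ∑ d, F a b c d
      = ∑ a, ∑ c, ∑ b, ∑ d, F a b c d :=
        Finset.sum_congr rfl fun a _ => Finset.sum_comm
    _ = ∑ c, ∑ a, ∑ b, ∑ d, F a b c d := Finset.sum_comm
    _ = ∑ c, ∑ a, ∑ d, ∑ b, F a b c d :=
        Finset.sum_congr rfl fun c _ => Finset.sum_congr rfl fun a _ => Finset.sum_comm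
    _ = ∑ c, ∑ d, ∑ a, ∑ b, F a b c d :=
        Finset.sum_congr rfl fun c _ => Finset.sum_comm

/-- The second moment of the two replica overlap. -/
lemma sum_overlap_sq' :
    ∑ x, ∑ x', gwt v x * gwt v x' * overlap x x' ^ 2 =
      (∑ i, ∑ j, (gavg v fun x => spinValue (x i) * spinValue (x j)) ^ 2) / (N : ℝ) ^ 2 := by
  have h1 : ∀ x x' : Fin N → Bool, overlap x x' ^ 2 =
      (∑ i, ∑ j, (spinValue (x i) * spinValue (x j)) * (spinValue (x' i) * spinValue (x' j))) /
        (N : ℝ) ^ 2 := by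
    intro x x'
    unfold overlap
    rw [div_pow, sq (∑ i, spinValue (x i) * spinValue (x' i)), Finset.sum_mul_sum]
    congr 1
    refine Finset.sum_congr rfl fun i _ => Finset.sum_congr rfl fun j _ => ?_
    ring
  have h2 : ∀ i j, (gavg v fun x => spinValue (x i) * spinValue (x j)) ^ 2 =
      ∑ x, ∑ x', gwt v x * gwt v x' *
        ((spinValue (x i) * spinValue (x j)) * (spinValue (x' i) * spinValue (x' j))) := by
    intro i j
    unfold gavg
    rw [sq, Finset.sum_mul_sum]
    refine Finset.sum_congr rfl fun x _ => Finset.sum_congr rfl fun x' _ => ?_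
    ring
  simp_rw [h2]
  rw [sum4_comm, Finset.sum_div]
  refine Finset.sum_congr rfl fun x _ => ?_
  rw [Finset.sum_div]
  refine Finset.sum_congr rfl fun x' _ => ?_
  rw [h1, mul_div_assoc', Finset.mul_sum]
  congr 1
  refine Finset.sum_congr rfl fun i _ => ?_
  rw [Finset.mul_sum]

lemma sum_overlap_eq : ∑ x, ∑ x', gwt v x * gwt v x' * overlap x x' = qOf v := by
  rw [qOf_eq_avg_ovM]
  refine Finset.sum_congr rfl fun x _ => ?_
  rw [ovM_eq, Finset.mul_sum]
  refine Finset.sum_congr rfl fun x' _ => ?_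
  ring

lemma sum_sum_gwt : ∑ x, ∑ x', gwt v x * gwt v x' = 1 := by
  simp_rw [← Finset.mul_sum, sum_gwt, mul_one]
  exact sum_gwt v

lemma sum_sum_gwt_mul (c : ℝ) : ∑ x, ∑ x', gwt v x * gwt v x' * c = c := by
  have inner : ∀ x, ∑ x', gwt v x * gwt v x' * c = gwt v x * c := by
    intro x
    have : ∀ x', gwt v x * gwt v x' * c = (gwt v x * c) * gwt v x' := fun x' => by ring
    simp_rw [this]
    rw [← Finset.mul_sum, sum_gwt, mul_one]
  simp_rw [inner]
  rw [← Finset.sum_mul, sum_gwt, one_mul]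

/-- The variance of the two replica overlap. -/
lemma sum_overlap_sub_sq :
    ∑ x, ∑ x', gwt v x * gwt v x' * (overlap x x' - qOf v) ^ 2 =
      (∑ i, ∑ j, corrSpin v i j *
        ((gavg v fun x => spinValue (x i) * spinValue (x j)) + magn v i * magn v j)) /
          (N : ℝ) ^ 2 := by
  have h1 : ∀ x x' : Fin N → Bool, gwt v x * gwt v x' * (overlap x x' - qOf v) ^ 2 =
      gwt v x * gwt v x' * overlap x x' ^ 2 - 2 * qOf v * (gwt v x * gwt v x' * overlap x x') +
        qOf v ^ 2 * (gwt v x * gwt v x') := by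
    intro x x'
    ring
  simp_rw [h1, Finset.sum_add_distrib, Finset.sum_sub_distrib, ← Finset.mul_sum]
  rw [sum_overlap_sq', sum_overlap_eq]
  simp only [sum_gwt, mul_one]
  have h2 : qOf v ^ 2 = (∑ i, ∑ j, (magn v i * magn v j) ^ 2) / (N : ℝ) ^ 2 := by
    unfold qOf
    rw [div_pow, sq (∑ i, magn v i ^ 2), Finset.sum_mul_sum]
    congr 1
    refine Finset.sum_congr rfl fun i _ => Finset.sum_congr rfl fun j _ => ?_
    ring
  have h3 : (∑ i, ∑ j, corrSpin v i j *
      ((gavg v fun x => spinValue (x i) * spinValue (x j)) + magn v i * magn v j)) =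
      (∑ i, ∑ j, (gavg v fun x => spinValue (x i) * spinValue (x j)) ^ 2) -
        ∑ i, ∑ j, (magn v i * magn v j) ^ 2 := by
    rw [← Finset.sum_sub_distrib]
    refine Finset.sum_congr rfl fun i _ => ?_
    rw [← Finset.sum_sub_distrib]
    refine Finset.sum_congr rfl fun j _ => ?_
    unfold corrSpin gcov magn
    ring
  rw [h3, sub_div, ← h2]
  ring

lemma abs_corrSpin_le (i j : Fin N) : |corrSpin v i j| ≤ 2 := by
  have := abs_gcov_le v (fun x => spinValue (x i)) (fun x => spinValue (x j)) (Ka := 1) (Kb := 1)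
    (fun x => (abs_spinValue _).le) (fun x => (abs_spinValue _).le)
  unfold corrSpin
  linarith

lemma sum_abs_corrSpin_le (hN : 1 ≤ N) :
    (∑ i, ∑ j, |corrSpin v i j|) / (N : ℝ) ^ 2 ≤ Real.sqrt (c2Of v) := by
  have hN' : (0 : ℝ) < N := by exact_mod_cast hN
  apply Real.le_sqrt_of_sq_le
  have hcs := Finset.sum_mul_sq_le_sq_mul_sq (Finset.univ : Finset (Fin N × Fin N))
    (fun p => |corrSpin v p.1 p.2|) (fun _ => (1 : ℝ))
  simp only [mul_one, one_pow, sq_abs, Finset.sum_const, Finset.card_univ, Fintype.card_prod,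
    Fintype.card_fin, nsmul_eq_mul] at hcs
  rw [Fintype.sum_prod_type' (f := fun i j => |corrSpin v i j|),
    Fintype.sum_prod_type' (f := fun i j => corrSpin v i j ^ 2)] at hcs
  unfold c2Of
  rw [div_pow, div_le_div_iff₀ (by positivity) (by positivity)]
  push_cast at hcs
  calc (∑ i, ∑ j, |corrSpin v i j|) ^ 2 * (N : ℝ) ^ 2 ≤
      ((∑ i, ∑ j, corrSpin v i j ^ 2) * ((N : ℝ) * N)) * (N : ℝ) ^ 2 :=
        mul_le_mul_of_nonneg_right hcs (by positivity)
    _ = _ := by ring

/-- Two replica variance bound by the covariances. -/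
lemma sum_overlap_sub_sq_le (hN : 1 ≤ N) :
    ∑ x, ∑ x', gwt v x * gwt v x' * (overlap x x' - qOf v) ^ 2 ≤ 2 * Real.sqrt (c2Of v) := by
  have hN' : (0 : ℝ) < N := by exact_mod_cast hN
  rw [sum_overlap_sub_sq]
  have h1 : ∀ i j, corrSpin v i j *
      ((gavg v fun x => spinValue (x i) * spinValue (x j)) + magn v i * magn v j) ≤
      2 * |corrSpin v i j| := by
    intro i j
    have h2 : |(gavg v fun x => spinValue (x i) * spinValue (x j)) + magn v i * magn v j| ≤ 2 := by
      have h3 : |gavg v fun x => spinValue (x i) * spinValue (x j)| ≤ 1 :=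
        abs_gavg_le v _ fun x => by
          rw [abs_mul, abs_spinValue, abs_spinValue, one_mul]
      have h4 : |magn v i * magn v j| ≤ 1 := by
        rw [abs_mul]
        exact mul_le_one₀ (abs_magn_le v i) (abs_nonneg _) (abs_magn_le v j)
      exact (abs_add_le _ _).trans (by linarith)
    calc _ ≤ |corrSpin v i j * ((gavg v fun x => spinValue (x i) * spinValue (x j)) +
          magn v i * magn v j)| := le_abs_self _
      _ = |corrSpin v i j| * |(gavg v fun x => spinValue (x i) * spinValue (x j)) +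
          magn v i * magn v j| := abs_mul _ _
      _ ≤ |corrSpin v i j| * 2 := mul_le_mul_of_nonneg_left h2 (abs_nonneg _)
      _ = _ := mul_comm _ _
  have h5 : (∑ i, ∑ j, corrSpin v i j *
      ((gavg v fun x => spinValue (x i) * spinValue (x j)) + magn v i * magn v j)) ≤
      2 * ∑ i, ∑ j, |corrSpin v i j| := by
    rw [Finset.mul_sum]
    refine Finset.sum_le_sum fun i _ => ?_
    rw [Finset.mul_sum]
    exact Finset.sum_le_sum fun j _ => h1 i j
  have h6 := sum_abs_corrSpin_le v hN
  calc _ ≤ (2 * ∑ i, ∑ j, |corrSpin v i j|) / (N : ℝ) ^ 2 :=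
        div_le_div_of_nonneg_right h5 (by positivity)
    _ = 2 * ((∑ i, ∑ j, |corrSpin v i j|) / (N : ℝ) ^ 2) := by ring
    _ ≤ _ := by linarith

/-- The two replica fluctuation is small when the covariances are small. -/
lemma thermOf_le (hN : 1 ≤ N) : thermOf v ≤ Real.sqrt (2 * Real.sqrt (c2Of v)) := by
  apply Real.le_sqrt_of_sq_le
  refine le_trans ?_ (sum_overlap_sub_sq_le v hN)
  unfold thermOf
  set b : (Fin N → Bool) → ℝ := fun x => ∑ x', gwt v x' * |overlap x x' - qOf v| with hb
  have e : ∀ x, ∑ x', gwt v x * gwt v x' * |overlap x x' - qOf v| = gwt v x * b x := by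
    intro x
    simp only [hb]
    rw [Finset.mul_sum]
    refine Finset.sum_congr rfl fun x' _ => ?_
    ring
  simp_rw [e]
  refine (sq_sum_gwt_le v b).trans ?_
  refine Finset.sum_le_sum fun x _ => ?_
  have h1 := sq_sum_gwt_le v (fun x' => |overlap x x' - qOf v|)
  simp only [sq_abs] at h1
  have h2 := mul_le_mul_of_nonneg_left h1 (gwt_pos v x).le
  refine h2.trans (le_of_eq ?_)
  rw [Finset.mul_sum]
  refine Finset.sum_congr rfl fun x' _ => ?_
  ring

/-- The fluctuation of the overlap with the magnetization. -/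
lemma sum_abs_ovM_sub_le : ∑ x, gwt v x * |ovM v x - qOf v| ≤ thermOf v := by
  unfold thermOf
  refine Finset.sum_le_sum fun x _ => ?_
  have h1 : ovM v x - qOf v = ∑ x', gwt v x' * (overlap x x' - qOf v) := by
    rw [ovM_eq]
    simp_rw [mul_sub]
    rw [Finset.sum_sub_distrib, ← Finset.sum_mul, sum_gwt, one_mul]
  rw [h1, ← sub_nonneg]
  have h2 : |∑ x', gwt v x' * (overlap x x' - qOf v)| ≤
      ∑ x', gwt v x' * |overlap x x' - qOf v| := by
    refine (Finset.abs_sum_le_sum_abs _ _).trans (le_of_eq ?_)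
    refine Finset.sum_congr rfl fun x' _ => ?_
    rw [abs_mul, abs_of_pos (gwt_pos v x')]
  have h3 : ∑ x', gwt v x * gwt v x' * |overlap x x' - qOf v| =
      gwt v x * ∑ x', gwt v x' * |overlap x x' - qOf v| := by
    rw [Finset.mul_sum]
    refine Finset.sum_congr rfl fun x' _ => ?_
    ring
  rw [h3, ← mul_sub]
  exact mul_nonneg (gwt_pos v x).le (by linarith)

/-- The `L²` distance is controlled by the two replica fluctuation. -/
lemma deltaOf_le {U : ℝ → ℝ} {η K : ℝ} (hN : 1 ≤ N)
    (hmod : ∀ s t : ℝ, |s| ≤ 1 → |t| ≤ 1 → |corrFn U U s - corrFn U U t| ≤ η + K * |s - t|)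
    (hK : 0 ≤ K) :
    deltaOf U v ≤ 3 * η + 3 * K * thermOf v := by
  have hq1 := abs_qOf_le v hN
  have h1 : ∑ x, ∑ x', gwt v x * gwt v x' * corrFn U U (overlap x x') - corrFn U U (qOf v) ≤
      η + K * thermOf v := by
    have hterm : ∀ x x' : Fin N → Bool,
        gwt v x * gwt v x' * corrFn U U (overlap x x') ≤
          gwt v x * gwt v x' * (corrFn U U (qOf v) + η) +
            K * (gwt v x * gwt v x' * |overlap x x' - qOf v|) := by
      intro x x'
      have h3 := (le_abs_self _).trans (hmod (overlap x x') (qOf v) (abs_overlap_le x x') hq1)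
      have hw : 0 ≤ gwt v x * gwt v x' := (mul_pos (gwt_pos v x) (gwt_pos v x')).le
      have h4 := mul_le_mul_of_nonneg_left h3 hw
      nlinarith
    have hsum := Finset.sum_le_sum (s := Finset.univ) fun x _ =>
      Finset.sum_le_sum (s := Finset.univ) fun x' _ => hterm x x'
    simp_rw [Finset.sum_add_distrib] at hsum
    rw [sum_sum_gwt_mul] at hsum
    have e : ∑ x, ∑ x', K * (gwt v x * gwt v x' * |overlap x x' - qOf v|) = K * thermOf v := by
      unfold thermOf
      rw [Finset.mul_sum]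
      refine Finset.sum_congr rfl fun x _ => ?_
      rw [Finset.mul_sum]
    rw [e] at hsum
    linarith
  have h2 : corrFn U U (qOf v) - ∑ x, gwt v x * corrFn U U (ovM v x) ≤ η + K * thermOf v := by
    have e : corrFn U U (qOf v) = ∑ x, gwt v x * corrFn U U (qOf v) := by
      rw [← Finset.sum_mul, sum_gwt, one_mul]
    have e2 : η = ∑ x, gwt v x * η := by
      rw [← Finset.sum_mul, sum_gwt, one_mul]
    have h5 : ∑ x, gwt v x * |ovM v x - qOf v| ≤ thermOf v := sum_abs_ovM_sub_le v
    have h6 : corrFn U U (qOf v) - ∑ x, gwt v x * corrFn U U (ovM v x) ≤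
        η + K * ∑ x, gwt v x * |ovM v x - qOf v| := by
      nth_rw 1 [e]
      nth_rw 1 [e2]
      rw [Finset.mul_sum, ← Finset.sum_sub_distrib, ← Finset.sum_add_distrib]
      refine Finset.sum_le_sum fun x _ => ?_
      have h3 := (le_abs_self _).trans (hmod (qOf v) (ovM v x) hq1 (abs_ovM_le v hN x))
      rw [abs_sub_comm (qOf v)] at h3
      have h4 := mul_le_mul_of_nonneg_left h3 (gwt_pos v x).le
      nlinarith
    have h7 := mul_le_mul_of_nonneg_left h5 hK
    linarith
  unfold deltaOf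
  linarith

end Thermal

section CavityMain

variable {N : ℕ} (v : (Fin N → Bool) → ℝ) {U : ℝ → ℝ} {c₁ c₂ : ℝ}

/-- The unit vector of a spin configuration. -/
noncomputable def spinUnit (x : Fin N → Bool) (i : Fin N) : ℝ := spinValue (x i) / Real.sqrt N

lemma spinUnit_sq (hN : 1 ≤ N) (x : Fin N → Bool) : ∑ i, spinUnit x i ^ 2 = 1 := by
  have hN' : (0 : ℝ) < N := by exact_mod_cast hN
  unfold spinUnit
  simp_rw [div_pow, spinValue_sq, Real.sq_sqrt hN'.le]
  simp
  field_simp

lemma spinUnit_dot (hN : 1 ≤ N) (x y : Fin N → Bool) :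
    ∑ i, spinUnit x i * spinUnit y i = overlap x y := by
  have hN' : (0 : ℝ) < N := by exact_mod_cast hN
  unfold spinUnit overlap
  rw [Finset.sum_div]
  refine Finset.sum_congr rfl fun i _ => ?_
  have h : Real.sqrt N * Real.sqrt N = N := Real.mul_self_sqrt hN'.le
  rw [div_mul_div_comm, h]

lemma patternField_eq_unit (x : Fin N → Bool) (g : Fin N → ℝ) :
    patternField x g = ∑ i, g i * spinUnit x i :=
  patternField_eq x g

/-- The direction of the magnetization. -/
lemma exists_unit_direction (hN : 1 ≤ N) :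
    ∃ b : Fin N → ℝ, ∑ i, b i ^ 2 = 1 ∧
      ∀ x, (∑ i, spinUnit x i * b i) * Real.sqrt (qOf v) = ovM v x := by
  have hN' : (0 : ℝ) < N := by exact_mod_cast hN
  rcases eq_or_lt_of_le (qOf_nonneg v) with h0 | hpos
  · refine ⟨spinUnit (fun _ => true), spinUnit_sq hN _, fun x => ?_⟩
    rw [← h0, Real.sqrt_zero, mul_zero]
    have hsum : ∑ i, magn v i ^ 2 = 0 := by
      have h1 : qOf v = (∑ i, magn v i ^ 2) / N := rfl
      rw [← h0] at h1
      have := (div_eq_zero_iff.mp h1.symm).resolve_right hN'.ne'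
      exact this
    have hm : ∀ i, magn v i = 0 := by
      intro i
      have := (Finset.sum_eq_zero_iff_of_nonneg (fun i _ => sq_nonneg (magn v i))).mp hsum i
        (Finset.mem_univ i)
      exact pow_eq_zero_iff (two_ne_zero) |>.mp this
    unfold ovM
    simp [hm]
  · set sq' := Real.sqrt (qOf v) with hsq'
    set sN := Real.sqrt N with hsN
    have hsq0 : 0 < sq' := Real.sqrt_pos.mpr hpos
    have hsN0 : 0 < sN := Real.sqrt_pos.mpr hN'
    have hsq2 : sq' * sq' = qOf v := Real.mul_self_sqrt hpos.le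
    have hsN2 : sN * sN = N := Real.mul_self_sqrt hN'.le
    refine ⟨fun i => magn v i / (sq' * sN), ?_, fun x => ?_⟩
    · simp_rw [div_pow]
      rw [← Finset.sum_div]
      have e : ∑ i, magn v i ^ 2 = qOf v * N := by
        unfold qOf
        field_simp
      rw [e, mul_pow, sq sq', sq sN, hsq2, hsN2]
      exact div_self (mul_pos hpos hN').ne'
    · unfold ovM
      rw [Finset.sum_mul, Finset.sum_div]
      refine Finset.sum_congr rfl fun i _ => ?_
      unfold spinUnit
      rw [← hsN, ← hsN2]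
      field_simp

variable (hU : Measurable U) (hc₁ : 0 < c₁) (hb : ∀ u, c₁ ≤ U u ∧ U u ≤ c₂)

include hU in
lemma measurable_fieldAvg : Measurable fun g : Fin N → ℝ => gavg v fun x => U (patternField x g) := by
  refine measurable_gavg (v := fun _ => v) (a := fun g x => U (patternField x g))
    (fun x => measurable_const) fun x => ?_
  exact hU.comp (measurable_patternField x)

include hU hc₁ hb in
lemma abs_fieldAvg_le (g : Fin N → ℝ) : |gavg v fun x => U (patternField x g)| ≤ c₂ :=
  abs_gavg_le v _ fun x => abs_le_of_bounds hc₁ (hb _).1 (hb _).2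

include hU hc₁ hb in
lemma fieldAvg_bounds (g : Fin N → ℝ) :
    c₁ ≤ (gavg v fun x => U (patternField x g)) ∧ (gavg v fun x => U (patternField x g)) ≤ c₂ := by
  unfold gavg
  constructor
  · calc c₁ = ∑ x, gwt v x * c₁ := by rw [← Finset.sum_mul, sum_gwt, one_mul]
      _ ≤ _ := Finset.sum_le_sum fun x _ => mul_le_mul_of_nonneg_left (hb _).1 (gwt_pos v x).le
  · calc _ ≤ ∑ x, gwt v x * c₂ :=
          Finset.sum_le_sum fun x _ => mul_le_mul_of_nonneg_left (hb _).2 (gwt_pos v x).le
      _ = c₂ := by rw [← Finset.sum_mul, sum_gwt, one_mul]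

include hU hc₁ hb in
/-- The second moment of the conditional mean. -/
lemma integral_fieldAvg_sq (hN : 1 ≤ N) :
    ∫ g, (gavg v fun x => U (patternField x g)) ^ 2 ∂(patternLaw N) =
      ∑ x, ∑ x', gwt v x * gwt v x' * corrFn U U (overlap x x') := by
  have hUB : ∀ u, |U u| ≤ c₂ := fun u => abs_le_of_bounds hc₁ (hb u).1 (hb u).2
  have h1 : ∀ g : Fin N → ℝ, (gavg v fun x => U (patternField x g)) ^ 2 =
      ∑ x, ∑ x', gwt v x * gwt v x' * (U (patternField x g) * U (patternField x' g)) := by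
    intro g
    unfold gavg
    rw [sq, Finset.sum_mul_sum]
    refine Finset.sum_congr rfl fun x _ => Finset.sum_congr rfl fun x' _ => ?_
    ring
  simp_rw [h1]
  have hint : ∀ x x' : Fin N → Bool, Integrable (fun g : Fin N → ℝ =>
      gwt v x * gwt v x' * (U (patternField x g) * U (patternField x' g))) (patternLaw N) := by
    intro x x'
    exact (integrable_mul_of_bdd (hU.comp (measurable_patternField x))
      (hU.comp (measurable_patternField x')) (fun g => hUB _) (fun g => hUB _)).const_mul _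
  rw [integral_finsetSum _ fun x _ => integrable_finsetSum _ fun x' _ => hint x x']
  refine Finset.sum_congr rfl fun x _ => ?_
  rw [integral_finsetSum _ fun x' _ => hint x x']
  refine Finset.sum_congr rfl fun x' _ => ?_
  rw [integral_const_mul]
  congr 1
  have h2 := integral_pair_unit hU hU hUB hUB (spinUnit_sq hN x) (spinUnit_sq hN x')
  rw [spinUnit_dot hN] at h2
  rw [← h2]
  simp_rw [patternField_eq_unit]

include hU hc₁ hb in
/-- The mixed second moment with the one dimensional noise average. -/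
lemma integral_fieldAvg_mul (hN : 1 ≤ N) {b : Fin N → ℝ} (hb1 : ∑ i, b i ^ 2 = 1)
    {d : ℝ} (hd : |d| ≤ 1) :
    ∫ g, (gavg v fun x => U (patternField x g)) * noiseAvg U d (∑ i, g i * b i) ∂(patternLaw N) =
      ∑ x, gwt v x * corrFn U U ((∑ i, spinUnit x i * b i) * d) := by
  have hUB : ∀ u, |U u| ≤ c₂ := fun u => abs_le_of_bounds hc₁ (hb u).1 (hb u).2
  have hP := measurable_noiseAvg hU d
  have hPB := abs_noiseAvg_le hU hUB d
  have hlin : Measurable (fun g : Fin N → ℝ => ∑ i, g i * b i) :=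
    Finset.measurable_sum _ fun i _ => (measurable_pi_apply i).mul_const _
  have h1 : ∀ g : Fin N → ℝ, (gavg v fun x => U (patternField x g)) *
      noiseAvg U d (∑ i, g i * b i) =
      ∑ x, gwt v x * (U (patternField x g) * noiseAvg U d (∑ i, g i * b i)) := by
    intro g
    unfold gavg
    rw [Finset.sum_mul]
    refine Finset.sum_congr rfl fun x _ => ?_
    ring
  simp_rw [h1]
  have hint : ∀ x : Fin N → Bool, Integrable (fun g : Fin N → ℝ =>
      gwt v x * (U (patternField x g) * noiseAvg U d (∑ i, g i * b i))) (patternLaw N) := by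
    intro x
    exact (integrable_mul_of_bdd (hU.comp (measurable_patternField x))
      (hP.comp hlin) (fun g => hUB _) (fun g => hPB _)).const_mul _
  rw [integral_finsetSum _ fun x _ => hint x]
  refine Finset.sum_congr rfl fun x _ => ?_
  rw [integral_const_mul]
  congr 1
  have h2 := integral_pair_unit hU hP hUB hPB (spinUnit_sq hN x) hb1
  have hc : |∑ i, spinUnit x i * b i| ≤ 1 := by
    have := unit_dot_sq_le (spinUnit_sq hN x) hb1
    exact abs_le_one_iff_mul_self_le_one.mpr (by nlinarith)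
  rw [corrFn_noiseAvg hU hUB hc hd] at h2
  rw [← h2]
  simp_rw [patternField_eq_unit]

include hU hc₁ hb in
/-- The integrals of functions of a unit linear form. -/
lemma integral_comp_unit {b : Fin N → ℝ} (hb1 : ∑ i, b i ^ 2 = 1) {F : ℝ → ℝ} (hF : Measurable F) :
    ∫ g, F (∑ i, g i * b i) ∂(patternLaw N) = ∫ v, F v ∂(gaussianReal 0 1) := by
  have hlin : Measurable (fun g : Fin N → ℝ => ∑ i, g i * b i) :=
    Finset.measurable_sum _ fun i _ => (measurable_pi_apply i).mul_const _
  have h := map_linear_form b (1 : ℝ≥0) (by simpa using hb1)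
  rw [← h, integral_map hlin.aemeasurable hF.aestronglyMeasurable]

include hU hc₁ hb in
/-- **The cavity comparison.** -/
lemma thetaOf_sub_le (hN : 1 ≤ N) :
    |thetaOf U v - psiU U (qOf v)| ≤
      (1 + |Real.log c₁| + |Real.log c₂|) * Real.sqrt (deltaOf U v) := by
  have hUB : ∀ u, |U u| ≤ c₂ := fun u => abs_le_of_bounds hc₁ (hb u).1 (hb u).2
  obtain ⟨b, hb1, hbdir⟩ := exists_unit_direction v hN
  set q := qOf v with hq
  set d := Real.sqrt q with hd
  have hd1 : |d| ≤ 1 := by
    rw [abs_of_nonneg (Real.sqrt_nonneg _)]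
    exact Real.sqrt_le_one.mpr (qOf_le_one v hN)
  set Λ := 1 + |Real.log c₁| + |Real.log c₂| with hΛ
  have hΛ0 : 0 ≤ Λ := by positivity
  have hlin : Measurable (fun g : Fin N → ℝ => ∑ i, g i * b i) :=
    Finset.measurable_sum _ fun i _ => (measurable_pi_apply i).mul_const _
  have hP := measurable_noiseAvg hU d
  have hPB := abs_noiseAvg_le hU hUB d
  have hPb := fun w => noiseAvg_bounds (a := c₁) (b := c₂) hU hb d w
  set Pc : (Fin N → ℝ) → ℝ := fun g => gavg v fun x => U (patternField x g) with hPcdef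
  set Ξ : (Fin N → ℝ) → ℝ := fun g => noiseAvg U d (∑ i, g i * b i) with hΞ
  have hPcm : Measurable Pc := measurable_fieldAvg v hU
  have hΞm : Measurable Ξ := hP.comp hlin
  have hPcB : ∀ g, |Pc g| ≤ c₂ := abs_fieldAvg_le v hU hc₁ hb
  have hΞB : ∀ g, |Ξ g| ≤ c₂ := fun g => hPB _
  have hDm : Measurable (fun g => Pc g - Ξ g) := hPcm.sub hΞm
  have hDB : ∀ g, |Pc g - Ξ g| ≤ c₂ + c₂ := fun g =>
    (abs_sub _ _).trans (add_le_add (hPcB g) (hΞB g))
  -- the `L²` distance
  have hL2 : ∫ g, (Pc g - Ξ g) ^ 2 ∂(patternLaw N) = deltaOf U v := by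
    have hi1 : Integrable (fun g => Pc g ^ 2) (patternLaw N) := by
      refine integrable_of_bdd (hPcm.pow_const 2) (B := c₂ ^ 2) fun g => ?_
      rw [abs_pow]
      exact pow_le_pow_left₀ (abs_nonneg _) (hPcB g) 2
    have hi2 : Integrable (fun g => Pc g * Ξ g) (patternLaw N) :=
      integrable_mul_of_bdd hPcm hΞm hPcB hΞB
    have hi3 : Integrable (fun g => Ξ g ^ 2) (patternLaw N) := by
      refine integrable_of_bdd (hΞm.pow_const 2) (B := c₂ ^ 2) fun g => ?_
      rw [abs_pow]
      exact pow_le_pow_left₀ (abs_nonneg _) (hΞB g) 2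
    have hexp : ∀ g, (Pc g - Ξ g) ^ 2 = (Pc g ^ 2 - 2 * (Pc g * Ξ g)) + Ξ g ^ 2 := fun g => by ring
    have e1 : ∫ g, Pc g ^ 2 ∂(patternLaw N) =
        ∑ x, ∑ x', gwt v x * gwt v x' * corrFn U U (overlap x x') :=
      integral_fieldAvg_sq v hU hc₁ hb hN
    have e2 : ∫ g, Pc g * Ξ g ∂(patternLaw N) = ∑ x, gwt v x * corrFn U U (ovM v x) := by
      have := integral_fieldAvg_mul v hU hc₁ hb hN hb1 hd1
      simp_rw [hbdir] at this
      exact this
    have e3 : ∫ g, Ξ g ^ 2 ∂(patternLaw N) = corrFn U U q := by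
      have h1 := integral_comp_unit hU hc₁ hb hb1 (F := fun w => noiseAvg U d w ^ 2)
        (hP.pow_const 2)
      have h2 := integral_noiseAvg_sq hU hUB hd1
      rw [hd, Real.sq_sqrt (qOf_nonneg v)] at h2
      rw [← h2, ← h1]
    calc ∫ g, (Pc g - Ξ g) ^ 2 ∂(patternLaw N)
        = ∫ g, ((Pc g ^ 2 - 2 * (Pc g * Ξ g)) + Ξ g ^ 2) ∂(patternLaw N) := by
          simp_rw [hexp]
      _ = (∫ g, Pc g ^ 2 ∂(patternLaw N)) - 2 * (∫ g, Pc g * Ξ g ∂(patternLaw N)) +
            ∫ g, Ξ g ^ 2 ∂(patternLaw N) := by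
          have hi4 : Integrable (fun g => Pc g ^ 2 - 2 * (Pc g * Ξ g)) (patternLaw N) :=
            hi1.sub (hi2.const_mul 2)
          rw [integral_add hi4 hi3, integral_sub hi1 (hi2.const_mul 2), integral_const_mul]
      _ = _ := by
          rw [e1, e2, e3]
          rfl
  -- the entropy values
  have hPsi : ∫ g, entFn (Ξ g) ∂(patternLaw N) = psiU U q := by
    have h1 := integral_comp_unit hU hc₁ hb hb1 (F := fun w => entFn (noiseAvg U d w))
      (measurable_entFn.comp hP)
    rw [h1]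
    rfl
  have hPcb := fieldAvg_bounds v hU hc₁ hb (N := N)
  have hE1 : Integrable (fun g => entFn (Pc g)) (patternLaw N) :=
    integrable_of_bdd (measurable_entFn.comp hPcm)
      fun g => abs_entFn_le hc₁ (hPcb g).1 (hPcb g).2
  have hE2 : Integrable (fun g => entFn (Ξ g)) (patternLaw N) :=
    integrable_of_bdd (measurable_entFn.comp hΞm)
      fun g => abs_entFn_le hc₁ (hPb _).1 (hPb _).2
  have hdiff : thetaOf U v - psiU U q =
      ∫ g, (entFn (Pc g) - entFn (Ξ g)) ∂(patternLaw N) := by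
    rw [integral_sub hE1 hE2, hPsi]
    rfl
  rw [hdiff]
  have hpt : ∀ g, |entFn (Pc g) - entFn (Ξ g)| ≤ Λ * |Pc g - Ξ g| := fun g =>
    entFn_sub_le hc₁ (hPcb g).1 (hPcb g).2 (hPb _).1 (hPb _).2
  have hi : Integrable (fun g => |Pc g - Ξ g|) (patternLaw N) :=
    integrable_of_bdd hDm.abs (B := c₂ + c₂) fun g => by rw [abs_abs]; exact hDB g
  calc _ ≤ ∫ g, |entFn (Pc g) - entFn (Ξ g)| ∂(patternLaw N) := abs_integral_le_integral_abs
    _ ≤ ∫ g, Λ * |Pc g - Ξ g| ∂(patternLaw N) := integral_mono_of_nonneg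
        (Filter.Eventually.of_forall fun g => abs_nonneg _) (hi.const_mul Λ)
        (Filter.Eventually.of_forall hpt)
    _ = Λ * ∫ g, |Pc g - Ξ g| ∂(patternLaw N) := integral_const_mul _ _
    _ ≤ Λ * Real.sqrt (∫ g, (Pc g - Ξ g) ^ 2 ∂(patternLaw N)) :=
        mul_le_mul_of_nonneg_left (integral_abs_le_sqrt hDm hDB) hΛ0
    _ = _ := by rw [hL2]

end CavityMain

end Vale.Agent.Lib.P157
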