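import Vale.Agent.Lib.P157.DefsCrit

/-!
The objects entering the replica symmetric formula for the planted entropy.
-/

open MeasureTheory ProbabilityTheory

namespace Vale.Agent.Lib.P157

/-- The convex function `t log t`. -/
noncomputable def entFn (t : ℝ) : ℝ := t * Real.log t

/-- The entropy functional `Ψ(q) = E [ℓ (P_{√q} U (G))]` of the normalized weight `U`, where
`ℓ t = t log t` and `P_ρ` is the Gaussian noise operator. -/
noncomputable def psiRS (f : ℝ → ℝ) (q : ℝ) : ℝ :=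
  ∫ v, entFn (noiseAvg (normPot f) (Real.sqrt q) v) ∂(gaussianReal 0 1)

/-- The scalar Gaussian channel function `e₀(r) = E log cosh (r + √r Z) - r / 2`. -/
noncomputable def e0RS (r : ℝ) : ℝ :=
  ∫ z, Real.log (Real.cosh (r + Real.sqrt r * z)) ∂(gaussianReal 0 1) - r / 2

/-- The rate function `J(q) = sup_{r ≥ 0} (r q / 2 - e₀(r))`. -/
noncomputable def jRS (q : ℝ) : ℝ := ⨆ r : Set.Ici (0 : ℝ), ((r : ℝ) * q / 2 - e0RS r)

/-- The replica symmetric value `sup_{0 ≤ q ≤ 1} (α Ψ(q) - J(q))`. -/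
noncomputable def rsValue (α : ℝ) (f : ℝ → ℝ) : ℝ :=
  ⨆ q : Set.Icc (0 : ℝ) 1, (α * psiRS f q - jRS q)

end Vale.Agent.Lib.P157
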