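import Vale.Agent.Lib.P157.RSPsi
import Vale.Agent.Lib.P157.RSDefs

/-!
Convexity and monotonicity of the entropy functional.
-/

open MeasureTheory ProbabilityTheory
open scoped NNReal ENNReal

set_option linter.unusedSectionVars false

namespace Vale.Agent.Lib.P157

section Subadd

lemma entFn_ge_log_mul {B P : ℝ} (hB : 0 < B) (hP : 0 < P) :
    B * Real.log P + (B - P) ≤ entFn B := by
  unfold entFn
  have h := Real.log_le_sub_one_of_pos (div_pos hP hB)
  rw [Real.log_div hP.ne' hB.ne'] at h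
  have h2 := mul_le_mul_of_nonneg_left h hB.le
  have e : B * (P / B - 1) = P - B := by
    field_simp
  rw [e] at h2
  nlinarith

/-- Subadditivity of the entropy on a product of two probability spaces. -/
lemma ent_subadd {Ω : Type*} [MeasurableSpace Ω] {μ : Measure Ω} [IsProbabilityMeasure μ]
    {c₁ c₂ : ℝ} (hc₁ : 0 < c₁) {B : Ω × Ω → ℝ} (hB : Measurable B)
    (hb : ∀ p, c₁ ≤ B p ∧ B p ≤ c₂) {B₁ B₂ : Ω → ℝ} {A : ℝ}
    (h1 : ∀ z₁, ∫ z₂, B (z₁, z₂) ∂μ = B₁ z₁) (h2 : ∀ z₂, ∫ z₁, B (z₁, z₂) ∂μ = B₂ z₂)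
    (hA1 : ∫ z₁, B₁ z₁ ∂μ = A) (hA2 : ∫ z₂, B₂ z₂ ∂μ = A) :
    (∫ z₁, entFn (B₁ z₁) ∂μ) + (∫ z₂, entFn (B₂ z₂) ∂μ) - entFn A ≤
      ∫ p, entFn (B p) ∂(μ.prod μ) := by
  have hc₂ : 0 < c₂ := by
    obtain ⟨z⟩ := nonempty_of_isProbabilityMeasure μ
    linarith [(hb (z, z)).1, (hb (z, z)).2]
  have hBabs : ∀ p, |B p| ≤ c₂ := fun p => abs_le_of_bounds hc₁ (hb p).1 (hb p).2
  have hBi : Integrable B (μ.prod μ) := integrable_of_bdd hB hBabs
  have hsec1 : ∀ z₁, Integrable (fun z₂ => B (z₁, z₂)) μ := fun z₁ =>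
    integrable_of_bdd (hB.comp measurable_prodMk_left) fun z₂ => hBabs _
  have hsec2 : ∀ z₂, Integrable (fun z₁ => B (z₁, z₂)) μ := fun z₂ =>
    integrable_of_bdd (hB.comp measurable_prodMk_right) fun z₁ => hBabs _
  have hB1m : Measurable B₁ := by
    have h3 : Measurable (fun z₁ => ∫ z₂, B (z₁, z₂) ∂μ) :=
      (hB.stronglyMeasurable.integral_prod_right' (ν := μ)).measurable
    have h4 : (fun z₁ => ∫ z₂, B (z₁, z₂) ∂μ) = B₁ := funext h1
    rwa [h4] at h3
  have hB2m : Measurable B₂ := by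
    have h3 : Measurable (fun z₂ => ∫ z₁, B (z₁, z₂) ∂μ) :=
      (hB.stronglyMeasurable.integral_prod_left' (μ := μ)).measurable
    have h4 : (fun z₂ => ∫ z₁, B (z₁, z₂) ∂μ) = B₂ := funext h2
    rwa [h4] at h3
  have hbint : ∀ {F : Ω → ℝ}, Integrable F μ → (∀ z, c₁ ≤ F z ∧ F z ≤ c₂) →
      c₁ ≤ ∫ z, F z ∂μ ∧ ∫ z, F z ∂μ ≤ c₂ := by
    intro F hF hFb
    constructor
    · calc c₁ = ∫ _z, c₁ ∂μ := by simp
        _ ≤ _ := integral_mono (integrable_const _) hF fun z => (hFb z).1
    · calc _ ≤ ∫ _z, c₂ ∂μ := integral_mono hF (integrable_const _) fun z => (hFb z).2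
        _ = c₂ := by simp
  have hB1b : ∀ z, c₁ ≤ B₁ z ∧ B₁ z ≤ c₂ := fun z => by
    rw [← h1 z]
    exact hbint (hsec1 z) fun w => hb _
  have hB2b : ∀ z, c₁ ≤ B₂ z ∧ B₂ z ≤ c₂ := fun z => by
    rw [← h2 z]
    exact hbint (hsec2 z) fun w => hb _
  have hB1i : Integrable B₁ μ :=
    integrable_of_bdd hB1m fun z => abs_le_of_bounds hc₁ (hB1b z).1 (hB1b z).2
  have hB2i : Integrable B₂ μ :=
    integrable_of_bdd hB2m fun z => abs_le_of_bounds hc₁ (hB2b z).1 (hB2b z).2
  have hAb : c₁ ≤ A ∧ A ≤ c₂ := by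
    rw [← hA1]
    exact hbint hB1i hB1b
  have hA0 : 0 < A := lt_of_lt_of_le hc₁ hAb.1
  have hpos1 : ∀ z, 0 < B₁ z := fun z => lt_of_lt_of_le hc₁ (hB1b z).1
  have hpos2 : ∀ z, 0 < B₂ z := fun z => lt_of_lt_of_le hc₁ (hB2b z).1
  have hposB : ∀ p, 0 < B p := fun p => lt_of_lt_of_le hc₁ (hb p).1
  -- The product comparison
  set P : Ω × Ω → ℝ := fun p => B₁ p.1 * B₂ p.2 / A with hP
  have hPpos : ∀ p, 0 < P p := fun p => div_pos (mul_pos (hpos1 _) (hpos2 _)) hA0
  have hptw : ∀ p, B p * Real.log (P p) + (B p - P p) ≤ entFn (B p) := fun p =>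
    entFn_ge_log_mul (hposB p) (hPpos p)
  have hlogP : ∀ p, Real.log (P p) = Real.log (B₁ p.1) + Real.log (B₂ p.2) - Real.log A := by
    intro p
    simp only [hP]
    rw [Real.log_div (mul_pos (hpos1 _) (hpos2 _)).ne' hA0.ne',
      Real.log_mul (hpos1 _).ne' (hpos2 _).ne']
  have hL1b : ∀ z, |Real.log (B₁ z)| ≤ |Real.log c₁| + |Real.log c₂| := by
    intro z
    have h3 := Real.log_le_log hc₁ (hB1b z).1
    have h4 := Real.log_le_log (hpos1 z) (hB1b z).2
    rw [abs_le]
    constructor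
    · linarith [neg_abs_le (Real.log c₁), abs_nonneg (Real.log c₂)]
    · linarith [le_abs_self (Real.log c₂), abs_nonneg (Real.log c₁)]
  have hL2b : ∀ z, |Real.log (B₂ z)| ≤ |Real.log c₁| + |Real.log c₂| := by
    intro z
    have h3 := Real.log_le_log hc₁ (hB2b z).1
    have h4 := Real.log_le_log (hpos2 z) (hB2b z).2
    rw [abs_le]
    constructor
    · linarith [neg_abs_le (Real.log c₁), abs_nonneg (Real.log c₂)]
    · linarith [le_abs_self (Real.log c₂), abs_nonneg (Real.log c₁)]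
  have hL1m : Measurable (fun p : Ω × Ω => Real.log (B₁ p.1)) :=
    Real.measurable_log.comp (hB1m.comp measurable_fst)
  have hL2m : Measurable (fun p : Ω × Ω => Real.log (B₂ p.2)) :=
    Real.measurable_log.comp (hB2m.comp measurable_snd)
  have hi1 : Integrable (fun p : Ω × Ω => B p * Real.log (B₁ p.1)) (μ.prod μ) :=
    integrable_mul_of_bdd hB hL1m hBabs fun p => hL1b _
  have hi2 : Integrable (fun p : Ω × Ω => B p * Real.log (B₂ p.2)) (μ.prod μ) :=
    integrable_mul_of_bdd hB hL2m hBabs fun p => hL2b _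
  have hPm : Measurable P := ((hB1m.comp measurable_fst).mul (hB2m.comp measurable_snd)).div_const _
  have hPi : Integrable P (μ.prod μ) := by
    refine integrable_of_bdd hPm (B := c₂ * c₂ / c₁) fun p => ?_
    rw [abs_of_pos (hPpos p)]
    simp only [hP]
    exact div_le_div₀ (by positivity)
      (mul_le_mul (hB1b _).2 (hB2b _).2 (hpos2 _).le hc₂.le) hc₁ hAb.1
  -- Integrals
  have e1 : ∫ p, B p * Real.log (B₁ p.1) ∂(μ.prod μ) = ∫ z₁, entFn (B₁ z₁) ∂μ := by
    rw [integral_prod _ hi1]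
    refine integral_congr_ae (Filter.Eventually.of_forall fun z₁ => ?_)
    simp only
    rw [integral_mul_const, h1]
    rfl
  have e2 : ∫ p, B p * Real.log (B₂ p.2) ∂(μ.prod μ) = ∫ z₂, entFn (B₂ z₂) ∂μ := by
    rw [integral_prod_symm _ hi2]
    refine integral_congr_ae (Filter.Eventually.of_forall fun z₂ => ?_)
    simp only
    rw [integral_mul_const, h2]
    rfl
  have e3 : ∫ p, B p ∂(μ.prod μ) = A := by
    rw [integral_prod _ hBi, ← hA1]
    exact integral_congr_ae (Filter.Eventually.of_forall h1)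
  have e4 : ∫ p, P p ∂(μ.prod μ) = A := by
    simp only [hP]
    rw [integral_div, integral_prod_mul (f := B₁) (g := B₂), hA1, hA2]
    field_simp
  have hent : Integrable (fun p => entFn (B p)) (μ.prod μ) :=
    integrable_of_bdd (measurable_entFn.comp hB)
      fun p => abs_entFn_le hc₁ (hb p).1 (hb p).2
  have hlhsi : Integrable (fun p => B p * Real.log (P p) + (B p - P p)) (μ.prod μ) := by
    have : (fun p => B p * Real.log (P p) + (B p - P p)) = fun p =>
        B p * Real.log (B₁ p.1) + B p * Real.log (B₂ p.2) - Real.log A * B p + (B p - P p) := by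
      funext p
      rw [hlogP]
      ring
    rw [this]
    exact ((hi1.add hi2).sub (hBi.const_mul _)).add (hBi.sub hPi)
  have hmono := integral_mono hlhsi hent hptw
  have hcomp : ∫ p, (B p * Real.log (P p) + (B p - P p)) ∂(μ.prod μ) =
      (∫ z₁, entFn (B₁ z₁) ∂μ) + (∫ z₂, entFn (B₂ z₂) ∂μ) - entFn A := by
    have e5 : (fun p => B p * Real.log (P p) + (B p - P p)) = fun p =>
        ((B p * Real.log (B₁ p.1) + B p * Real.log (B₂ p.2)) - Real.log A * B p) + (B p - P p) := by
      funext p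
      rw [hlogP]
      ring
    rw [e5]
    have hs1 : Integrable (fun p : Ω × Ω => B p * Real.log (B₁ p.1) + B p * Real.log (B₂ p.2))
        (μ.prod μ) := hi1.add hi2
    have hs2 : Integrable (fun p : Ω × Ω => (B p * Real.log (B₁ p.1) + B p * Real.log (B₂ p.2)) -
        Real.log A * B p) (μ.prod μ) := hs1.sub (hBi.const_mul _)
    have hs3 : Integrable (fun p : Ω × Ω => B p - P p) (μ.prod μ) := hBi.sub hPi
    calc ∫ p, (((B p * Real.log (B₁ p.1) + B p * Real.log (B₂ p.2)) - Real.log A * B p) +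
          (B p - P p)) ∂(μ.prod μ)
        = (∫ p, ((B p * Real.log (B₁ p.1) + B p * Real.log (B₂ p.2)) - Real.log A * B p)
            ∂(μ.prod μ)) + ∫ p, (B p - P p) ∂(μ.prod μ) := integral_add hs2 hs3
      _ = ((∫ p, (B p * Real.log (B₁ p.1) + B p * Real.log (B₂ p.2)) ∂(μ.prod μ)) -
            ∫ p, Real.log A * B p ∂(μ.prod μ)) + ((∫ p, B p ∂(μ.prod μ)) -
              ∫ p, P p ∂(μ.prod μ)) := by
          rw [integral_sub hs1 (hBi.const_mul _), integral_sub hBi hPi]
      _ = _ := by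
          rw [integral_add hi1 hi2, integral_const_mul, e1, e2, e3, e4]
          unfold entFn
          ring
  linarith

end Subadd

section Midpoint

/-- A continuous midpoint convex function on an interval is convex. -/
lemma convexOn_of_midpoint {φ : ℝ → ℝ} {a b : ℝ} (hc : ContinuousOn φ (Set.Icc a b))
    (hm : ∀ x ∈ Set.Icc a b, ∀ y ∈ Set.Icc a b, φ ((x + y) / 2) ≤ (φ x + φ y) / 2) :
    ConvexOn ℝ (Set.Icc a b) φ := by
  refine ⟨convex_Icc a b, ?_⟩
  -- key claim for `x < y`
  have key : ∀ x ∈ Set.Icc a b, ∀ y ∈ Set.Icc a b, x < y → ∀ u ∈ Set.Icc x y,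
      φ u ≤ φ x + (u - x) / (y - x) * (φ y - φ x) := by
    intro x hx y hy hxy
    have hsub : Set.Icc x y ⊆ Set.Icc a b := Set.Icc_subset_Icc hx.1 hy.2
    have hd : 0 < y - x := by linarith
    set ψ : ℝ → ℝ := fun u => φ u - (φ x + (u - x) / (y - x) * (φ y - φ x)) with hψ
    have hψc : ContinuousOn ψ (Set.Icc x y) := by
      refine (hc.mono hsub).sub ?_
      fun_prop
    have hψx : ψ x = 0 := by
      simp [hψ]
    have hψy : ψ y = 0 := by
      simp only [hψ]
      have : (y - x) / (y - x) = 1 := div_self hd.ne'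
      rw [this]
      ring
    have hψm : ∀ u ∈ Set.Icc x y, ∀ v ∈ Set.Icc x y, ψ ((u + v) / 2) ≤ (ψ u + ψ v) / 2 := by
      intro u hu v hv
      have := hm u (hsub hu) v (hsub hv)
      simp only [hψ]
      have e : ((u + v) / 2 - x) / (y - x) = ((u - x) / (y - x) + (v - x) / (y - x)) / 2 := by
        field_simp
        ring
      rw [e]
      nlinarith
    obtain ⟨t, ht, hmax⟩ := isCompact_Icc.exists_isMaxOn (Set.nonempty_Icc.mpr hxy.le) hψc
    have hall : ∀ u ∈ Set.Icc x y, ψ u ≤ 0 := by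
      by_contra hcon
      push Not at hcon
      obtain ⟨u, hu, hu0⟩ := hcon
      set m := ψ t with hmdef
      have hm0 : 0 < m := lt_of_lt_of_le hu0 (hmax hu)
      set A : Set ℝ := Set.Icc x y ∩ ψ ⁻¹' {m} with hA
      have hAclosed : IsClosed A :=
        hψc.preimage_isClosed_of_isClosed isClosed_Icc isClosed_singleton
      have hAcomp : IsCompact A :=
        IsCompact.of_isClosed_subset isCompact_Icc hAclosed Set.inter_subset_left
      have hAne : A.Nonempty := ⟨t, ht, rfl⟩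
      have hmem := hAcomp.sInf_mem hAne
      set t₀ := sInf A with ht₀
      have hψt₀ : ψ t₀ = m := hmem.2
      have ht₀x : x < t₀ := by
        refine lt_of_le_of_ne hmem.1.1 ?_
        intro h
        rw [← h, hψx] at hψt₀
        linarith
      have ht₀y : t₀ < y := by
        refine lt_of_le_of_ne hmem.1.2 ?_
        intro h
        rw [h, hψy] at hψt₀
        linarith
      set h := min (t₀ - x) (y - t₀) with hh
      have hhpos : 0 < h := lt_min (by linarith) (by linarith)
      have hh1 : h ≤ t₀ - x := min_le_left _ _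
      have hh2 : h ≤ y - t₀ := min_le_right _ _
      have hm1 : t₀ - h ∈ Set.Icc x y := ⟨by linarith, by linarith⟩
      have hm2 : t₀ + h ∈ Set.Icc x y := ⟨by linarith, by linarith⟩
      have hmid := hψm _ hm1 _ hm2
      have e : (t₀ - h + (t₀ + h)) / 2 = t₀ := by ring
      rw [e, hψt₀] at hmid
      have hup2 : ψ (t₀ + h) ≤ m := hmax hm2
      have hup1 : ψ (t₀ - h) < m := by
        refine lt_of_le_of_ne (hmax hm1) ?_
        intro heq
        have hin : t₀ - h ∈ A := ⟨hm1, heq⟩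
        have := csInf_le hAcomp.bddBelow hin
        linarith
      linarith
    intro u hu
    have := hall u hu
    simp only [hψ] at this
    linarith
  intro x hx y hy α β hα hβ hαβ
  simp only [smul_eq_mul]
  rcases lt_trichotomy x y with hxy | rfl | hxy
  · have hd : 0 < y - x := by linarith
    have hu : α * x + β * y ∈ Set.Icc x y := by
      have e : α = 1 - β := by linarith
      subst e
      constructor <;> nlinarith
    have := key x hx y hy hxy _ hu
    have e : (α * x + β * y - x) / (y - x) = β := by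
      have e2 : α = 1 - β := by linarith
      subst e2
      field_simp
      ring
    rw [e] at this
    have e2 : α = 1 - β := by linarith
    subst e2
    linarith
  · have e : α * x + β * x = x := by
      rw [← add_mul, hαβ, one_mul]
    rw [e, ← add_mul, hαβ, one_mul]
  · have hd : 0 < x - y := by linarith
    have hu : α * x + β * y ∈ Set.Icc y x := by
      have e : β = 1 - α := by linarith
      subst e
      constructor <;> nlinarith
    have := key y hy x hx hxy _ hu
    have e : (α * x + β * y - y) / (x - y) = α := by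
      have e2 : β = 1 - α := by linarith
      subst e2
      field_simp
      ring
    rw [e] at this
    have e2 : β = 1 - α := by linarith
    subst e2
    linarith

end Midpoint

section PsiConvex

variable {U : ℝ → ℝ} {c₁ c₂ : ℝ}

variable (hU : Measurable U) (hc₁ : 0 < c₁) (hb : ∀ u, c₁ ≤ U u ∧ U u ≤ c₂)

include hU hc₁ hb in
/-- The one-scale comparison. -/
lemma entropy_step (t : ℝ) {q d : ℝ} (hd : 0 ≤ d) (hq : q + 2 * d ≤ 1) :
    2 * (∫ z, entFn (shiftAvg U (q + d) (t + Real.sqrt d * z)) ∂(gaussianReal 0 1)) -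
        entFn (shiftAvg U q t) ≤
      ∫ z, entFn (shiftAvg U (q + 2 * d) (t + Real.sqrt (2 * d) * z)) ∂(gaussianReal 0 1) := by
  set δ := Real.sqrt d with hδ
  set B : ℝ × ℝ → ℝ := fun p => shiftAvg U (q + 2 * d) (t + δ * p.1 + δ * p.2) with hB
  have hBm : Measurable B := (measurable_shiftAvg hU _).comp (by fun_prop)
  have hBb : ∀ p, c₁ ≤ B p ∧ B p ≤ c₂ := fun p => shiftAvg_bounds hU hb _ _
  have hsq : q + 2 * d - (q + d) = d := by ring
  have hle1 : q + d ≤ q + 2 * d := by linarith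
  have hle2 : q + d ≤ 1 := by linarith
  have h1 : ∀ z₁, ∫ z₂, B (z₁, z₂) ∂(gaussianReal 0 1) = shiftAvg U (q + d) (t + δ * z₁) := by
    intro z₁
    have := integral_shiftAvg_shift hU hc₁ hb hle1 hq (t + δ * z₁)
    rw [hsq] at this
    exact this
  have h2 : ∀ z₂, ∫ z₁, B (z₁, z₂) ∂(gaussianReal 0 1) = shiftAvg U (q + d) (t + δ * z₂) := by
    intro z₂
    have := integral_shiftAvg_shift hU hc₁ hb hle1 hq (t + δ * z₂)
    rw [hsq] at this
    rw [← this]
    refine integral_congr_ae (Filter.Eventually.of_forall fun z₁ => ?_)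
    simp only [hB]
    congr 1
    ring
  have hA1 : ∫ z₁, shiftAvg U (q + d) (t + δ * z₁) ∂(gaussianReal 0 1) = shiftAvg U q t := by
    have := integral_shiftAvg_shift hU hc₁ hb (q := q) (q' := q + d) (by linarith) hle2 t
    have e : q + d - q = d := by ring
    rw [e] at this
    exact this
  have hmain := ent_subadd (μ := gaussianReal 0 1) hc₁ hBm hBb h1 h2 hA1 hA1
  have hF : Measurable (fun s => entFn (shiftAvg U (q + 2 * d) (t + s))) :=
    measurable_entFn.comp ((measurable_shiftAvg hU _).comp (by fun_prop))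
  have hts := integral_two_shift hF (fun s => abs_entFn_shiftAvg_le hU hc₁ hb _ _) δ δ
  have hδ2 : δ ^ 2 + δ ^ 2 = 2 * d := by
    rw [hδ, Real.sq_sqrt hd]
    ring
  rw [hδ2] at hts
  have hent : Integrable (fun p => entFn (B p)) ((gaussianReal 0 1).prod (gaussianReal 0 1)) :=
    integrable_of_bdd (measurable_entFn.comp hBm)
      fun p => abs_entFn_le hc₁ (hBb p).1 (hBb p).2
  have e3 : ∫ p, entFn (B p) ∂((gaussianReal 0 1).prod (gaussianReal 0 1)) =
      ∫ z, entFn (shiftAvg U (q + 2 * d) (t + Real.sqrt (2 * d) * z)) ∂(gaussianReal 0 1) := by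
    rw [integral_prod _ hent, ← hts]
    refine integral_congr_ae (Filter.Eventually.of_forall fun z₁ => ?_)
    refine integral_congr_ae (Filter.Eventually.of_forall fun z₂ => ?_)
    simp only [hB]
    congr 2
    ring
  rw [e3] at hmain
  linarith

include hU hc₁ hb in
/-- Midpoint convexity of the entropy functional. -/
lemma psiU_midpoint {q d : ℝ} (hq0 : 0 ≤ q) (hd : 0 ≤ d) (hq : q + 2 * d ≤ 1) :
    2 * psiU U (q + d) ≤ psiU U q + psiU U (q + 2 * d) := by
  set s := Real.sqrt q with hs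
  have hstep := fun z => entropy_step hU hc₁ hb (s * z) hd hq
  have h1 := psiU_eq_two hU hc₁ hb (q := q) (q' := q + d) hq0 (by linarith)
  have h2 := psiU_eq_two hU hc₁ hb (q := q) (q' := q + 2 * d) hq0 (by linarith)
  have h3 := psiU_eq hU hc₁ hb hq0
  have e1 : q + d - q = d := by ring
  have e2 : q + 2 * d - q = 2 * d := by ring
  rw [e1] at h1
  rw [e2] at h2
  have hm1 : Measurable (fun p : ℝ × ℝ =>
      entFn (shiftAvg U (q + d) (s * p.1 + Real.sqrt d * p.2))) :=
    measurable_entFn.comp ((measurable_shiftAvg hU _).comp (by fun_prop))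
  have hm2 : Measurable (fun p : ℝ × ℝ =>
      entFn (shiftAvg U (q + 2 * d) (s * p.1 + Real.sqrt (2 * d) * p.2))) :=
    measurable_entFn.comp ((measurable_shiftAvg hU _).comp (by fun_prop))
  have hm3 : Measurable (fun z => entFn (shiftAvg U q (s * z))) :=
    measurable_entFn.comp ((measurable_shiftAvg hU _).comp (by fun_prop))
  have hi1 : Integrable (fun z₁ => ∫ z₂, entFn (shiftAvg U (q + d) (s * z₁ + Real.sqrt d * z₂))
      ∂(gaussianReal 0 1)) (gaussianReal 0 1) := by
    have : Integrable (fun p : ℝ × ℝ => entFn (shiftAvg U (q + d) (s * p.1 + Real.sqrt d * p.2)))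
        ((gaussianReal 0 1).prod (gaussianReal 0 1)) :=
      integrable_of_bdd hm1 fun p => abs_entFn_shiftAvg_le hU hc₁ hb _ _
    exact this.integral_prod_left
  have hi2 : Integrable (fun z₁ => ∫ z₂,
      entFn (shiftAvg U (q + 2 * d) (s * z₁ + Real.sqrt (2 * d) * z₂))
      ∂(gaussianReal 0 1)) (gaussianReal 0 1) := by
    have : Integrable (fun p : ℝ × ℝ =>
        entFn (shiftAvg U (q + 2 * d) (s * p.1 + Real.sqrt (2 * d) * p.2)))
        ((gaussianReal 0 1).prod (gaussianReal 0 1)) :=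
      integrable_of_bdd hm2 fun p => abs_entFn_shiftAvg_le hU hc₁ hb _ _
    exact this.integral_prod_left
  have hi3 : Integrable (fun z => entFn (shiftAvg U q (s * z))) (gaussianReal 0 1) :=
    integrable_of_bdd hm3 fun p => abs_entFn_shiftAvg_le hU hc₁ hb _ _
  have hi12 : Integrable (fun z₁ => 2 * ∫ z₂, entFn (shiftAvg U (q + d) (s * z₁ + Real.sqrt d * z₂))
      ∂(gaussianReal 0 1)) (gaussianReal 0 1) := hi1.const_mul 2
  have hmono : ∫ z₁, (2 * (∫ z₂, entFn (shiftAvg U (q + d) (s * z₁ + Real.sqrt d * z₂))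
      ∂(gaussianReal 0 1)) - entFn (shiftAvg U q (s * z₁))) ∂(gaussianReal 0 1) ≤
      ∫ z₁, ∫ z₂, entFn (shiftAvg U (q + 2 * d) (s * z₁ + Real.sqrt (2 * d) * z₂))
        ∂(gaussianReal 0 1) ∂(gaussianReal 0 1) :=
    integral_mono (hi12.sub hi3) hi2 hstep
  rw [integral_sub hi12 hi3, integral_const_mul, ← h1, ← h2, ← h3] at hmono
  linarith

/-- The elementary linear majorant of the square root. -/
lemma sqrt_le_add_div {a τ : ℝ} (ha : 0 ≤ a) (hτ : 0 < τ) : Real.sqrt a ≤ τ + a / τ := by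
  have h : a ≤ (τ + a / τ) ^ 2 := by
    have e : (τ + a / τ) ^ 2 = τ ^ 2 + 2 * a + (a / τ) ^ 2 := by
      field_simp
      ring
    rw [e]
    nlinarith [sq_nonneg τ, sq_nonneg (a / τ)]
  calc Real.sqrt a ≤ Real.sqrt ((τ + a / τ) ^ 2) := Real.sqrt_le_sqrt h
    _ = τ + a / τ := Real.sqrt_sq (by positivity)

include hU hc₁ hb in
/-- Continuity of the entropy functional on the unit interval, with an explicit modulus. -/
lemma psiU_modulus {η : ℝ} (hη : 0 < η) : ∃ K : ℝ, 0 ≤ K ∧ ∀ a b : ℝ, 0 ≤ a → a ≤ 1 → 0 ≤ b → b ≤ 1 →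
    |psiU U a - psiU U b| ≤ η + K * |a - b| := by
  set Λ := 1 + |Real.log c₁| + |Real.log c₂| with hΛ
  have hΛ0 : 0 < Λ := by positivity
  have hUB : ∀ u, |U u| ≤ c₂ := fun u => abs_le_of_bounds hc₁ (hb u).1 (hb u).2
  set τ := η / (4 * Λ) with hτ
  have hτ0 : 0 < τ := by positivity
  obtain ⟨K₂, hK₂, hmod⟩ := corrFn_modulus hU hUB (η := τ ^ 2) (by positivity)
  refine ⟨Λ * K₂ / τ, by positivity, ?_⟩
  have key : ∀ a b : ℝ, 0 ≤ a → a ≤ 1 → 0 ≤ b → b ≤ 1 → a ≤ b →
      |psiU U b - psiU U a| ≤ η + Λ * K₂ / τ * |b - a| := by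
    intro a b ha ha1 hb0 hb1 hab
    have h1 := abs_psiU_sub_le hU hc₁ hb ha hab hb1
    have h2 := hmod b a (by rw [abs_of_nonneg hb0]; exact hb1) (by rw [abs_of_nonneg ha]; exact ha1)
    have h3 : corrFn U U b - corrFn U U a ≤ τ ^ 2 + K₂ * |b - a| := (le_abs_self _).trans h2
    have h4 : Real.sqrt (corrFn U U b - corrFn U U a) ≤ τ + (τ ^ 2 + K₂ * |b - a|) / τ := by
      calc _ ≤ Real.sqrt (τ ^ 2 + K₂ * |b - a|) := Real.sqrt_le_sqrt h3
        _ ≤ _ := sqrt_le_add_div (by positivity) hτ0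
    calc _ ≤ Λ * Real.sqrt (corrFn U U b - corrFn U U a) := h1
      _ ≤ Λ * (τ + (τ ^ 2 + K₂ * |b - a|) / τ) := mul_le_mul_of_nonneg_left h4 hΛ0.le
      _ = 2 * (Λ * τ) + Λ * K₂ / τ * |b - a| := by
          field_simp
          ring
      _ ≤ _ := by
          have e : Λ * τ = η / 4 := by
            simp only [hτ]
            field_simp
          rw [e]
          linarith
  intro a b ha ha1 hb0 hb1
  rcases le_total a b with hab | hab
  · rw [abs_sub_comm, abs_sub_comm a b]
    exact key a b ha ha1 hb0 hb1 hab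
  · exact key b a hb0 hb1 ha ha1 hab

include hU hc₁ hb in
lemma continuousOn_psiU : ContinuousOn (psiU U) (Set.Icc 0 1) := by
  rw [Metric.continuousOn_iff]
  intro a ha ε hε
  obtain ⟨K, hK, hmod⟩ := psiU_modulus hU hc₁ hb (η := ε / 2) (by positivity)
  refine ⟨ε / (2 * (K + 1)), by positivity, fun b hb' hd => ?_⟩
  rw [Real.dist_eq] at hd ⊢
  have h1 := hmod b a hb'.1 hb'.2 ha.1 ha.2
  have h2 : K * |b - a| ≤ (K + 1) * |b - a| :=
    mul_le_mul_of_nonneg_right (by linarith) (abs_nonneg _)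
  have h2' : (K + 1) * |b - a| < (K + 1) * (ε / (2 * (K + 1))) :=
    mul_lt_mul_of_pos_left hd (by linarith)
  have h3 : (K + 1) * (ε / (2 * (K + 1))) = ε / 2 := by
    field_simp
  have h4 : 0 < ε / 2 := by positivity
  linarith

include hU hc₁ hb in
/-- Convexity of the entropy functional. -/
lemma convexOn_psiU : ConvexOn ℝ (Set.Icc 0 1) (psiU U) := by
  refine convexOn_of_midpoint (continuousOn_psiU hU hc₁ hb) ?_
  have key : ∀ x ∈ Set.Icc (0 : ℝ) 1, ∀ y ∈ Set.Icc (0 : ℝ) 1, x ≤ y →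
      psiU U ((x + y) / 2) ≤ (psiU U x + psiU U y) / 2 := by
    intro x hx y hy hxy
    have h := psiU_midpoint hU hc₁ hb (q := x) (d := (y - x) / 2) hx.1 (by linarith)
      (by linarith [hy.2])
    have e1 : x + (y - x) / 2 = (x + y) / 2 := by ring
    have e2 : x + 2 * ((y - x) / 2) = y := by ring
    rw [e1, e2] at h
    linarith
  intro x hx y hy
  rcases le_total x y with h | h
  · exact key x hx y hy h
  · have := key y hy x hx h
    rw [add_comm y x, add_comm (psiU U y)] at this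
    exact this

variable (hone : ∫ u, U u ∂(gaussianReal 0 1) = 1)

include hone in
lemma psiU_zero : psiU U 0 = 0 := by
  unfold psiU
  have h : ∀ v, noiseAvg U 0 v = 1 := by
    intro v
    unfold noiseAvg
    simp [hone]
  simp only [Real.sqrt_zero, h]
  simp [entFn]

include hU hc₁ hb hone in
lemma psiU_nonneg {q : ℝ} (hq : q ≤ 1) : 0 ≤ psiU U q := by
  have hUB : ∀ u, |U u| ≤ c₂ := fun u => abs_le_of_bounds hc₁ (hb u).1 (hb u).2
  have hρ : |Real.sqrt q| ≤ 1 := by
    rw [abs_of_nonneg (Real.sqrt_nonneg _)]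
    exact Real.sqrt_le_one.mpr hq
  have hm : Measurable (noiseAvg U (Real.sqrt q)) := measurable_noiseAvg hU _
  have hbd := fun v => noiseAvg_bounds (a := c₁) (b := c₂) hU hb (Real.sqrt q) v
  have hi1 : Integrable (noiseAvg U (Real.sqrt q)) (gaussianReal 0 1) :=
    integrable_of_bdd hm fun v => abs_noiseAvg_le hU hUB _ v
  have hi2 : Integrable (fun v => entFn (noiseAvg U (Real.sqrt q) v)) (gaussianReal 0 1) :=
    integrable_of_bdd (measurable_entFn.comp hm) fun v => abs_entFn_le hc₁ (hbd v).1 (hbd v).2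
  have h1 : ∫ v, (noiseAvg U (Real.sqrt q) v - 1) ∂(gaussianReal 0 1) ≤ psiU U q :=
    integral_mono (hi1.sub (integrable_const _)) hi2
      fun v => entFn_ge _ (lt_of_lt_of_le hc₁ (hbd v).1)
  rw [integral_sub hi1 (integrable_const _), integral_noiseAvg hU hUB hρ, hone] at h1
  simpa using h1

include hU hc₁ hb hone in
/-- The entropy functional is nondecreasing. -/
lemma psiU_mono {a b : ℝ} (ha : 0 ≤ a) (hab : a ≤ b) (hb1 : b ≤ 1) : psiU U a ≤ psiU U b := by
  rcases eq_or_lt_of_le (ha.trans hab) with h0 | hb0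
  · have : a = 0 := le_antisymm (by linarith) ha
    rw [this, ← h0]
  have hconv := convexOn_psiU hU hc₁ hb
  have h := hconv.2 (show (0 : ℝ) ∈ Set.Icc (0 : ℝ) 1 from ⟨le_rfl, zero_le_one⟩)
    (show b ∈ Set.Icc (0 : ℝ) 1 from ⟨hb0.le, hb1⟩)
    (show 0 ≤ 1 - a / b by
      have : a / b ≤ 1 := (div_le_one hb0).mpr hab
      linarith) (show 0 ≤ a / b by positivity) (show 1 - a / b + a / b = 1 by ring)
  simp only [smul_eq_mul, mul_zero, zero_add, psiU_zero hone] at h
  have e : a / b * b = a := by field_simp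
  rw [e] at h
  have hnn := psiU_nonneg hU hc₁ hb hone hb1
  have hle : a / b ≤ 1 := (div_le_one hb0).mpr hab
  nlinarith

end PsiConvex

section Wrappers

variable {f : ℝ → ℝ} {L : ℝ}

lemma psiRS_eq (f : ℝ → ℝ) : psiRS f = psiU (normPot f) := rfl

lemma integral_normPot (hf : Measurable f) (hfL : ∀ u, |f u| ≤ L) :
    ∫ u, normPot f u ∂(gaussianReal 0 1) = 1 := by
  unfold normPot
  rw [integral_div]
  exact div_self (annealedConstant_pos hf hfL).ne'

end Wrappers

end Vale.Agent.Lib.P157
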