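import Vale.Agent.Lib.P157.RSEstimate

/-!
The data of the adaptive interpolation for all large dimensions.
-/

open MeasureTheory ProbabilityTheory
open scoped NNReal ENNReal Topology

set_option linter.unusedSectionVars false
set_option linter.unusedVariables false

namespace Vale.Agent.Lib.P157

section Params

lemma small_div_mul {d y : ℝ} (hd : 0 ≤ d) (hy : 0 ≤ y) : d / (y + 1) * y ≤ d := by
  rw [div_mul_eq_mul_div, div_le_iff₀ (by linarith)]
  nlinarith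

lemma exists_sigma {d A' span : ℝ} (hd : 0 < d) (hA' : 0 ≤ A') (hspan : 0 ≤ span) :
    ∃ σ : ℝ, 0 < σ ∧ A' * (2 * σ) * span ≤ d := by
  refine ⟨d / (2 * ((A' + 1) * (span + 1))), by positivity, ?_⟩
  have e : A' * (2 * (d / (2 * ((A' + 1) * (span + 1))))) * span =
      d / ((A' + 1) * (span + 1) + 1 - 1) * (A' * span) := by
    have h1 : (A' + 1) * (span + 1) + 1 - 1 = (A' + 1) * (span + 1) := by ring
    rw [h1]
    field_simp
  rw [e]
  have h2 : (A' + 1) * (span + 1) + 1 - 1 = (A' * span) + (A' + span + 1) := by ring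
  rw [h2]
  have h3 : d / (A' * span + (A' + span + 1)) * (A' * span) ≤ d / (A' * span + 1) * (A' * span) := by
    refine mul_le_mul_of_nonneg_right ?_ (by positivity)
    refine div_le_div_of_nonneg_left hd.le (by positivity) ?_
    linarith
  exact h3.trans (small_div_mul hd.le (by positivity))

lemma exists_eta {d A' span w ρ₁ : ℝ} (hd : 0 < d) (hA' : 0 ≤ A') (hspan : 0 ≤ span) (hw : 0 ≤ w)
    (hρ : 0 < ρ₁) :
    ∃ η : ℝ, 0 < η ∧ η ≤ 1 ∧ η ≤ ρ₁ ∧ A' * (2 * η / ρ₁) * span ≤ d ∧ 2 * A' * (η * w) ≤ d := by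
  obtain ⟨σ₁, hσ₁, h1⟩ := exists_sigma hd hA' hspan
  obtain ⟨σ₂, hσ₂, h2⟩ := exists_sigma hd hA' hw
  refine ⟨min 1 (min ρ₁ (min (σ₁ * ρ₁) σ₂)), ?_, min_le_left _ _,
    (min_le_right _ _).trans (min_le_left _ _), ?_, ?_⟩
  · refine lt_min one_pos (lt_min hρ (lt_min (by positivity) hσ₂))
  · set η := min 1 (min ρ₁ (min (σ₁ * ρ₁) σ₂)) with hη
    have h3 : η ≤ σ₁ * ρ₁ :=
      (min_le_right _ _).trans ((min_le_right _ _).trans (min_le_left _ _))
    have h4 : 2 * η / ρ₁ ≤ 2 * σ₁ := by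
      rw [div_le_iff₀ hρ]
      nlinarith
    calc _ ≤ A' * (2 * σ₁) * span :=
          mul_le_mul_of_nonneg_right (mul_le_mul_of_nonneg_left h4 hA') hspan
      _ ≤ d := h1
  · set η := min 1 (min ρ₁ (min (σ₁ * ρ₁) σ₂)) with hη
    have h3 : η ≤ σ₂ :=
      (min_le_right _ _).trans ((min_le_right _ _).trans (min_le_right _ _))
    have h4 : 2 * A' * (η * w) = A' * (2 * η) * w := by ring
    rw [h4]
    calc _ ≤ A' * (2 * σ₂) * w :=
          mul_le_mul_of_nonneg_right (mul_le_mul_of_nonneg_left (by linarith) hA') hw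
      _ ≤ d := h2

lemma exists_Nzero {C₁ C₂ d : ℝ} (hC₁ : 0 ≤ C₁) (hC₂ : 0 ≤ C₂) (hd : 0 < d) :
    ∃ N₀ : ℕ, 1 ≤ N₀ ∧ ∀ N : ℕ, N₀ ≤ N → C₁ / Real.sqrt N ≤ d ∧ C₂ / N ≤ d := by
  set X := (C₁ + C₂ + 1) / d with hX
  have hX0 : 0 < X := by positivity
  refine ⟨⌈X ^ 2⌉₊ + 1, by omega, fun N hN => ?_⟩
  have hN1 : (1 : ℝ) ≤ N := by
    have : 1 ≤ N := by omega
    exact_mod_cast this
  have hN2 : X ^ 2 ≤ N := by
    have h1 : X ^ 2 ≤ ⌈X ^ 2⌉₊ := Nat.le_ceil _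
    have h2 : (⌈X ^ 2⌉₊ : ℝ) ≤ N := by
      have : ⌈X ^ 2⌉₊ ≤ N := by omega
      exact_mod_cast this
    linarith
  have hsq : X ≤ Real.sqrt N := Real.le_sqrt_of_sq_le hN2
  have hsq0 : 0 < Real.sqrt N := lt_of_lt_of_le hX0 hsq
  have hsq1 : Real.sqrt N ≤ N := by
    rw [Real.sqrt_le_left (by linarith)]
    nlinarith
  have hXd : C₁ + C₂ + 1 = d * X := by
    rw [hX]
    field_simp
  constructor
  · rw [div_le_iff₀ hsq0]
    nlinarith
  · rw [div_le_iff₀ (by linarith)]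
    nlinarith

end Params

section Main

variable {U : ℝ → ℝ} {c₁ c₂ : ℝ}

/-- One step of the recursion as an estimate for the free energy. -/
lemma inc_from_theta {N k : ℕ} (hU : Wgt U c₁ c₂) (hN : 1 ≤ N) (r : ℝ) {E : ℝ}
    (h : |thetaG U N k (Real.sqrt r) - psiU U (QG U N k (Real.sqrt r))| ≤ E) :
    |eR U N (k + 1) r - eR U N k r - 1 / (N : ℝ) * psiU U (QR U N k r)| ≤ 1 / (N : ℝ) * E := by
  have hN0 : (0 : ℝ) < N := by exact_mod_cast hN
  have e : eR U N (k + 1) r - eR U N k r - 1 / (N : ℝ) * psiU U (QR U N k r) =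
      1 / (N : ℝ) * (thetaG U N k (Real.sqrt r) - psiU U (QG U N k (Real.sqrt r))) := by
    unfold eR QR
    rw [eG_succ hU hN]
    ring
  rw [e, abs_mul, abs_of_pos (by positivity : (0 : ℝ) < 1 / N)]
  exact mul_le_mul_of_nonneg_left h (by positivity)

/-- **The data of the adaptive interpolation**, for all large dimensions. -/
theorem rs_data_exists (hU : Wgt U c₁ c₂) {α r₁ R δ : ℝ} (hα : 0 < α) (hr₁ : 0 < r₁)
    (hR : r₁ < R) (hδ : 0 < δ) :
    ∃ N₀ : ℕ, ∀ N : ℕ, N₀ ≤ N → 1 ≤ N ∧ ∃ ε : ℕ → ℝ → ℝ,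
      RSData ⌊α * N⌋₊ (1 / (N : ℝ)) (psiU U) r₁ R (eR U N) (QR U N) ε ∧
        ∀ k < ⌊α * N⌋₊, ∫ r in Set.Icc r₁ R, ε k r ≤ δ := by
  set d := δ / 6 with hd
  have hd0 : 0 < d := by positivity
  set span := R - r₁ with hspan
  have hspan0 : 0 < span := by
    rw [hspan]
    linarith
  set ρ₁ := Real.sqrt r₁ with hρ₁
  have hρ₁0 : 0 < ρ₁ := Real.sqrt_pos.mpr hr₁
  set S := Real.sqrt R + 1 with hS
  have hsqR : 0 ≤ Real.sqrt R := Real.sqrt_nonneg R
  have hS0 : 0 ≤ S := by positivity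
  set T₀ := S + 4 * Real.sqrt (α * logBd c₁ c₂ ^ 2 + 1) with hT₀
  have hT₀0 : 0 ≤ T₀ := by positivity
  set w := 2 * Real.sqrt R + 1 with hw
  have hw0 : 0 ≤ w := by positivity
  set τ := d / (2 * (span + 1)) with hτ
  have hτ0 : 0 < τ := by positivity
  have hτspan : 2 * τ * span ≤ d := by
    have e : 2 * τ * span = d / (span + 1) * span := by
      rw [hτ]
      field_simp
    rw [e]
    exact small_div_mul hd0.le hspan0.le
  obtain ⟨A, hA, hθ⟩ := theta_sub_psi_le hU hτ0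
  obtain ⟨A', hA', hψ⟩ := psi_sub_sq_le hU hτ0
  obtain ⟨σ, hσ, hσd⟩ := exists_sigma hd0 hA' hspan0.le
  obtain ⟨η, hη, hη1, hηρ, hη2, hη3⟩ := exists_eta hd0 hA' hspan0.le hw0 hρ₁0
  set t := 2 * η * Real.sqrt R + η ^ 2 with ht
  have ht0 : 0 ≤ t := by positivity
  have htw : t ≤ η * w := by
    rw [ht, hw]
    nlinarith
  set C₁ := A' * (4 * T₀ / (η * ρ₁)) * span with hC₁
  set C₂ := A + 2 * A' / σ with hC₂
  have hC₁0 : 0 ≤ C₁ := by positivity
  have hC₂0 : 0 ≤ C₂ := by positivity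
  obtain ⟨N₀, hN₀, hN₀'⟩ := exists_Nzero hC₁0 hC₂0 hd0
  refine ⟨N₀, fun N hN => ?_⟩
  have hN1 : 1 ≤ N := hN₀.trans hN
  have hN0 : (0 : ℝ) < N := by exact_mod_cast hN1
  have hsqN : 0 < Real.sqrt N := Real.sqrt_pos.mpr hN0
  obtain ⟨hC₁N, hC₂N⟩ := hN₀' N hN
  set V₀ := 4 * T₀ / (η * ρ₁ * Real.sqrt N) + 2 * η / ρ₁ with hV₀
  have hV₀0 : 0 ≤ V₀ := by positivity
  set c₀ := 2 * τ + A' * (V₀ + 2 * σ) with hc₀
  have hc₀0 : 0 ≤ c₀ := by positivity
  set a := C₂ / N with ha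
  have ha0 : 0 ≤ a := by positivity
  refine ⟨hN1, fun k => epsF U N k c₀ a A' t, ?_, ?_⟩
  · refine ⟨fun k => QR_mono hU hN1, fun k r => QR_nonneg hU hN1 r, fun k r => QR_le_one hU hN1 r,
      fun k r r' hr hrr => eR_tan_lower hU hN1 hr hrr,
      fun k r r' hr hrr => eR_tan_upper hU hN1 hr hrr, ?_,
      fun k _ => measurable_epsF hU hN1 _ _ _ _,
      fun k _ r hr => epsF_nonneg hU hN1 hc₀0 ha0 hA' ht0 (lt_of_lt_of_le hr₁ hr.1),
      fun k _ => integrableOn_epsF hU hN1 hr₁ _ _ _ _⟩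
    intro k hk r hr
    have hk' : (k : ℝ) ≤ α * N := by
      have h1 : (k : ℝ) ≤ ⌊α * (N : ℝ)⌋₊ := by exact_mod_cast hk.le
      exact h1.trans (Nat.floor_le (by positivity))
    refine inc_from_theta hU hN1 r ?_
    have hr0 : 0 < r := lt_of_lt_of_le hr₁ hr.1
    have hsr : ρ₁ ≤ Real.sqrt r := Real.sqrt_le_sqrt hr.1
    have hsR : Real.sqrt r ≤ Real.sqrt R := Real.sqrt_le_sqrt hr.2
    have hsn : 0 ≤ Real.sqrt r := Real.sqrt_nonneg r
    refine thetaG_le_eps hU hN1 hA hA' hσ hη (hθ N hN1) hψ hr₁ hr hηρ ht ?_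
    refine Dterm_le hα hN1 hk' hρ₁0 hsr hη ?_ ?_ ?_
    · rw [abs_of_nonneg (by linarith)]
      rw [hS]
      linarith
    · rw [abs_of_nonneg hsn, hS]
      linarith
    · rw [abs_of_nonneg (by linarith), hS]
      linarith
  · intro k hk
    refine (integral_epsF_le hU hN1 hr₁ hR.le ha0 hA' ht0).trans ?_
    have e1 : c₀ * span = 2 * τ * span + (C₁ / Real.sqrt N + A' * (2 * η / ρ₁) * span) +
        A' * (2 * σ) * span := by
      rw [hc₀, hV₀, hC₁]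
      field_simp
      ring
    have h2 : 2 * A' * t ≤ d := by
      refine le_trans ?_ hη3
      exact mul_le_mul_of_nonneg_left htw (by positivity)
    have hδd : δ = 6 * d := by
      rw [hd]
      ring
    rw [hδd, e1]
    linarith

end Main

end Vale.Agent.Lib.P157
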