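import Vale.Agent.Lib.P157.RSIncrement
import Vale.Agent.Lib.P157.CondMoment
import Vale.Agent.Lib.P157.GaussFacts

/-!
The two ends of the interpolation: the planted entropy and the pure Gaussian channel.
-/

open MeasureTheory ProbabilityTheory
open scoped NNReal ENNReal Topology

set_option linter.unusedSectionVars false
set_option linter.unusedVariables false

namespace Vale.Agent.Lib.P157

section Zero

variable {N k : ℕ} {U : ℝ → ℝ} {c₁ c₂ : ℝ}

lemma tiltPot_zero (v : (Fin N → Bool) → ℝ) (y : Fin N → ℝ) : tiltPot v 0 y = v := by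
  funext x
  simp [tiltPot]

lemma eP_zero (v : (Fin N → Bool) → ℝ) : eP v 0 = logAvg v := by
  have h : sideLog v 0 = fun _ _ => logAvg v := by
    funext xs z
    unfold sideLog
    rw [tiltPot_zero]
    simp
  unfold eP
  rw [h, priorE_const]

/-- The free energy at zero side information is the entropy of the normalized partition function. -/
lemma eG_zero (U : ℝ → ℝ) (N k : ℕ) :
    eG U N k 0 = (∫ G, patY U G * Real.log (patY U G) ∂(patternsLaw N k)) / N := by
  unfold eG
  simp_rw [eP_zero, patY_eq]

/-- The bounds of the normalized potential as a weight. -/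
lemma wgt_normPot {f : ℝ → ℝ} (hf : Measurable f) {L : ℝ} (hfL : ∀ u, |f u| ≤ L) :
    Wgt (normPot f) (Real.exp (-(2 * L))) (Real.exp (2 * L)) where
  meas := measurable_normPot hf
  pos := Real.exp_pos _
  bd := normPot_bounds hf hfL
  one := integral_normPot hf hfL

lemma patY_normPot {f : ℝ → ℝ} (hf : Measurable f) {L : ℝ} (hfL : ∀ u, |f u| ≤ L)
    (G : Fin k → Fin N → ℝ) : patY (normPot f) G = normalizedPartition f G := by
  have hA := annealedConstant_pos hf hfL
  have hexp : ∀ x : Fin N → Bool, Real.exp (patPot (normPot f) G x) =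
      Real.exp (∑ a, f (patternField x (G a))) / annealedConstant f ^ k := by
    intro x
    rw [(wgt_normPot hf hfL).exp_patPot]
    unfold normPot
    rw [Finset.prod_div_distrib, Real.exp_sum]
    simp
  unfold patY gsum normalizedPartition partitionFn
  simp_rw [hexp]
  have hcard : (Fintype.card (Fin N → Bool) : ℝ) = 2 ^ N := by
    simp
  rw [hcard, ← Finset.sum_div, div_right_comm]

/-- The free energy at zero side information is the planted entropy. -/
theorem eG_zero_normPot {f : ℝ → ℝ} (hf : Measurable f) {L : ℝ} (hfL : ∀ u, |f u| ≤ L) :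
    eG (normPot f) N k 0 = partitionEntropy N k f / N := by
  rw [eG_zero]
  unfold partitionEntropy
  simp_rw [patY_normPot hf hfL]

end Zero

section Cosh

variable {N : ℕ}

/-- The sum over the cube of the exponential of a linear function. -/
lemma sum_cube_exp (a : Fin N → ℝ) :
    ∑ x : Fin N → Bool, Real.exp (∑ i, spinValue (x i) * a i) = ∏ i, (2 * Real.cosh (a i)) := by
  have h : ∀ i, 2 * Real.cosh (a i) = ∑ b : Bool, Real.exp (spinValue b * a i) := by
    intro i
    rw [Real.cosh_eq]
    simp [spinValue]
    ring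
  simp_rw [h, Real.exp_sum]
  rw [Finset.prod_univ_sum, Fintype.piFinset_univ]

lemma logAvg_tilt_zero (s : ℝ) (y : Fin N → ℝ) :
    logAvg (tiltPot (fun _ : Fin N → Bool => (0 : ℝ)) s y) =
      ∑ i, Real.log (Real.cosh (s * y i)) := by
  have h1 : gsum (tiltPot (fun _ : Fin N → Bool => (0 : ℝ)) s y) =
      ∏ i, (2 * Real.cosh (s * y i)) := by
    rw [← sum_cube_exp]
    unfold gsum tiltPot sdot
    refine Finset.sum_congr rfl fun x _ => ?_
    congr 1
    rw [zero_add, Finset.mul_sum]
    refine Finset.sum_congr rfl fun i _ => ?_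
    ring
  unfold logAvg
  rw [h1, Finset.prod_mul_distrib]
  have hcard : (Fintype.card (Fin N → Bool) : ℝ) = ∏ _i : Fin N, (2 : ℝ) := by
    simp
  rw [hcard, mul_div_cancel_left₀ _ (by positivity),
    Real.log_prod fun i _ => (Real.cosh_pos _).ne']

lemma abs_log_cosh_le (t : ℝ) : |Real.log (Real.cosh t)| ≤ |t| := by
  have h1 : 0 ≤ Real.log (Real.cosh t) := Real.log_nonneg (Real.one_le_cosh t)
  rw [abs_of_nonneg h1]
  have h2 : Real.cosh t ≤ Real.exp |t| := by
    rw [← Real.cosh_abs, Real.cosh_eq]
    have := Real.exp_le_exp.mpr (show -|t| ≤ |t| by linarith [abs_nonneg t])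
    linarith
  calc _ ≤ Real.log (Real.exp |t|) := Real.log_le_log (Real.cosh_pos _) h2
    _ = _ := Real.log_exp _

lemma measurable_log_cosh : Measurable fun t : ℝ => Real.log (Real.cosh t) :=
  Real.measurable_log.comp Real.measurable_cosh

lemma integrable_log_cosh (a b : ℝ) :
    Integrable (fun t : ℝ => Real.log (Real.cosh (a + b * t))) (gaussianReal 0 1) := by
  have h1 : Integrable (fun t : ℝ => |a| + |b| * |t|) (gaussianReal 0 1) := by
    refine (integrable_const _).add (Integrable.const_mul ?_ _)
    exact (memLp_id_gaussianReal 1).integrable (by norm_num) |>.abs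
  refine h1.mono' ?_ (Filter.Eventually.of_forall fun t => ?_)
  · exact (measurable_log_cosh.comp (measurable_const.add (measurable_id.const_mul b))).aestronglyMeasurable
  · rw [Real.norm_eq_abs]
    refine (abs_log_cosh_le _).trans ?_
    refine (abs_add_le _ _).trans ?_
    rw [abs_mul]

/-- The mean of the logarithm of the hyperbolic cosine is even in the spin. -/
lemma integral_log_cosh_spin (r s : ℝ) (b : Bool) :
    ∫ t, Real.log (Real.cosh (r * spinValue b + s * t)) ∂(gaussianReal 0 1) =
      ∫ t, Real.log (Real.cosh (r + s * t)) ∂(gaussianReal 0 1) := by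
  cases b with
  | true => simp [spinValue]
  | false =>
      rw [← integral_comp_neg_gaussian (fun t => Real.log (Real.cosh (r + s * t)))]
      refine integral_congr_ae (Filter.Eventually.of_forall fun t => ?_)
      simp only [spinValue]
      rw [← Real.cosh_neg]
      congr 2
      simp
      ring

lemma integral_coord {h : ℝ → ℝ} (hh : Measurable h) (i : Fin N) :
    ∫ z : Fin N → ℝ, h (z i) ∂(patternLaw N) = ∫ t, h t ∂(gaussianReal 0 1) := by
  unfold patternLaw
  exact integral_comp_eval (μ := fun _ : Fin N => gaussianReal 0 1) (f := h)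
    hh.aestronglyMeasurable

lemma integrable_coord_comp {h : ℝ → ℝ} (hh : Integrable h (gaussianReal 0 1)) (i : Fin N) :
    Integrable (fun z : Fin N → ℝ => h (z i)) (patternLaw N) := by
  unfold patternLaw
  exact integrable_comp_eval (μ := fun _ : Fin N => gaussianReal 0 1) (f := h) hh

lemma log_cosh_obsv (s : ℝ) (xs : Fin N → Bool) (i : Fin N) (z : Fin N → ℝ) :
    Real.log (Real.cosh (s * obsv s xs z i)) =
      Real.log (Real.cosh (s ^ 2 * spinValue (xs i) + s * z i)) := by
  simp only [obsv]
  congr 2
  ring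

/-- The mean of the logarithm for one spin. -/
lemma integral_log_cosh_coord (s : ℝ) (xs : Fin N → Bool) (i : Fin N) :
    ∫ z : Fin N → ℝ, Real.log (Real.cosh (s * obsv s xs z i)) ∂(patternLaw N) =
      ∫ t, Real.log (Real.cosh (s ^ 2 + s * t)) ∂(gaussianReal 0 1) := by
  rw [← integral_log_cosh_spin (s ^ 2) s (xs i),
    ← integral_coord (h := fun t => Real.log (Real.cosh (s ^ 2 * spinValue (xs i) + s * t)))
      (measurable_log_cosh.comp (measurable_const.add (measurable_id.const_mul s))) i]
  exact integral_congr_ae (Filter.Eventually.of_forall fun z => log_cosh_obsv s xs i z)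

lemma integrable_log_cosh_coord (s : ℝ) (xs : Fin N → Bool) (i : Fin N) :
    Integrable (fun z : Fin N → ℝ => Real.log (Real.cosh (s * obsv s xs z i))) (patternLaw N) := by
  have h1 := integrable_coord_comp (N := N)
    (integrable_log_cosh (s ^ 2 * spinValue (xs i)) s) i
  exact h1.congr (Filter.Eventually.of_forall fun z => (log_cosh_obsv s xs i z).symm)

/-- The free energy of the pure Gaussian channel. -/
lemma eP_no_pattern (s : ℝ) :
    eP (fun _ : Fin N → Bool => (0 : ℝ)) s =
      N * ∫ t, Real.log (Real.cosh (s ^ 2 + s * t)) ∂(gaussianReal 0 1) - s ^ 2 * N / 2 := by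
  have h : sideLog (fun _ : Fin N → Bool => (0 : ℝ)) s = fun xs z =>
      (∑ i, Real.log (Real.cosh (s * obsv s xs z i))) - s ^ 2 * N / 2 := by
    funext xs z
    unfold sideLog
    rw [logAvg_tilt_zero]
  have h2 : ∀ xs : Fin N → Bool, ∫ z, ((∑ i, Real.log (Real.cosh (s * obsv s xs z i))) -
      s ^ 2 * N / 2) ∂(patternLaw N) =
      N * (∫ t, Real.log (Real.cosh (s ^ 2 + s * t)) ∂(gaussianReal 0 1)) - s ^ 2 * N / 2 := by
    intro xs
    have hi : Integrable (fun z : Fin N → ℝ => ∑ i, Real.log (Real.cosh (s * obsv s xs z i)))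
        (patternLaw N) := integrable_finsetSum _ fun i _ => integrable_log_cosh_coord s xs i
    rw [integral_sub hi (integrable_const _),
      integral_finsetSum _ fun i _ => integrable_log_cosh_coord s xs i]
    simp_rw [integral_log_cosh_coord]
    simp
  unfold eP priorE
  rw [h]
  simp_rw [h2]
  rw [← Finset.sum_mul, sum_gwt, one_mul]

end Cosh

section NoPattern

variable {N : ℕ} {U : ℝ → ℝ} {c₁ c₂ : ℝ}

lemma patPot_no_pattern (U : ℝ → ℝ) (G : Fin 0 → Fin N → ℝ) :
    patPot U G = fun _ : Fin N → Bool => (0 : ℝ) := by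
  funext x
  simp [patPot]

lemma patY_no_pattern (U : ℝ → ℝ) (G : Fin 0 → Fin N → ℝ) : patY U G = 1 := by
  unfold patY
  rw [patPot_no_pattern]
  have hcard : (Fintype.card (Fin N → Bool) : ℝ) ≠ 0 := by
    have : (0 : ℝ) < Fintype.card (Fin N → Bool) := by exact_mod_cast Fintype.card_pos
    exact this.ne'
  unfold gsum
  simp only [Real.exp_zero, Finset.sum_const, Finset.card_univ, nsmul_eq_mul, mul_one]
  exact div_self hcard

/-- The value without patterns is the scalar channel function. -/
theorem eG_no_pattern (hN : 1 ≤ N) {r : ℝ} (hr : 0 ≤ r) :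
    eG U N 0 (Real.sqrt r) = e0RS r := by
  have hN' : (N : ℝ) ≠ 0 := by
    have : (0 : ℝ) < N := by exact_mod_cast hN
    exact this.ne'
  have : IsProbabilityMeasure (patternsLaw N 0) := patterns_isProb
  unfold eG
  simp_rw [patY_no_pattern, patPot_no_pattern, one_mul, eP_no_pattern]
  simp only [integral_const, probReal_univ, one_smul]
  rw [Real.sq_sqrt hr]
  unfold e0RS
  field_simp

end NoPattern

end Vale.Agent.Lib.P157
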