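import Vale.Agent.Lib.P157.RSVar2
import Vale.Agent.Lib.P157.RSAbstract

/-!
The data for the adaptive interpolation: the free energy on the scale of the side channel signal
to noise ratio, and the integrated bound for the error of one step.
-/

open MeasureTheory ProbabilityTheory
open scoped NNReal ENNReal Topology

set_option linter.unusedSectionVars false
set_option linter.unusedVariables false

namespace Vale.Agent.Lib.P157

section RScale

variable {N k : ℕ} {U : ℝ → ℝ} {c₁ c₂ : ℝ}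

/-- The free energy as a function of the signal to noise ratio. -/
noncomputable def eR (U : ℝ → ℝ) (N k : ℕ) (r : ℝ) : ℝ := eG U N k (Real.sqrt r)

/-- The mean overlap as a function of the signal to noise ratio. -/
noncomputable def QR (U : ℝ → ℝ) (N k : ℕ) (r : ℝ) : ℝ := QG U N k (Real.sqrt r)

lemma QR_mono (hU : Wgt U c₁ c₂) (hN : 1 ≤ N) : Monotone (QR U N k) := fun _ _ hab =>
  QG_mono hU hN (Real.sqrt_nonneg _) (Real.sqrt_le_sqrt hab)

lemma QR_nonneg (hU : Wgt U c₁ c₂) (hN : 1 ≤ N) (r : ℝ) : 0 ≤ QR U N k r := QG_nonneg hU hN _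

lemma QR_le_one (hU : Wgt U c₁ c₂) (hN : 1 ≤ N) (r : ℝ) : QR U N k r ≤ 1 := QG_le_one hU hN _

lemma eR_tan_lower (hU : Wgt U c₁ c₂) (hN : 1 ≤ N) {r r' : ℝ} (hr : 0 ≤ r) (hrr : r ≤ r') :
    (r' - r) * QR U N k r / 2 ≤ eR U N k r' - eR U N k r := by
  have := eG_tan_lower (k := k) hU hN (Real.sqrt_nonneg r) (Real.sqrt_le_sqrt hrr)
  rwa [Real.sq_sqrt (hr.trans hrr), Real.sq_sqrt hr] at this

lemma eR_tan_upper (hU : Wgt U c₁ c₂) (hN : 1 ≤ N) {r r' : ℝ} (hr : 0 ≤ r) (hrr : r ≤ r') :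
    eR U N k r' - eR U N k r ≤ (r' - r) * QR U N k r' / 2 := by
  have := eG_tan_upper (k := k) hU hN (Real.sqrt_nonneg r) (Real.sqrt_le_sqrt hrr)
  rwa [Real.sq_sqrt (hr.trans hrr), Real.sq_sqrt hr] at this

lemma hasDerivAt_QR (hU : Wgt U c₁ c₂) (hN : 1 ≤ N) {r : ℝ} (hr : 0 < r) :
    HasDerivAt (QR U N k) (N * C2G U N k (Real.sqrt r)) r := by
  have h1 := hasDerivAt_QG (k := k) hU hN (Real.sqrt r)
  have h2 := Real.hasDerivAt_sqrt hr.ne'
  have h3 := h1.comp r h2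
  refine h3.congr_deriv ?_
  have hs : Real.sqrt r ≠ 0 := (Real.sqrt_pos.mpr hr).ne'
  field_simp

lemma deriv_QR_eq (hU : Wgt U c₁ c₂) (hN : 1 ≤ N) {r : ℝ} (hr : 0 < r) :
    deriv (QR U N k) r = N * C2G U N k (Real.sqrt r) := (hasDerivAt_QR hU hN hr).deriv

lemma deriv_QR_nonneg (hU : Wgt U c₁ c₂) (hN : 1 ≤ N) {r : ℝ} (hr : 0 < r) :
    0 ≤ deriv (QR U N k) r := by
  rw [deriv_QR_eq hU hN hr]
  have := C2G_nonneg (k := k) hU hN (Real.sqrt r)
  positivity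

lemma integrableOn_deriv_QR (hU : Wgt U c₁ c₂) (hN : 1 ≤ N) {r₁ R : ℝ} (hr₁ : 0 < r₁) :
    IntegrableOn (deriv (QR U N k)) (Set.Icc r₁ R) := by
  rw [integrableOn_Icc_iff_integrableOn_Ioc]
  refine intervalIntegral.integrableOn_deriv_of_nonneg (g := QR U N k) ?_ ?_ ?_
  · exact fun r hr => (hasDerivAt_QR hU hN (lt_of_lt_of_le hr₁ hr.1)).continuousAt.continuousWithinAt
  · intro r hr
    exact (hasDerivAt_QR hU hN (hr₁.trans hr.1)).differentiableAt.hasDerivAt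
  · intro r hr
    exact deriv_QR_nonneg hU hN (hr₁.trans hr.1)

lemma integral_deriv_QR_le (hU : Wgt U c₁ c₂) (hN : 1 ≤ N) {r₁ R : ℝ} (hr₁ : 0 < r₁) (hR : r₁ ≤ R) :
    ∫ r in Set.Icc r₁ R, deriv (QR U N k) r ≤ 1 := by
  rw [integral_Icc_eq_integral_Ioc, ← intervalIntegral.integral_of_le hR]
  rw [intervalIntegral.integral_eq_sub_of_hasDerivAt (f := QR U N k)]
  · have h1 := QR_le_one (k := k) hU hN R
    have h2 := QR_nonneg (k := k) hU hN r₁
    linarith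
  · intro r hr
    rw [Set.uIcc_of_le hR] at hr
    exact (hasDerivAt_QR hU hN (lt_of_lt_of_le hr₁ hr.1)).differentiableAt.hasDerivAt
  · rw [intervalIntegrable_iff_integrableOn_Ioc_of_le hR]
    exact (integrableOn_deriv_QR hU hN hr₁).mono_set Set.Ioc_subset_Icc_self

/-- The error of one step. -/
noncomputable def epsF (U : ℝ → ℝ) (N k : ℕ) (c₀ a b t r : ℝ) : ℝ :=
  c₀ + a * deriv (QR U N k) r + b * (QR U N k (r + t) - QR U N k (r - t))

lemma measurable_epsF (hU : Wgt U c₁ c₂) (hN : 1 ≤ N) (c₀ a b t : ℝ) :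
    Measurable (epsF U N k c₀ a b t) := by
  unfold epsF
  have h1 : Measurable (deriv (QR U N k)) := measurable_deriv _
  have h2 : Monotone (QR U N k) := QR_mono hU hN
  have h3 : Monotone fun r => QR U N k (r + t) := fun x y hxy => h2 (by linarith)
  have h4 : Monotone fun r => QR U N k (r - t) := fun x y hxy => h2 (by linarith)
  exact (measurable_const.add (h1.const_mul a)).add ((h3.measurable.sub h4.measurable).const_mul b)

lemma epsF_nonneg (hU : Wgt U c₁ c₂) (hN : 1 ≤ N) {c₀ a b t r : ℝ} (hc : 0 ≤ c₀) (ha : 0 ≤ a)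
    (hb : 0 ≤ b) (ht : 0 ≤ t) (hr : 0 < r) : 0 ≤ epsF U N k c₀ a b t r := by
  unfold epsF
  have h1 := deriv_QR_nonneg (k := k) hU hN hr
  have h2 : QR U N k (r - t) ≤ QR U N k (r + t) := QR_mono hU hN (by linarith)
  have h3 : 0 ≤ a * deriv (QR U N k) r := mul_nonneg ha h1
  have h4 : 0 ≤ b * (QR U N k (r + t) - QR U N k (r - t)) := mul_nonneg hb (by linarith)
  linarith

lemma integrableOn_shift (hU : Wgt U c₁ c₂) (hN : 1 ≤ N) (r₁ R t : ℝ) :
    IntegrableOn (fun r => QR U N k (r + t) - QR U N k (r - t)) (Set.Icc r₁ R) := by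
  have h2 : Monotone (QR U N k) := QR_mono hU hN
  have h3 : Monotone fun r => QR U N k (r + t) := fun x y hxy => h2 (by linarith)
  have h4 : Monotone fun r => QR U N k (r - t) := fun x y hxy => h2 (by linarith)
  exact (h3.monotoneOn _).integrableOn_isCompact isCompact_Icc |>.sub
    ((h4.monotoneOn _).integrableOn_isCompact isCompact_Icc)

lemma integrableOn_epsF (hU : Wgt U c₁ c₂) (hN : 1 ≤ N) {r₁ R : ℝ} (hr₁ : 0 < r₁) (c₀ a b t : ℝ) :
    IntegrableOn (epsF U N k c₀ a b t) (Set.Icc r₁ R) := by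
  unfold epsF
  have h1 : IntegrableOn (fun _ : ℝ => c₀) (Set.Icc r₁ R) := integrableOn_const (by simp)
  exact (h1.add ((integrableOn_deriv_QR hU hN hr₁).const_mul a)).add
    ((integrableOn_shift hU hN r₁ R t).const_mul b)

lemma integral_shift_two_le (hU : Wgt U c₁ c₂) (hN : 1 ≤ N) {r₁ R t : ℝ} (hR : r₁ ≤ R) (ht : 0 ≤ t) :
    ∫ r in Set.Icc r₁ R, (QR U N k (r + t) - QR U N k (r - t)) ≤ 2 * t := by
  have h2 : Monotone (QR U N k) := QR_mono hU hN
  have h := integral_shift_le (Q := fun r => QR U N k (r - t)) (fun x y hxy => h2 (by linarith))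
    (fun r => QR_nonneg hU hN _) (fun r => QR_le_one hU hN _) hR (t := 2 * t) (by positivity)
  have e : ∀ r, r + 2 * t - t = r + t := fun r => by ring
  simp only [e] at h
  exact h

lemma integral_epsF_le (hU : Wgt U c₁ c₂) (hN : 1 ≤ N) {r₁ R : ℝ} (hr₁ : 0 < r₁) (hR : r₁ ≤ R)
    {c₀ a b t : ℝ} (ha : 0 ≤ a) (hb : 0 ≤ b) (ht : 0 ≤ t) :
    ∫ r in Set.Icc r₁ R, epsF U N k c₀ a b t r ≤ c₀ * (R - r₁) + a + 2 * b * t := by
  unfold epsF
  have h1 : IntegrableOn (fun _ : ℝ => c₀) (Set.Icc r₁ R) := integrableOn_const (by simp)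
  have h2 := (integrableOn_deriv_QR (k := k) hU hN hr₁ (R := R)).const_mul a
  have h3 := (integrableOn_shift (k := k) hU hN r₁ R t).const_mul b
  have h12 : IntegrableOn (fun r => c₀ + a * deriv (QR U N k) r) (Set.Icc r₁ R) := h1.add h2
  have e1 := integral_add h12 h3
  have e2 := integral_add h1 h2
  rw [e1, e2, integral_const_mul, integral_const_mul]
  have h4 := integral_deriv_QR_le (k := k) hU hN hr₁ hR
  have h5 := integral_shift_two_le (k := k) hU hN hR ht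
  have h6 : ∫ _r in Set.Icc r₁ R, c₀ = c₀ * (R - r₁) := by
    simp [hR]
    ring
  rw [h6]
  have h7 := mul_le_mul_of_nonneg_left h4 ha
  have h8 := mul_le_mul_of_nonneg_left h5 hb
  linarith

end RScale

section Devs

variable {N k : ℕ} {U : ℝ → ℝ} {c₁ c₂ : ℝ}

lemma devT_le {α S : ℝ} (hα : 0 < α) (hN : 1 ≤ N) (hk : (k : ℝ) ≤ α * N) {u : ℝ} (hu : |u| ≤ S) :
    devT c₁ c₂ N k u ≤ Real.sqrt N * (S + 4 * Real.sqrt (α * logBd c₁ c₂ ^ 2 + 1)) := by
  have hN' : (1 : ℝ) ≤ N := by exact_mod_cast hN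
  unfold devT
  have h1 : Real.sqrt (k * logBd c₁ c₂ ^ 2 + 1) ≤
      Real.sqrt N * Real.sqrt (α * logBd c₁ c₂ ^ 2 + 1) := by
    rw [← Real.sqrt_mul (Nat.cast_nonneg N)]
    refine Real.sqrt_le_sqrt ?_
    have h2 : (k : ℝ) * logBd c₁ c₂ ^ 2 ≤ α * N * logBd c₁ c₂ ^ 2 :=
      mul_le_mul_of_nonneg_right hk (sq_nonneg _)
    nlinarith
  have h3 : |u| * Real.sqrt N ≤ S * Real.sqrt N :=
    mul_le_mul_of_nonneg_right hu (Real.sqrt_nonneg _)
  nlinarith

/-- The bound for the first two terms in the variance bound. -/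
lemma Dterm_le {α S ρ₁ s η : ℝ} (hα : 0 < α) (hN : 1 ≤ N) (hk : (k : ℝ) ≤ α * N)
    (hρ₁ : 0 < ρ₁) (hs : ρ₁ ≤ s) (hη : 0 < η) (hu1 : |s + η| ≤ S) (hu2 : |s| ≤ S)
    (hu3 : |s - η| ≤ S) :
    (devT c₁ c₂ N k (s + η) + 2 * devT c₁ c₂ N k s + devT c₁ c₂ N k (s - η)) / (η * (s * N)) +
        2 * η / s ≤
      4 * (S + 4 * Real.sqrt (α * logBd c₁ c₂ ^ 2 + 1)) / (η * ρ₁ * Real.sqrt N) + 2 * η / ρ₁ := by
  have hN' : (1 : ℝ) ≤ N := by exact_mod_cast hN
  have hN0 : (0 : ℝ) < N := by linarith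
  have hs0 : 0 < s := hρ₁.trans_le hs
  have hsq : 0 < Real.sqrt N := Real.sqrt_pos.mpr hN0
  set T₀ := S + 4 * Real.sqrt (α * logBd c₁ c₂ ^ 2 + 1) with hT₀
  have hS : 0 ≤ S := (abs_nonneg _).trans hu2
  have hT₀0 : 0 ≤ T₀ := by positivity
  have h1 := devT_le (c₁ := c₁) (c₂ := c₂) hα hN hk hu1
  have h2 := devT_le (c₁ := c₁) (c₂ := c₂) hα hN hk hu2
  have h3 := devT_le (c₁ := c₁) (c₂ := c₂) hα hN hk hu3
  rw [← hT₀] at h1 h2 h3
  have h4 : devT c₁ c₂ N k (s + η) + 2 * devT c₁ c₂ N k s + devT c₁ c₂ N k (s - η) ≤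
      4 * (Real.sqrt N * T₀) := by linarith
  have hsqsq : Real.sqrt N * Real.sqrt N = N := Real.mul_self_sqrt hN0.le
  have h5 : (devT c₁ c₂ N k (s + η) + 2 * devT c₁ c₂ N k s + devT c₁ c₂ N k (s - η)) /
      (η * (s * N)) ≤ 4 * T₀ / (η * ρ₁ * Real.sqrt N) := by
    have e : 4 * T₀ / (η * ρ₁ * Real.sqrt N) = 4 * (Real.sqrt N * T₀) / (η * (ρ₁ * N)) := by
      set w := Real.sqrt N with hw
      rw [← hsqsq]
      field_simp
    rw [e]
    refine div_le_div₀ (by positivity) h4 (by positivity) ?_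
    refine mul_le_mul_of_nonneg_left ?_ hη.le
    exact mul_le_mul_of_nonneg_right hs hN0.le
  have h6 : 2 * η / s ≤ 2 * η / ρ₁ :=
    div_le_div_of_nonneg_left (by positivity) hρ₁ hs
  linarith

/-- The cavity error at a given signal to noise ratio. -/
theorem thetaG_le_eps (hU : Wgt U c₁ c₂) (hN : 1 ≤ N) {τ A A' σ η V₀ r₁ R t r : ℝ}
    (hA : 0 ≤ A) (hA' : 0 ≤ A') (hσ : 0 < σ) (hη : 0 < η)
    (h1 : ∀ v : (Fin N → Bool) → ℝ, |thetaOf U v - psiU U (qOf v)| ≤ τ + A * c2Of v)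
    (h2 : ∀ a b : ℝ, 0 ≤ a → a ≤ 1 → 0 ≤ b → b ≤ 1 →
      |psiU U a - psiU U b| ≤ τ + A' * (a - b) ^ 2)
    (hr₁ : 0 < r₁) (hr : r ∈ Set.Icc r₁ R) (hηr : η ≤ Real.sqrt r₁)
    (ht : t = 2 * η * Real.sqrt R + η ^ 2)
    (hV : (devT c₁ c₂ N k (Real.sqrt r + η) + 2 * devT c₁ c₂ N k (Real.sqrt r) +
        devT c₁ c₂ N k (Real.sqrt r - η)) / (η * (Real.sqrt r * N)) + 2 * η / Real.sqrt r ≤ V₀) :
    |thetaG U N k (Real.sqrt r) - psiU U (QG U N k (Real.sqrt r))| ≤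
      epsF U N k (2 * τ + A' * (V₀ + 2 * σ)) ((A + 2 * A' / σ) / N) A' t r := by
  have hN0 : (0 : ℝ) < N := by exact_mod_cast hN
  have hr0 : 0 < r := lt_of_lt_of_le hr₁ hr.1
  set s := Real.sqrt r with hs
  have hs0 : 0 ≤ s := Real.sqrt_nonneg r
  have hsr : s ^ 2 = r := Real.sq_sqrt hr0.le
  have hηs : η ≤ s := hηr.trans (Real.sqrt_le_sqrt hr.1)
  have hsR : s ≤ Real.sqrt R := Real.sqrt_le_sqrt hr.2
  have hbd := thetaG_bound (k := k) hU hN hA hA' h1 h2 s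
  have hvar := VarG_le (k := k) hU hN hη hηs hσ
  -- comparison of the shifted overlaps
  have hQp : QG U N k (s + η) ≤ QR U N k (r + t) := by
    refine QG_mono hU hN (by linarith) ?_
    apply Real.le_sqrt_of_sq_le
    rw [ht]
    have : η * s ≤ η * Real.sqrt R := mul_le_mul_of_nonneg_left hsR hη.le
    nlinarith
  have hQm : QR U N k (r - t) ≤ QG U N k (s - η) := by
    refine QG_mono hU hN (Real.sqrt_nonneg _) ?_
    rw [Real.sqrt_le_left (by linarith)]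
    rw [ht]
    have : η * s ≤ η * Real.sqrt R := mul_le_mul_of_nonneg_left hsR hη.le
    nlinarith [sq_nonneg η]
  have hd : C2G U N k s = deriv (QR U N k) r / N := by
    rw [deriv_QR_eq hU hN hr0, mul_div_cancel_left₀ _ hN0.ne']
  unfold epsF
  have e : (A + 2 * A' / σ) / N * deriv (QR U N k) r = (A + 2 * A' / σ) * C2G U N k s := by
    rw [hd]
    field_simp
  rw [e]
  have h5 : VarG U N k s ≤ V₀ + (QR U N k (r + t) - QR U N k (r - t)) + 2 * σ +
      2 * (C2G U N k s / σ) := by linarith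
  have h6 := mul_le_mul_of_nonneg_left h5 hA'
  have e2 : A' * (2 * (C2G U N k s / σ)) = 2 * A' / σ * C2G U N k s := by
    field_simp
  nlinarith

end Devs

end Vale.Agent.Lib.P157
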