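import Vale.Agent.Lib.P157.RSMain

/-!
Consequences of the replica symmetric formula: the exact annealed boundary.
-/

open MeasureTheory ProbabilityTheory Filter
open scoped NNReal ENNReal Topology

set_option linter.unusedSectionVars false
set_option linter.unusedVariables false

namespace Vale.Agent.Lib.P157

section Final

variable {f : ℝ → ℝ} {L : ℝ}

/-- The scalar channel function is nonnegative. -/
lemma e0RS_nonneg (hf : Measurable f) (hfL : ∀ u, |f u| ≤ L) {r : ℝ} (hr : 0 ≤ r) :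
    0 ≤ e0RS r := by
  have hU := wgt_normPot hf hfL
  have h1 := eR_tan_lower (N := 1) (k := 0) hU le_rfl le_rfl hr
  have h2 : eR (normPot f) 1 0 r = e0RS r := eG_no_pattern le_rfl hr
  have h3 : eR (normPot f) 1 0 0 = e0RS 0 := eG_no_pattern le_rfl le_rfl
  rw [h2, h3, e0RS_zero] at h1
  have h4 := QR_nonneg (N := 1) (k := 0) hU le_rfl 0
  have h5 : 0 ≤ (r - 0) * QR (normPot f) 1 0 0 / 2 := by
    have : 0 ≤ r - 0 := by linarith
    positivity
  linarith

lemma jRS_zero_le (hf : Measurable f) (hfL : ∀ u, |f u| ≤ L) : jRS 0 ≤ 0 := by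
  unfold jRS
  have : Nonempty (Set.Ici (0 : ℝ)) := ⟨⟨0, Set.mem_Ici.mpr le_rfl⟩⟩
  refine ciSup_le fun r => ?_
  have := e0RS_nonneg hf hfL r.2
  simp only [mul_zero, zero_div, zero_sub]
  linarith

lemma rsValue_bdd {α : ℝ} (hα : 0 ≤ α) (hf : Measurable f) (hfL : ∀ u, |f u| ≤ L) :
    BddAbove (Set.range fun q : Set.Icc (0 : ℝ) 1 => α * psiRS f q - jRS q) :=
  rsU_bdd (wgt_normPot hf hfL) hα

lemma le_rsValue {α : ℝ} (hα : 0 ≤ α) (hf : Measurable f) (hfL : ∀ u, |f u| ≤ L) {q : ℝ}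
    (hq : q ∈ Set.Icc (0 : ℝ) 1) : α * psiRS f q - jRS q ≤ rsValue α f :=
  le_rsU (wgt_normPot hf hfL) hα hq

lemma rsValue_nonneg {α : ℝ} (hα : 0 ≤ α) (hf : Measurable f) (hfL : ∀ u, |f u| ≤ L) :
    0 ≤ rsValue α f := by
  have hU := wgt_normPot hf hfL
  have h1 := le_rsValue hα hf hfL (q := 0) ⟨le_rfl, zero_le_one⟩
  have h2 : psiRS f 0 = 0 := psiU_zero hU.one
  have h3 := jRS_zero_le hf hfL
  rw [h2] at h1
  linarith

lemma rsValue_eq_zero_iff {α : ℝ} (hα : 0 ≤ α) (hf : Measurable f) (hfL : ∀ u, |f u| ≤ L) :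
    rsValue α f = 0 ↔ ∀ q ∈ Set.Icc (0 : ℝ) 1, α * psiRS f q ≤ jRS q := by
  constructor
  · intro h q hq
    have := le_rsValue hα hf hfL hq
    rw [h] at this
    linarith
  · intro h
    refine le_antisymm ?_ (rsValue_nonneg hα hf hfL)
    refine ciSup_le fun q => ?_
    have := h q q.2
    linarith

/-- The annealed formula holds exactly when the replica symmetric value vanishes. -/
theorem annealed_iff_rs {α : ℝ} (hα : 0 < α) (hf : Measurable f) (hL : 0 < L)
    (hfL : ∀ u, |f u| ≤ L) :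
    Tendsto (fun N : ℕ => expectedPressure N ⌊α * N⌋₊ f) atTop
        (𝓝 (α * Real.log (annealedConstant f))) ↔
      ∀ q ∈ Set.Icc (0 : ℝ) 1, α * psiRS f q ≤ jRS q := by
  have hlim := tendsto_partitionEntropy hα hf hfL
  have h2 : Tendsto (fun N : ℕ => ((⌊α * N⌋₊ : ℝ) / N)) atTop (𝓝 α) :=
    (tendsto_nat_floor_mul_div_atTop hα.le).comp tendsto_natCast_atTop_atTop
  rw [← rsValue_eq_zero_iff hα.le hf hfL]
  constructor
  · intro h
    have h3 := h.sub (h2.mul_const (Real.log (annealedConstant f)))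
    rw [sub_self] at h3
    have h4 := (cube_annealed_iff hα hf hL hfL).mp h3
    exact tendsto_nhds_unique hlim h4
  · intro h
    rw [h] at hlim
    have h1 := (cube_annealed_iff hα hf hL hfL).mpr hlim
    have h3 := h1.add (h2.mul_const (Real.log (annealedConstant f)))
    simp only [zero_add] at h3
    refine h3.congr fun N => ?_
    ring

end Final

end Vale.Agent.Lib.P157
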