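import Vale.Agent.Lib.P157.GaussIBP

/-!
Gaussian tools on `ℝ^N`: the shift formula, coordinate integration by parts and the
variance bound for Lipschitz functions.
-/

open MeasureTheory ProbabilityTheory
open scoped NNReal ENNReal

set_option linter.unusedSectionVars false

namespace Vale.Agent.Lib.P157

section Shift

/-- The one dimensional shifted Gaussian as a tilt. -/
lemma gaussianReal_eq_withDensity (m : ℝ) :
    gaussianReal m 1 = (gaussianReal 0 1).withDensity
      (fun y => ENNReal.ofReal (Real.exp (m * y - m ^ 2 / 2))) := by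
  have hne : (1 : ℝ≥0) ≠ 0 := one_ne_zero
  have hmeas : Measurable (fun y : ℝ => ENNReal.ofReal (Real.exp (m * y - m ^ 2 / 2))) := by
    fun_prop
  rw [gaussianReal_of_var_ne_zero m hne, gaussianReal_of_var_ne_zero 0 hne,
    ← withDensity_mul _ (measurable_gaussianPDF 0 1) hmeas]
  congr 1
  funext y
  simp only [Pi.mul_apply, gaussianPDF]
  rw [← ENNReal.ofReal_mul (gaussianPDFReal_nonneg 0 1 y)]
  congr 1
  unfold gaussianPDFReal
  have hexp : Real.exp (-(y - m) ^ 2 / (2 * ((1 : ℝ≥0) : ℝ))) =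
      Real.exp (-(y - 0) ^ 2 / (2 * ((1 : ℝ≥0) : ℝ))) * Real.exp (m * y - m ^ 2 / 2) := by
    rw [← Real.exp_add]
    congr 1
    simp
    ring
  rw [hexp]
  ring

/-- The exponential density of a shift. -/
noncomputable def shiftDens {n : ℕ} (a y : Fin n → ℝ) : ℝ :=
  ∏ i, Real.exp (a i * y i - a i ^ 2 / 2)

lemma shiftDens_eq {n : ℕ} (a y : Fin n → ℝ) :
    shiftDens a y = Real.exp (∑ i, a i * y i - (∑ i, a i ^ 2) / 2) := by
  unfold shiftDens
  rw [← Real.exp_sum]
  congr 1
  rw [Finset.sum_sub_distrib, Finset.sum_div]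

lemma shiftDens_pos {n : ℕ} (a y : Fin n → ℝ) : 0 < shiftDens a y :=
  Finset.prod_pos fun _ _ => Real.exp_pos _

lemma measurable_shiftDens {n : ℕ} (a : Fin n → ℝ) : Measurable (shiftDens a) := by
  unfold shiftDens
  refine Finset.measurable_prod _ fun i _ => ?_
  exact Real.measurable_exp.comp (((measurable_pi_apply i).const_mul _).sub_const _)

lemma integrable_exp_linear (m : ℝ) :
    Integrable (fun y : ℝ => Real.exp (m * y - m ^ 2 / 2)) (gaussianReal 0 1) := by
  have h := (integrable_exp_mul_gaussianReal (μ := 0) (v := 1) m).const_mul (Real.exp (-(m ^ 2 / 2)))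
  refine h.congr (Filter.Eventually.of_forall fun y => ?_)
  simp only
  rw [← Real.exp_add]
  congr 1
  ring

/-- The product of shifted Gaussians as a density with respect to the standard Gaussian. -/
lemma pi_gaussianReal_eq {n : ℕ} (a : Fin n → ℝ) :
    (Measure.pi fun i => gaussianReal (a i) 1) =
      (patternLaw n).withDensity (fun y => ENNReal.ofReal (shiftDens a y)) := by
  refine Measure.pi_eq fun s hs => ?_
  have hbox : MeasurableSet (Set.univ.pi s) := MeasurableSet.univ_pi hs
  rw [withDensity_apply _ hbox]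
  set f : Fin n → ℝ → ℝ := fun i => (s i).indicator fun y => Real.exp (a i * y - a i ^ 2 / 2) with hf
  have hfi : ∀ i, Integrable (f i) (gaussianReal 0 1) := fun i =>
    (integrable_exp_linear (a i)).indicator (hs i)
  have hfnn : ∀ i y, 0 ≤ f i y := by
    intro i y
    simp only [hf]
    by_cases hy : y ∈ s i
    · rw [Set.indicator_of_mem hy]
      exact (Real.exp_pos _).le
    · rw [Set.indicator_of_notMem hy]
  have hindic : ∀ y : Fin n → ℝ, (Set.univ.pi s).indicator (shiftDens a) y = ∏ i, f i (y i) := by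
    intro y
    by_cases hy : y ∈ Set.univ.pi s
    · rw [Set.indicator_of_mem hy]
      unfold shiftDens
      refine Finset.prod_congr rfl fun i _ => ?_
      simp only [hf]
      rw [Set.indicator_of_mem (hy i (Set.mem_univ i))]
    · rw [Set.indicator_of_notMem hy]
      have : ∃ i, y i ∉ s i := by
        by_contra hcon
        push Not at hcon
        exact hy fun i _ => hcon i
      obtain ⟨i, hi⟩ := this
      symm
      refine Finset.prod_eq_zero (Finset.mem_univ i) ?_
      simp only [hf]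
      rw [Set.indicator_of_notMem hi]
  have hint : Integrable ((Set.univ.pi s).indicator (shiftDens a)) (patternLaw n) := by
    have h1 : Integrable (fun y : Fin n → ℝ => ∏ i, f i (y i)) (patternLaw n) :=
      Integrable.fintype_prod (f := f) hfi
    exact h1.congr (Filter.Eventually.of_forall fun y => (hindic y).symm)
  have h1 : ∫⁻ y in Set.univ.pi s, ENNReal.ofReal (shiftDens a y) ∂(patternLaw n) =
      ENNReal.ofReal (∫ y, (Set.univ.pi s).indicator (shiftDens a) y ∂(patternLaw n)) := by
    rw [ofReal_integral_eq_lintegral_ofReal hint]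
    · rw [← lintegral_indicator hbox]
      congr 1
      ext y
      by_cases hy : y ∈ Set.univ.pi s <;> simp [hy]
    · refine Filter.Eventually.of_forall fun y => ?_
      by_cases hy : y ∈ Set.univ.pi s
      · simp only [Pi.zero_apply, Set.indicator_of_mem hy]
        exact (shiftDens_pos a y).le
      · simp [hy]
  rw [h1]
  simp_rw [hindic]
  unfold patternLaw
  rw [integral_fintype_prod_eq_prod (𝕜 := ℝ) f,
    ENNReal.ofReal_prod_of_nonneg fun i _ => integral_nonneg (hfnn i)]
  refine Finset.prod_congr rfl fun i _ => ?_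
  rw [gaussianReal_eq_withDensity (a i), withDensity_apply _ (hs i)]
  rw [ofReal_integral_eq_lintegral_ofReal (hfi i) (Filter.Eventually.of_forall (hfnn i))]
  rw [← lintegral_indicator (hs i)]
  congr 1
  ext y
  simp only [hf]
  by_cases hy : y ∈ s i <;> simp [hy]

/-- **The shift formula** for a standard Gaussian vector. -/
lemma integral_shift_vec {n : ℕ} (a : Fin n → ℝ) {F : (Fin n → ℝ) → ℝ} (hF : Measurable F) :
    ∫ z, F (fun i => a i + z i) ∂(patternLaw n) = ∫ y, shiftDens a y * F y ∂(patternLaw n) := by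
  have hmap : (patternLaw n).map (fun z : Fin n → ℝ => fun i => a i + z i) =
      Measure.pi fun i => gaussianReal (a i) 1 := by
    unfold patternLaw
    have h1 := Measure.pi_map_pi (μ := fun _ : Fin n => gaussianReal 0 1)
      (f := fun i t => a i + t) (fun i => (measurable_const_add (a i)).aemeasurable)
    rw [h1]
    congr 1
    funext i
    rw [gaussianReal_map_const_add, zero_add]
  have hm : Measurable (fun z : Fin n → ℝ => fun i => a i + z i) :=
    measurable_pi_lambda _ fun i => (measurable_pi_apply i).const_add _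
  rw [← integral_map hm.aemeasurable hF.aestronglyMeasurable, hmap, pi_gaussianReal_eq,
    integral_withDensity_eq_integral_toReal_smul (measurable_shiftDens a).ennreal_ofReal
      (Filter.Eventually.of_forall fun y => ENNReal.ofReal_lt_top)]
  congr 1
  ext y
  rw [ENNReal.toReal_ofReal (shiftDens_pos a y).le, smul_eq_mul]

end Shift

section IBP

/-- **Coordinate Gaussian integration by parts** for a bounded function with a bounded partial
derivative. -/
lemma ibp_coord {n : ℕ} (j : Fin n) {F F' : (Fin n → ℝ) → ℝ} (hFm : Measurable F)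
    (hF'm : Measurable F') {B B' : ℝ} (hB : ∀ z, |F z| ≤ B) (hB' : ∀ z, |F' z| ≤ B')
    (hd : ∀ z, HasDerivAt (fun t => F (Function.update z j t)) (F' z) (z j)) :
    ∫ z, z j * F z ∂(patternLaw n) = ∫ z, F' z ∂(patternLaw n) := by
  obtain ⟨m, rfl⟩ : ∃ m, n = m + 1 := ⟨n - 1, by have := j.pos; omega⟩
  have hi1 : Integrable (fun z : Fin (m + 1) → ℝ => z j * F z) (patternLaw (m + 1)) :=
    integrable_coord_mul j hFm hB
  have hi2 : Integrable F' (patternLaw (m + 1)) := integrable_of_bdd hF'm hB'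
  unfold patternLaw at hi1 hi2 ⊢
  rw [integral_pi_insertNth (fun _ => gaussianReal 0 1) j _ hi1,
    integral_pi_insertNth (fun _ => gaussianReal 0 1) j _ hi2]
  congr 1
  ext w
  simp only [Fin.insertNth_apply_same]
  have hins : ∀ t : ℝ, Measurable fun t : ℝ => (Fin.insertNth (α := fun _ => ℝ) j t w) := by
    intro _
    refine measurable_pi_lambda _ fun i => ?_
    refine Fin.succAboveCases j ?_ (fun l => ?_) i
    · simp
      exact measurable_id
    · simp
  refine gaussian_ibp (h := fun t => F (Fin.insertNth (α := fun _ => ℝ) j t w))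
    (h' := fun t => F' (Fin.insertNth (α := fun _ => ℝ) j t w)) (fun t => ?_) (B := B) (B' := B')
    (fun t => hB _) (fun t => hB' _) (hF'm.comp (hins 0))
  have := hd (Fin.insertNth (α := fun _ => ℝ) j t w)
  simp only [Fin.insertNth_apply_same] at this
  refine this.congr_of_eventuallyEq (Filter.Eventually.of_forall fun t' => ?_)
  simp

end IBP

section Lipschitz

/-- A coordinate of a Gaussian vector is square integrable. -/
lemma memLp_coord {n : ℕ} (i : Fin n) : MemLp (fun z : Fin n → ℝ => z i) 2 (patternLaw n) := by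
  have h0 : MemLp (id : ℝ → ℝ) 2 (gaussianReal 0 1) := memLp_id_gaussianReal 2
  have hmp : MeasurePreserving (fun z : Fin n → ℝ => z i) (patternLaw n) (gaussianReal 0 1) :=
    measurePreserving_eval (fun _ : Fin n => gaussianReal 0 1) i
  exact h0.comp_measurePreserving hmp

/-- A function with linear growth in the `ℓ¹` norm of a Gaussian vector is square integrable. -/
lemma memLp_of_linear_growth {n : ℕ} {F : (Fin n → ℝ) → ℝ} (hFm : Measurable F) {c a : ℝ}
    (hF : ∀ x, |F x| ≤ c + a * ∑ i, |x i|) : MemLp F 2 (patternLaw n) := by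
  have h1 : MemLp (fun x : Fin n → ℝ => c + a * ∑ i, |x i|) 2 (patternLaw n) := by
    refine (memLp_const c).add (MemLp.const_mul ?_ a)
    exact memLp_finsetSum _ fun i _ => (memLp_coord i).abs
  refine h1.of_le hFm.aestronglyMeasurable (Filter.Eventually.of_forall fun x => ?_)
  rw [Real.norm_eq_abs, Real.norm_eq_abs]
  exact (hF x).trans (le_abs_self _)

/-- Expansion of the square around a constant. -/
lemma integral_sq_sub_const {Ω : Type*} [MeasurableSpace Ω] {μ : Measure Ω} [IsProbabilityMeasure μ]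
    {φ : Ω → ℝ} (hφ : MemLp φ 2 μ) (c : ℝ) :
    ∫ t, (φ t - c) ^ 2 ∂μ = (∫ t, φ t ^ 2 ∂μ) - 2 * c * (∫ t, φ t ∂μ) + c ^ 2 := by
  have hφ1 : Integrable φ μ := hφ.integrable (by norm_num)
  have hφ2 : Integrable (fun t => φ t ^ 2) μ := hφ.integrable_sq
  have hexp : ∀ t, (φ t - c) ^ 2 = (φ t ^ 2 - 2 * c * φ t) + c ^ 2 := fun t => by ring
  have hi : Integrable (fun t => φ t ^ 2 - 2 * c * φ t) μ := hφ2.sub (hφ1.const_mul _)
  simp_rw [hexp]
  rw [integral_add hi (integrable_const _), integral_sub hφ2 (hφ1.const_mul _),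
    integral_const_mul]
  simp

/-- A Lipschitz function of a standard Gaussian is square integrable. -/
lemma memLp_of_lip_one {φ : ℝ → ℝ} {a : ℝ} (hφm : Measurable φ)
    (hφ : ∀ s t, |φ s - φ t| ≤ a * |s - t|) : MemLp φ 2 (gaussianReal 0 1) := by
  have hid : MemLp (fun t : ℝ => t) 2 (gaussianReal 0 1) := memLp_id_gaussianReal 2
  have h3 : MemLp (fun t : ℝ => |t|) 2 (gaussianReal 0 1) := by
    have := hid.norm
    simpa only [Real.norm_eq_abs] using this
  have h4 : MemLp (fun t : ℝ => a * |t|) 2 (gaussianReal 0 1) := h3.const_mul a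
  have h5 : MemLp (fun t : ℝ => |φ 0| + a * |t|) 2 (gaussianReal 0 1) :=
    (memLp_const (|φ 0|)).add h4
  have h6 : ∀ t, ‖φ t‖ ≤ ‖|φ 0| + a * |t|‖ := by
    intro t
    rw [Real.norm_eq_abs, Real.norm_eq_abs]
    refine le_trans ?_ (le_abs_self _)
    have h6 := hφ t 0
    simp only [sub_zero] at h6
    have h7 : |φ t| ≤ |φ t - φ 0| + |φ 0| := by
      have := abs_add_le (φ t - φ 0) (φ 0)
      simpa using this
    linarith
  exact h5.of_le hφm.aestronglyMeasurable (Filter.Eventually.of_forall h6)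

/-- One dimensional variance bound for a Lipschitz function of a standard Gaussian. -/
lemma var_lipschitz_one {φ : ℝ → ℝ} {a : ℝ} (hφm : Measurable φ) (ha : 0 ≤ a)
    (hφ : ∀ s t, |φ s - φ t| ≤ a * |s - t|) :
    ∫ t, (φ t - ∫ t', φ t' ∂(gaussianReal 0 1)) ^ 2 ∂(gaussianReal 0 1) ≤ a ^ 2 := by
  set γ := gaussianReal 0 1 with hγ
  have hid : MemLp (id : ℝ → ℝ) 2 γ := memLp_id_gaussianReal 2
  have h2 : Integrable (fun t : ℝ => t ^ 2) γ := by
    have := hid.integrable_sq
    simpa using this
  have hvar : ∫ t, t ^ 2 ∂γ = 1 := by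
    have h3 := variance_id_gaussianReal (μ := 0) (v := 1)
    rw [variance_eq_integral measurable_id.aemeasurable] at h3
    simpa [integral_id_gaussianReal] using h3
  have hbd : ∀ t, |φ t - φ 0| ≤ a * |t| := fun t => by
    have := hφ t 0
    simpa using this
  have hφL2 : MemLp φ 2 γ := memLp_of_lip_one hφm hφ
  have hL2 : MemLp (fun t => φ t - φ 0) 2 γ := hφL2.sub (memLp_const _)
  set m := ∫ t, φ t ∂γ with hm
  set c := φ 0 with hc
  have e1 : ∫ t, (φ t - m) ^ 2 ∂γ = (∫ t, φ t ^ 2 ∂γ) - 2 * m * m + m ^ 2 :=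
    integral_sq_sub_const hφL2 m
  have e2 : ∫ t, (φ t - c) ^ 2 ∂γ = (∫ t, φ t ^ 2 ∂γ) - 2 * c * m + c ^ 2 :=
    integral_sq_sub_const hφL2 c
  have hle : ∫ t, (φ t - c) ^ 2 ∂γ ≤ ∫ t, a ^ 2 * t ^ 2 ∂γ := by
    refine integral_mono hL2.integrable_sq (h2.const_mul _) fun t => ?_
    simp only
    rw [← mul_pow, ← sq_abs (φ t - c), ← sq_abs (a * t), abs_mul, abs_of_nonneg ha]
    exact pow_le_pow_left₀ (abs_nonneg _) (hbd t) 2
  rw [integral_const_mul, hvar, mul_one] at hle
  nlinarith [sq_nonneg (m - c)]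

section Step

variable {n : ℕ} {F : (Fin (n + 1) → ℝ) → ℝ} {a : ℝ}

lemma l1_continuous {m : ℕ} {F : (Fin m → ℝ) → ℝ} {a : ℝ} (ha : 0 ≤ a)
    (hF : ∀ x y, |F x - F y| ≤ a * ∑ i, |x i - y i|) : Continuous F := by
  have hlip : LipschitzWith (Real.toNNReal (a * m)) F := by
    refine LipschitzWith.of_dist_le_mul fun x y => ?_
    rw [Real.dist_eq, Real.coe_toNNReal _ (by positivity)]
    refine (hF x y).trans ?_
    rw [mul_assoc]
    refine mul_le_mul_of_nonneg_left ?_ ha
    calc ∑ i, |x i - y i| ≤ ∑ _i : Fin m, dist x y := Finset.sum_le_sum fun i _ => by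
          rw [← Real.dist_eq]
          exact dist_le_pi_dist x y i
      _ = _ := by simp
  exact hlip.continuous

lemma l1_growth {m : ℕ} {F : (Fin m → ℝ) → ℝ} {a : ℝ}
    (hF : ∀ x y, |F x - F y| ≤ a * ∑ i, |x i - y i|) (x : Fin m → ℝ) :
    |F x| ≤ |F 0| + a * ∑ i, |x i| := by
  have h1 := hF x 0
  simp only [Pi.zero_apply, sub_zero] at h1
  have h2 : |F x| ≤ |F x - F 0| + |F 0| := by
    have := abs_add_le (F x - F 0) (F 0)
    simpa using this
  linarith

lemma l1_memLp {m : ℕ} {F : (Fin m → ℝ) → ℝ} {a : ℝ} (ha : 0 ≤ a)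
    (hF : ∀ x y, |F x - F y| ≤ a * ∑ i, |x i - y i|) : MemLp F 2 (patternLaw m) :=
  memLp_of_linear_growth (l1_continuous ha hF).measurable (l1_growth hF)

lemma measurable_cons_left (h : Fin n → ℝ) :
    Measurable fun v : ℝ => (Fin.cons v h : Fin (n + 1) → ℝ) :=
  (cons_measurable (X := ℝ) (M := n)).comp (measurable_id.prodMk measurable_const)

lemma section_lip (hF : ∀ x y, |F x - F y| ≤ a * ∑ i, |x i - y i|) (h : Fin n → ℝ) (s t : ℝ) :
    |F (Fin.cons s h) - F (Fin.cons t h)| ≤ a * |s - t| := by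
  refine (hF _ _).trans (le_of_eq ?_)
  rw [Fin.sum_univ_succ]
  simp

lemma section_memLp (ha : 0 ≤ a) (hF : ∀ x y, |F x - F y| ≤ a * ∑ i, |x i - y i|)
    (h : Fin n → ℝ) : MemLp (fun v : ℝ => F (Fin.cons v h)) 2 (gaussianReal 0 1) :=
  memLp_of_lip_one ((l1_continuous ha hF).measurable.comp (measurable_cons_left h))
    (section_lip hF h)

/-- The average over the first coordinate. -/
noncomputable def firstAvg (F : (Fin (n + 1) → ℝ) → ℝ) (h : Fin n → ℝ) : ℝ :=
  ∫ v, F (Fin.cons v h) ∂(gaussianReal 0 1)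

lemma firstAvg_lip (ha : 0 ≤ a) (hF : ∀ x y, |F x - F y| ≤ a * ∑ i, |x i - y i|) (x y : Fin n → ℝ) :
    |firstAvg F x - firstAvg F y| ≤ a * ∑ i, |x i - y i| := by
  unfold firstAvg
  have hx := (section_memLp ha hF x).integrable (by norm_num)
  have hy := (section_memLp ha hF y).integrable (by norm_num)
  rw [← integral_sub hx hy]
  have h2 : ∀ v : ℝ, ‖F (Fin.cons v x) - F (Fin.cons v y)‖ ≤ a * ∑ i, |x i - y i| := by
    intro v
    rw [Real.norm_eq_abs]
    refine (hF _ _).trans (le_of_eq ?_)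
    rw [Fin.sum_univ_succ]
    simp
  have := norm_integral_le_of_norm_le_const (μ := gaussianReal 0 1)
    (Filter.Eventually.of_forall h2)
  simpa using this

lemma patternLaw_succ_eq : patternLaw (n + 1) = Measure.pi fun _ : Fin (n + 1) => gaussianReal 0 1 :=
  rfl

instance patternLaw_isProb (m : ℕ) : IsProbabilityMeasure (patternLaw m) := by
  unfold patternLaw
  infer_instance

lemma firstAvg_mean (ha : 0 ≤ a) (hF : ∀ x y, |F x - F y| ≤ a * ∑ i, |x i - y i|) :
    ∫ h, firstAvg F h ∂(patternLaw n) = ∫ z, F z ∂(patternLaw (n + 1)) := by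
  have hFi : Integrable F (patternLaw (n + 1)) := (l1_memLp ha hF).integrable (by norm_num)
  rw [patternLaw_succ_eq, integral_pi_succ (fun _ => gaussianReal 0 1) F hFi]
  rfl

lemma var_step (ha : 0 ≤ a) (hF : ∀ x y, |F x - F y| ≤ a * ∑ i, |x i - y i|)
    (ih : ∫ h, (firstAvg F h - ∫ z, F z ∂(patternLaw (n + 1))) ^ 2 ∂(patternLaw n) ≤ n * a ^ 2) :
    ∫ z, (F z - ∫ z', F z' ∂(patternLaw (n + 1))) ^ 2 ∂(patternLaw (n + 1)) ≤ (n + 1 : ℕ) * a ^ 2 := by
  set m := ∫ z, F z ∂(patternLaw (n + 1)) with hm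
  have hFL2 := l1_memLp ha hF
  have hAL2 : MemLp (firstAvg F) 2 (patternLaw n) := l1_memLp ha (firstAvg_lip ha hF)
  have hsqi : Integrable (fun z => (F z - m) ^ 2) (patternLaw (n + 1)) :=
    (hFL2.sub (memLp_const m)).integrable_sq
  rw [patternLaw_succ_eq] at hsqi ⊢
  rw [integral_pi_succ (fun _ => gaussianReal 0 1) _ hsqi]
  have hinner : ∀ h : Fin n → ℝ, ∫ v, (F (Fin.cons v h) - m) ^ 2 ∂(gaussianReal 0 1) ≤
      a ^ 2 + (firstAvg F h - m) ^ 2 := by
    intro h
    have hs := section_memLp ha hF h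
    have h1 := integral_sq_sub_const hs m
    have h2 := integral_sq_sub_const hs (firstAvg F h)
    have hmeas : Measurable fun v : ℝ => F (Fin.cons v h) :=
      (l1_continuous ha hF).measurable.comp (measurable_cons_left h)
    have h3 := var_lipschitz_one hmeas ha (section_lip hF h)
    have h5 : ∫ t, F (Fin.cons t h) ∂(gaussianReal 0 1) = firstAvg F h := rfl
    rw [h5] at h1 h2 h3
    nlinarith
  have hAsq : Integrable (fun h => (firstAvg F h - m) ^ 2) (patternLaw n) :=
    (hAL2.sub (memLp_const m)).integrable_sq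
  calc ∫ h, ∫ v, (F (Fin.cons v h) - m) ^ 2 ∂(gaussianReal 0 1) ∂(patternLaw n)
      ≤ ∫ h, (a ^ 2 + (firstAvg F h - m) ^ 2) ∂(patternLaw n) := by
        refine integral_mono_of_nonneg ?_ ((integrable_const _).add hAsq)
          (Filter.Eventually.of_forall hinner)
        exact Filter.Eventually.of_forall fun h => integral_nonneg fun v => sq_nonneg _
    _ = a ^ 2 + ∫ h, (firstAvg F h - m) ^ 2 ∂(patternLaw n) := by
        rw [integral_add (integrable_const _) hAsq]
        simp
    _ ≤ a ^ 2 + n * a ^ 2 := by linarith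
    _ = _ := by
        push_cast
        ring

end Step

/-- **Variance bound** for functions of a standard Gaussian vector that are Lipschitz in the
`ℓ¹` norm. -/
theorem var_lipschitz : ∀ (n : ℕ) (F : (Fin n → ℝ) → ℝ) (a : ℝ), 0 ≤ a →
    (∀ x y, |F x - F y| ≤ a * ∑ i, |x i - y i|) →
    ∫ z, (F z - ∫ z', F z' ∂(patternLaw n)) ^ 2 ∂(patternLaw n) ≤ n * a ^ 2 := by
  intro n
  induction n with
  | zero =>
    intro F a _ _
    have hconst : ∀ z : Fin 0 → ℝ, F z = F 0 := fun z => by rw [Subsingleton.elim z 0]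
    have : ∀ z : Fin 0 → ℝ, F z - ∫ z', F z' ∂(patternLaw 0) = 0 := by
      intro z
      rw [hconst z]
      simp_rw [hconst]
      simp
    simp [this]
  | succ n ih =>
    intro F a ha hF
    refine var_step ha hF ?_
    have h1 := ih (firstAvg F) a ha (firstAvg_lip ha hF)
    rw [firstAvg_mean ha hF] at h1
    exact h1

end Lipschitz

end Vale.Agent.Lib.P157
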