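import Vale.Agent.Lib.P157.RSPriorD

/-!
The planted law with patterns: the expectation functional and its basic properties.
-/

open MeasureTheory ProbabilityTheory
open scoped NNReal ENNReal Topology

set_option linter.unusedSectionVars false

namespace Vale.Agent.Lib.P157

/-- A normalized weight bounded away from zero and infinity. -/
structure Wgt (U : ℝ → ℝ) (c₁ c₂ : ℝ) : Prop where
  meas : Measurable U
  pos : 0 < c₁
  bd : ∀ u, c₁ ≤ U u ∧ U u ≤ c₂
  one : ∫ u, U u ∂(gaussianReal 0 1) = 1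

/-- The bound of the logarithm of a weight. -/
noncomputable def logBd (c₁ c₂ : ℝ) : ℝ := |Real.log c₁| + |Real.log c₂|

section Basic

variable {N k : ℕ} {U : ℝ → ℝ} {c₁ c₂ : ℝ}

/-- The pattern potential. -/
noncomputable def patPot (U : ℝ → ℝ) (G : Fin k → Fin N → ℝ) (x : Fin N → Bool) : ℝ :=
  ∑ a, Real.log (U (patternField x (G a)))

/-- The normalized partition function of the patterns. -/
noncomputable def patY (U : ℝ → ℝ) (G : Fin k → Fin N → ℝ) : ℝ :=
  gsum (patPot U G) / Fintype.card (Fin N → Bool)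

lemma logBd_nonneg : 0 ≤ logBd c₁ c₂ := by
  unfold logBd
  positivity

lemma Wgt.upos (hU : Wgt U c₁ c₂) (u : ℝ) : 0 < U u := lt_of_lt_of_le hU.pos (hU.bd u).1

lemma Wgt.abs_log_le (hU : Wgt U c₁ c₂) (u : ℝ) : |Real.log (U u)| ≤ logBd c₁ c₂ := by
  have h0 := hU.upos u
  have h1 := Real.log_le_log hU.pos (hU.bd u).1
  have h2 := Real.log_le_log h0 (hU.bd u).2
  unfold logBd
  rw [abs_le]
  constructor
  · linarith [neg_abs_le (Real.log c₁), abs_nonneg (Real.log c₂)]
  · linarith [le_abs_self (Real.log c₂), abs_nonneg (Real.log c₁)]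

lemma Wgt.abs_le (hU : Wgt U c₁ c₂) (u : ℝ) : |U u| ≤ c₂ :=
  abs_le_of_bounds hU.pos (hU.bd u).1 (hU.bd u).2

lemma Wgt.measurable_log (hU : Wgt U c₁ c₂) : Measurable fun u => Real.log (U u) :=
  Real.measurable_log.comp hU.meas

lemma Wgt.abs_patPot_le (hU : Wgt U c₁ c₂) (G : Fin k → Fin N → ℝ) (x : Fin N → Bool) :
    |patPot U G x| ≤ k * logBd c₁ c₂ := by
  unfold patPot
  calc _ ≤ ∑ a, |Real.log (U (patternField x (G a)))| := Finset.abs_sum_le_sum_abs _ _
    _ ≤ ∑ _a : Fin k, logBd c₁ c₂ := Finset.sum_le_sum fun a _ => hU.abs_log_le _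
    _ = _ := by simp

lemma Wgt.measurable_patPot (hU : Wgt U c₁ c₂) (x : Fin N → Bool) :
    Measurable fun G : Fin k → Fin N → ℝ => patPot U G x := by
  unfold patPot
  refine Finset.measurable_sum _ fun a _ => ?_
  exact hU.measurable_log.comp ((measurable_patternField x).comp (measurable_pi_apply a))

lemma Wgt.exp_patPot (hU : Wgt U c₁ c₂) (G : Fin k → Fin N → ℝ) (x : Fin N → Bool) :
    Real.exp (patPot U G x) = ∏ a, U (patternField x (G a)) := by
  unfold patPot
  rw [Real.exp_sum]
  exact Finset.prod_congr rfl fun a _ => Real.exp_log (hU.upos _)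

lemma patY_eq (U : ℝ → ℝ) (G : Fin k → Fin N → ℝ) :
    Real.log (patY U G) = logAvg (patPot U G) := rfl

lemma patY_pos (U : ℝ → ℝ) (G : Fin k → Fin N → ℝ) : 0 < patY U G := by
  unfold patY
  exact div_pos (gsum_pos _) (by exact_mod_cast Fintype.card_pos)

lemma Wgt.patY_le (hU : Wgt U c₁ c₂) (G : Fin k → Fin N → ℝ) :
    patY U G ≤ Real.exp (k * logBd c₁ c₂) := by
  unfold patY gsum
  have hcard : (0 : ℝ) < Fintype.card (Fin N → Bool) := by exact_mod_cast Fintype.card_pos
  rw [div_le_iff₀ hcard]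
  calc _ ≤ ∑ _x : Fin N → Bool, Real.exp (k * logBd c₁ c₂) := Finset.sum_le_sum fun x _ =>
        Real.exp_le_exp.mpr ((le_abs_self _).trans (hU.abs_patPot_le G x))
    _ = _ := by
        simp
        ring

lemma Wgt.abs_patY_le (hU : Wgt U c₁ c₂) (G : Fin k → Fin N → ℝ) :
    |patY U G| ≤ Real.exp (k * logBd c₁ c₂) := by
  rw [abs_of_pos (patY_pos U G)]
  exact hU.patY_le G

lemma Wgt.measurable_patY (hU : Wgt U c₁ c₂) :
    Measurable fun G : Fin k → Fin N → ℝ => patY U G := by
  unfold patY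
  exact (measurable_gsum (v := fun G => patPot U G) hU.measurable_patPot).div_const _

lemma patterns_isProb : IsProbabilityMeasure (patternsLaw N k) := by
  unfold patternsLaw
  infer_instance

lemma Wgt.integral_field (hU : Wgt U c₁ c₂) (hN : 1 ≤ N) (x : Fin N → Bool) :
    ∫ g, U (patternField x g) ∂(patternLaw N) = 1 := by
  rw [← hU.one, ← map_patternField hN x]
  exact (integral_map (measurable_patternField x).aemeasurable hU.meas.aestronglyMeasurable).symm

/-- The exponential of the pattern potential has mean one. -/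
lemma Wgt.integral_exp_patPot (hU : Wgt U c₁ c₂) (hN : 1 ≤ N) (x : Fin N → Bool) :
    ∫ G, Real.exp (patPot U G x) ∂(patternsLaw N k) = 1 := by
  simp_rw [hU.exp_patPot]
  unfold patternsLaw
  rw [integral_fintype_prod_eq_prod (𝕜 := ℝ) (fun _ : Fin k => fun g => U (patternField x g))]
  simp [hU.integral_field hN x]

lemma Wgt.integrable_exp_patPot (hU : Wgt U c₁ c₂) (x : Fin N → Bool) :
    Integrable (fun G : Fin k → Fin N → ℝ => Real.exp (patPot U G x)) (patternsLaw N k) := by
  have : IsProbabilityMeasure (patternsLaw N k) := patterns_isProb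
  refine integrable_of_bdd (Real.measurable_exp.comp (hU.measurable_patPot x))
    (B := Real.exp (k * logBd c₁ c₂)) fun G => ?_
  rw [abs_of_pos (Real.exp_pos _)]
  exact Real.exp_le_exp.mpr ((le_abs_self _).trans (hU.abs_patPot_le G x))

/-- The normalized partition function has mean one. -/
lemma Wgt.integral_patY (hU : Wgt U c₁ c₂) (hN : 1 ≤ N) :
    ∫ G, patY U G ∂(patternsLaw N k) = 1 := by
  unfold patY gsum
  rw [integral_div, integral_finsetSum _ fun x _ => hU.integrable_exp_patPot x]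
  simp_rw [hU.integral_exp_patPot hN]
  simp

end Basic

section EP

variable {N k : ℕ} {U : ℝ → ℝ} {c₁ c₂ : ℝ}

/-- The expectation under the planted law with `k` patterns. -/
noncomputable def EP (U : ℝ → ℝ) (F : (Fin k → Fin N → ℝ) → (Fin N → Bool) → (Fin N → ℝ) → ℝ) : ℝ :=
  ∫ G, patY U G * priorE (patPot U G) (F G) ∂(patternsLaw N k)

/-- The class of functions with linear growth in the Gaussian vector, uniformly in the patterns. -/
structure LinG (F : (Fin k → Fin N → ℝ) → (Fin N → Bool) → (Fin N → ℝ) → ℝ) (c a : ℝ) : Prop where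
  meas : ∀ xs, Measurable fun p : (Fin k → Fin N → ℝ) × (Fin N → ℝ) => F p.1 xs p.2
  bd : ∀ G xs z, |F G xs z| ≤ c + a * ∑ i, |z i|

/-- The mean of the `ℓ¹` norm of a Gaussian vector. -/
noncomputable def zMean (N : ℕ) : ℝ := ∫ z : Fin N → ℝ, ∑ i, |z i| ∂(patternLaw N)

lemma zMean_nonneg : 0 ≤ zMean N :=
  integral_nonneg fun z => Finset.sum_nonneg fun i _ => abs_nonneg _

lemma integrable_sum_abs : Integrable (fun z : Fin N → ℝ => ∑ i, |z i|) (patternLaw N) := by
  have := integrable_linear_bound (N := N) 0 1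
  simpa using this

lemma LinG.int {F : (Fin k → Fin N → ℝ) → (Fin N → Bool) → (Fin N → ℝ) → ℝ} {c a : ℝ}
    (hF : LinG F c a) (G : Fin k → Fin N → ℝ) (xs : Fin N → Bool) :
    Integrable (F G xs) (patternLaw N) := by
  refine integrable_of_linear_growth ?_ (hF.bd G xs)
  exact (hF.meas xs).comp (measurable_const.prodMk measurable_id)

lemma abs_priorE_le (v : (Fin N → Bool) → ℝ) {F : (Fin N → Bool) → (Fin N → ℝ) → ℝ} {c a : ℝ}
    (ha : 0 ≤ a) (hm : ∀ xs, Measurable (F xs)) (hb : ∀ xs z, |F xs z| ≤ c + a * ∑ i, |z i|) :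
    |priorE v F| ≤ c + a * zMean N := by
  unfold priorE
  have h1 : ∀ xs, |∫ z, F xs z ∂(patternLaw N)| ≤ c + a * zMean N := by
    intro xs
    have hi : Integrable (fun z : Fin N → ℝ => c + a * ∑ i, |z i|) (patternLaw N) :=
      integrable_linear_bound c a
    have h2 : Integrable (fun z => |F xs z|) (patternLaw N) :=
      (integrable_of_linear_growth (hm xs) (hb xs)).abs
    calc _ ≤ ∫ z, |F xs z| ∂(patternLaw N) := abs_integral_le_integral_abs
      _ ≤ ∫ z : Fin N → ℝ, (c + a * ∑ i, |z i|) ∂(patternLaw N) :=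
          integral_mono h2 hi (hb xs)
      _ = _ := by
          rw [integral_add (integrable_const _) (integrable_sum_abs.const_mul a), integral_const_mul]
          simp only [integral_const, probReal_univ, one_smul]
          rfl
  calc _ ≤ ∑ xs, |gwt v xs * ∫ z, F xs z ∂(patternLaw N)| := Finset.abs_sum_le_sum_abs _ _
    _ ≤ ∑ xs, gwt v xs * (c + a * zMean N) := Finset.sum_le_sum fun xs _ => by
        rw [abs_mul, abs_of_pos (gwt_pos v xs)]
        exact mul_le_mul_of_nonneg_left (h1 xs) (gwt_pos v xs).le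
    _ = _ := by rw [← Finset.sum_mul, sum_gwt, one_mul]

lemma measurable_gwt {Ω : Type*} [MeasurableSpace Ω] {S : Type*} [Fintype S] [Nonempty S]
    {v : Ω → S → ℝ} (hv : ∀ x, Measurable fun ω => v ω x) (x : S) :
    Measurable fun ω => gwt (v ω) x := by
  unfold gwt
  exact (Real.measurable_exp.comp (hv x)).div (measurable_gsum hv)

/-- Measurability of the prior expectation in a parameter. -/
lemma measurable_priorE_param {Ω : Type*} [MeasurableSpace Ω] {v : Ω → (Fin N → Bool) → ℝ}
    (hv : ∀ x, Measurable fun ω => v ω x) {F : Ω → (Fin N → Bool) → (Fin N → ℝ) → ℝ}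
    (hF : ∀ xs, Measurable fun p : Ω × (Fin N → ℝ) => F p.1 xs p.2) :
    Measurable fun ω => priorE (v ω) (F ω) := by
  unfold priorE
  refine Finset.measurable_sum _ fun xs _ => ?_
  refine (measurable_gwt hv xs).mul ?_
  exact ((hF xs).stronglyMeasurable.integral_prod_right' (ν := patternLaw N)).measurable

variable (hU : Wgt U c₁ c₂)

include hU in
lemma EP_integrable {F : (Fin k → Fin N → ℝ) → (Fin N → Bool) → (Fin N → ℝ) → ℝ} {c a : ℝ}
    (ha : 0 ≤ a) (hF : LinG F c a) :
    Integrable (fun G => patY U G * priorE (patPot U G) (F G)) (patternsLaw N k) := by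
  have : IsProbabilityMeasure (patternsLaw N k) := patterns_isProb
  refine integrable_of_bdd (hU.measurable_patY.mul
    (measurable_priorE_param hU.measurable_patPot hF.meas))
    (B := Real.exp (k * logBd c₁ c₂) * (c + a * zMean N)) fun G => ?_
  rw [abs_mul]
  have h1 := abs_priorE_le (patPot U G) ha
    (fun xs => (hF.meas xs).comp (measurable_const.prodMk measurable_id)) (hF.bd G)
  exact mul_le_mul (hU.abs_patY_le G) h1 (abs_nonneg _) (Real.exp_pos _).le

include hU in
lemma EP_add {F H : (Fin k → Fin N → ℝ) → (Fin N → Bool) → (Fin N → ℝ) → ℝ} {c a c' a' : ℝ}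
    (ha : 0 ≤ a) (ha' : 0 ≤ a') (hF : LinG F c a) (hH : LinG H c' a') :
    EP U (fun G xs z => F G xs z + H G xs z) = EP U F + EP U H := by
  unfold EP
  rw [← integral_add (EP_integrable hU ha hF) (EP_integrable hU ha' hH)]
  refine integral_congr_ae (Filter.Eventually.of_forall fun G => ?_)
  simp only
  rw [priorE_add _ (hF.int G) (hH.int G), mul_add]

include hU in
lemma EP_sub {F H : (Fin k → Fin N → ℝ) → (Fin N → Bool) → (Fin N → ℝ) → ℝ} {c a c' a' : ℝ}
    (ha : 0 ≤ a) (ha' : 0 ≤ a') (hF : LinG F c a) (hH : LinG H c' a') :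
    EP U (fun G xs z => F G xs z - H G xs z) = EP U F - EP U H := by
  unfold EP
  rw [← integral_sub (EP_integrable hU ha hF) (EP_integrable hU ha' hH)]
  refine integral_congr_ae (Filter.Eventually.of_forall fun G => ?_)
  simp only
  rw [priorE_sub _ (hF.int G) (hH.int G), mul_sub]

lemma EP_const_mul (F : (Fin k → Fin N → ℝ) → (Fin N → Bool) → (Fin N → ℝ) → ℝ) (b : ℝ) :
    EP U (fun G xs z => b * F G xs z) = b * EP U F := by
  unfold EP
  rw [← integral_const_mul]
  refine integral_congr_ae (Filter.Eventually.of_forall fun G => ?_)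
  simp only
  rw [priorE_const_mul]
  ring

include hU in
lemma EP_const (hN : 1 ≤ N) (b : ℝ) : EP (N := N) (k := k) U (fun _ _ _ => b) = b := by
  unfold EP
  simp_rw [priorE_const]
  rw [integral_mul_const, hU.integral_patY hN, one_mul]

include hU in
lemma EP_mono {F H : (Fin k → Fin N → ℝ) → (Fin N → Bool) → (Fin N → ℝ) → ℝ} {c a c' a' : ℝ}
    (ha : 0 ≤ a) (ha' : 0 ≤ a') (hF : LinG F c a) (hH : LinG H c' a')
    (h : ∀ G xs z, F G xs z ≤ H G xs z) : EP U F ≤ EP U H := by
  unfold EP
  refine integral_mono (EP_integrable hU ha hF) (EP_integrable hU ha' hH) fun G => ?_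
  exact mul_le_mul_of_nonneg_left (priorE_mono _ (hF.int G) (hH.int G) (h G)) (patY_pos U G).le

lemma LinG.add {F H : (Fin k → Fin N → ℝ) → (Fin N → Bool) → (Fin N → ℝ) → ℝ} {c a c' a' : ℝ}
    (hF : LinG F c a) (hH : LinG H c' a') :
    LinG (fun G xs z => F G xs z + H G xs z) (c + c') (a + a') where
  meas xs := (hF.meas xs).add (hH.meas xs)
  bd G xs z := by
    have h1 := hF.bd G xs z
    have h2 := hH.bd G xs z
    calc _ ≤ |F G xs z| + |H G xs z| := abs_add_le _ _
      _ ≤ _ := by linarith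

lemma LinG.sub {F H : (Fin k → Fin N → ℝ) → (Fin N → Bool) → (Fin N → ℝ) → ℝ} {c a c' a' : ℝ}
    (hF : LinG F c a) (hH : LinG H c' a') :
    LinG (fun G xs z => F G xs z - H G xs z) (c + c') (a + a') where
  meas xs := (hF.meas xs).sub (hH.meas xs)
  bd G xs z := by
    have h1 := hF.bd G xs z
    have h2 := hH.bd G xs z
    calc _ ≤ |F G xs z| + |H G xs z| := abs_sub _ _
      _ ≤ _ := by linarith

lemma LinG.const (b : ℝ) : LinG (N := N) (k := k) (fun _ _ _ => b) |b| 0 where
  meas _ := measurable_const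
  bd G xs z := by simp

lemma LinG.const_mul {F : (Fin k → Fin N → ℝ) → (Fin N → Bool) → (Fin N → ℝ) → ℝ} {c a : ℝ}
    (hF : LinG F c a) (b : ℝ) : LinG (fun G xs z => b * F G xs z) (|b| * c) (|b| * a) where
  meas xs := (hF.meas xs).const_mul b
  bd G xs z := by
    rw [abs_mul]
    have := mul_le_mul_of_nonneg_left (hF.bd G xs z) (abs_nonneg b)
    linarith

lemma LinG.abs {F : (Fin k → Fin N → ℝ) → (Fin N → Bool) → (Fin N → ℝ) → ℝ} {c a : ℝ}
    (hF : LinG F c a) : LinG (fun G xs z => |F G xs z|) c a where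
  meas xs := (hF.meas xs).abs
  bd G xs z := by
    rw [abs_abs]
    exact hF.bd G xs z

lemma LinG.of_bdd {F : (Fin k → Fin N → ℝ) → (Fin N → Bool) → (Fin N → ℝ) → ℝ} {b : ℝ}
    (hm : ∀ xs, Measurable fun p : (Fin k → Fin N → ℝ) × (Fin N → ℝ) => F p.1 xs p.2)
    (hb : ∀ G xs z, |F G xs z| ≤ b) : LinG F b 0 where
  meas := hm
  bd G xs z := by
    simpa using hb G xs z

end EP

end Vale.Agent.Lib.P157
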