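import Vale.Agent.Lib.P157.RSGlobal

/-!
The global free energy with a side channel and its derivatives.
-/

open MeasureTheory ProbabilityTheory
open scoped NNReal ENNReal Topology

set_option linter.unusedSectionVars false
set_option linter.unusedVariables false

namespace Vale.Agent.Lib.P157

section Joint

variable {N k : ℕ} {U : ℝ → ℝ} {c₁ c₂ : ℝ}

lemma Wgt.measurable_tilt_joint (hU : Wgt U c₁ c₂) (s : ℝ) (xs x : Fin N → Bool) :
    Measurable fun p : (Fin k → Fin N → ℝ) × (Fin N → ℝ) =>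
      tiltPot (patPot U p.1) s (obsv s xs p.2) x := by
  unfold tiltPot
  exact ((hU.measurable_patPot x).comp measurable_fst).add
    (((measurable_sdot x).comp ((measurable_obsv s xs).comp measurable_snd)).const_mul s)

lemma Wgt.measurable_mag_joint (hU : Wgt U c₁ c₂) (s : ℝ) (xs : Fin N → Bool) (i : Fin N) :
    Measurable fun p : (Fin k → Fin N → ℝ) × (Fin N → ℝ) =>
      magY (patPot U p.1) s i (obsv s xs p.2) :=
  measurable_gavg (v := fun p : (Fin k → Fin N → ℝ) × (Fin N → ℝ) =>
      tiltPot (patPot U p.1) s (obsv s xs p.2)) (a := fun _ x => spinValue (x i))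
    (hU.measurable_tilt_joint s xs) (fun _ => measurable_const)

lemma Wgt.measurable_corr_joint (hU : Wgt U c₁ c₂) (s : ℝ) (xs : Fin N → Bool) (i j : Fin N) :
    Measurable fun p : (Fin k → Fin N → ℝ) × (Fin N → ℝ) =>
      corrY (patPot U p.1) s i j (obsv s xs p.2) :=
  measurable_gcov (v := fun p : (Fin k → Fin N → ℝ) × (Fin N → ℝ) =>
      tiltPot (patPot U p.1) s (obsv s xs p.2))
    (a := fun _ x => spinValue (x i)) (b := fun _ x => spinValue (x j))
    (hU.measurable_tilt_joint s xs) (fun _ => measurable_const) (fun _ => measurable_const)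

lemma Wgt.measurable_q_joint (hU : Wgt U c₁ c₂) (s : ℝ) (xs : Fin N → Bool) :
    Measurable fun p : (Fin k → Fin N → ℝ) × (Fin N → ℝ) =>
      qY (patPot U p.1) s (obsv s xs p.2) := by
  simp_rw [qY_eq]
  exact (Finset.measurable_sum _ fun i _ => (hU.measurable_mag_joint s xs i).pow_const 2).div_const _

lemma Wgt.measurable_c2_joint (hU : Wgt U c₁ c₂) (s : ℝ) (xs : Fin N → Bool) :
    Measurable fun p : (Fin k → Fin N → ℝ) × (Fin N → ℝ) =>
      c2Y (patPot U p.1) s (obsv s xs p.2) := by
  simp_rw [c2Y_eq]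
  exact (Finset.measurable_sum _ fun i _ => Finset.measurable_sum _ fun j _ =>
    (hU.measurable_corr_joint s xs i j).pow_const 2).div_const _

lemma Wgt.measurable_tc_joint (hU : Wgt U c₁ c₂) (s : ℝ) (xs : Fin N → Bool) :
    Measurable fun p : (Fin k → Fin N → ℝ) × (Fin N → ℝ) =>
      tcY (patPot U p.1) s (obsv s xs p.2) := by
  unfold tcY
  exact (Finset.measurable_sum _ fun j _ => Finset.measurable_sum _ fun i _ =>
    ((hU.measurable_mag_joint s xs j).mul (hU.measurable_mag_joint s xs i)).mul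
      (hU.measurable_corr_joint s xs i j)).div_const _

lemma Wgt.measurable_sideLog_joint (hU : Wgt U c₁ c₂) (s : ℝ) (xs : Fin N → Bool) :
    Measurable fun p : (Fin k → Fin N → ℝ) × (Fin N → ℝ) =>
      sideLog (patPot U p.1) s xs p.2 := by
  unfold sideLog
  exact (measurable_logAvg (v := fun p : (Fin k → Fin N → ℝ) × (Fin N → ℝ) =>
    tiltPot (patPot U p.1) s (obsv s xs p.2)) (hU.measurable_tilt_joint s xs)).sub_const _

lemma Wgt.measurable_ell_joint (hU : Wgt U c₁ c₂) (s : ℝ) (xs : Fin N → Bool) :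
    Measurable fun p : (Fin k → Fin N → ℝ) × (Fin N → ℝ) =>
      ellOf (patPot U p.1) s xs p.2 := by
  unfold ellOf drift
  refine (Finset.measurable_sum _ fun j _ => ?_).sub_const _
  exact (((measurable_pi_apply j).comp measurable_snd).const_add _).mul
    (hU.measurable_mag_joint s xs j)

lemma c2Y_le_four (hN : 1 ≤ N) (v : (Fin N → Bool) → ℝ) (s : ℝ) (y : Fin N → ℝ) :
    c2Y v s y ≤ 4 := by
  have hN' : (0 : ℝ) < N := by exact_mod_cast hN
  rw [c2Y_eq, div_le_iff₀ (by positivity)]
  calc ∑ i, ∑ j, corrY v s i j y ^ 2 ≤ ∑ _i : Fin N, ∑ _j : Fin N, (4 : ℝ) :=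
        Finset.sum_le_sum fun i _ => Finset.sum_le_sum fun j _ =>
          (le_abs_self _).trans (abs_corrY_sq_le v s i j y)
    _ = _ := by
        simp
        ring

lemma abs_c2Y_le (hN : 1 ≤ N) (v : (Fin N → Bool) → ℝ) (s : ℝ) (y : Fin N → ℝ) :
    |c2Y v s y| ≤ 4 := by
  rw [abs_of_nonneg (c2Y_nonneg v s y)]
  exact c2Y_le_four hN v s y

lemma abs_tcY_le_two (hN : 1 ≤ N) (v : (Fin N → Bool) → ℝ) (s : ℝ) (y : Fin N → ℝ) :
    |tcY v s y| ≤ 2 := by
  refine (abs_tcY_le v s hN y).trans ?_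
  rw [show (2 : ℝ) = Real.sqrt (2 ^ 2) by rw [Real.sqrt_sq (by norm_num)]]
  refine Real.sqrt_le_sqrt ?_
  have := c2Y_le_four hN v s y
  norm_num
  linarith

lemma linG_sideLog (hU : Wgt U c₁ c₂) (s : ℝ) :
    LinG (N := N) (k := k) (fun G xs z => sideLog (patPot U G) s xs z)
      (k * logBd c₁ c₂ + s ^ 2 * N + s ^ 2 * N / 2) |s| where
  meas xs := hU.measurable_sideLog_joint s xs
  bd G xs z := abs_sideLog_le (patPot U G) (hU.abs_patPot_le G) s xs z

lemma linG_ell (hU : Wgt U c₁ c₂) (s : ℝ) :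
    LinG (N := N) (k := k) (fun G xs z => ellOf (patPot U G) s xs z)
      (3 * (|s| + 1) * N) 1 where
  meas xs := hU.measurable_ell_joint s xs
  bd G xs z := abs_ellOf_le (patPot U G) (s := s) (s₀ := s) (by simp) xs z

lemma linG_q (hU : Wgt U c₁ c₂) (hN : 1 ≤ N) (s : ℝ) :
    LinG (N := N) (k := k) (fun G xs z => qY (patPot U G) s (obsv s xs z)) 1 0 :=
  LinG.of_bdd (fun xs => hU.measurable_q_joint s xs) fun G xs z => abs_qY_le _ s hN _

lemma linG_c2 (hU : Wgt U c₁ c₂) (hN : 1 ≤ N) (s : ℝ) :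
    LinG (N := N) (k := k) (fun G xs z => c2Y (patPot U G) s (obsv s xs z)) 4 0 :=
  LinG.of_bdd (fun xs => hU.measurable_c2_joint s xs) fun G xs z => abs_c2Y_le hN _ s _

lemma linG_tc (hU : Wgt U c₁ c₂) (hN : 1 ≤ N) (s : ℝ) :
    LinG (N := N) (k := k) (fun G xs z => tcY (patPot U G) s (obsv s xs z)) 2 0 :=
  LinG.of_bdd (fun xs => hU.measurable_tc_joint s xs) fun G xs z => abs_tcY_le_two hN _ s _

end Joint

section Deriv

variable {N k : ℕ} {U : ℝ → ℝ} {c₁ c₂ : ℝ}

/-- The global free energy with the side channel. -/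
noncomputable def eG (U : ℝ → ℝ) (N k : ℕ) (s : ℝ) : ℝ :=
  (∫ G, patY U G * eP (patPot U G) s ∂(patternsLaw N k)) / N

/-- The mean self overlap. -/
noncomputable def QG (U : ℝ → ℝ) (N k : ℕ) (s : ℝ) : ℝ :=
  ∫ G, patY U G * qbar (patPot U G) s ∂(patternsLaw N k)

/-- The mean of the sum of squared covariances. -/
noncomputable def C2G (U : ℝ → ℝ) (N k : ℕ) (s : ℝ) : ℝ :=
  ∫ G, patY U G * c2bar (patPot U G) s ∂(patternsLaw N k)

lemma eG_eq (U : ℝ → ℝ) (N k : ℕ) (s : ℝ) :
    eG U N k s = EP (N := N) (k := k) U (fun G xs z => sideLog (patPot U G) s xs z) / N := rfl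

lemma QG_eq (U : ℝ → ℝ) (N k : ℕ) (s : ℝ) :
    QG U N k s = EP (N := N) (k := k) U (fun G xs z => qY (patPot U G) s (obsv s xs z)) := rfl

lemma C2G_eq (U : ℝ → ℝ) (N k : ℕ) (s : ℝ) :
    C2G U N k s = EP (N := N) (k := k) U (fun G xs z => c2Y (patPot U G) s (obsv s xs z)) := rfl

variable (hU : Wgt U c₁ c₂) (hN : 1 ≤ N)

include hU hN in
lemma QG_nonneg (s : ℝ) : 0 ≤ QG U N k s := by
  refine integral_nonneg fun G => mul_nonneg (patY_pos U G).le ?_
  unfold qbar priorE
  refine Finset.sum_nonneg fun xs _ => mul_nonneg (gwt_pos _ xs).le ?_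
  exact integral_nonneg fun z => qY_nonneg _ s _

include hU hN in
lemma QG_le_one (s : ℝ) : QG U N k s ≤ 1 := by
  have h1 := EP_mono hU (k := k) le_rfl le_rfl (linG_q hU hN s) (LinG.const 1)
    (fun G xs z => qY_le_one _ s hN _)
  rw [EP_const hU hN] at h1
  exact h1

include hU hN in
lemma C2G_nonneg (s : ℝ) : 0 ≤ C2G U N k s := by
  refine integral_nonneg fun G => mul_nonneg (patY_pos U G).le ?_
  unfold c2bar priorE
  refine Finset.sum_nonneg fun xs _ => mul_nonneg (gwt_pos _ xs).le ?_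
  exact integral_nonneg fun z => c2Y_nonneg _ s _

include hN in
lemma abs_qbar_le (v : (Fin N → Bool) → ℝ) (s : ℝ) : |qbar v s| ≤ 1 := by
  unfold qbar
  have := abs_priorE_le (a := 0) (c := 1) v (F := fun xs z => qY v s (obsv s xs z)) le_rfl
    (fun xs => (measurable_qY v s).comp (measurable_obsv s xs))
    (fun xs z => by simpa using abs_qY_le v s hN _)
  simpa using this

include hN in
lemma abs_c2bar_le (v : (Fin N → Bool) → ℝ) (s : ℝ) : |c2bar v s| ≤ 4 := by
  unfold c2bar
  have := abs_priorE_le (a := 0) (c := 4) v (F := fun xs z => c2Y v s (obsv s xs z)) le_rfl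
    (fun xs => (measurable_c2Y v s).comp (measurable_obsv s xs))
    (fun xs z => by simpa using abs_c2Y_le hN v s _)
  simpa using this

include hU in
lemma measurable_qbar_param (s : ℝ) :
    Measurable fun G : Fin k → Fin N → ℝ => qbar (patPot U G) s :=
  measurable_priorE_param (F := fun (G : Fin k → Fin N → ℝ) xs z =>
      qY (patPot U G) s (obsv s xs z)) hU.measurable_patPot (fun xs => hU.measurable_q_joint s xs)

include hU in
lemma measurable_c2bar_param (s : ℝ) :
    Measurable fun G : Fin k → Fin N → ℝ => c2bar (patPot U G) s :=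
  measurable_priorE_param (F := fun (G : Fin k → Fin N → ℝ) xs z =>
      c2Y (patPot U G) s (obsv s xs z)) hU.measurable_patPot (fun xs => hU.measurable_c2_joint s xs)

include hU in
lemma measurable_eP_param (s : ℝ) :
    Measurable fun G : Fin k → Fin N → ℝ => eP (patPot U G) s :=
  measurable_priorE_param (F := fun (G : Fin k → Fin N → ℝ) xs z =>
      sideLog (patPot U G) s xs z) hU.measurable_patPot
    (fun xs => hU.measurable_sideLog_joint s xs)

/-- Differentiation under the integral over the patterns, for bounded derivatives. -/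
lemma hasDerivAt_integral_patterns {F F' : ℝ → (Fin k → Fin N → ℝ) → ℝ} {s₀ B₀ B : ℝ}
    (hFm : ∀ s, Measurable (F s)) (hF'm : Measurable (F' s₀)) (hB₀ : ∀ G, |F s₀ G| ≤ B₀)
    (hb : ∀ s G, |s - s₀| < 1 → |F' s G| ≤ B) (hd : ∀ s G, HasDerivAt (fun u => F u G) (F' s G) s) :
    HasDerivAt (fun s => ∫ G, F s G ∂(patternsLaw N k)) (∫ G, F' s₀ G ∂(patternsLaw N k)) s₀ := by
  have : IsProbabilityMeasure (patternsLaw N k) := patterns_isProb
  have hs : Metric.ball s₀ 1 ∈ 𝓝 s₀ := Metric.ball_mem_nhds _ one_pos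
  refine (hasDerivAt_integral_of_dominated_loc_of_deriv_le (bound := fun _ => B) hs
    (Filter.Eventually.of_forall fun s => (hFm s).aestronglyMeasurable)
    (integrable_of_bdd (hFm s₀) hB₀) hF'm.aestronglyMeasurable
    (Filter.Eventually.of_forall fun G s hs => ?_) (integrable_const _)
    (Filter.Eventually.of_forall fun G s _ => hd s G)).2
  rw [Real.norm_eq_abs]
  exact hb s G (by simpa [Real.dist_eq] using hs)

include hU hN in
lemma abs_eP_le (s : ℝ) (G : Fin k → Fin N → ℝ) :
    |eP (patPot U G) s| ≤ (k * logBd c₁ c₂ + s ^ 2 * N + s ^ 2 * N / 2) + |s| * zMean N := by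
  exact abs_priorE_le _ (abs_nonneg s) (fun xs => measurable_sideLog _ s xs)
    (abs_sideLog_le (patPot U G) (hU.abs_patPot_le G) s)

include hU hN in
/-- The derivative of the global free energy. -/
theorem hasDerivAt_eG (s₀ : ℝ) : HasDerivAt (eG U N k) (s₀ * QG U N k s₀) s₀ := by
  have hN' : (N : ℝ) ≠ 0 := by
    have : (0 : ℝ) < N := by exact_mod_cast hN
    exact this.ne'
  have h1 : HasDerivAt (fun s => ∫ G, patY U G * eP (patPot U G) s ∂(patternsLaw N k))
      (∫ G, patY U G * (s₀ * N * qbar (patPot U G) s₀) ∂(patternsLaw N k)) s₀ := by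
    refine hasDerivAt_integral_patterns
      (F := fun s G => patY U G * eP (patPot U G) s)
      (F' := fun s G => patY U G * (s * N * qbar (patPot U G) s))
      (B₀ := Real.exp (k * logBd c₁ c₂) *
        ((k * logBd c₁ c₂ + s₀ ^ 2 * N + s₀ ^ 2 * N / 2) + |s₀| * zMean N))
      (B := Real.exp (k * logBd c₁ c₂) * ((|s₀| + 1) * N * 1))
      (fun s => hU.measurable_patY.mul (measurable_eP_param hU s))
      (hU.measurable_patY.mul ((measurable_qbar_param hU s₀).const_mul _)) (fun G => ?_)
      (fun s G hs => ?_) (fun s G => (hasDerivAt_eP _ hN s).const_mul _)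
    · rw [abs_mul]
      exact mul_le_mul (hU.abs_patY_le G) (abs_eP_le hU hN s₀ G) (abs_nonneg _) (Real.exp_pos _).le
    · rw [abs_mul]
      refine mul_le_mul (hU.abs_patY_le G) ?_ (abs_nonneg _) (Real.exp_pos _).le
      have hs1 : |s| ≤ |s₀| + 1 := by
        have := abs_sub_abs_le_abs_sub s s₀
        linarith
      rw [abs_mul, abs_mul, Nat.abs_cast]
      exact mul_le_mul (mul_le_mul_of_nonneg_right hs1 (Nat.cast_nonneg N)) (abs_qbar_le hN _ s)
        (abs_nonneg _) (by positivity)
  have h2 := h1.div_const (N : ℝ)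
  refine h2.congr_deriv ?_
  have e : ∀ G : Fin k → Fin N → ℝ, patY U G * (s₀ * N * qbar (patPot U G) s₀) =
      s₀ * N * (patY U G * qbar (patPot U G) s₀) := fun G => by ring
  simp_rw [e]
  rw [integral_const_mul]
  unfold QG
  field_simp

include hU hN in
/-- The derivative of the mean overlap. -/
theorem hasDerivAt_QG (s₀ : ℝ) :
    HasDerivAt (QG U N k) (2 * s₀ * N * C2G U N k s₀) s₀ := by
  have h1 : HasDerivAt (QG U N k)
      (∫ G, patY U G * (2 * s₀ * N * c2bar (patPot U G) s₀) ∂(patternsLaw N k)) s₀ := by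
    refine hasDerivAt_integral_patterns
      (F := fun s G => patY U G * qbar (patPot U G) s)
      (F' := fun s G => patY U G * (2 * s * N * c2bar (patPot U G) s))
      (B₀ := Real.exp (k * logBd c₁ c₂) * 1)
      (B := Real.exp (k * logBd c₁ c₂) * (2 * (|s₀| + 1) * N * 4))
      (fun s => hU.measurable_patY.mul (measurable_qbar_param hU s))
      (hU.measurable_patY.mul ((measurable_c2bar_param hU s₀).const_mul _)) (fun G => ?_)
      (fun s G hs => ?_) (fun s G => (hasDerivAt_qbar _ hN s).const_mul _)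
    · rw [abs_mul]
      exact mul_le_mul (hU.abs_patY_le G) (abs_qbar_le hN _ s₀) (abs_nonneg _) (Real.exp_pos _).le
    · rw [abs_mul]
      refine mul_le_mul (hU.abs_patY_le G) ?_ (abs_nonneg _) (Real.exp_pos _).le
      have hs1 : |s| ≤ |s₀| + 1 := by
        have := abs_sub_abs_le_abs_sub s s₀
        linarith
      rw [abs_mul, abs_mul, abs_mul, Nat.abs_cast]
      have h3 : |(2 : ℝ)| = 2 := by norm_num
      rw [h3]
      refine mul_le_mul ?_ (abs_c2bar_le hN _ s) (abs_nonneg _) (by positivity)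
      refine mul_le_mul_of_nonneg_right ?_ (Nat.cast_nonneg N)
      linarith
  refine h1.congr_deriv ?_
  have e : ∀ G : Fin k → Fin N → ℝ, patY U G * (2 * s₀ * N * c2bar (patPot U G) s₀) =
      2 * s₀ * N * (patY U G * c2bar (patPot U G) s₀) := fun G => by ring
  simp_rw [e]
  rw [integral_const_mul]
  rfl

include hU hN in
lemma QG_mono {a b : ℝ} (ha : 0 ≤ a) (hab : a ≤ b) : QG U N k a ≤ QG U N k b := by
  have hm : MonotoneOn (QG U N k) (Set.Ici 0) := by
    refine monotoneOn_of_deriv_nonneg (convex_Ici 0)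
      (fun s _ => (hasDerivAt_QG hU hN s).continuousAt.continuousWithinAt)
      (fun s _ => (hasDerivAt_QG hU hN s).differentiableAt.differentiableWithinAt) fun s hs => ?_
    rw [(hasDerivAt_QG hU hN s).deriv]
    rw [interior_Ici] at hs
    have hs' : 0 < s := hs
    have := C2G_nonneg (k := k) hU hN s
    positivity
  exact hm ha (ha.trans hab) hab

include hU hN in
/-- Lower tangent bound for the global free energy. -/
lemma eG_tan_lower {a b : ℝ} (ha : 0 ≤ a) (hab : a ≤ b) :
    (b ^ 2 - a ^ 2) * QG U N k a / 2 ≤ eG U N k b - eG U N k a := by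
  have hd : ∀ u, HasDerivAt (fun u => eG U N k u - u ^ 2 * QG U N k a / 2)
      (u * QG U N k u - u * QG U N k a) u := by
    intro u
    have h1 := hasDerivAt_eG (k := k) hU hN u
    have h2 : HasDerivAt (fun u : ℝ => u ^ 2 * QG U N k a / 2)
        (2 * u ^ 1 * 1 * QG U N k a / 2) u :=
      (((hasDerivAt_id' u).fun_pow 2).mul_const _).div_const _
    refine (h1.sub h2).congr_deriv ?_
    ring
  have hm : MonotoneOn (fun u => eG U N k u - u ^ 2 * QG U N k a / 2) (Set.Ici a) := by
    refine monotoneOn_of_deriv_nonneg (convex_Ici a)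
      (fun s _ => (hd s).continuousAt.continuousWithinAt)
      (fun s _ => (hd s).differentiableAt.differentiableWithinAt) fun s hs => ?_
    rw [(hd s).deriv]
    rw [interior_Ici] at hs
    have hs' : a < s := hs
    have h3 := QG_mono (k := k) hU hN ha hs'.le
    have h4 : 0 ≤ s := by linarith
    nlinarith
  have := hm (Set.mem_Ici.mpr le_rfl) (Set.mem_Ici.mpr hab) hab
  simp only at this
  linarith

include hU hN in
/-- Upper tangent bound for the global free energy. -/
lemma eG_tan_upper {a b : ℝ} (ha : 0 ≤ a) (hab : a ≤ b) :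
    eG U N k b - eG U N k a ≤ (b ^ 2 - a ^ 2) * QG U N k b / 2 := by
  have hd : ∀ u, HasDerivAt (fun u => u ^ 2 * QG U N k b / 2 - eG U N k u)
      (u * QG U N k b - u * QG U N k u) u := by
    intro u
    have h1 := hasDerivAt_eG (k := k) hU hN u
    have h2 : HasDerivAt (fun u : ℝ => u ^ 2 * QG U N k b / 2)
        (2 * u ^ 1 * 1 * QG U N k b / 2) u :=
      (((hasDerivAt_id' u).fun_pow 2).mul_const _).div_const _
    refine (h2.sub h1).congr_deriv ?_
    ring
  have hm : MonotoneOn (fun u => u ^ 2 * QG U N k b / 2 - eG U N k u) (Set.Icc a b) := by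
    refine monotoneOn_of_deriv_nonneg (convex_Icc a b)
      (fun s _ => (hd s).continuousAt.continuousWithinAt)
      (fun s _ => (hd s).differentiableAt.differentiableWithinAt) fun s hs => ?_
    rw [(hd s).deriv]
    rw [interior_Icc] at hs
    have h3 := QG_mono (k := k) hU hN (ha.trans hs.1.le) hs.2.le
    have h4 : 0 ≤ s := by linarith [hs.1]
    nlinarith
  have := hm (Set.left_mem_Icc.mpr hab) (Set.right_mem_Icc.mpr hab) hab
  simp only at this
  linarith

end Deriv

end Vale.Agent.Lib.P157
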