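import Vale.Agent.Lib.P157.RSGlobal2

/-!
The increment of the global free energy when one pattern is added.
-/

open MeasureTheory ProbabilityTheory
open scoped NNReal ENNReal Topology

set_option linter.unusedSectionVars false
set_option linter.unusedVariables false

namespace Vale.Agent.Lib.P157

section Alg

variable {N k : ℕ} {U : ℝ → ℝ} {c₁ c₂ : ℝ}

/-- The potential with one more pattern. -/
noncomputable def vplus (U : ℝ → ℝ) (v : (Fin N → Bool) → ℝ) (g : Fin N → ℝ)
    (x : Fin N → Bool) : ℝ := v x + Real.log (U (patternField x g))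

/-- The normalized partition function of a potential. -/
noncomputable def Yv (v : (Fin N → Bool) → ℝ) : ℝ := gsum v / Fintype.card (Fin N → Bool)

/-- The conditional mean of a new weight. -/
noncomputable def piA (U : ℝ → ℝ) (v : (Fin N → Bool) → ℝ) (s : ℝ) (g y : Fin N → ℝ) : ℝ :=
  gavg (tiltPot v s y) fun x => U (patternField x g)

lemma patPot_cons (U : ℝ → ℝ) (g : Fin N → ℝ) (G : Fin k → Fin N → ℝ) :
    patPot U (Fin.cons g G : Fin (k + 1) → Fin N → ℝ) = vplus U (patPot U G) g := by
  funext x
  unfold patPot vplus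
  rw [Fin.sum_univ_succ]
  simp only [Fin.cons_zero, Fin.cons_succ]
  ring

lemma patY_eq_Yv (U : ℝ → ℝ) (G : Fin k → Fin N → ℝ) : patY U G = Yv (patPot U G) := rfl

lemma Yv_mul_gwt (v : (Fin N → Bool) → ℝ) (xs : Fin N → Bool) :
    Yv v * gwt v xs = Real.exp (v xs) / Fintype.card (Fin N → Bool) := by
  unfold Yv gwt
  have h := (gsum_pos v).ne'
  have hcard : (Fintype.card (Fin N → Bool) : ℝ) ≠ 0 := by
    have : (0 : ℝ) < Fintype.card (Fin N → Bool) := by exact_mod_cast Fintype.card_pos
    exact this.ne'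
  field_simp

lemma Yv_gwt_vplus (hU : Wgt U c₁ c₂) (v : (Fin N → Bool) → ℝ) (g : Fin N → ℝ)
    (xs : Fin N → Bool) :
    Yv (vplus U v g) * gwt (vplus U v g) xs = Yv v * gwt v xs * U (patternField xs g) := by
  rw [Yv_mul_gwt, Yv_mul_gwt]
  unfold vplus
  rw [Real.exp_add, Real.exp_log (hU.upos _)]
  ring

/-- The logarithm of an average after a reweighting. -/
lemma logAvg_add_log {S : Type*} [Fintype S] [Nonempty S] (w a : S → ℝ) (ha : ∀ x, 0 < a x) :
    logAvg (fun x => w x + Real.log (a x)) = logAvg w + Real.log (gavg w a) := by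
  have hg := gsum_pos w
  have hcard : (0 : ℝ) < Fintype.card S := by exact_mod_cast Fintype.card_pos
  have hav : 0 < gavg w a := by
    unfold gavg
    exact Finset.sum_pos (fun x _ => mul_pos (gwt_pos w x) (ha x)) Finset.univ_nonempty
  have h1 : gsum (fun x => w x + Real.log (a x)) = gsum w * gavg w a := by
    unfold gsum gavg gwt gsum
    rw [Finset.mul_sum]
    refine Finset.sum_congr rfl fun x _ => ?_
    rw [Real.exp_add, Real.exp_log (ha x)]
    have hg' : ∑ x, Real.exp (w x) ≠ 0 := hg.ne'
    field_simp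
  unfold logAvg
  rw [h1, mul_div_right_comm, Real.log_mul (div_pos hg hcard).ne' hav.ne']

lemma tiltPot_vplus (U : ℝ → ℝ) (v : (Fin N → Bool) → ℝ) (s : ℝ) (g y : Fin N → ℝ)
    (x : Fin N → Bool) :
    tiltPot (vplus U v g) s y x = tiltPot v s y x + Real.log (U (patternField x g)) := by
  unfold tiltPot vplus
  ring

lemma piA_bounds (hU : Wgt U c₁ c₂) (v : (Fin N → Bool) → ℝ) (s : ℝ) (g y : Fin N → ℝ) :
    c₁ ≤ piA U v s g y ∧ piA U v s g y ≤ c₂ :=
  fieldAvg_bounds (tiltPot v s y) hU.meas hU.pos hU.bd g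

lemma piA_pos (hU : Wgt U c₁ c₂) (v : (Fin N → Bool) → ℝ) (s : ℝ) (g y : Fin N → ℝ) :
    0 < piA U v s g y := lt_of_lt_of_le hU.pos (piA_bounds hU v s g y).1

lemma sideLog_vplus (hU : Wgt U c₁ c₂) (v : (Fin N → Bool) → ℝ) (s : ℝ) (g : Fin N → ℝ)
    (xs : Fin N → Bool) (z : Fin N → ℝ) :
    sideLog (vplus U v g) s xs z =
      sideLog v s xs z + Real.log (piA U v s g (obsv s xs z)) := by
  unfold sideLog piA
  have h : tiltPot (vplus U v g) s (obsv s xs z) = fun x =>
      tiltPot v s (obsv s xs z) x + Real.log (U (patternField x g)) :=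
    funext fun x => tiltPot_vplus U v s g _ x
  rw [h, logAvg_add_log _ _ (fun x => hU.upos _)]
  ring

lemma abs_log_of_bounds (hc₁ : 0 < c₁) {t : ℝ} (h1 : c₁ ≤ t) (h2 : t ≤ c₂) :
    |Real.log t| ≤ logBd c₁ c₂ := by
  have h0 : 0 < t := lt_of_lt_of_le hc₁ h1
  have h3 := Real.log_le_log hc₁ h1
  have h4 := Real.log_le_log h0 h2
  unfold logBd
  rw [abs_le]
  constructor
  · linarith [neg_abs_le (Real.log c₁), abs_nonneg (Real.log c₂)]
  · linarith [le_abs_self (Real.log c₂), abs_nonneg (Real.log c₁)]

lemma measurable_piA_joint (hU : Wgt U c₁ c₂) (v : (Fin N → Bool) → ℝ) (s : ℝ) :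
    Measurable fun p : (Fin N → ℝ) × (Fin N → ℝ) => piA U v s p.1 p.2 := by
  refine measurable_gavg (v := fun p : (Fin N → ℝ) × (Fin N → ℝ) => tiltPot v s p.2)
    (a := fun p x => U (patternField x p.1)) (fun x => ?_) (fun x => ?_)
  · unfold tiltPot
    exact ((measurable_sdot x).comp measurable_snd |>.const_mul s).const_add _
  · exact hU.meas.comp ((measurable_patternField x).comp measurable_fst)

lemma measurable_piA_right (hU : Wgt U c₁ c₂) (v : (Fin N → Bool) → ℝ) (s : ℝ) (g : Fin N → ℝ) :
    Measurable fun y => piA U v s g y := by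
  refine measurable_gavg (v := fun y => tiltPot v s y)
    (a := fun _ x => U (patternField x g)) (fun x => ?_) (fun x => measurable_const)
  unfold tiltPot
  exact ((measurable_sdot x).const_mul s).const_add _

/-- The identity for a fixed new pattern. -/
lemma inc_fixed_g (hU : Wgt U c₁ c₂) (v : (Fin N → Bool) → ℝ) (s : ℝ) (g : Fin N → ℝ) :
    Yv (vplus U v g) * eP (vplus U v g) s =
      Yv v * ((∑ xs, gwt v xs * U (patternField xs g) * ∫ z, sideLog v s xs z ∂(patternLaw N)) +
        priorE v fun xs z => entFn (piA U v s g (obsv s xs z))) := by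
  have hΞ : Measurable fun y => Real.log (piA U v s g y) :=
    Real.measurable_log.comp (measurable_piA_right hU v s g)
  have hB : ∀ y, |Real.log (piA U v s g y)| ≤ logBd c₁ c₂ := fun y =>
    abs_log_of_bounds hU.pos (piA_bounds hU v s g y).1 (piA_bounds hU v s g y).2
  have hn := nishimori v s (fun x => U (patternField x g)) hΞ hB
  have e1 : (priorE v fun xs z => entFn (piA U v s g (obsv s xs z))) =
      priorE v fun xs z => U (patternField xs g) * Real.log (piA U v s g (obsv s xs z)) := by
    rw [hn]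
    rfl
  rw [e1]
  unfold eP priorE
  rw [Finset.mul_sum, ← Finset.sum_add_distrib, Finset.mul_sum]
  refine Finset.sum_congr rfl fun xs _ => ?_
  have hi1 := integrable_sideLog v s xs
  have hi2 : Integrable (fun z => Real.log (piA U v s g (obsv s xs z))) (patternLaw N) :=
    integrable_obs s hΞ hB xs
  have e2 : ∫ z, sideLog (vplus U v g) s xs z ∂(patternLaw N) =
      (∫ z, sideLog v s xs z ∂(patternLaw N)) +
        ∫ z, Real.log (piA U v s g (obsv s xs z)) ∂(patternLaw N) := by
    simp_rw [sideLog_vplus hU v s g xs]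
    exact integral_add hi1 hi2
  rw [e2, ← mul_assoc, Yv_gwt_vplus hU, integral_const_mul]
  ring

/-- Interchange of a prior expectation with an integral over the new pattern. -/
lemma integral_priorE_swap (v : (Fin N → Bool) → ℝ)
    {F : (Fin N → ℝ) → (Fin N → Bool) → (Fin N → ℝ) → ℝ} {B : ℝ}
    (hm : ∀ xs, Measurable fun p : (Fin N → ℝ) × (Fin N → ℝ) => F p.1 xs p.2)
    (hB : ∀ g xs z, |F g xs z| ≤ B) :
    ∫ g, priorE v (F g) ∂(patternLaw N) =
      priorE v (fun xs z => ∫ g, F g xs z ∂(patternLaw N)) := by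
  unfold priorE
  have hi : ∀ xs : Fin N → Bool, Integrable (fun g => gwt v xs * ∫ z, F g xs z ∂(patternLaw N))
      (patternLaw N) := by
    intro xs
    have hm' : Measurable fun g => ∫ z, F g xs z ∂(patternLaw N) :=
      ((hm xs).stronglyMeasurable.integral_prod_right' (ν := patternLaw N)).measurable
    refine (integrable_of_bdd hm' (B := B) fun g => ?_).const_mul _
    calc _ ≤ ∫ z, |F g xs z| ∂(patternLaw N) := abs_integral_le_integral_abs
      _ ≤ ∫ _z : Fin N → ℝ, B ∂(patternLaw N) := by
          refine integral_mono ?_ (integrable_const _) fun z => hB g xs z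
          exact (integrable_of_bdd ((hm xs).comp (measurable_const.prodMk measurable_id))
            (hB g xs)).abs
      _ = B := by simp
  rw [integral_finsetSum _ fun xs _ => hi xs]
  refine Finset.sum_congr rfl fun xs _ => ?_
  rw [integral_const_mul]
  congr 1
  refine integral_integral_swap (f := fun g z => F g xs z) ?_
  exact integrable_of_bdd (hm xs) fun p => hB _ _ _

/-- The mean entropy is bounded. -/
lemma abs_entFn_piA_le (hU : Wgt U c₁ c₂) (v : (Fin N → Bool) → ℝ) (s : ℝ) (g y : Fin N → ℝ) :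
    |entFn (piA U v s g y)| ≤ c₂ * (|Real.log c₁| + |Real.log c₂|) :=
  abs_entFn_le hU.pos (piA_bounds hU v s g y).1 (piA_bounds hU v s g y).2

lemma measurable_entFn_piA_joint (hU : Wgt U c₁ c₂) (v : (Fin N → Bool) → ℝ) (s : ℝ)
    (xs : Fin N → Bool) : Measurable fun p : (Fin N → ℝ) × (Fin N → ℝ) =>
      entFn (piA U v s p.1 (obsv s xs p.2)) := by
  refine measurable_entFn.comp ?_
  refine measurable_gavg (v := fun p : (Fin N → ℝ) × (Fin N → ℝ) => tiltPot v s (obsv s xs p.2))
    (a := fun p x => U (patternField x p.1)) (fun x => ?_) (fun x => ?_)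
  · unfold tiltPot
    exact (((measurable_sdot x).comp ((measurable_obsv s xs).comp measurable_snd)).const_mul
      s).const_add _
  · exact hU.meas.comp ((measurable_patternField x).comp measurable_fst)

lemma integrable_sum_part (hU : Wgt U c₁ c₂) (v : (Fin N → Bool) → ℝ) (s : ℝ)
    (xs : Fin N → Bool) : Integrable (fun g : Fin N → ℝ => gwt v xs *
      U (patternField xs g) * ∫ z, sideLog v s xs z ∂(patternLaw N)) (patternLaw N) :=
  ((integrable_of_bdd (hU.meas.comp (measurable_patternField xs))
    (fun g => hU.abs_le _)).const_mul (gwt v xs)).mul_const _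

lemma integrable_prior_part (hU : Wgt U c₁ c₂) (v : (Fin N → Bool) → ℝ) (s : ℝ) :
    Integrable (fun g : Fin N → ℝ =>
      priorE v fun xs z => entFn (piA U v s g (obsv s xs z))) (patternLaw N) := by
  have hm' : Measurable fun g : Fin N → ℝ =>
      priorE v fun xs z => entFn (piA U v s g (obsv s xs z)) := by
    unfold priorE
    refine Finset.measurable_sum _ fun xs _ => Measurable.const_mul ?_ _
    exact ((measurable_entFn_piA_joint hU v s xs).stronglyMeasurable.integral_prod_right'
      (ν := patternLaw N)).measurable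
  refine integrable_of_bdd hm' (B := c₂ * (|Real.log c₁| + |Real.log c₂|) + 0 * zMean N)
    fun g => ?_
  refine abs_priorE_le v le_rfl (fun xs => ?_) fun xs z => ?_
  · exact measurable_entFn.comp ((measurable_piA_right hU v s g).comp (measurable_obsv s xs))
  · simpa using abs_entFn_piA_le hU v s g _

lemma integral_sum_part (hU : Wgt U c₁ c₂) (hN : 1 ≤ N) (v : (Fin N → Bool) → ℝ) (s : ℝ) :
    ∫ g, ∑ xs, gwt v xs * U (patternField xs g) * (∫ z, sideLog v s xs z ∂(patternLaw N))
      ∂(patternLaw N) = eP v s := by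
  rw [integral_finsetSum _ fun xs _ => integrable_sum_part hU v s xs]
  unfold eP priorE
  refine Finset.sum_congr rfl fun xs _ => ?_
  rw [integral_mul_const, integral_const_mul, hU.integral_field hN xs, mul_one]

/-- The increment identity for a fixed potential. -/
theorem inc_integral (hU : Wgt U c₁ c₂) (hN : 1 ≤ N) (v : (Fin N → Bool) → ℝ) (s : ℝ) :
    ∫ g, Yv (vplus U v g) * eP (vplus U v g) s ∂(patternLaw N) =
      Yv v * (eP v s + priorE v fun xs z => thetaOf U (tiltPot v s (obsv s xs z))) := by
  simp_rw [inc_fixed_g hU v s]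
  rw [integral_const_mul]
  congr 1
  have h3 := integral_priorE_swap v (F := fun g xs z => entFn (piA U v s g (obsv s xs z)))
    (B := c₂ * (|Real.log c₁| + |Real.log c₂|)) (measurable_entFn_piA_joint hU v s)
    (fun g xs z => abs_entFn_piA_le hU v s g _)
  rw [integral_add (integrable_finsetSum _ fun xs _ => integrable_sum_part hU v s xs)
    (integrable_prior_part hU v s), integral_sum_part hU hN v s, h3]
  rfl

end Alg

section Global

variable {N k : ℕ} {U : ℝ → ℝ} {c₁ c₂ : ℝ}

/-- The mean entropy of the cavity field under the planted law. -/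
noncomputable def thetaG (U : ℝ → ℝ) (N k : ℕ) (s : ℝ) : ℝ :=
  EP (N := N) (k := k) U fun G xs z => thetaOf U (tiltPot (patPot U G) s (obsv s xs z))

lemma abs_thetaOf_le (hU : Wgt U c₁ c₂) (w : (Fin N → Bool) → ℝ) :
    |thetaOf U w| ≤ c₂ * (|Real.log c₁| + |Real.log c₂|) := by
  unfold thetaOf
  have hb := fieldAvg_bounds w hU.meas hU.pos hU.bd (N := N)
  have hm := measurable_fieldAvg w hU.meas (N := N)
  have hbd : ∀ g : Fin N → ℝ, |entFn (gavg w fun x => U (patternField x g))| ≤
      c₂ * (|Real.log c₁| + |Real.log c₂|) := fun g => abs_entFn_le hU.pos (hb g).1 (hb g).2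
  calc _ ≤ ∫ g, |entFn (gavg w fun x => U (patternField x g))| ∂(patternLaw N) :=
        abs_integral_le_integral_abs
    _ ≤ ∫ _g : Fin N → ℝ, c₂ * (|Real.log c₁| + |Real.log c₂|) ∂(patternLaw N) := by
        refine integral_mono ?_ (integrable_const _) hbd
        exact (integrable_of_bdd (measurable_entFn.comp hm) hbd).abs
    _ = _ := by simp

lemma measurable_thetaOf_param (hU : Wgt U c₁ c₂) {Ω : Type*} [MeasurableSpace Ω]
    {w : Ω → (Fin N → Bool) → ℝ} (hw : ∀ x, Measurable fun ω => w ω x) :
    Measurable fun ω => thetaOf U (w ω) := by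
  unfold thetaOf
  have h : Measurable fun p : Ω × (Fin N → ℝ) =>
      entFn (gavg (w p.1) fun x => U (patternField x p.2)) := by
    refine measurable_entFn.comp ?_
    exact measurable_gavg (v := fun p : Ω × (Fin N → ℝ) => w p.1)
      (a := fun p x => U (patternField x p.2)) (fun x => (hw x).comp measurable_fst)
      (fun x => hU.meas.comp ((measurable_patternField x).comp measurable_snd))
  exact (h.stronglyMeasurable.integral_prod_right' (ν := patternLaw N)).measurable

lemma linG_theta (hU : Wgt U c₁ c₂) (s : ℝ) :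
    LinG (N := N) (k := k) (fun G xs z => thetaOf U (tiltPot (patPot U G) s (obsv s xs z)))
      (c₂ * (|Real.log c₁| + |Real.log c₂|)) 0 :=
  LinG.of_bdd (fun xs => measurable_thetaOf_param hU (hU.measurable_tilt_joint s xs))
    fun G xs z => abs_thetaOf_le hU _

/-- The increment of the global free energy. -/
theorem eG_succ (hU : Wgt U c₁ c₂) (hN : 1 ≤ N) (s : ℝ) :
    eG U N (k + 1) s = eG U N k s + thetaG U N k s / N := by
  have hint : Integrable (fun G : Fin (k + 1) → Fin N → ℝ => patY U G * eP (patPot U G) s)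
      (Measure.pi fun _ : Fin (k + 1) => patternLaw N) :=
    EP_integrable hU (abs_nonneg s) (linG_sideLog hU s)
  have h1 := integral_pi_succ (fun _ : Fin (k + 1) => patternLaw N) _ hint
  have h2 : ∀ G : Fin k → Fin N → ℝ,
      ∫ g, patY U (Fin.cons g G : Fin (k + 1) → Fin N → ℝ) *
        eP (patPot U (Fin.cons g G : Fin (k + 1) → Fin N → ℝ)) s ∂(patternLaw N) =
      patY U G * eP (patPot U G) s + patY U G * priorE (patPot U G) fun xs z =>
        thetaOf U (tiltPot (patPot U G) s (obsv s xs z)) := by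
    intro G
    simp_rw [patY_eq_Yv, patPot_cons]
    rw [inc_integral hU hN, mul_add]
  have hi1 : Integrable (fun G : Fin k → Fin N → ℝ => patY U G * eP (patPot U G) s)
      (patternsLaw N k) := EP_integrable hU (abs_nonneg s) (linG_sideLog (k := k) (N := N) hU s)
  have hi2 := EP_integrable hU le_rfl (linG_theta (k := k) (N := N) hU s)
  have h3 : ∫ G, patY U G * eP (patPot U G) s ∂(patternsLaw N (k + 1)) =
      ∫ G, patY U G * eP (patPot U G) s ∂(patternsLaw N k) + thetaG U N k s := by
    unfold patternsLaw at *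
    rw [h1]
    simp_rw [h2]
    rw [integral_add hi1 hi2]
    rfl
  unfold eG
  rw [h3, add_div]

end Global

end Vale.Agent.Lib.P157
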