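import Vale.Agent.Lib.P157.RSData

/-!
The replica symmetric formula for the planted entropy.
-/

open MeasureTheory ProbabilityTheory Filter
open scoped NNReal ENNReal Topology

set_option linter.unusedSectionVars false
set_option linter.unusedVariables false

namespace Vale.Agent.Lib.P157

section JFacts

lemma e0RS_zero : e0RS 0 = 0 := by
  unfold e0RS
  simp

lemma le_log_cosh (t : ℝ) : t - Real.log 2 ≤ Real.log (Real.cosh t) := by
  have h1 : Real.exp t / 2 ≤ Real.cosh t := by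
    rw [Real.cosh_eq]
    have := Real.exp_pos (-t)
    linarith
  have h2 := Real.log_le_log (by positivity) h1
  rw [Real.log_div (Real.exp_pos t).ne' (by norm_num), Real.log_exp] at h2
  exact h2

/-- The scalar channel function grows at least linearly. -/
lemma e0RS_ge {r : ℝ} (hr : 0 ≤ r) : r / 2 - Real.log 2 ≤ e0RS r := by
  unfold e0RS
  have hid : Integrable (fun z : ℝ => z) (gaussianReal 0 1) :=
    (memLp_id_gaussianReal 1).integrable (by norm_num)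
  have hi : Integrable (fun z : ℝ => r + Real.sqrt r * z - Real.log 2) (gaussianReal 0 1) :=
    ((integrable_const r).add (hid.const_mul _)).sub (integrable_const _)
  have h1 : ∫ z, (r + Real.sqrt r * z - Real.log 2) ∂(gaussianReal 0 1) ≤
      ∫ z, Real.log (Real.cosh (r + Real.sqrt r * z)) ∂(gaussianReal 0 1) :=
    integral_mono hi (integrable_log_cosh _ _) fun z => le_log_cosh _
  have h2 : ∫ z, (r + Real.sqrt r * z - Real.log 2) ∂(gaussianReal 0 1) = r - Real.log 2 := by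
    have h0 : Integrable (fun z : ℝ => r + Real.sqrt r * z) (gaussianReal 0 1) :=
      (integrable_const r).add (hid.const_mul _)
    rw [integral_sub h0 (integrable_const _),
      integral_add (integrable_const r) (hid.const_mul _), integral_const_mul]
    have h3 : ∫ z, z ∂(gaussianReal 0 1) = 0 := by
      simpa using integral_id_gaussianReal (μ := 0) (v := 1)
    rw [h3]
    simp
  linarith

lemma jRS_bdd {q : ℝ} (hq : q ≤ 1) :
    BddAbove (Set.range fun r : Set.Ici (0 : ℝ) => (r : ℝ) * q / 2 - e0RS r) := by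
  refine ⟨Real.log 2, ?_⟩
  rintro _ ⟨⟨r, hr⟩, rfl⟩
  have hr' : (0 : ℝ) ≤ r := hr
  have h1 := e0RS_ge hr'
  have h2 : r * q ≤ r * 1 := mul_le_mul_of_nonneg_left hq hr'
  simp only
  linarith

lemma le_jRS {q r : ℝ} (hq : q ≤ 1) (hr : 0 ≤ r) : r * q / 2 - e0RS r ≤ jRS q :=
  le_ciSup (f := fun r : Set.Ici (0 : ℝ) => (r : ℝ) * q / 2 - e0RS r) (jRS_bdd hq) ⟨r, hr⟩

lemma jRS_nonneg {q : ℝ} (hq : q ≤ 1) : 0 ≤ jRS q := by
  have := le_jRS (r := 0) hq le_rfl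
  rw [e0RS_zero] at this
  simpa using this

end JFacts

section Tangent

variable {N k : ℕ} {U : ℝ → ℝ} {c₁ c₂ : ℝ}

lemma jRS_le_data (hU : Wgt U c₁ c₂) (hN : 1 ≤ N) {r : ℝ} (hr : 0 ≤ r) :
    jRS (QR U N 0 r) ≤ r * QR U N 0 r / 2 - eR U N 0 r := by
  unfold jRS
  haveI : Nonempty (Set.Ici (0 : ℝ)) := ⟨⟨0, Set.mem_Ici.mpr le_rfl⟩⟩
  refine ciSup_le fun ρ => ?_
  obtain ⟨ρ, hρ⟩ := ρ
  have hρ' : (0 : ℝ) ≤ ρ := hρ
  have e : e0RS ρ = eR U N 0 ρ := (eG_no_pattern hN hρ').symm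
  simp only
  rw [e]
  rcases le_total r ρ with h | h
  · have := eR_tan_lower (k := 0) hU hN hr h
    nlinarith
  · have := eR_tan_upper (k := 0) hU hN hρ' h
    nlinarith

/-- The replica symmetric value for a weight. -/
noncomputable def rsU (U : ℝ → ℝ) (α : ℝ) : ℝ :=
  ⨆ q : Set.Icc (0 : ℝ) 1, (α * psiU U q - jRS q)

lemma psiU_nonneg' (hU : Wgt U c₁ c₂) {q : ℝ} (hq : q ≤ 1) : 0 ≤ psiU U q :=
  psiU_nonneg hU.meas hU.pos hU.bd hU.one hq

lemma psiU_mono' (hU : Wgt U c₁ c₂) {a b : ℝ} (ha : 0 ≤ a) (hab : a ≤ b) (hb1 : b ≤ 1) :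
    psiU U a ≤ psiU U b :=
  psiU_mono hU.meas hU.pos hU.bd hU.one ha hab hb1

lemma rsU_bdd (hU : Wgt U c₁ c₂) {α : ℝ} (hα : 0 ≤ α) :
    BddAbove (Set.range fun q : Set.Icc (0 : ℝ) 1 => α * psiU U q - jRS q) := by
  refine ⟨α * psiU U 1, ?_⟩
  rintro _ ⟨⟨q, hq⟩, rfl⟩
  simp only
  have h1 := psiU_mono' hU hq.1 hq.2 le_rfl
  have h2 := jRS_nonneg hq.2
  have h3 := mul_le_mul_of_nonneg_left h1 hα
  linarith

lemma le_rsU (hU : Wgt U c₁ c₂) {α : ℝ} (hα : 0 ≤ α) {q : ℝ} (hq : q ∈ Set.Icc (0 : ℝ) 1) :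
    α * psiU U q - jRS q ≤ rsU U α :=
  le_ciSup (f := fun q : Set.Icc (0 : ℝ) 1 => α * psiU U q - jRS q) (rsU_bdd hU hα) ⟨q, hq⟩

lemma floor_mul_div_le {α : ℝ} (hα : 0 < α) (N : ℕ) :
    (⌊α * N⌋₊ : ℝ) * (1 / (N : ℝ)) ≤ α := by
  rcases Nat.eq_zero_or_pos N with rfl | hN
  · simp
    positivity
  · have hN' : (0 : ℝ) < N := by exact_mod_cast hN
    rw [mul_one_div, div_le_iff₀ hN']
    exact Nat.floor_le (by positivity)

lemma le_floor_mul_div {α : ℝ} (hα : 0 < α) {N : ℕ} (hN : 1 ≤ N) :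
    α - 1 / (N : ℝ) ≤ (⌊α * N⌋₊ : ℝ) * (1 / (N : ℝ)) := by
  have hN' : (0 : ℝ) < N := by exact_mod_cast hN
  have h1 := (Nat.lt_floor_add_one (α * (N : ℝ))).le
  have e : α - 1 / (N : ℝ) = (α * N - 1) * (1 / (N : ℝ)) := by
    field_simp
  rw [e]
  exact mul_le_mul_of_nonneg_right (by linarith) (by positivity)

/-- The tangent selection for a weight. -/
lemma exists_tangent_wgt (hU : Wgt U c₁ c₂) {κ : ℝ} (hκ : 0 < κ) :
    ∃ (β : ℝ → ℝ) (B : ℝ), (∀ y ∈ Set.Icc (0 : ℝ) 1, 0 ≤ β y) ∧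
      (∀ y ∈ Set.Icc (0 : ℝ) 1, β y ≤ B) ∧ MonotoneOn β (Set.Icc 0 1) ∧
      ∀ p ∈ Set.Icc (0 : ℝ) 1, ∀ y ∈ Set.Icc (0 : ℝ) 1,
        psiU U y + β y * (p - y) - κ ≤ psiU U p := by
  obtain ⟨K, hK, hmod⟩ := psiU_modulus hU.meas hU.pos hU.bd (η := κ / 4) (by positivity)
  exact exists_tangent_selection (convexOn_psiU hU.meas hU.pos hU.bd)
    (fun a b ha hab hb => psiU_mono' hU ha hab hb) hκ hK hmod

/-- The real variable estimate of the upper bound. -/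
lemma upper_abstract {x α P J ε κ ρ r₁ δ h K' : ℝ} (hx0 : 0 ≤ x) (hxα : x ≤ α) (hP : 0 ≤ P)
    (hκ : 0 ≤ κ) (hακ : α * κ ≤ ε / 4) (hρ : ρ / 2 ≤ ε / 4) (hδ0 : 0 ≤ δ) (hρr : 0 < ρ - r₁)
    (hαδ : α * (δ / (ρ - r₁)) ≤ ε / 4) (hxe : x = K' * h) :
    x * P - J + ρ / 2 + x * κ + h * (K' * δ / (ρ - r₁)) ≤ α * P - J + 3 * (ε / 4) := by
  have h1 : x * P ≤ α * P := mul_le_mul_of_nonneg_right hxα hP
  have h2 : x * κ ≤ α * κ := mul_le_mul_of_nonneg_right hxα hκ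
  have e : h * (K' * δ / (ρ - r₁)) = x * (δ / (ρ - r₁)) := by
    rw [hxe]
    ring
  have h3 : x * (δ / (ρ - r₁)) ≤ α * (δ / (ρ - r₁)) :=
    mul_le_mul_of_nonneg_right hxα (by positivity)
  rw [e]
  linarith

/-- **The upper bound in the replica symmetric formula.** -/
theorem eventually_le_rsU (hU : Wgt U c₁ c₂) {α ε : ℝ} (hα : 0 < α) (hε : 0 < ε) :
    ∀ᶠ N : ℕ in atTop, eG U N ⌊α * N⌋₊ 0 ≤ rsU U α + ε := by
  set κ := ε / (4 * (α + 1)) with hκ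
  have hκ0 : 0 < κ := by positivity
  have hακ : α * κ ≤ ε / 4 := by
    rw [hκ]
    have e : α * (ε / (4 * (α + 1))) = ε / 4 * (α / (α + 1)) := by
      field_simp
    rw [e]
    have h7 : α / (α + 1) ≤ 1 := by
      rw [div_le_one (by linarith)]
      linarith
    nlinarith
  obtain ⟨β, B, hβ0, hβB, hβm, htan⟩ := exists_tangent_wgt hU hκ0
  have hB0 : 0 ≤ B :=
    (hβ0 0 ⟨le_rfl, zero_le_one⟩).trans (hβB 0 ⟨le_rfl, zero_le_one⟩)
  obtain ⟨ρ, hρ⟩ : ∃ ρ : ℝ, ρ = ε / 2 := ⟨_, rfl⟩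
  obtain ⟨r₁, hr₁⟩ : ∃ r₁ : ℝ, r₁ = ε / 4 := ⟨_, rfl⟩
  have hr₁0 : 0 < r₁ := by
    rw [hr₁]
    positivity
  have hρr : r₁ < ρ := by
    rw [hρ, hr₁]
    linarith
  set R := ρ + 2 * α * B + 1 with hR
  have hr₁R : r₁ < R := by
    have : 0 ≤ 2 * α * B := by positivity
    rw [hR]
    linarith
  set δ := ε ^ 2 / (16 * (α + 1)) with hδ
  have hδ0 : 0 < δ := by positivity
  have hαδ : α * (δ / (ρ - r₁)) ≤ ε / 4 := by
    have hd : ρ - r₁ = ε / 4 := by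
      rw [hρ, hr₁]
      ring
    rw [hd, hδ]
    have e : α * (ε ^ 2 / (16 * (α + 1)) / (ε / 4)) = ε / 4 * (α / (α + 1)) := by
      field_simp
      norm_num
    rw [e]
    have h7 : α / (α + 1) ≤ 1 := by
      rw [div_le_one (by linarith)]
      linarith
    nlinarith
  obtain ⟨N₀, hN₀⟩ := rs_data_exists hU hα hr₁0 hr₁R hδ0
  filter_upwards [eventually_ge_atTop N₀] with N hN
  obtain ⟨hN1, εF, d, hint⟩ := hN₀ N hN
  have hN' : (0 : ℝ) < N := by exact_mod_cast hN1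
  have hh : (0 : ℝ) < 1 / (N : ℝ) := by positivity
  have hKh := floor_mul_div_le hα N
  obtain ⟨q, hq, hmain⟩ := rs_upper d hh hr₁0.le hδ0.le hint hρr hKh (by rw [hR]; linarith) β hβ0
    hβB hβm htan jRS (fun r hr => jRS_le_data hU hN1 hr)
  have e0 : eR U N ⌊α * N⌋₊ 0 = eG U N ⌊α * N⌋₊ 0 := by
    unfold eR
    rw [Real.sqrt_zero]
  rw [e0] at hmain
  have hP := psiU_nonneg' hU hq.2
  have hρ4 : ρ / 2 ≤ ε / 4 := by
    rw [hρ]
    linarith
  have h1 := upper_abstract (x := (⌊α * N⌋₊ : ℝ) * (1 / (N : ℝ))) (α := α) (P := psiU U q)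
    (J := jRS q) (ε := ε) (κ := κ) (ρ := ρ) (r₁ := r₁) (δ := δ) (h := 1 / (N : ℝ))
    (K' := (⌊α * N⌋₊ : ℝ)) (by positivity) hKh hP hκ0.le hακ hρ4 hδ0.le (by linarith) hαδ rfl
  have h2 := le_rsU hU hα.le hq
  linarith

/-- The real variable estimate of the lower bound. -/
lemma lower_abstract {x α P J κ ρ r₁ δ h K' g n : ℝ} (hx0 : 0 ≤ x) (hxα : x ≤ α)
    (hxl : α - n ≤ x) (hP : 0 ≤ P) (hκ : 0 ≤ κ) (hρ : 0 < ρ) (hδ0 : 0 ≤ δ) (hg : 0 ≤ g)
    (hh : h = n) (hn : 0 ≤ n) (hxe : x = K' * h) :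
    α * P - J - n * (P + 2 * α * g ^ 2 / ρ) - α * κ - (r₁ + ρ) / 2 - α * (δ / ρ) ≤
      x * P - J - x * κ - (r₁ + ρ) / 2 - h * (K' * (δ + g * (2 * h * g)) / ρ) := by
  have h1 : (α - n) * P ≤ x * P := mul_le_mul_of_nonneg_right hxl hP
  have h2 : x * κ ≤ α * κ := mul_le_mul_of_nonneg_right hxα hκ
  have e : h * (K' * (δ + g * (2 * h * g)) / ρ) = x * (δ / ρ) + x * (2 * n * g ^ 2 / ρ) := by
    rw [hxe, hh]
    field_simp
  have h3 : x * (δ / ρ) ≤ α * (δ / ρ) := mul_le_mul_of_nonneg_right hxα (by positivity)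
  have h4 : x * (2 * n * g ^ 2 / ρ) ≤ α * (2 * n * g ^ 2 / ρ) :=
    mul_le_mul_of_nonneg_right hxα (by positivity)
  have e2 : α * (2 * n * g ^ 2 / ρ) = n * (2 * α * g ^ 2 / ρ) := by
    field_simp
  rw [e]
  nlinarith

/-- **The lower bound in the replica symmetric formula.** -/
theorem eventually_rsU_le (hU : Wgt U c₁ c₂) {α ε : ℝ} (hα : 0 < α) (hε : 0 < ε) :
    ∀ᶠ N : ℕ in atTop, rsU U α - ε ≤ eG U N ⌊α * N⌋₊ 0 := by
  obtain ⟨⟨q, hq⟩, hqlt⟩ : ∃ q : Set.Icc (0 : ℝ) 1, rsU U α - ε / 4 < α * psiU U q - jRS q := by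
    refine exists_lt_of_lt_ciSup (f := fun q : Set.Icc (0 : ℝ) 1 => α * psiU U q - jRS q) ?_
    have : rsU U α - ε / 4 < rsU U α := by linarith
    exact this
  simp only at hqlt
  set κ := ε / (8 * (α + 1)) with hκ
  have hκ0 : 0 < κ := by positivity
  have hακ : α * κ ≤ ε / 8 := by
    rw [hκ]
    have e : α * (ε / (8 * (α + 1))) = ε / 8 * (α / (α + 1)) := by
      field_simp
    rw [e]
    have h7 : α / (α + 1) ≤ 1 := by
      rw [div_le_one (by linarith)]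
      linarith
    nlinarith
  obtain ⟨β, B, hβ0, hβB, hβm, htan⟩ := exists_tangent_wgt hU hκ0
  set g := β q with hg
  have hg0 : 0 ≤ g := hβ0 q hq
  obtain ⟨ρ, hρ⟩ : ∃ ρ : ℝ, ρ = ε / 8 := ⟨_, rfl⟩
  have hρ0 : 0 < ρ := by
    rw [hρ]
    positivity
  obtain ⟨r₁, hr₁⟩ : ∃ r₁ : ℝ, r₁ = ε / 8 := ⟨_, rfl⟩
  have hr₁0 : 0 < r₁ := by
    rw [hr₁]
    positivity
  set R := r₁ + ρ + 2 * g * α + 1 with hR
  have hr₁R : r₁ < R := by
    have : 0 ≤ 2 * g * α := by positivity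
    rw [hR]
    linarith
  set δ := ε ^ 2 / (64 * (α + 1)) with hδ
  have hδ0 : 0 < δ := by positivity
  have hαδ : α * (δ / ρ) ≤ ε / 8 := by
    rw [hρ, hδ]
    have e : α * (ε ^ 2 / (64 * (α + 1)) / (ε / 8)) = ε / 8 * (α / (α + 1)) := by
      field_simp
      norm_num
    rw [e]
    have h7 : α / (α + 1) ≤ 1 := by
      rw [div_le_one (by linarith)]
      linarith
    nlinarith
  obtain ⟨N₀, hN₀⟩ := rs_data_exists hU hα hr₁0 hr₁R hδ0
  have hP := psiU_nonneg' hU hq.2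
  set W := psiU U q + 2 * α * g ^ 2 / ρ with hW
  have hW0 : 0 ≤ W := by positivity
  have hlim : ∀ᶠ N : ℕ in atTop, (1 / (N : ℝ)) * W ≤ ε / 8 := by
    have h1 : Tendsto (fun N : ℕ => (1 / (N : ℝ)) * W) atTop (𝓝 (0 * W)) :=
      tendsto_one_div_atTop_nhds_zero_nat.mul_const W
    rw [zero_mul] at h1
    exact (h1.eventually (gt_mem_nhds (by positivity : (0 : ℝ) < ε / 8))).mono fun N hN => hN.le
  filter_upwards [eventually_ge_atTop N₀, hlim] with N hN hNlim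
  obtain ⟨hN1, εF, d, hint⟩ := hN₀ N hN
  have hN' : (0 : ℝ) < N := by exact_mod_cast hN1
  have hh : (0 : ℝ) < 1 / (N : ℝ) := by positivity
  have hKh := floor_mul_div_le hα N
  have hKh2 := le_floor_mul_div hα hN1
  have hx0 : (0 : ℝ) ≤ (⌊α * N⌋₊ : ℝ) * (1 / (N : ℝ)) := by positivity
  have hmain := rs_lower d hh hr₁0.le hδ0.le hint (ρ := ρ) (g := g) (κ := κ) (q := q) hρ0 hq hg0
    (by
      have : 2 * g * ((⌊α * N⌋₊ : ℝ) * (1 / (N : ℝ))) ≤ 2 * g * α :=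
        mul_le_mul_of_nonneg_left hKh (by positivity)
      rw [hR]
      linarith)
    (fun p hp => htan p hp q hq) jRS (fun r hr => by
      have e : eR U N 0 r = e0RS r := eG_no_pattern hN1 hr
      rw [e]
      exact le_jRS hq.2 hr)
  have e0 : eR U N ⌊α * N⌋₊ 0 = eG U N ⌊α * N⌋₊ 0 := by
    unfold eR
    rw [Real.sqrt_zero]
  rw [e0] at hmain
  have h1 := lower_abstract (x := (⌊α * N⌋₊ : ℝ) * (1 / (N : ℝ))) (α := α) (P := psiU U q)
    (J := jRS q) (κ := κ) (ρ := ρ) (r₁ := r₁) (δ := δ) (h := 1 / (N : ℝ))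
    (K' := (⌊α * N⌋₊ : ℝ)) (g := g) (n := 1 / (N : ℝ)) hx0 hKh hKh2 hP hκ0.le hρ0 hδ0.le hg0 rfl
    hh.le rfl
  have e3 : (r₁ + ρ) / 2 = ε / 8 := by
    rw [hρ, hr₁]
    ring
  rw [← hW] at h1
  linarith

/-- **The replica symmetric formula for the planted entropy**, for a normalized weight. -/
theorem tendsto_eG_rsU (hU : Wgt U c₁ c₂) {α : ℝ} (hα : 0 < α) :
    Tendsto (fun N : ℕ => eG U N ⌊α * N⌋₊ 0) atTop (𝓝 (rsU U α)) := by
  refine tendsto_order.2 ⟨fun a ha => ?_, fun b hb => ?_⟩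
  · have h1 := eventually_rsU_le hU hα (ε := (rsU U α - a) / 2) (by linarith)
    filter_upwards [h1] with N hN
    linarith
  · have h1 := eventually_le_rsU hU hα (ε := (b - rsU U α) / 2) (by linarith)
    filter_upwards [h1] with N hN
    linarith

end Tangent

section Final

variable {f : ℝ → ℝ} {L : ℝ}

lemma rsValue_eq (α : ℝ) (f : ℝ → ℝ) : rsValue α f = rsU (normPot f) α := rfl

/-- **The replica symmetric formula for the planted entropy.** -/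
theorem tendsto_partitionEntropy {α : ℝ} (hα : 0 < α) (hf : Measurable f)
    (hfL : ∀ u, |f u| ≤ L) :
    Tendsto (fun N : ℕ => partitionEntropy N ⌊α * N⌋₊ f / N) atTop (𝓝 (rsValue α f)) := by
  have h := tendsto_eG_rsU (wgt_normPot hf hfL) hα
  simp_rw [eG_zero_normPot hf hfL] at h
  exact h

end Final

end Vale.Agent.Lib.P157
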