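import Vale.Agent.Lib.P157.RSDefs
import Vale.Agent.Lib.P157.GaussFacts

/-!
Pairs of Gaussian linear forms and the correlation function of a bounded weight.
-/

open MeasureTheory ProbabilityTheory Complex
open scoped NNReal ENNReal

set_option linter.unusedSectionVars false

namespace Vale.Agent.Lib.P157

section JointUnit

variable {n : ℕ}

lemma unit_dot_sq_le {a b : Fin n → ℝ} (ha : ∑ i, a i ^ 2 = 1) (hb : ∑ i, b i ^ 2 = 1) :
    (∑ i, a i * b i) ^ 2 ≤ 1 := by
  have := Finset.sum_mul_sq_le_sq_mul_sq (Finset.univ) a b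
  rw [ha, hb] at this
  simpa using this

/-- The joint law of two unit linear forms of a Gaussian vector. -/
lemma joint_law_unit {a b : Fin n → ℝ} (ha : ∑ i, a i ^ 2 = 1) (hb : ∑ i, b i ^ 2 = 1) :
    (patternLaw n).map (fun z => (∑ i, z i * a i, ∑ i, z i * b i)) =
      ((gaussianReal 0 1).prod (gaussianReal 0 1)).map
        (fun p : ℝ × ℝ => (p.1, (∑ i, a i * b i) * p.1 +
          Real.sqrt (1 - (∑ i, a i * b i) ^ 2) * p.2)) := by
  set ρ := ∑ i, a i * b i with hρ
  set σ := Real.sqrt (1 - ρ ^ 2) with hσ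
  have hσsq : σ ^ 2 = 1 - ρ ^ 2 := Real.sq_sqrt (by linarith [unit_dot_sq_le ha hb])
  have hm1 : Measurable (fun z : Fin n → ℝ => (∑ i, z i * a i, ∑ i, z i * b i)) :=
    (Finset.measurable_sum _ fun i _ => (measurable_pi_apply i).mul_const _).prodMk
      (Finset.measurable_sum _ fun i _ => (measurable_pi_apply i).mul_const _)
  have hm2 : Measurable (fun p : ℝ × ℝ => (p.1, ρ * p.1 + σ * p.2)) := by fun_prop
  have : IsProbabilityMeasure ((patternLaw n).map
      (fun z => (∑ i, z i * a i, ∑ i, z i * b i))) :=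
    Measure.isProbabilityMeasure_map hm1.aemeasurable
  have : IsProbabilityMeasure (((gaussianReal 0 1).prod (gaussianReal 0 1)).map
      (fun p : ℝ × ℝ => (p.1, ρ * p.1 + σ * p.2))) :=
    Measure.isProbabilityMeasure_map hm2.aemeasurable
  refine Measure.ext_of_charFunDual ?_
  funext L
  rw [charFunDual_apply, charFunDual_apply]
  have hc : Continuous fun v : ℝ × ℝ => cexp ((L v : ℂ) * I) := by fun_prop
  rw [integral_map hm1.aemeasurable hc.aestronglyMeasurable,
    integral_map hm2.aemeasurable hc.aestronglyMeasurable]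
  set s := L (1, 0) with hs
  set t := L (0, 1) with ht
  have hL : ∀ u v : ℝ, L (u, v) = s * u + t * v := by
    intro u v
    have : ((u, v) : ℝ × ℝ) = u • ((1, 0) : ℝ × ℝ) + v • ((0, 1) : ℝ × ℝ) := by
      ext <;> simp
    rw [this, map_add, map_smul, map_smul]
    simp only [smul_eq_mul]
    ring
  have hleft : ∫ z, cexp ((L (∑ i, z i * a i, ∑ i, z i * b i) : ℂ) * I) ∂(patternLaw n) =
      cexp (-(((s ^ 2 + t ^ 2 + 2 * s * t * ρ : ℝ) : ℂ) / 2)) := by
    have h1 : ∀ z : Fin n → ℝ, L (∑ i, z i * a i, ∑ i, z i * b i) =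
        ∑ i, z i * (s * a i + t * b i) := by
      intro z
      rw [hL, Finset.mul_sum, Finset.mul_sum, ← Finset.sum_add_distrib]
      exact Finset.sum_congr rfl fun i _ => by ring
    simp_rw [h1]
    rw [integral_cexp_linear]
    have h2 : ∑ i, (s * a i + t * b i) ^ 2 = s ^ 2 + t ^ 2 + 2 * s * t * ρ := by
      have h3 : ∀ i, (s * a i + t * b i) ^ 2 =
          s ^ 2 * a i ^ 2 + t ^ 2 * b i ^ 2 + 2 * s * t * (a i * b i) := fun i => by ring
      simp_rw [h3]
      rw [Finset.sum_add_distrib, Finset.sum_add_distrib, ← Finset.mul_sum, ← Finset.mul_sum,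
        ← Finset.mul_sum, ha, hb]
      ring
    rw [h2]
  have hright : ∫ p : ℝ × ℝ, cexp ((L (p.1, ρ * p.1 + σ * p.2) : ℂ) * I)
      ∂((gaussianReal 0 1).prod (gaussianReal 0 1)) =
      cexp (-(((s ^ 2 + t ^ 2 + 2 * s * t * ρ : ℝ) : ℂ) / 2)) := by
    have h1 : ∀ p : ℝ × ℝ, cexp ((L (p.1, ρ * p.1 + σ * p.2) : ℂ) * I) =
        cexp (((s + t * ρ : ℝ) : ℂ) * (p.1 : ℂ) * I) *
          cexp (((t * σ : ℝ) : ℂ) * (p.2 : ℂ) * I) := by
      intro p
      rw [← Complex.exp_add, hL]
      congr 1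
      push_cast
      ring
    simp_rw [h1]
    rw [integral_prod_mul (L := ℂ) (fun u : ℝ => cexp (((s + t * ρ : ℝ) : ℂ) * (u : ℂ) * I))
      (fun w : ℝ => cexp (((t * σ : ℝ) : ℂ) * (w : ℂ) * I))]
    have h2 : ∀ c : ℝ, ∫ u : ℝ, cexp ((c : ℂ) * (u : ℂ) * I) ∂(gaussianReal 0 1) =
        cexp (-((c : ℂ) ^ 2 / 2)) := by
      intro c
      have := charFun_gaussianReal (μ := 0) (v := 1) c
      rw [charFun_apply_real] at this
      rw [this]
      congr 1
      simp
    rw [h2, h2, ← Complex.exp_add]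
    congr 1
    have h3 : ((σ : ℂ)) ^ 2 = 1 - (ρ : ℂ) ^ 2 := by
      have := congrArg (fun x : ℝ => (x : ℂ)) hσsq
      push_cast at this
      exact this
    push_cast
    have h4 : ((s : ℂ) + t * ρ) ^ 2 + (t * σ) ^ 2 = s ^ 2 + t ^ 2 + 2 * s * t * ρ := by
      have : ((t : ℂ) * σ) ^ 2 = t ^ 2 * σ ^ 2 := by ring
      rw [this, h3]
      ring
    linear_combination (-1 / 2 : ℂ) * h4
  rw [hleft, hright]

end JointUnit

section Corr

variable {U V : ℝ → ℝ}

/-- The correlation function `E [U (G) (P_ρ V)(G)]`. -/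
noncomputable def corrFn (U V : ℝ → ℝ) (ρ : ℝ) : ℝ :=
  ∫ v, U v * noiseAvg V ρ v ∂(gaussianReal 0 1)

lemma abs_noiseAvg_le (hV : Measurable V) {B : ℝ} (hB : ∀ u, |V u| ≤ B) (ρ v : ℝ) :
    |noiseAvg V ρ v| ≤ B := by
  have := noiseAvg_bounds (a := -B) (b := B) hV (fun u => abs_le.mp (hB u)) ρ v
  exact abs_le.mpr this

lemma integrable_mul_of_bdd {Ω : Type*} [MeasurableSpace Ω] {μ : Measure Ω} [IsFiniteMeasure μ]
    {F H : Ω → ℝ} (hF : Measurable F) (hH : Measurable H) {A B : ℝ} (hA : ∀ x, |F x| ≤ A)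
    (hB : ∀ x, |H x| ≤ B) : Integrable (fun x => F x * H x) μ := by
  refine integrable_of_bdd (B := A * B) (hF.mul hH) fun x => ?_
  rw [abs_mul]
  exact mul_le_mul (hA x) (hB x) (abs_nonneg _) ((abs_nonneg _).trans (hA x))

/-- The expectation of a product of bounded functions of two unit linear forms. -/
lemma integral_pair_unit {n : ℕ} (hU : Measurable U) (hV : Measurable V) {A B : ℝ}
    (hA : ∀ u, |U u| ≤ A) (hB : ∀ u, |V u| ≤ B) {a b : Fin n → ℝ} (ha : ∑ i, a i ^ 2 = 1)
    (hb : ∑ i, b i ^ 2 = 1) :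
    ∫ z, U (∑ i, z i * a i) * V (∑ i, z i * b i) ∂(patternLaw n) =
      corrFn U V (∑ i, a i * b i) := by
  have hjoint := joint_law_unit ha hb
  set ρ := ∑ i, a i * b i with hρ
  set σ := Real.sqrt (1 - ρ ^ 2) with hσ
  have hm1 : Measurable (fun z : Fin n → ℝ => (∑ i, z i * a i, ∑ i, z i * b i)) :=
    (Finset.measurable_sum _ fun i _ => (measurable_pi_apply i).mul_const _).prodMk
      (Finset.measurable_sum _ fun i _ => (measurable_pi_apply i).mul_const _)
  have hm2 : Measurable (fun p : ℝ × ℝ => (p.1, ρ * p.1 + σ * p.2)) := by fun_prop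
  have hF : Measurable (fun p : ℝ × ℝ => U p.1 * V p.2) :=
    (hU.comp measurable_fst).mul (hV.comp measurable_snd)
  have h1 : ∫ z, U (∑ i, z i * a i) * V (∑ i, z i * b i) ∂(patternLaw n) =
      ∫ p, U p.1 * V p.2 ∂((patternLaw n).map (fun z => (∑ i, z i * a i, ∑ i, z i * b i))) := by
    rw [integral_map hm1.aemeasurable hF.aestronglyMeasurable]
  rw [h1, hjoint, integral_map hm2.aemeasurable hF.aestronglyMeasurable]
  have hint : Integrable (fun p : ℝ × ℝ => U p.1 * V (ρ * p.1 + σ * p.2))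
      ((gaussianReal 0 1).prod (gaussianReal 0 1)) :=
    integrable_mul_of_bdd (hU.comp measurable_fst) (hV.comp (by fun_prop)) (fun x => hA _)
      (fun x => hB _)
  rw [integral_prod _ hint]
  unfold corrFn noiseAvg
  refine integral_congr_ae (Filter.Eventually.of_forall fun v => ?_)
  simp only
  rw [integral_const_mul]

lemma abs_corrFn_le (hV : Measurable V) {A B : ℝ} (hA : ∀ u, |U u| ≤ A)
    (hB : ∀ u, |V u| ≤ B) (hB0 : 0 ≤ B) (ρ : ℝ) :
    |corrFn U V ρ| ≤ A * B := by
  unfold corrFn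
  calc _ ≤ ∫ v, |U v * noiseAvg V ρ v| ∂(gaussianReal 0 1) := abs_integral_le_integral_abs
    _ ≤ ∫ _v, A * B ∂(gaussianReal 0 1) := by
        refine integral_mono_of_nonneg (Filter.Eventually.of_forall fun v => abs_nonneg _)
          (integrable_const _) (Filter.Eventually.of_forall fun v => ?_)
        simp only
        rw [abs_mul]
        exact mul_le_mul (hA v) (abs_noiseAvg_le hV hB ρ v) (abs_nonneg _)
          ((abs_nonneg _).trans (hA v))
    _ = A * B := by simp

/-- Fubini form of the correlation function. -/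
lemma corrFn_eq_prod (hU : Measurable U) (hV : Measurable V) {A B : ℝ}
    (hA : ∀ u, |U u| ≤ A) (hB : ∀ u, |V u| ≤ B) (ρ : ℝ) :
    corrFn U V ρ = ∫ p : ℝ × ℝ, U p.1 * V (ρ * p.1 + Real.sqrt (1 - ρ ^ 2) * p.2)
      ∂((gaussianReal 0 1).prod (gaussianReal 0 1)) := by
  have hint : Integrable (fun p : ℝ × ℝ => U p.1 * V (ρ * p.1 + Real.sqrt (1 - ρ ^ 2) * p.2))
      ((gaussianReal 0 1).prod (gaussianReal 0 1)) :=
    integrable_mul_of_bdd (hU.comp measurable_fst) (hV.comp (by fun_prop)) (fun x => hA _)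
      (fun x => hB _)
  rw [integral_prod _ hint]
  unfold corrFn noiseAvg
  refine integral_congr_ae (Filter.Eventually.of_forall fun v => ?_)
  simp only
  rw [integral_const_mul]

/-- The correlation function of a continuous bounded function is continuous. -/
lemma continuous_corrFn {W : ℝ → ℝ} (hW : Continuous W) {B : ℝ} (hB : ∀ u, |W u| ≤ B) :
    Continuous (corrFn W W) := by
  have h1 : corrFn W W = fun ρ => ∫ p : ℝ × ℝ, W p.1 * W (ρ * p.1 + Real.sqrt (1 - ρ ^ 2) * p.2)
      ∂((gaussianReal 0 1).prod (gaussianReal 0 1)) := by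
    funext ρ
    exact corrFn_eq_prod hW.measurable hW.measurable hB hB ρ
  rw [h1]
  refine continuous_of_dominated (bound := fun _ => B * B) ?_ ?_ (integrable_const _) ?_
  · intro ρ
    exact ((hW.comp continuous_fst).mul (hW.comp (by fun_prop))).aestronglyMeasurable
  · intro ρ
    refine Filter.Eventually.of_forall fun p => ?_
    rw [Real.norm_eq_abs, abs_mul]
    exact mul_le_mul (hB _) (hB _) (abs_nonneg _) ((abs_nonneg _).trans (hB p.1))
  · refine Filter.Eventually.of_forall fun p => ?_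
    exact (hW.comp continuous_const).mul (hW.comp (by fun_prop))

lemma corrFn_sub_left (hU : Measurable U) (hV : Measurable V) {W : ℝ → ℝ} (hW : Measurable W)
    {A B C : ℝ} (hA : ∀ u, |U u| ≤ A) (hB : ∀ u, |V u| ≤ B) (hC : ∀ u, |W u| ≤ C) (ρ : ℝ) :
    |corrFn U W ρ - corrFn V W ρ| ≤ C * ∫ v, |U v - V v| ∂(gaussianReal 0 1) := by
  have hC0 : 0 ≤ C := (abs_nonneg _).trans (hC 0)
  unfold corrFn
  have hP := measurable_noiseAvg hW ρ
  have hi1 : Integrable (fun v => U v * noiseAvg W ρ v) (gaussianReal 0 1) :=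
    integrable_mul_of_bdd hU hP hA (abs_noiseAvg_le hW hC ρ)
  have hi2 : Integrable (fun v => V v * noiseAvg W ρ v) (gaussianReal 0 1) :=
    integrable_mul_of_bdd hV hP hB (abs_noiseAvg_le hW hC ρ)
  rw [← integral_sub hi1 hi2]
  have hi3 : Integrable (fun v => |U v - V v|) (gaussianReal 0 1) :=
    integrable_of_bdd (B := A + B) ((hU.sub hV).abs) fun v => by
      rw [abs_abs]
      exact (abs_sub _ _).trans (add_le_add (hA v) (hB v))
  rw [← integral_const_mul]
  refine (abs_integral_le_integral_abs).trans (integral_mono_of_nonneg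
    (Filter.Eventually.of_forall fun v => abs_nonneg _) (hi3.const_mul C)
    (Filter.Eventually.of_forall fun v => ?_))
  simp only
  have h1 : U v * noiseAvg W ρ v - V v * noiseAvg W ρ v = (U v - V v) * noiseAvg W ρ v := by ring
  rw [h1, abs_mul, mul_comm]
  exact mul_le_mul_of_nonneg_right (abs_noiseAvg_le hW hC ρ v) (abs_nonneg _)

/-- The noise operator is an `L¹` contraction. -/
lemma integral_abs_noiseAvg_le (hW : Measurable V) {B : ℝ} (hB : ∀ u, |V u| ≤ B) {ρ : ℝ}
    (hρ : |ρ| ≤ 1) :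
    ∫ v, |noiseAvg V ρ v| ∂(gaussianReal 0 1) ≤ ∫ v, |V v| ∂(gaussianReal 0 1) := by
  have h1 : ∫ v, noiseAvg (fun u => |V u|) ρ v ∂(gaussianReal 0 1) =
      ∫ v, |V v| ∂(gaussianReal 0 1) :=
    integral_noiseAvg hW.abs (B := B) (fun u => by rw [abs_abs]; exact hB u) hρ
  rw [← h1]
  have hB0 : 0 ≤ B := (abs_nonneg _).trans (hB 0)
  refine integral_mono_of_nonneg (Filter.Eventually.of_forall fun v => abs_nonneg _)
    (integrable_of_bdd (B := B) (measurable_noiseAvg hW.abs ρ) fun v =>
      abs_noiseAvg_le hW.abs (B := B) (fun u => by rw [abs_abs]; exact hB u) ρ v)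
    (Filter.Eventually.of_forall fun v => ?_)
  simp only
  unfold noiseAvg
  exact abs_integral_le_integral_abs

lemma noiseAvg_sub (hU : Measurable U) (hV : Measurable V) {A B : ℝ} (hA : ∀ u, |U u| ≤ A)
    (hB : ∀ u, |V u| ≤ B) (ρ v : ℝ) :
    noiseAvg (fun u => U u - V u) ρ v = noiseAvg U ρ v - noiseAvg V ρ v := by
  unfold noiseAvg
  have h1 : Integrable (fun w => U (ρ * v + Real.sqrt (1 - ρ ^ 2) * w)) (gaussianReal 0 1) :=
    integrable_of_bdd (B := A) (hU.comp (by fun_prop)) fun w => hA _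
  have h2 : Integrable (fun w => V (ρ * v + Real.sqrt (1 - ρ ^ 2) * w)) (gaussianReal 0 1) :=
    integrable_of_bdd (B := B) (hV.comp (by fun_prop)) fun w => hB _
  rw [integral_sub h1 h2]

lemma corrFn_sub_right (hU : Measurable U) (hV : Measurable V) {W : ℝ → ℝ} (hW : Measurable W)
    {A B C : ℝ} (hA : ∀ u, |U u| ≤ A) (hB : ∀ u, |V u| ≤ B) (hC : ∀ u, |W u| ≤ C) {ρ : ℝ}
    (hρ : |ρ| ≤ 1) :
    |corrFn W U ρ - corrFn W V ρ| ≤ C * ∫ v, |U v - V v| ∂(gaussianReal 0 1) := by
  have hC0 : 0 ≤ C := (abs_nonneg _).trans (hC 0)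
  unfold corrFn
  have hP1 := measurable_noiseAvg hU ρ
  have hP2 := measurable_noiseAvg hV ρ
  have hi1 : Integrable (fun v => W v * noiseAvg U ρ v) (gaussianReal 0 1) :=
    integrable_mul_of_bdd hW hP1 hC (abs_noiseAvg_le hU hA ρ)
  have hi2 : Integrable (fun v => W v * noiseAvg V ρ v) (gaussianReal 0 1) :=
    integrable_mul_of_bdd hW hP2 hC (abs_noiseAvg_le hV hB ρ)
  rw [← integral_sub hi1 hi2]
  have hsub : Measurable (fun u => U u - V u) := hU.sub hV
  have hsubB : ∀ u, |U u - V u| ≤ A + B := fun u => (abs_sub _ _).trans (add_le_add (hA u) (hB u))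
  have hint := integral_abs_noiseAvg_le hsub hsubB hρ
  have hi3 : Integrable (fun v => |noiseAvg (fun u => U u - V u) ρ v|) (gaussianReal 0 1) :=
    integrable_of_bdd (B := A + B) (measurable_noiseAvg hsub ρ).abs fun v => by
      rw [abs_abs]
      exact abs_noiseAvg_le hsub hsubB ρ v
  calc _ ≤ ∫ v, |W v * noiseAvg U ρ v - W v * noiseAvg V ρ v| ∂(gaussianReal 0 1) :=
        abs_integral_le_integral_abs
    _ ≤ ∫ v, C * |noiseAvg (fun u => U u - V u) ρ v| ∂(gaussianReal 0 1) := by
        refine integral_mono_of_nonneg (Filter.Eventually.of_forall fun v => abs_nonneg _)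
          (hi3.const_mul C) (Filter.Eventually.of_forall fun v => ?_)
        simp only
        rw [noiseAvg_sub hU hV hA hB, ← mul_sub, abs_mul]
        exact mul_le_mul_of_nonneg_right (hC v) (abs_nonneg _)
    _ = C * ∫ v, |noiseAvg (fun u => U u - V u) ρ v| ∂(gaussianReal 0 1) := integral_const_mul _ _
    _ ≤ _ := mul_le_mul_of_nonneg_left hint hC0

/-- Approximation in `L¹` by continuous functions with the same bound. -/
lemma exists_continuous_approx (hU : Measurable U) {B : ℝ} (hB : ∀ u, |U u| ≤ B) {ε : ℝ}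
    (hε : 0 < ε) :
    ∃ W : ℝ → ℝ, Continuous W ∧ (∀ u, |W u| ≤ B) ∧
      ∫ v, |U v - W v| ∂(gaussianReal 0 1) ≤ ε := by
  have hi : Integrable U (gaussianReal 0 1) := integrable_of_bdd hU hB
  obtain ⟨g, hg1, hg2⟩ := hi.exists_boundedContinuous_integral_sub_le hε
  have hB0 : 0 ≤ B := (abs_nonneg _).trans (hB 0)
  refine ⟨fun u => max (-B) (min B (g u)), by fun_prop, fun u => ?_, ?_⟩
  · rw [abs_le]
    exact ⟨le_max_left _ _, max_le (by linarith) (min_le_left _ _)⟩
  · refine le_trans (integral_mono_of_nonneg (Filter.Eventually.of_forall fun v => abs_nonneg _)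
      ?_ (Filter.Eventually.of_forall fun v => ?_)) hg1
    · have := hi.sub hg2
      exact this.norm
    · simp only [Real.norm_eq_abs, Pi.sub_apply]
      obtain ⟨h1, h2⟩ := abs_le.mp (hB v)
      rw [abs_le]
      constructor
      · rcases le_total B (g v) with h | h
        · rw [min_eq_left h, max_eq_right (by linarith)]
          have := le_abs_self (U v - g v)
          have h3 := neg_abs_le (U v - g v)
          have h4 : U v - g v ≤ 0 := by linarith
          rw [abs_of_nonpos h4]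
          linarith
        · rw [min_eq_right h]
          rcases le_total (-B) (g v) with h' | h'
          · rw [max_eq_right h']
            exact neg_abs_le _
          · rw [max_eq_left h']
            have := le_abs_self (U v - g v)
            linarith [abs_nonneg (U v - g v)]
      · rcases le_total B (g v) with h | h
        · rw [min_eq_left h, max_eq_right (by linarith)]
          have h4 : U v - g v ≤ 0 := by linarith
          rw [abs_of_nonpos h4]
          linarith
        · rw [min_eq_right h]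
          rcases le_total (-B) (g v) with h' | h'
          · rw [max_eq_right h']
            exact le_abs_self _
          · rw [max_eq_left h']
            have h4 : 0 ≤ U v - g v := by linarith
            rw [abs_of_nonneg h4]
            linarith

/-- Modulus of continuity of the correlation function on `[-1, 1]`. -/
lemma corrFn_modulus (hU : Measurable U) {B : ℝ} (hB : ∀ u, |U u| ≤ B) {η : ℝ} (hη : 0 < η) :
    ∃ K : ℝ, 0 ≤ K ∧ ∀ s t : ℝ, |s| ≤ 1 → |t| ≤ 1 →
      |corrFn U U s - corrFn U U t| ≤ η + K * |s - t| := by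
  have hB0 : 0 ≤ B := (abs_nonneg _).trans (hB 0)
  obtain ⟨ε, hε, hεB⟩ : ∃ ε : ℝ, 0 < ε ∧ 4 * (B * ε) ≤ η / 2 := by
    refine ⟨η / (8 * (B + 1)), by positivity, ?_⟩
    have h1 : 4 * (B * (η / (8 * (B + 1)))) = (η / 2) * (B / (B + 1)) := by
      field_simp
      ring
    rw [h1]
    have h2 : B / (B + 1) ≤ 1 := by
      rw [div_le_one (by positivity)]
      linarith
    have : 0 < η / 2 := by positivity
    nlinarith
  obtain ⟨W, hWc, hWB, hWε⟩ := exists_continuous_approx hU hB hε
  have hcont := continuous_corrFn hWc hWB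
  have hunif := isCompact_Icc.uniformContinuousOn_of_continuous (s := Set.Icc (-1 : ℝ) 1)
    hcont.continuousOn
  obtain ⟨δ, hδ, hδη⟩ := Metric.uniformContinuousOn_iff.mp hunif (η / 2) (by positivity)
  have hC : ∀ ρ : ℝ, |ρ| ≤ 1 → |corrFn U U ρ - corrFn W W ρ| ≤ 2 * (B * ε) := by
    intro ρ hρ
    have h1 := corrFn_sub_left hU hWc.measurable (W := U) hU hB hWB hB ρ
    have h2 := corrFn_sub_right hU hWc.measurable (W := W) hWc.measurable hB hWB hWB hρ
    have h3 : corrFn U U ρ - corrFn W W ρ =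
        (corrFn U U ρ - corrFn W U ρ) + (corrFn W U ρ - corrFn W W ρ) := by ring
    rw [h3]
    refine (abs_add_le _ _).trans ?_
    have h4 : B * ∫ v, |U v - W v| ∂(gaussianReal 0 1) ≤ B * ε :=
      mul_le_mul_of_nonneg_left hWε hB0
    linarith
  refine ⟨2 * (B * B) / δ, by positivity, fun s t hs ht => ?_⟩
  rcases lt_or_ge |s - t| δ with hlt | hge
  · have hs' : s ∈ Set.Icc (-1 : ℝ) 1 := abs_le.mp hs
    have ht' : t ∈ Set.Icc (-1 : ℝ) 1 := abs_le.mp ht
    have h1 := hδη s hs' t ht' (by rwa [Real.dist_eq])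
    rw [Real.dist_eq] at h1
    have h2 := hC s hs
    have h3 := hC t ht
    have h4 : corrFn U U s - corrFn U U t = (corrFn U U s - corrFn W W s) +
        (corrFn W W s - corrFn W W t) - (corrFn U U t - corrFn W W t) := by ring
    rw [h4]
    have h5 := abs_sub (corrFn U U s - corrFn W W s + (corrFn W W s - corrFn W W t))
      (corrFn U U t - corrFn W W t)
    have h6 := abs_add_le (corrFn U U s - corrFn W W s) (corrFn W W s - corrFn W W t)
    have h7 : 0 ≤ 2 * (B * B) / δ * |s - t| := by positivity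
    linarith
  · have h1 := abs_corrFn_le (U := U) (V := U) hU hB hB hB0 s
    have h2 := abs_corrFn_le (U := U) (V := U) hU hB hB hB0 t
    have h3 := abs_sub (corrFn U U s) (corrFn U U t)
    have h4 : 2 * (B * B) ≤ 2 * (B * B) / δ * |s - t| := by
      rw [div_mul_eq_mul_div, le_div_iff₀ hδ]
      have : 0 ≤ 2 * (B * B) := by positivity
      nlinarith
    linarith

end Corr

end Vale.Agent.Lib.P157
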