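import Vale.Agent.Lib.P157.RSGauss
import Vale.Agent.Lib.P157.RSCavity

/-!
The Gaussian side channel for a prior on the cube: the shift formula for the observation, the
Nishimori identity and integration by parts.
-/

open MeasureTheory ProbabilityTheory
open scoped NNReal ENNReal

set_option linter.unusedSectionVars false

namespace Vale.Agent.Lib.P157

section Defs

variable {N : ℕ}

/-- The scalar product of a spin configuration with a vector. -/
noncomputable def sdot (x : Fin N → Bool) (y : Fin N → ℝ) : ℝ := ∑ i, spinValue (x i) * y i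

/-- The real vector of a spin configuration. -/
noncomputable def svec (x : Fin N → Bool) (i : Fin N) : ℝ := spinValue (x i)

/-- The Gibbs potential tilted by an observation. -/
noncomputable def tiltPot (v : (Fin N → Bool) → ℝ) (s : ℝ) (y : Fin N → ℝ) (x : Fin N → Bool) : ℝ :=
  v x + s * sdot x y

/-- The observation `s x* + z`. -/
noncomputable def obsv (s : ℝ) (xs : Fin N → Bool) (z : Fin N → ℝ) (i : Fin N) : ℝ :=
  s * spinValue (xs i) + z i

/-- Expectation over a planted point drawn from the prior and an independent Gaussian vector. -/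
noncomputable def priorE (v : (Fin N → Bool) → ℝ) (F : (Fin N → Bool) → (Fin N → ℝ) → ℝ) : ℝ :=
  ∑ xs, gwt v xs * ∫ z, F xs z ∂(patternLaw N)

/-- The normalization of the posterior. -/
noncomputable def normZ (v : (Fin N → Bool) → ℝ) (s : ℝ) (y : Fin N → ℝ) : ℝ :=
  ∑ x, gwt v x * Real.exp (s * sdot x y - s ^ 2 * N / 2)

end Defs

section Algebra

variable {N : ℕ} (v : (Fin N → Bool) → ℝ) (s : ℝ)

lemma abs_sdot_le (x : Fin N → Bool) (y : Fin N → ℝ) : |sdot x y| ≤ ∑ i, |y i| := by
  unfold sdot
  refine (Finset.abs_sum_le_sum_abs _ _).trans (le_of_eq ?_)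
  refine Finset.sum_congr rfl fun i _ => ?_
  rw [abs_mul, abs_spinValue, one_mul]

lemma measurable_sdot (x : Fin N → Bool) : Measurable (sdot x) := by
  unfold sdot
  exact Finset.measurable_sum _ fun i _ => (measurable_pi_apply i).const_mul _

lemma sum_svec_sq (xs : Fin N → Bool) : ∑ i, (s * spinValue (xs i)) ^ 2 = s ^ 2 * N := by
  simp_rw [mul_pow, spinValue_sq]
  simp
  ring

lemma shiftDens_spin (xs : Fin N → Bool) (y : Fin N → ℝ) :
    shiftDens (fun i => s * spinValue (xs i)) y = Real.exp (s * sdot xs y - s ^ 2 * N / 2) := by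
  rw [shiftDens_eq, sum_svec_sq]
  congr 2
  unfold sdot
  rw [Finset.mul_sum]
  refine Finset.sum_congr rfl fun i _ => ?_
  ring

lemma normZ_pos (y : Fin N → ℝ) : 0 < normZ v s y :=
  Finset.sum_pos (fun x _ => mul_pos (gwt_pos v x) (Real.exp_pos _)) Finset.univ_nonempty

/-- The posterior weight. -/
lemma gwt_tilt (y : Fin N → ℝ) (x : Fin N → Bool) :
    gwt v x * Real.exp (s * sdot x y - s ^ 2 * N / 2) = normZ v s y * gwt (tiltPot v s y) x := by
  have hv := gsum_pos v
  have ht := gsum_pos (tiltPot v s y)
  have hnorm : normZ v s y = gsum (tiltPot v s y) * Real.exp (-(s ^ 2 * N / 2)) / gsum v := by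
    unfold normZ gwt gsum tiltPot
    rw [Finset.sum_mul, Finset.sum_div]
    refine Finset.sum_congr rfl fun x _ => ?_
    rw [sub_eq_add_neg, Real.exp_add, Real.exp_add (v x)]
    ring
  rw [hnorm]
  unfold gwt tiltPot
  rw [sub_eq_add_neg, Real.exp_add, Real.exp_add (v x)]
  have ht' : gsum (fun x => v x + s * sdot x y) ≠ 0 := ht.ne'
  have hv' : gsum v ≠ 0 := hv.ne'
  field_simp

lemma sum_gwt_mul_exp (a : (Fin N → Bool) → ℝ) (y : Fin N → ℝ) :
    ∑ xs, gwt v xs * a xs * Real.exp (s * sdot xs y - s ^ 2 * N / 2) =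
      normZ v s y * gavg (tiltPot v s y) a := by
  unfold gavg
  rw [Finset.mul_sum]
  refine Finset.sum_congr rfl fun x _ => ?_
  have := gwt_tilt v s y x
  calc gwt v x * a x * Real.exp (s * sdot x y - s ^ 2 * N / 2)
      = (gwt v x * Real.exp (s * sdot x y - s ^ 2 * N / 2)) * a x := by ring
    _ = _ := by
        rw [this]
        ring

lemma measurable_tilt_gavg {a : (Fin N → Bool) → ℝ} :
    Measurable fun y : Fin N → ℝ => gavg (tiltPot v s y) a := by
  refine measurable_gavg (v := fun y => tiltPot v s y) (a := fun _ => a) (fun x => ?_)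
    (fun x => measurable_const)
  unfold tiltPot
  exact ((measurable_sdot x).const_mul s).const_add _

lemma measurable_obsv (xs : Fin N → Bool) : Measurable (obsv s xs) := by
  refine measurable_pi_lambda _ fun i => ?_
  unfold obsv
  exact (measurable_pi_apply i).const_add _

lemma gavg_one (w : (Fin N → Bool) → ℝ) : gavg w (fun _ => 1) = 1 := by
  unfold gavg
  simp only [mul_one]
  exact sum_gwt w

end Algebra

section Nishimori

variable {N : ℕ} (v : (Fin N → Bool) → ℝ) (s : ℝ)

lemma integrable_shiftDens {n : ℕ} (a : Fin n → ℝ) : Integrable (shiftDens a) (patternLaw n) :=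
  Integrable.fintype_prod (f := fun i y => Real.exp (a i * y - a i ^ 2 / 2))
    fun i => integrable_exp_linear (a i)

lemma integrable_shiftDens_mul {n : ℕ} (a : Fin n → ℝ) {F : (Fin n → ℝ) → ℝ} (hF : Measurable F)
    {B : ℝ} (hB : ∀ y, |F y| ≤ B) :
    Integrable (fun y => shiftDens a y * F y) (patternLaw n) := by
  refine ((integrable_shiftDens a).norm.const_mul B).mono'
    ((measurable_shiftDens a).mul hF).aestronglyMeasurable ?_
  refine Filter.Eventually.of_forall fun y => ?_
  rw [Real.norm_eq_abs, abs_mul, Real.norm_eq_abs, mul_comm]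
  exact mul_le_mul_of_nonneg_right (hB y) (abs_nonneg _)

/-- The posterior representation of the expectation of a function of the observation. -/
lemma priorE_obs (a : (Fin N → Bool) → ℝ) {Ξ : (Fin N → ℝ) → ℝ} (hΞ : Measurable Ξ) {B : ℝ}
    (hB : ∀ y, |Ξ y| ≤ B) :
    priorE v (fun xs z => a xs * Ξ (obsv s xs z)) =
      ∫ y, normZ v s y * gavg (tiltPot v s y) a * Ξ y ∂(patternLaw N) := by
  unfold priorE
  have h1 : ∀ xs : Fin N → Bool, ∫ z, a xs * Ξ (obsv s xs z) ∂(patternLaw N) =
      ∫ y, a xs * (Real.exp (s * sdot xs y - s ^ 2 * N / 2) * Ξ y) ∂(patternLaw N) := by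
    intro xs
    rw [integral_const_mul, integral_const_mul]
    congr 1
    have := integral_shift_vec (fun i => s * spinValue (xs i)) hΞ
    simp_rw [shiftDens_spin] at this
    exact this
  simp_rw [h1]
  have hi : ∀ xs : Fin N → Bool, Integrable (fun y =>
      gwt v xs * (a xs * (Real.exp (s * sdot xs y - s ^ 2 * N / 2) * Ξ y))) (patternLaw N) := by
    intro xs
    have := integrable_shiftDens_mul (fun i => s * spinValue (xs i)) hΞ hB
    simp_rw [shiftDens_spin] at this
    exact (this.const_mul _).const_mul _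
  simp_rw [← integral_const_mul]
  rw [← integral_finsetSum _ fun xs _ => hi xs]
  refine integral_congr_ae (Filter.Eventually.of_forall fun y => ?_)
  simp only
  have h2 := sum_gwt_mul_exp v s a y
  rw [← h2, Finset.sum_mul]
  refine Finset.sum_congr rfl fun x _ => ?_
  ring

/-- **The Nishimori identity.** -/
lemma nishimori (a : (Fin N → Bool) → ℝ) {Ξ : (Fin N → ℝ) → ℝ} (hΞ : Measurable Ξ) {B : ℝ}
    (hB : ∀ y, |Ξ y| ≤ B) :
    priorE v (fun xs z => a xs * Ξ (obsv s xs z)) =
      priorE v (fun xs z => gavg (tiltPot v s (obsv s xs z)) a * Ξ (obsv s xs z)) := by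
  rw [priorE_obs v s a hΞ hB]
  obtain ⟨x0⟩ := (inferInstance : Nonempty (Fin N → Bool))
  have hKex : ∃ K, ∀ x, |a x| ≤ K := by
    refine ⟨∑ x, |a x|, fun x => ?_⟩
    exact Finset.single_le_sum (f := fun x => |a x|) (fun _ _ => abs_nonneg _) (Finset.mem_univ x)
  obtain ⟨K, hK⟩ := hKex
  have hΞ2 : Measurable fun y => gavg (tiltPot v s y) a * Ξ y :=
    (measurable_tilt_gavg v s).mul hΞ
  have hB2 : ∀ y, |gavg (tiltPot v s y) a * Ξ y| ≤ K * B := by
    intro y
    rw [abs_mul]
    exact mul_le_mul (abs_gavg_le _ _ hK) (hB y) (abs_nonneg _) ((abs_nonneg _).trans (hK x0))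
  have h2 := priorE_obs v s (fun _ => 1) hΞ2 hB2
  simp only [one_mul, gavg_one, mul_one] at h2
  rw [h2]
  refine integral_congr_ae (Filter.Eventually.of_forall fun y => ?_)
  simp only
  ring

end Nishimori

section Linear

variable {N : ℕ} (v : (Fin N → Bool) → ℝ)

lemma priorE_add {F H : (Fin N → Bool) → (Fin N → ℝ) → ℝ}
    (hF : ∀ xs, Integrable (F xs) (patternLaw N)) (hH : ∀ xs, Integrable (H xs) (patternLaw N)) :
    priorE v (fun xs z => F xs z + H xs z) = priorE v F + priorE v H := by
  unfold priorE
  rw [← Finset.sum_add_distrib]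
  refine Finset.sum_congr rfl fun xs _ => ?_
  rw [integral_add (hF xs) (hH xs), mul_add]

lemma priorE_sub {F H : (Fin N → Bool) → (Fin N → ℝ) → ℝ}
    (hF : ∀ xs, Integrable (F xs) (patternLaw N)) (hH : ∀ xs, Integrable (H xs) (patternLaw N)) :
    priorE v (fun xs z => F xs z - H xs z) = priorE v F - priorE v H := by
  unfold priorE
  rw [← Finset.sum_sub_distrib]
  refine Finset.sum_congr rfl fun xs _ => ?_
  rw [integral_sub (hF xs) (hH xs), mul_sub]

lemma priorE_const_mul (F : (Fin N → Bool) → (Fin N → ℝ) → ℝ) (c : ℝ) :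
    priorE v (fun xs z => c * F xs z) = c * priorE v F := by
  unfold priorE
  rw [Finset.mul_sum]
  refine Finset.sum_congr rfl fun xs _ => ?_
  rw [integral_const_mul]
  ring

lemma priorE_sum {ι : Type*} (t : Finset ι) {F : ι → (Fin N → Bool) → (Fin N → ℝ) → ℝ}
    (hF : ∀ i ∈ t, ∀ xs, Integrable (F i xs) (patternLaw N)) :
    priorE v (fun xs z => ∑ i ∈ t, F i xs z) = ∑ i ∈ t, priorE v (F i) := by
  unfold priorE
  rw [Finset.sum_comm]
  refine Finset.sum_congr rfl fun xs _ => ?_
  rw [integral_finsetSum _ fun i hi => hF i hi xs, Finset.mul_sum]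

lemma priorE_const (c : ℝ) : priorE v (fun _ _ => c) = c := by
  unfold priorE
  simp only [integral_const, probReal_univ, one_smul]
  rw [← Finset.sum_mul, sum_gwt, one_mul]

lemma priorE_mono {F H : (Fin N → Bool) → (Fin N → ℝ) → ℝ}
    (hF : ∀ xs, Integrable (F xs) (patternLaw N)) (hH : ∀ xs, Integrable (H xs) (patternLaw N))
    (h : ∀ xs z, F xs z ≤ H xs z) : priorE v F ≤ priorE v H := by
  unfold priorE
  refine Finset.sum_le_sum fun xs _ => ?_
  exact mul_le_mul_of_nonneg_left (integral_mono (hF xs) (hH xs) (h xs)) (gwt_pos v xs).le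

end Linear

section Star

variable {N : ℕ} (v : (Fin N → Bool) → ℝ) (s : ℝ)

lemma obsv_update (xs : Fin N → Bool) (z : Fin N → ℝ) (j : Fin N) (t : ℝ) :
    obsv s xs (Function.update z j t) =
      Function.update (obsv s xs z) j (s * spinValue (xs j) + t) := by
  funext i
  by_cases h : i = j
  · subst h
    simp [obsv]
  · simp [obsv, Function.update_of_ne h]

/-- **Integration by parts** for a function of the observation. -/
lemma prior_ibp (j : Fin N) {Ξ Ξ' : (Fin N → ℝ) → ℝ} (hΞ : Measurable Ξ) (hΞ' : Measurable Ξ')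
    {B B' : ℝ} (hB : ∀ y, |Ξ y| ≤ B) (hB' : ∀ y, |Ξ' y| ≤ B')
    (hd : ∀ y, HasDerivAt (fun t => Ξ (Function.update y j t)) (Ξ' y) (y j)) :
    priorE v (fun xs z => z j * Ξ (obsv s xs z)) = priorE v (fun xs z => Ξ' (obsv s xs z)) := by
  unfold priorE
  refine Finset.sum_congr rfl fun xs _ => ?_
  congr 1
  refine ibp_coord j (hΞ.comp (measurable_obsv s xs)) (hΞ'.comp (measurable_obsv s xs))
    (fun z => hB _) (fun z => hB' _) fun z => ?_
  have h1 := hd (obsv s xs z)
  simp_rw [obsv_update]
  have e : obsv s xs z j = s * spinValue (xs j) + z j := rfl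
  rw [e] at h1
  exact h1.comp_const_add (s * spinValue (xs j)) (z j)

lemma integrable_obs {Ξ : (Fin N → ℝ) → ℝ} (hΞ : Measurable Ξ) {B : ℝ} (hB : ∀ y, |Ξ y| ≤ B)
    (xs : Fin N → Bool) : Integrable (fun z => Ξ (obsv s xs z)) (patternLaw N) :=
  integrable_of_bdd (hΞ.comp (measurable_obsv s xs)) fun z => hB _

lemma integrable_coord_obs (j : Fin N) {Ξ : (Fin N → ℝ) → ℝ} (hΞ : Measurable Ξ) {B : ℝ}
    (hB : ∀ y, |Ξ y| ≤ B) (xs : Fin N → Bool) :
    Integrable (fun z => z j * Ξ (obsv s xs z)) (patternLaw N) :=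
  integrable_coord_mul j (hΞ.comp (measurable_obsv s xs)) fun z => hB _

/-- The magnetization as a function of the observation. -/
noncomputable def magY (v : (Fin N → Bool) → ℝ) (s : ℝ) (i : Fin N) (y : Fin N → ℝ) : ℝ :=
  magn (tiltPot v s y) i

lemma measurable_magY (i : Fin N) : Measurable (magY v s i) :=
  measurable_tilt_gavg v s

lemma abs_magY_le (i : Fin N) (y : Fin N → ℝ) : |magY v s i y| ≤ 1 := abs_magn_le _ i

/-- **Integration by parts with the Nishimori identity.** -/
lemma star (j : Fin N) {Ξ Ξ' : (Fin N → ℝ) → ℝ} (hΞ : Measurable Ξ) (hΞ' : Measurable Ξ')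
    {B B' : ℝ} (hB : ∀ y, |Ξ y| ≤ B) (hB' : ∀ y, |Ξ' y| ≤ B')
    (hd : ∀ y, HasDerivAt (fun t => Ξ (Function.update y j t)) (Ξ' y) (y j)) :
    priorE v (fun xs z => (2 * s * spinValue (xs j) + z j) * Ξ (obsv s xs z)) =
      2 * s * priorE v (fun xs z => magY v s j (obsv s xs z) * Ξ (obsv s xs z)) +
        priorE v (fun xs z => Ξ' (obsv s xs z)) := by
  have h1 : (fun (xs : Fin N → Bool) (z : Fin N → ℝ) =>
      (2 * s * spinValue (xs j) + z j) * Ξ (obsv s xs z)) = fun xs z =>
        2 * s * (spinValue (xs j) * Ξ (obsv s xs z)) + z j * Ξ (obsv s xs z) := by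
    funext xs z
    ring
  rw [h1]
  have hi1 : ∀ xs : Fin N → Bool, Integrable (fun z =>
      2 * s * (spinValue (xs j) * Ξ (obsv s xs z))) (patternLaw N) := fun xs =>
    ((integrable_obs s hΞ hB xs).const_mul _).const_mul _
  rw [priorE_add v hi1 (integrable_coord_obs s j hΞ hB), priorE_const_mul,
    prior_ibp v s j hΞ hΞ' hB hB' hd, nishimori v s (fun x => spinValue (x j)) hΞ hB]
  rfl

end Star

section YDeriv

variable {N : ℕ} (v : (Fin N → Bool) → ℝ) (s : ℝ)

lemma sdot_update (x : Fin N → Bool) (y : Fin N → ℝ) (j : Fin N) (t : ℝ) :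
    sdot x (Function.update y j t) = sdot x y + spinValue (x j) * (t - y j) := by
  unfold sdot
  rw [← Finset.add_sum_erase _ _ (Finset.mem_univ j),
    ← Finset.add_sum_erase (a := j) (s := Finset.univ) (f := fun i => spinValue (x i) * y i)
      (Finset.mem_univ j)]
  simp only [Function.update_self]
  have h : ∑ i ∈ Finset.univ.erase j, spinValue (x i) * Function.update y j t i =
      ∑ i ∈ Finset.univ.erase j, spinValue (x i) * y i := by
    refine Finset.sum_congr rfl fun i hi => ?_
    rw [Function.update_of_ne (Finset.ne_of_mem_erase hi)]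
  rw [h]
  ring

lemma hasDerivAt_tilt_update (y : Fin N → ℝ) (j : Fin N) (x : Fin N → Bool) (t : ℝ) :
    HasDerivAt (fun t => tiltPot v s (Function.update y j t) x) (s * spinValue (x j)) t := by
  have h : (fun t => tiltPot v s (Function.update y j t) x) =
      fun t => v x + s * (sdot x y + spinValue (x j) * (t - y j)) := by
    funext t
    unfold tiltPot
    rw [sdot_update]
  rw [h]
  have h1 : HasDerivAt (fun t => v x + s * (sdot x y + spinValue (x j) * (t - y j)))
      (s * (spinValue (x j) * 1)) t :=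
    ((((hasDerivAt_id' t).sub_const (y j)).const_mul (spinValue (x j))).const_add
      (sdot x y)).const_mul s |>.const_add (v x)
  simpa using h1

lemma tilt_update_self (y : Fin N → ℝ) (j : Fin N) :
    tiltPot v s (Function.update y j (y j)) = tiltPot v s y := by
  rw [Function.update_eq_self]

lemma gcov_cmul_right (w a b : (Fin N → Bool) → ℝ) (c : ℝ) :
    gcov w a (fun x => c * b x) = c * gcov w a b := by
  unfold gcov
  have h : (fun x => a x * (c * b x)) = fun x => c * (a x * b x) := by
    funext x
    ring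
  rw [h, gavg_const_mul, gavg_const_mul]
  ring

lemma gcum_const_mul_right (w a c b : (Fin N → Bool) → ℝ) (k : ℝ) :
    gcum w a c (fun x => k * b x) = k * gcum w a c b := by
  unfold gcum
  have h1 : (fun x => a x * c x * (k * b x)) = fun x => k * (a x * c x * b x) := by
    funext x
    ring
  have h2 : (fun x => a x * (k * b x)) = fun x => k * (a x * b x) := by
    funext x
    ring
  have h3 : (fun x => c x * (k * b x)) = fun x => k * (c x * b x) := by
    funext x
    ring
  rw [h1, h2, h3, gavg_const_mul, gavg_const_mul, gavg_const_mul, gavg_const_mul]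
  ring

/-- The derivative of a Gibbs average in a coordinate of the observation. -/
lemma hasDerivAt_gavg_y (y : Fin N → ℝ) (j : Fin N) (a : (Fin N → Bool) → ℝ) :
    HasDerivAt (fun t => gavg (tiltPot v s (Function.update y j t)) a)
      (s * gcov (tiltPot v s y) a (fun x => spinValue (x j))) (y j) := by
  have h := hasDerivAt_gavg (w := fun t => tiltPot v s (Function.update y j t))
    (w' := fun x => s * spinValue (x j)) (τ0 := y j)
    (fun x => hasDerivAt_tilt_update v s y j x (y j)) a
  rw [tilt_update_self, gcov_cmul_right] at h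
  exact h

/-- The derivative of a Gibbs covariance in a coordinate of the observation. -/
lemma hasDerivAt_gcov_y (y : Fin N → ℝ) (j : Fin N) (a c : (Fin N → Bool) → ℝ) :
    HasDerivAt (fun t => gcov (tiltPot v s (Function.update y j t)) a c)
      (s * gcum (tiltPot v s y) a c (fun x => spinValue (x j))) (y j) := by
  have h := hasDerivAt_gcov (w := fun t => tiltPot v s (Function.update y j t))
    (w' := fun x => s * spinValue (x j)) (τ0 := y j)
    (fun x => hasDerivAt_tilt_update v s y j x (y j)) a c
  rw [tilt_update_self, gcum_const_mul_right] at h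
  exact h

/-- The spin covariance as a function of the observation. -/
noncomputable def corrY (v : (Fin N → Bool) → ℝ) (s : ℝ) (i j : Fin N) (y : Fin N → ℝ) : ℝ :=
  corrSpin (tiltPot v s y) i j

lemma spin_mul_self (b : Bool) : spinValue b * spinValue b = 1 := by
  cases b <;> simp [spinValue]

lemma gavg_const_one (w : (Fin N → Bool) → ℝ) {a : (Fin N → Bool) → ℝ} (h : ∀ x, a x = 1) :
    gavg w a = 1 := by
  have : a = fun _ => 1 := funext h
  rw [this, gavg_one]

lemma corrSpin_self (w : (Fin N → Bool) → ℝ) (j : Fin N) :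
    corrSpin w j j = 1 - magn w j ^ 2 := by
  unfold corrSpin gcov magn
  rw [gavg_const_one w (fun x => spin_mul_self (x j))]
  ring

/-- The third cumulant for a repeated spin. -/
lemma gcum_spin (w : (Fin N → Bool) → ℝ) (i j : Fin N) :
    gcum w (fun x => spinValue (x i)) (fun x => spinValue (x j)) (fun x => spinValue (x j)) =
      -2 * magn w j * corrSpin w i j := by
  unfold gcum corrSpin gcov magn
  have h1 : (fun x : Fin N → Bool => spinValue (x i) * spinValue (x j) * spinValue (x j)) =
      fun x => spinValue (x i) := by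
    funext x
    rw [mul_assoc, spin_mul_self, mul_one]
  rw [h1, gavg_const_one w (fun x => spin_mul_self (x j))]
  ring

lemma measurable_corrY (i j : Fin N) : Measurable (corrY v s i j) := by
  refine measurable_gcov (v := fun y => tiltPot v s y)
    (a := fun _ x => spinValue (x i)) (b := fun _ x => spinValue (x j)) (fun x => ?_)
    (fun x => measurable_const) (fun x => measurable_const)
  unfold tiltPot
  exact ((measurable_sdot x).const_mul s).const_add _

lemma abs_corrY_le (i j : Fin N) (y : Fin N → ℝ) : |corrY v s i j y| ≤ 2 := abs_corrSpin_le _ i j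

lemma hasDerivAt_magY (y : Fin N → ℝ) (i j : Fin N) :
    HasDerivAt (fun t => magY v s i (Function.update y j t)) (s * corrY v s i j y) (y j) :=
  hasDerivAt_gavg_y v s y j _

lemma hasDerivAt_corrY_same (y : Fin N → ℝ) (i j : Fin N) :
    HasDerivAt (fun t => corrY v s i j (Function.update y j t))
      (s * (-2 * magY v s j y * corrY v s i j y)) (y j) := by
  have h := hasDerivAt_gcov_y v s y j (fun x => spinValue (x i)) (fun x => spinValue (x j))
  rw [gcum_spin] at h
  exact h

/-- The self overlap as a function of the observation. -/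
noncomputable def qY (v : (Fin N → Bool) → ℝ) (s : ℝ) (y : Fin N → ℝ) : ℝ :=
  qOf (tiltPot v s y)

lemma qY_eq (y : Fin N → ℝ) : qY v s y = (∑ k, magY v s k y ^ 2) / N := rfl

lemma measurable_qY : Measurable (qY v s) := by
  have h : qY v s = fun y => (∑ k, magY v s k y ^ 2) / N := funext (qY_eq v s)
  rw [h]
  exact (Finset.measurable_sum _ fun k _ => (measurable_magY v s k).pow_const 2).div_const _

lemma qY_nonneg (y : Fin N → ℝ) : 0 ≤ qY v s y := qOf_nonneg _

lemma qY_le_one (hN : 1 ≤ N) (y : Fin N → ℝ) : qY v s y ≤ 1 := qOf_le_one _ hN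

lemma hasDerivAt_qY (y : Fin N → ℝ) (j : Fin N) :
    HasDerivAt (fun t => qY v s (Function.update y j t))
      ((∑ k, 2 * magY v s k y * (s * corrY v s k j y)) / N) (y j) := by
  simp_rw [qY_eq]
  have h : HasDerivAt (fun t => ∑ k, magY v s k (Function.update y j t) ^ 2)
      (∑ k, 2 * magY v s k (Function.update y j (y j)) ^ 1 * (s * corrY v s k j y)) (y j) := by
    refine HasDerivAt.fun_sum fun k _ => ?_
    have := (hasDerivAt_magY v s y k j).fun_pow 2
    simpa using this
  have h2 := h.div_const (N : ℝ)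
  simpa using h2

/-- The correlation term of the overlap. -/
noncomputable def tcY (v : (Fin N → Bool) → ℝ) (s : ℝ) (y : Fin N → ℝ) : ℝ :=
  (∑ j, ∑ k, magY v s j y * magY v s k y * corrY v s k j y) / (N : ℝ) ^ 2

/-- The sum of squares of the covariances as a function of the observation. -/
noncomputable def c2Y (v : (Fin N → Bool) → ℝ) (s : ℝ) (y : Fin N → ℝ) : ℝ :=
  c2Of (tiltPot v s y)

lemma c2Y_eq (y : Fin N → ℝ) : c2Y v s y = (∑ i, ∑ j, corrY v s i j y ^ 2) / (N : ℝ) ^ 2 := rfl

lemma c2Y_nonneg (y : Fin N → ℝ) : 0 ≤ c2Y v s y := by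
  rw [c2Y_eq]
  positivity

lemma measurable_c2Y : Measurable (c2Y v s) := by
  have h : c2Y v s = fun y => (∑ i, ∑ j, corrY v s i j y ^ 2) / (N : ℝ) ^ 2 := funext (c2Y_eq v s)
  rw [h]
  exact (Finset.measurable_sum _ fun i _ => Finset.measurable_sum _ fun j _ =>
    (measurable_corrY v s i j).pow_const 2).div_const _

lemma measurable_tcY : Measurable (tcY v s) := by
  unfold tcY
  exact (Finset.measurable_sum _ fun j _ => Finset.measurable_sum _ fun k _ =>
    ((measurable_magY v s j).mul (measurable_magY v s k)).mul (measurable_corrY v s k j)).div_const _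

/-- The correlation term is bounded by the covariances. -/
lemma abs_tcY_le (hN : 1 ≤ N) (y : Fin N → ℝ) : |tcY v s y| ≤ Real.sqrt (c2Y v s y) := by
  have hN' : (0 : ℝ) < N := by exact_mod_cast hN
  have h1 := sum_abs_corrSpin_le (tiltPot v s y) hN
  refine le_trans ?_ h1
  unfold tcY
  rw [abs_div, abs_of_pos (by positivity : (0 : ℝ) < (N : ℝ) ^ 2)]
  refine div_le_div_of_nonneg_right ?_ (by positivity)
  calc _ ≤ ∑ j, |∑ k, magY v s j y * magY v s k y * corrY v s k j y| :=
        Finset.abs_sum_le_sum_abs _ _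
    _ ≤ ∑ j, ∑ k, |magY v s j y * magY v s k y * corrY v s k j y| :=
        Finset.sum_le_sum fun j _ => Finset.abs_sum_le_sum_abs _ _
    _ ≤ ∑ j, ∑ k, |corrSpin (tiltPot v s y) k j| := by
        refine Finset.sum_le_sum fun j _ => Finset.sum_le_sum fun k _ => ?_
        rw [abs_mul, abs_mul]
        have h2 := abs_magY_le v s j y
        have h3 := abs_magY_le v s k y
        have h4 : |magY v s j y| * |magY v s k y| ≤ 1 :=
          mul_le_one₀ h2 (abs_nonneg _) h3
        have h5 : |corrY v s k j y| = |corrSpin (tiltPot v s y) k j| := rfl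
        rw [h5]
        nlinarith [abs_nonneg (corrSpin (tiltPot v s y) k j)]
    _ = _ := Finset.sum_comm

end YDeriv

section Identities

variable {N : ℕ} (v : (Fin N → Bool) → ℝ) (s : ℝ)

/-- The drift of the exponent in the side channel strength. -/
noncomputable def drift (s : ℝ) (xs : Fin N → Bool) (z : Fin N → ℝ) (j : Fin N) : ℝ :=
  2 * s * spinValue (xs j) + z j

lemma integrable_drift_mul (j : Fin N) {Ξ : (Fin N → ℝ) → ℝ} (hΞ : Measurable Ξ) {B : ℝ}
    (hB : ∀ y, |Ξ y| ≤ B) (xs : Fin N → Bool) :
    Integrable (fun z => drift s xs z j * Ξ (obsv s xs z)) (patternLaw N) := by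
  have h1 := (integrable_obs s hΞ hB xs).const_mul (2 * s * spinValue (xs j))
  have h2 := integrable_coord_obs s j hΞ hB xs
  refine (h1.add h2).congr (Filter.Eventually.of_forall fun z => ?_)
  simp only [Pi.add_apply, drift]
  ring

/-- Summed form of integration by parts with the Nishimori identity. -/
lemma star_sum {Ξ Ξ' : Fin N → (Fin N → ℝ) → ℝ} (hΞ : ∀ j, Measurable (Ξ j))
    (hΞ' : ∀ j, Measurable (Ξ' j)) {B B' : ℝ} (hB : ∀ j y, |Ξ j y| ≤ B) (hB' : ∀ j y, |Ξ' j y| ≤ B')
    (hd : ∀ j y, HasDerivAt (fun t => Ξ j (Function.update y j t)) (Ξ' j y) (y j)) :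
    priorE v (fun xs z => ∑ j, drift s xs z j * Ξ j (obsv s xs z)) =
      priorE v (fun xs z => ∑ j, (2 * s * (magY v s j (obsv s xs z) * Ξ j (obsv s xs z)) +
        Ξ' j (obsv s xs z))) := by
  rw [priorE_sum v Finset.univ fun j _ xs => integrable_drift_mul s j (hΞ j) (hB j) xs]
  have hm : ∀ j, Measurable fun y => magY v s j y * Ξ j y := fun j =>
    (measurable_magY v s j).mul (hΞ j)
  have hmB : ∀ j y, |magY v s j y * Ξ j y| ≤ 1 * B := fun j y => by
    rw [abs_mul]
    exact mul_le_mul (abs_magY_le v s j y) (hB j y) (abs_nonneg _) zero_le_one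
  have hi2 : ∀ j (xs : Fin N → Bool), Integrable (fun z =>
      2 * s * (magY v s j (obsv s xs z) * Ξ j (obsv s xs z))) (patternLaw N) := fun j xs =>
    (integrable_obs s (hm j) (hmB j) xs).const_mul _
  have hi3 : ∀ j (xs : Fin N → Bool), Integrable (fun z => Ξ' j (obsv s xs z)) (patternLaw N) :=
    fun j xs => integrable_obs s (hΞ' j) (hB' j) xs
  have hi4 : ∀ j (xs : Fin N → Bool), Integrable (fun z =>
      2 * s * (magY v s j (obsv s xs z) * Ξ j (obsv s xs z)) + Ξ' j (obsv s xs z)) (patternLaw N) :=
    fun j xs => (hi2 j xs).add (hi3 j xs)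
  rw [priorE_sum v Finset.univ fun j _ xs => hi4 j xs]
  refine Finset.sum_congr rfl fun j _ => ?_
  rw [priorE_add v (hi2 j) (hi3 j), priorE_const_mul]
  exact star v s j (hΞ j) (hΞ' j) (hB j) (hB' j) (hd j)

/-- The mean of the self overlap. -/
noncomputable def qbar (v : (Fin N → Bool) → ℝ) (s : ℝ) : ℝ :=
  priorE v (fun xs z => qY v s (obsv s xs z))

/-- The mean of the covariance sum. -/
noncomputable def c2bar (v : (Fin N → Bool) → ℝ) (s : ℝ) : ℝ :=
  priorE v (fun xs z => c2Y v s (obsv s xs z))

lemma sum_mag_sq (hN : 1 ≤ N) (y : Fin N → ℝ) : ∑ j, magY v s j y ^ 2 = N * qY v s y := by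
  have hN' : (N : ℝ) ≠ 0 := by
    have : (0 : ℝ) < N := by exact_mod_cast hN
    exact this.ne'
  rw [qY_eq]
  field_simp

lemma abs_qY_le (hN : 1 ≤ N) (y : Fin N → ℝ) : |qY v s y| ≤ 1 := by
  rw [abs_of_nonneg (qY_nonneg v s y)]
  exact qY_le_one v s hN y

lemma abs_corrY_sq_le (i j : Fin N) (y : Fin N → ℝ) : |corrY v s i j y ^ 2| ≤ 4 := by
  rw [abs_pow]
  have := abs_corrY_le v s i j y
  calc |corrY v s i j y| ^ 2 ≤ 2 ^ 2 := pow_le_pow_left₀ (abs_nonneg _) this 2
    _ = 4 := by norm_num

lemma abs_magY_mul_le (i j : Fin N) (y : Fin N → ℝ) : |magY v s i y * magY v s j y| ≤ 1 := by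
  rw [abs_mul]
  exact mul_le_one₀ (abs_magY_le v s i y) (abs_nonneg _) (abs_magY_le v s j y)

/-- The first identity: the mean of the drift against the magnetization. -/
lemma priorE_drift_mag (hN : 1 ≤ N) :
    priorE v (fun xs z => ∑ j, drift s xs z j * magY v s j (obsv s xs z)) =
      s * N * qbar v s + s * N := by
  have hm := measurable_magY v s
  have hΞ' : ∀ j, Measurable fun y => s * corrY v s j j y := fun j =>
    (measurable_corrY v s j j).const_mul s
  have h := star_sum v s (Ξ := magY v s) (Ξ' := fun j y => s * corrY v s j j y) hm hΞ'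
    (B := 1) (B' := |s| * 2) (abs_magY_le v s)
    (fun j y => by
      rw [abs_mul]
      exact mul_le_mul_of_nonneg_left (abs_corrY_le v s j j y) (abs_nonneg _))
    (fun j y => hasDerivAt_magY v s y j j)
  rw [h]
  have hpt : ∀ y : Fin N → ℝ, ∑ j, (2 * s * (magY v s j y * magY v s j y) + s * corrY v s j j y) =
      s * N * qY v s y + s * N := by
    intro y
    have h1 : ∀ j, 2 * s * (magY v s j y * magY v s j y) + s * corrY v s j j y =
        s * magY v s j y ^ 2 + s := by
      intro j
      have : corrY v s j j y = 1 - magY v s j y ^ 2 := corrSpin_self _ j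
      rw [this]
      ring
    simp_rw [h1]
    rw [Finset.sum_add_distrib, ← Finset.mul_sum, sum_mag_sq v s hN]
    simp
    ring
  simp_rw [hpt]
  have hi : ∀ xs : Fin N → Bool, Integrable
      (fun z => s * N * qY v s (obsv s xs z)) (patternLaw N) := fun xs =>
    (integrable_obs s (measurable_qY v s) (abs_qY_le v s hN) xs).const_mul _
  rw [priorE_add v hi (fun xs => integrable_const _), priorE_const_mul, priorE_const]
  rfl

/-- The second identity: the mean of the drift against `m_i c_ij`. -/
lemma priorE_drift_mc (i : Fin N) :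
    priorE v (fun xs z => ∑ j, drift s xs z j *
        (magY v s i (obsv s xs z) * corrY v s i j (obsv s xs z))) =
      s * priorE v (fun xs z => ∑ j, corrY v s i j (obsv s xs z) ^ 2) := by
  have hΞ : ∀ j, Measurable fun y => magY v s i y * corrY v s i j y := fun j =>
    (measurable_magY v s i).mul (measurable_corrY v s i j)
  have hΞ' : ∀ j, Measurable fun y => s * corrY v s i j y * corrY v s i j y +
      magY v s i y * (s * (-2 * magY v s j y * corrY v s i j y)) := fun j =>
    (((measurable_corrY v s i j).const_mul s).mul (measurable_corrY v s i j)).add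
      ((measurable_magY v s i).mul
        ((((measurable_magY v s j).const_mul (-2)).mul (measurable_corrY v s i j)).const_mul s))
  have h := star_sum v s (Ξ := fun j y => magY v s i y * corrY v s i j y)
    (Ξ' := fun j y => s * corrY v s i j y * corrY v s i j y +
      magY v s i y * (s * (-2 * magY v s j y * corrY v s i j y))) hΞ hΞ'
    (B := 1 * 2) (B' := |s| * 2 * 2 + 1 * (|s| * (2 * 1 * 2)))
    (fun j y => by
      rw [abs_mul]
      exact mul_le_mul (abs_magY_le v s i y) (abs_corrY_le v s i j y) (abs_nonneg _) zero_le_one)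
    (fun j y => by
      have h1 := abs_magY_le v s i y
      have h2 := abs_magY_le v s j y
      have h3 := abs_corrY_le v s i j y
      refine (abs_add_le _ _).trans (add_le_add ?_ ?_)
      · rw [abs_mul, abs_mul]
        exact mul_le_mul (mul_le_mul_of_nonneg_left h3 (abs_nonneg _)) h3 (abs_nonneg _)
          (by positivity)
      · rw [abs_mul, abs_mul, abs_mul, abs_mul]
        refine mul_le_mul h1 (mul_le_mul_of_nonneg_left ?_ (abs_nonneg _))
          (by positivity) zero_le_one
        have : |(-2 : ℝ)| = 2 := by norm_num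
        rw [this]
        exact mul_le_mul (mul_le_mul_of_nonneg_left h2 (by norm_num)) h3 (abs_nonneg _)
          (by norm_num))
    (fun j y => by
      have h1 := (hasDerivAt_magY v s y i j).fun_mul (hasDerivAt_corrY_same v s y i j)
      simpa only [Function.update_eq_self] using h1)
  rw [h, ← priorE_const_mul]
  congr 1
  funext xs z
  rw [Finset.mul_sum]
  refine Finset.sum_congr rfl fun j _ => ?_
  ring

/-- The third identity: the mean of the drift against `m_j q`. -/
lemma priorE_drift_mq (hN : 1 ≤ N) :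
    priorE v (fun xs z => ∑ j, drift s xs z j *
        (magY v s j (obsv s xs z) * qY v s (obsv s xs z))) =
      s * N * priorE v (fun xs z => qY v s (obsv s xs z) ^ 2) +
        s * N * qbar v s + 2 * (s * N) * priorE v (fun xs z => tcY v s (obsv s xs z)) := by
  have hN' : (0 : ℝ) < N := by exact_mod_cast hN
  have hq := measurable_qY v s
  have hqB := abs_qY_le v s hN
  have hΞ : ∀ j, Measurable fun y => magY v s j y * qY v s y := fun j =>
    (measurable_magY v s j).mul hq
  set Ξ' : Fin N → (Fin N → ℝ) → ℝ := fun j y => s * corrY v s j j y * qY v s y +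
    magY v s j y * ((∑ k, 2 * magY v s k y * (s * corrY v s k j y)) / N) with hΞ'def
  have hΞ' : ∀ j, Measurable (Ξ' j) := fun j =>
    (((measurable_corrY v s j j).const_mul s).mul hq).add
      ((measurable_magY v s j).mul ((Finset.measurable_sum _ fun k _ =>
        ((measurable_magY v s k).const_mul 2).mul
          ((measurable_corrY v s k j).const_mul s)).div_const _))
  have hΞ'B : ∀ j y, |Ξ' j y| ≤ |s| * 2 * 1 + 1 * (4 * |s|) := by
    intro j y
    have h1 := abs_magY_le v s j y
    have h3 := abs_corrY_le v s j j y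
    have h4 := hqB y
    refine (abs_add_le _ _).trans (add_le_add ?_ ?_)
    · rw [abs_mul, abs_mul]
      exact mul_le_mul (mul_le_mul_of_nonneg_left h3 (abs_nonneg _)) h4 (abs_nonneg _)
        (by positivity)
    · rw [abs_mul]
      refine mul_le_mul h1 ?_ (abs_nonneg _) zero_le_one
      rw [abs_div, abs_of_pos hN', div_le_iff₀ hN']
      calc _ ≤ ∑ k, |2 * magY v s k y * (s * corrY v s k j y)| := Finset.abs_sum_le_sum_abs _ _
        _ ≤ ∑ _k : Fin N, (4 * |s|) := Finset.sum_le_sum fun k _ => by
            rw [abs_mul, abs_mul, abs_mul]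
            have h5 := abs_magY_le v s k y
            have h6 := abs_corrY_le v s k j y
            have : |(2 : ℝ)| = 2 := by norm_num
            rw [this]
            calc 2 * |magY v s k y| * (|s| * |corrY v s k j y|)
                ≤ 2 * 1 * (|s| * 2) := by
                  apply mul_le_mul (by linarith) (mul_le_mul_of_nonneg_left h6 (abs_nonneg _))
                    (by positivity) (by norm_num)
              _ = 4 * |s| := by ring
        _ = _ := by
            simp
            ring
  have h := star_sum v s (Ξ := fun j y => magY v s j y * qY v s y) (Ξ' := Ξ') hΞ hΞ'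
    (B := 1 * 1) (B' := |s| * 2 * 1 + 1 * (4 * |s|))
    (fun j y => by
      rw [abs_mul]
      exact mul_le_mul (abs_magY_le v s j y) (hqB y) (abs_nonneg _) zero_le_one)
    hΞ'B
    (fun j y => by
      have h1 := (hasDerivAt_magY v s y j j).fun_mul (hasDerivAt_qY v s y j)
      simpa only [Function.update_eq_self] using h1)
  rw [h]
  have hpt : ∀ y : Fin N → ℝ, ∑ j, (2 * s * (magY v s j y * (magY v s j y * qY v s y)) + Ξ' j y) =
      s * N * qY v s y ^ 2 + s * N * qY v s y + 2 * (s * N) * tcY v s y := by
    intro y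
    have hcorr : ∀ j, corrY v s j j y = 1 - magY v s j y ^ 2 := fun j => corrSpin_self _ j
    have h1 : ∀ j, 2 * s * (magY v s j y * (magY v s j y * qY v s y)) + Ξ' j y =
        s * qY v s y * magY v s j y ^ 2 + s * qY v s y +
          (2 * s / N) * ∑ k, magY v s j y * magY v s k y * corrY v s k j y := by
      intro j
      simp only [hΞ'def]
      rw [hcorr j, Finset.mul_sum]
      have : (∑ k, 2 * magY v s k y * (s * corrY v s k j y)) =
          2 * s * ∑ k, magY v s k y * corrY v s k j y := by
        rw [Finset.mul_sum]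
        refine Finset.sum_congr rfl fun k _ => ?_
        ring
      rw [this]
      have h2 : ∑ k, 2 * s / N * (magY v s j y * magY v s k y * corrY v s k j y) =
          2 * s / N * magY v s j y * ∑ k, magY v s k y * corrY v s k j y := by
        rw [Finset.mul_sum]
        refine Finset.sum_congr rfl fun k _ => ?_
        ring
      rw [h2]
      field_simp
      ring
    simp_rw [h1]
    have e1 : ∑ j, s * qY v s y * magY v s j y ^ 2 = s * qY v s y * (N * qY v s y) := by
      rw [← Finset.mul_sum, sum_mag_sq v s hN]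
    have e2 : ∑ _j : Fin N, s * qY v s y = N * (s * qY v s y) := by
      simp
    have e3 : ∑ j, 2 * s / N * ∑ k, magY v s j y * magY v s k y * corrY v s k j y =
        2 * s / N * ∑ j, ∑ k, magY v s j y * magY v s k y * corrY v s k j y :=
      (Finset.mul_sum _ _ _).symm
    rw [Finset.sum_add_distrib, Finset.sum_add_distrib, e1, e2, e3]
    unfold tcY
    field_simp
  simp_rw [hpt]
  have hi1 : ∀ xs : Fin N → Bool, Integrable
      (fun z => s * N * qY v s (obsv s xs z) ^ 2) (patternLaw N) := fun xs =>
    (integrable_obs s (hq.pow_const 2) (B := 1) (fun y => by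
      rw [abs_pow]
      exact pow_le_one₀ (abs_nonneg _) (hqB y)) xs).const_mul _
  have hi2 : ∀ xs : Fin N → Bool, Integrable
      (fun z => s * N * qY v s (obsv s xs z)) (patternLaw N) := fun xs =>
    (integrable_obs s hq hqB xs).const_mul _
  have htB : ∀ y, |tcY v s y| ≤ 2 := by
    intro y
    refine (abs_tcY_le v s hN y).trans ?_
    rw [Real.sqrt_le_left (by norm_num : (0:ℝ) ≤ 2)]
    have : c2Y v s y ≤ 4 := by
      rw [c2Y_eq, div_le_iff₀ (by positivity)]
      calc _ ≤ ∑ _i : Fin N, ∑ _j : Fin N, (4 : ℝ) := Finset.sum_le_sum fun i _ =>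
            Finset.sum_le_sum fun j _ => (le_abs_self _).trans (abs_corrY_sq_le v s i j y)
        _ = _ := by
            simp
            ring
    linarith
  have hi3 : ∀ xs : Fin N → Bool, Integrable
      (fun z => 2 * (s * N) * tcY v s (obsv s xs z)) (patternLaw N) := fun xs =>
    (integrable_obs s (measurable_tcY v s) htB xs).const_mul _
  have hi12 : ∀ xs : Fin N → Bool, Integrable
      (fun z => s * N * qY v s (obsv s xs z) ^ 2 + s * N * qY v s (obsv s xs z))
        (patternLaw N) := fun xs => (hi1 xs).add (hi2 xs)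
  rw [priorE_add v hi12 hi3, priorE_add v hi1 hi2, priorE_const_mul, priorE_const_mul,
    priorE_const_mul]
  rfl

end Identities

end Vale.Agent.Lib.P157
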