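import Vale.Agent.Lib.P157.RSPrior

/-!
Derivatives in the strength of the Gaussian side channel.
-/

open MeasureTheory ProbabilityTheory
open scoped NNReal ENNReal Topology

set_option linter.unusedSectionVars false

namespace Vale.Agent.Lib.P157

section Gauss

variable {N : ℕ}

lemma integrable_of_linear_growth {F : (Fin N → ℝ) → ℝ} (hm : Measurable F) {c a : ℝ}
    (hb : ∀ z, |F z| ≤ c + a * ∑ i, |z i|) : Integrable F (patternLaw N) :=
  (memLp_of_linear_growth hm hb).integrable (by norm_num)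

lemma integrable_linear_bound (c a : ℝ) :
    Integrable (fun z : Fin N → ℝ => c + a * ∑ i, |z i|) (patternLaw N) := by
  have h1 : MemLp (fun z : Fin N → ℝ => c + a * ∑ i, |z i|) 2 (patternLaw N) := by
    refine (memLp_const c).add (MemLp.const_mul ?_ a)
    refine memLp_finsetSum _ fun i _ => ?_
    have := (memLp_coord i).norm
    simpa only [Real.norm_eq_abs] using this
  exact h1.integrable (by norm_num)

/-- Differentiation under the Gaussian integral. -/
lemma hasDerivAt_integral_gauss {F F' : ℝ → (Fin N → ℝ) → ℝ} {s₀ c a : ℝ}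
    (hFm : ∀ s, Measurable (F s)) (hF'm : Measurable (F' s₀))
    (hi : Integrable (F s₀) (patternLaw N))
    (hb : ∀ s z, |s - s₀| < 1 → |F' s z| ≤ c + a * ∑ i, |z i|)
    (hd : ∀ s z, HasDerivAt (fun u => F u z) (F' s z) s) :
    HasDerivAt (fun s => ∫ z, F s z ∂(patternLaw N)) (∫ z, F' s₀ z ∂(patternLaw N)) s₀ := by
  have hs : Metric.ball s₀ 1 ∈ 𝓝 s₀ := Metric.ball_mem_nhds _ one_pos
  have h1 : ∀ᶠ s in 𝓝 s₀, AEStronglyMeasurable (F s) (patternLaw N) :=
    Filter.Eventually.of_forall fun s => (hFm s).aestronglyMeasurable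
  have h2 : ∀ᵐ z ∂(patternLaw N), ∀ s ∈ Metric.ball s₀ 1, ‖F' s z‖ ≤ c + a * ∑ i, |z i| := by
    refine Filter.Eventually.of_forall fun z s hs' => ?_
    rw [Real.norm_eq_abs]
    have : |s - s₀| < 1 := by
      have := Metric.mem_ball.mp hs'
      rwa [Real.dist_eq] at this
    exact hb s z this
  have h3 : ∀ᵐ z ∂(patternLaw N), ∀ s ∈ Metric.ball s₀ 1, HasDerivAt (fun u => F u z) (F' s z) s :=
    Filter.Eventually.of_forall fun z s _ => hd s z
  exact (hasDerivAt_integral_of_dominated_loc_of_deriv_le hs h1 hi hF'm.aestronglyMeasurable h2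
    (integrable_linear_bound c a) h3).2

lemma hasDerivAt_priorE (v : (Fin N → Bool) → ℝ) {F F' : ℝ → (Fin N → Bool) → (Fin N → ℝ) → ℝ}
    {s₀ : ℝ}
    (h : ∀ xs, HasDerivAt (fun s => ∫ z, F s xs z ∂(patternLaw N))
      (∫ z, F' s₀ xs z ∂(patternLaw N)) s₀) :
    HasDerivAt (fun s => priorE v (F s)) (priorE v (F' s₀)) s₀ := by
  unfold priorE
  exact HasDerivAt.fun_sum fun xs _ => (h xs).const_mul _

end Gauss

section SDeriv

variable {N : ℕ} (v : (Fin N → Bool) → ℝ)

lemma sdot_obsv (s : ℝ) (xs : Fin N → Bool) (z : Fin N → ℝ) (x : Fin N → Bool) :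
    sdot x (obsv s xs z) = s * sdot x (svec xs) + sdot x z := by
  unfold sdot obsv svec
  rw [Finset.mul_sum, ← Finset.sum_add_distrib]
  refine Finset.sum_congr rfl fun i _ => ?_
  ring

lemma sdot_drift (s : ℝ) (xs : Fin N → Bool) (z : Fin N → ℝ) (x : Fin N → Bool) :
    sdot x (drift s xs z) = 2 * s * sdot x (svec xs) + sdot x z := by
  unfold sdot drift svec
  rw [Finset.mul_sum, ← Finset.sum_add_distrib]
  refine Finset.sum_congr rfl fun i _ => ?_
  ring

lemma hasDerivAt_tilt_s (xs : Fin N → Bool) (z : Fin N → ℝ) (x : Fin N → Bool) (s : ℝ) :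
    HasDerivAt (fun s => tiltPot v s (obsv s xs z) x) (sdot x (drift s xs z)) s := by
  have h1 : (fun s => tiltPot v s (obsv s xs z) x) =
      fun s => v x + (s ^ 2 * sdot x (svec xs) + s * sdot x z) := by
    funext s
    unfold tiltPot
    rw [sdot_obsv]
    ring
  rw [h1, sdot_drift]
  have h2 : HasDerivAt (fun s => s ^ 2 * sdot x (svec xs) + s * sdot x z)
      (2 * s ^ 1 * 1 * sdot x (svec xs) + 1 * sdot x z) s :=
    (((hasDerivAt_id' s).fun_pow 2).mul_const _).add ((hasDerivAt_id' s).mul_const _)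
  have h3 := h2.const_add (v x)
  refine h3.congr_deriv ?_
  ring

lemma gavg_sdot (w : (Fin N → Bool) → ℝ) (d : Fin N → ℝ) :
    gavg w (fun x => sdot x d) = ∑ j, d j * magn w j := by
  unfold sdot
  rw [gavg_sum]
  refine Finset.sum_congr rfl fun j _ => ?_
  have h : (fun x : Fin N → Bool => spinValue (x j) * d j) = fun x => d j * spinValue (x j) := by
    funext x
    ring
  rw [h, gavg_const_mul]
  rfl

lemma gcov_sdot (w a : (Fin N → Bool) → ℝ) (d : Fin N → ℝ) :
    gcov w a (fun x => sdot x d) = ∑ j, d j * gcov w a (fun x => spinValue (x j)) := by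
  unfold gcov
  rw [gavg_sdot]
  have h1 : (fun x => a x * sdot x d) = fun x => ∑ j, d j * (a x * spinValue (x j)) := by
    funext x
    unfold sdot
    rw [Finset.mul_sum]
    refine Finset.sum_congr rfl fun j _ => ?_
    ring
  rw [h1, gavg_sum, Finset.mul_sum, ← Finset.sum_sub_distrib]
  refine Finset.sum_congr rfl fun j _ => ?_
  rw [gavg_const_mul]
  unfold magn
  ring

lemma hasDerivAt_mag_s (i : Fin N) (xs : Fin N → Bool) (z : Fin N → ℝ) (s : ℝ) :
    HasDerivAt (fun s => magY v s i (obsv s xs z))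
      (∑ j, drift s xs z j * corrY v s i j (obsv s xs z)) s := by
  have h := hasDerivAt_gavg (w := fun s => tiltPot v s (obsv s xs z))
    (w' := fun x => sdot x (drift s xs z)) (τ0 := s)
    (fun x => hasDerivAt_tilt_s v xs z x s) (fun x => spinValue (x i))
  rw [gcov_sdot] at h
  exact h

/-- The logarithm of the partition function with the side channel. -/
noncomputable def sideLog (v : (Fin N → Bool) → ℝ) (s : ℝ) (xs : Fin N → Bool) (z : Fin N → ℝ) : ℝ :=
  logAvg (tiltPot v s (obsv s xs z)) - s ^ 2 * N / 2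

/-- The derivative of the logarithm of the partition function. -/
noncomputable def ellOf (v : (Fin N → Bool) → ℝ) (s : ℝ) (xs : Fin N → Bool) (z : Fin N → ℝ) : ℝ :=
  ∑ j, drift s xs z j * magY v s j (obsv s xs z) - s * N

lemma hasDerivAt_sideLog (xs : Fin N → Bool) (z : Fin N → ℝ) (s : ℝ) :
    HasDerivAt (fun s => sideLog v s xs z) (ellOf v s xs z) s := by
  have h := hasDerivAt_logAvg (w := fun s => tiltPot v s (obsv s xs z))
    (w' := fun x => sdot x (drift s xs z)) (τ0 := s)
    (fun x => hasDerivAt_tilt_s v xs z x s)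
  rw [gavg_sdot] at h
  have h2 : HasDerivAt (fun s : ℝ => s ^ 2 * N / 2) (2 * s ^ 1 * 1 * N / 2) s :=
    (((hasDerivAt_id' s).fun_pow 2).mul_const _).div_const _
  have h3 := h.sub h2
  refine h3.congr_deriv ?_
  unfold ellOf magY
  ring

lemma measurable_tilt_obsv (s : ℝ) (xs : Fin N → Bool) (x : Fin N → Bool) :
    Measurable fun z : Fin N → ℝ => tiltPot v s (obsv s xs z) x := by
  unfold tiltPot
  exact (((measurable_sdot x).comp (measurable_obsv s xs)).const_mul s).const_add _

lemma measurable_sideLog (s : ℝ) (xs : Fin N → Bool) : Measurable (sideLog v s xs) := by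
  unfold sideLog
  exact (measurable_logAvg (v := fun z => tiltPot v s (obsv s xs z))
    (measurable_tilt_obsv v s xs)).sub_const _

lemma abs_sdot_svec (x xs : Fin N → Bool) : |sdot x (svec xs)| ≤ N := by
  refine (abs_sdot_le x _).trans (le_of_eq ?_)
  unfold svec
  simp [abs_spinValue]

lemma exists_abs_le_pot : ∃ K, 0 ≤ K ∧ ∀ x, |v x| ≤ K := by
  refine ⟨∑ x, |v x|, Finset.sum_nonneg fun _ _ => abs_nonneg _, fun x => ?_⟩
  exact Finset.single_le_sum (f := fun x => |v x|) (fun _ _ => abs_nonneg _) (Finset.mem_univ x)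

lemma abs_sideLog_le {K : ℝ} (hK : ∀ x, |v x| ≤ K) (s : ℝ) (xs : Fin N → Bool) (z : Fin N → ℝ) :
    |sideLog v s xs z| ≤ (K + s ^ 2 * N + s ^ 2 * N / 2) + |s| * ∑ i, |z i| := by
  unfold sideLog
  have h1 : ∀ x, |tiltPot v s (obsv s xs z) x| ≤ K + s ^ 2 * N + |s| * ∑ i, |z i| := by
    intro x
    have e : tiltPot v s (obsv s xs z) x = v x + s ^ 2 * sdot x (svec xs) + s * sdot x z := by
      unfold tiltPot
      rw [sdot_obsv]
      ring
    rw [e]
    have h2 := abs_sdot_svec x xs
    have h3 := abs_sdot_le x z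
    have h4 : |s ^ 2 * sdot x (svec xs)| ≤ s ^ 2 * N := by
      rw [abs_mul, abs_of_nonneg (sq_nonneg s)]
      exact mul_le_mul_of_nonneg_left h2 (sq_nonneg s)
    have h5 : |s * sdot x z| ≤ |s| * ∑ i, |z i| := by
      rw [abs_mul]
      exact mul_le_mul_of_nonneg_left h3 (abs_nonneg s)
    calc _ ≤ |v x + s ^ 2 * sdot x (svec xs)| + |s * sdot x z| := abs_add_le _ _
      _ ≤ |v x| + |s ^ 2 * sdot x (svec xs)| + |s * sdot x z| := by
          gcongr
          exact abs_add_le _ _
      _ ≤ _ := by linarith [hK x]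
  have h6 := abs_logAvg_le _ h1
  have h7 : |s ^ 2 * (N : ℝ) / 2| = s ^ 2 * N / 2 := abs_of_nonneg (by positivity)
  calc _ ≤ |logAvg (tiltPot v s (obsv s xs z))| + |s ^ 2 * (N : ℝ) / 2| := abs_sub _ _
    _ ≤ _ := by
        rw [h7]
        linarith

lemma abs_drift_le (s : ℝ) (xs : Fin N → Bool) (z : Fin N → ℝ) (j : Fin N) :
    |drift s xs z j| ≤ 2 * |s| + |z j| := by
  unfold drift
  refine (abs_add_le _ _).trans ?_
  rw [abs_mul, abs_mul, abs_spinValue]
  simp

lemma sum_abs_drift_le (s : ℝ) (xs : Fin N → Bool) (z : Fin N → ℝ) :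
    ∑ j, |drift s xs z j| ≤ 2 * |s| * N + ∑ j, |z j| := by
  calc _ ≤ ∑ j, (2 * |s| + |z j|) := Finset.sum_le_sum fun j _ => abs_drift_le s xs z j
    _ = _ := by
        rw [Finset.sum_add_distrib]
        simp
        ring

lemma abs_ellOf_le {s s₀ : ℝ} (hs : |s - s₀| < 1) (xs : Fin N → Bool) (z : Fin N → ℝ) :
    |ellOf v s xs z| ≤ 3 * (|s₀| + 1) * N + 1 * ∑ i, |z i| := by
  have hs1 : |s| ≤ |s₀| + 1 := by
    have := abs_sub_abs_le_abs_sub s s₀
    linarith
  unfold ellOf
  have h1 : |∑ j, drift s xs z j * magY v s j (obsv s xs z)| ≤ 2 * |s| * N + ∑ j, |z j| := by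
    calc _ ≤ ∑ j, |drift s xs z j * magY v s j (obsv s xs z)| := Finset.abs_sum_le_sum_abs _ _
      _ ≤ ∑ j, |drift s xs z j| := Finset.sum_le_sum fun j _ => by
          rw [abs_mul]
          have := abs_magY_le v s j (obsv s xs z)
          nlinarith [abs_nonneg (drift s xs z j)]
      _ ≤ _ := sum_abs_drift_le s xs z
  have h2 : |s * (N : ℝ)| = |s| * N := by
    rw [abs_mul, Nat.abs_cast]
  have hN0 : (0 : ℝ) ≤ N := Nat.cast_nonneg N
  calc _ ≤ |∑ j, drift s xs z j * magY v s j (obsv s xs z)| + |s * (N : ℝ)| := abs_sub _ _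
    _ ≤ 2 * |s| * N + ∑ j, |z j| + |s| * N := by
        rw [h2]
        linarith
    _ ≤ _ := by nlinarith [Finset.sum_nonneg fun j (_ : j ∈ Finset.univ) => abs_nonneg (z j)]

lemma measurable_ellOf (s : ℝ) (xs : Fin N → Bool) : Measurable (ellOf v s xs) := by
  unfold ellOf drift
  refine (Finset.measurable_sum _ fun j _ => ?_).sub_const _
  exact ((measurable_pi_apply j).const_add _).mul
    ((measurable_magY v s j).comp (measurable_obsv s xs))

/-- The expected logarithm of the partition function with the side channel. -/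
noncomputable def eP (v : (Fin N → Bool) → ℝ) (s : ℝ) : ℝ := priorE v (sideLog v s)

lemma integrable_sideLog (s : ℝ) (xs : Fin N → Bool) :
    Integrable (sideLog v s xs) (patternLaw N) := by
  obtain ⟨K, _, hK⟩ := exists_abs_le_pot v
  exact integrable_of_linear_growth (measurable_sideLog v s xs) (abs_sideLog_le v hK s xs)

lemma integrable_ellOf (s : ℝ) (xs : Fin N → Bool) :
    Integrable (ellOf v s xs) (patternLaw N) :=
  integrable_of_linear_growth (measurable_ellOf v s xs)
    (abs_ellOf_le v (s := s) (s₀ := s) (by simp) xs)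

/-- The derivative of the expected logarithm equals the mean of `ellOf`. -/
lemma hasDerivAt_eP_aux (s₀ : ℝ) : HasDerivAt (eP v) (priorE v (ellOf v s₀)) s₀ := by
  refine hasDerivAt_priorE v (F := sideLog v) (F' := ellOf v) fun xs => ?_
  exact hasDerivAt_integral_gauss (F := fun s => sideLog v s xs) (F' := fun s => ellOf v s xs)
    (fun s => measurable_sideLog v s xs) (measurable_ellOf v s₀ xs) (integrable_sideLog v s₀ xs)
    (fun s z hs => abs_ellOf_le v hs xs z) (fun s z => hasDerivAt_sideLog v xs z s)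

/-- The mean of `ellOf`. -/
lemma priorE_ellOf (hN : 1 ≤ N) (s : ℝ) : priorE v (ellOf v s) = s * N * qbar v s := by
  have h1 := priorE_drift_mag v s hN
  have hi : ∀ xs : Fin N → Bool, Integrable (fun z =>
      ∑ j, drift s xs z j * magY v s j (obsv s xs z)) (patternLaw N) := fun xs =>
    integrable_finsetSum _ fun j _ =>
      integrable_drift_mul s j (measurable_magY v s j) (abs_magY_le v s j) xs
  unfold ellOf
  rw [priorE_sub v hi (fun xs => integrable_const _), h1, priorE_const]
  ring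

/-- **The first derivative.** -/
theorem hasDerivAt_eP (hN : 1 ≤ N) (s : ℝ) : HasDerivAt (eP v) (s * N * qbar v s) s := by
  rw [← priorE_ellOf v hN s]
  exact hasDerivAt_eP_aux v s

/-- The mean of `ellOf` against the self overlap. -/
lemma priorE_ellOf_mul (hN : 1 ≤ N) (s : ℝ) :
    priorE v (fun xs z => ellOf v s xs z * qY v s (obsv s xs z)) =
      s * N * priorE v (fun xs z => qY v s (obsv s xs z) ^ 2) +
        2 * (s * N) * priorE v (fun xs z => tcY v s (obsv s xs z)) := by
  have h1 := priorE_drift_mq v s hN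
  have hq := measurable_qY v s
  have hqB := abs_qY_le v s hN
  have hi : ∀ xs : Fin N → Bool, Integrable (fun z => ∑ j, drift s xs z j *
      (magY v s j (obsv s xs z) * qY v s (obsv s xs z))) (patternLaw N) := fun xs =>
    integrable_finsetSum _ fun j _ =>
      integrable_drift_mul s j (Ξ := fun y => magY v s j y * qY v s y)
        ((measurable_magY v s j).mul hq) (B := 1 * 1) (fun y => by
          rw [abs_mul]
          exact mul_le_mul (abs_magY_le v s j y) (hqB y) (abs_nonneg _) zero_le_one) xs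
  have hi2 : ∀ xs : Fin N → Bool, Integrable (fun z => s * N * qY v s (obsv s xs z))
      (patternLaw N) := fun xs => (integrable_obs s hq hqB xs).const_mul _
  have e : (fun (xs : Fin N → Bool) (z : Fin N → ℝ) => ellOf v s xs z * qY v s (obsv s xs z)) =
      fun xs z => (∑ j, drift s xs z j * (magY v s j (obsv s xs z) * qY v s (obsv s xs z))) -
        s * N * qY v s (obsv s xs z) := by
    funext xs z
    unfold ellOf
    rw [sub_mul, Finset.sum_mul]
    congr 1
    refine Finset.sum_congr rfl fun j _ => ?_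
    ring
  rw [e, priorE_sub v hi hi2, h1, priorE_const_mul]
  have : priorE v (fun xs z => qY v s (obsv s xs z)) = qbar v s := rfl
  rw [this]
  ring

/-- The mean squared magnetization at a site. -/
noncomputable def e2bar (v : (Fin N → Bool) → ℝ) (i : Fin N) (s : ℝ) : ℝ :=
  priorE v (fun xs z => magY v s i (obsv s xs z) ^ 2)

lemma qbar_eq (s : ℝ) : qbar v s = (∑ i, e2bar v i s) / N := by
  unfold qbar e2bar
  have hi : ∀ i, ∀ xs : Fin N → Bool, Integrable (fun z => magY v s i (obsv s xs z) ^ 2)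
      (patternLaw N) := fun i xs =>
    integrable_obs s ((measurable_magY v s i).pow_const 2) (B := 1) (fun y => by
      rw [abs_pow]
      exact pow_le_one₀ (abs_nonneg _) (abs_magY_le v s i y)) xs
  rw [← priorE_sum v Finset.univ (fun i _ xs => hi i xs), div_eq_inv_mul, ← priorE_const_mul]
  congr 1
  funext xs z
  rw [qY_eq]
  ring

/-- The derivative of the squared magnetization in the strength. -/
noncomputable def e2Deriv (v : (Fin N → Bool) → ℝ) (i : Fin N) (s : ℝ) (xs : Fin N → Bool)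
    (z : Fin N → ℝ) : ℝ :=
  2 * ∑ j, drift s xs z j * (magY v s i (obsv s xs z) * corrY v s i j (obsv s xs z))

lemma hasDerivAt_mag_sq_s (i : Fin N) (xs : Fin N → Bool) (z : Fin N → ℝ) (s : ℝ) :
    HasDerivAt (fun s => magY v s i (obsv s xs z) ^ 2) (e2Deriv v i s xs z) s := by
  have h := (hasDerivAt_mag_s v i xs z s).fun_pow 2
  refine h.congr_deriv ?_
  unfold e2Deriv
  simp only [Nat.cast_ofNat, Nat.add_one_sub_one, pow_one]
  rw [mul_assoc, Finset.mul_sum]
  congr 1
  refine Finset.sum_congr rfl fun j _ => ?_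
  ring

lemma abs_e2Deriv_le {s s₀ : ℝ} (hs : |s - s₀| < 1) (i : Fin N) (xs : Fin N → Bool)
    (z : Fin N → ℝ) :
    |e2Deriv v i s xs z| ≤ 8 * (|s₀| + 1) * N + 4 * ∑ j, |z j| := by
  have hs1 : |s| ≤ |s₀| + 1 := by
    have := abs_sub_abs_le_abs_sub s s₀
    linarith
  unfold e2Deriv
  rw [abs_mul]
  have h1 : |∑ j, drift s xs z j * (magY v s i (obsv s xs z) * corrY v s i j (obsv s xs z))| ≤
      2 * ∑ j, |drift s xs z j| := by
    rw [Finset.mul_sum]
    refine (Finset.abs_sum_le_sum_abs _ _).trans (Finset.sum_le_sum fun j _ => ?_)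
    rw [abs_mul, abs_mul]
    have h2 := abs_magY_le v s i (obsv s xs z)
    have h3 := abs_corrY_le v s i j (obsv s xs z)
    have h4 : |magY v s i (obsv s xs z)| * |corrY v s i j (obsv s xs z)| ≤ 1 * 2 :=
      mul_le_mul h2 h3 (abs_nonneg _) zero_le_one
    nlinarith [abs_nonneg (drift s xs z j)]
  have h5 := sum_abs_drift_le s xs z
  have hN0 : (0 : ℝ) ≤ N := Nat.cast_nonneg N
  have : |(2 : ℝ)| = 2 := by norm_num
  rw [this]
  nlinarith [Finset.sum_nonneg fun j (_ : j ∈ Finset.univ) => abs_nonneg (z j), abs_nonneg s]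

lemma measurable_e2Deriv (i : Fin N) (s : ℝ) (xs : Fin N → Bool) :
    Measurable (e2Deriv v i s xs) := by
  unfold e2Deriv drift
  refine (Finset.measurable_sum _ fun j _ => ?_).const_mul _
  exact ((measurable_pi_apply j).const_add _).mul
    (((measurable_magY v s i).comp (measurable_obsv s xs)).mul
      ((measurable_corrY v s i j).comp (measurable_obsv s xs)))

lemma hasDerivAt_e2bar (i : Fin N) (s₀ : ℝ) :
    HasDerivAt (e2bar v i) (2 * (s₀ * priorE v (fun xs z =>
      ∑ j, corrY v s₀ i j (obsv s₀ xs z) ^ 2))) s₀ := by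
  have h1 : HasDerivAt (e2bar v i) (priorE v (e2Deriv v i s₀)) s₀ := by
    refine hasDerivAt_priorE v (F := fun s xs z => magY v s i (obsv s xs z) ^ 2)
      (F' := e2Deriv v i) fun xs => ?_
    refine hasDerivAt_integral_gauss (F := fun s z => magY v s i (obsv s xs z) ^ 2)
      (F' := fun s => e2Deriv v i s xs) (fun s => ?_) (measurable_e2Deriv v i s₀ xs) ?_
      (fun s z hs => abs_e2Deriv_le v hs i xs z) (fun s z => hasDerivAt_mag_sq_s v i xs z s)
    · exact ((measurable_magY v s i).comp (measurable_obsv s xs)).pow_const 2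
    · exact integrable_obs s₀ ((measurable_magY v s₀ i).pow_const 2) (B := 1) (fun y => by
        rw [abs_pow]
        exact pow_le_one₀ (abs_nonneg _) (abs_magY_le v s₀ i y)) xs
  have h2 := priorE_drift_mc v s₀ i
  have e : priorE v (e2Deriv v i s₀) = 2 * priorE v (fun xs z => ∑ j, drift s₀ xs z j *
      (magY v s₀ i (obsv s₀ xs z) * corrY v s₀ i j (obsv s₀ xs z))) := by
    unfold e2Deriv
    rw [priorE_const_mul]
  rw [e, h2] at h1
  exact h1

/-- **The second derivative.** -/
theorem hasDerivAt_qbar (hN : 1 ≤ N) (s₀ : ℝ) :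
    HasDerivAt (qbar v) (2 * s₀ * N * c2bar v s₀) s₀ := by
  have hN' : (N : ℝ) ≠ 0 := by
    have : (0 : ℝ) < N := by exact_mod_cast hN
    exact this.ne'
  have h1 : qbar v = fun s => (∑ i, e2bar v i s) / N := funext (qbar_eq v)
  rw [h1]
  have h2 : HasDerivAt (fun s => ∑ i, e2bar v i s) (∑ i, 2 * (s₀ * priorE v (fun xs z =>
      ∑ j, corrY v s₀ i j (obsv s₀ xs z) ^ 2))) s₀ :=
    HasDerivAt.fun_sum fun i _ => hasDerivAt_e2bar v i s₀
  have h3 := h2.div_const (N : ℝ)
  refine h3.congr_deriv ?_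
  unfold c2bar
  have hc : ∀ i (xs : Fin N → Bool), Integrable (fun z => ∑ j, corrY v s₀ i j (obsv s₀ xs z) ^ 2)
      (patternLaw N) := fun i xs =>
    integrable_finsetSum _ fun j _ =>
      integrable_obs s₀ ((measurable_corrY v s₀ i j).pow_const 2) (abs_corrY_sq_le v s₀ i j) xs
  have e : priorE v (fun xs z => c2Y v s₀ (obsv s₀ xs z)) =
      (∑ i, priorE v (fun xs z => ∑ j, corrY v s₀ i j (obsv s₀ xs z) ^ 2)) / (N : ℝ) ^ 2 := by
    rw [← priorE_sum v Finset.univ (fun i _ xs => hc i xs), div_eq_inv_mul, ← priorE_const_mul]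
    congr 1
    funext xs z
    rw [c2Y_eq]
    ring
  rw [e, ← Finset.mul_sum, ← Finset.mul_sum]
  field_simp

end SDeriv

end Vale.Agent.Lib.P157
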