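import Vale.Agent.Lib.P157.RSPair

/-!
The entropy functional: semigroup identities, second moments, modulus of continuity and convexity.
-/

open MeasureTheory ProbabilityTheory
open scoped NNReal ENNReal

set_option linter.unusedSectionVars false

namespace Vale.Agent.Lib.P157

section TwoShift

/-- Two independent Gaussian shifts combine. -/
lemma integral_two_shift {F : ℝ → ℝ} (hF : Measurable F) {B : ℝ} (hB : ∀ u, |F u| ≤ B) (a b : ℝ) :
    ∫ z₁, ∫ z₂, F (a * z₁ + b * z₂) ∂(gaussianReal 0 1) ∂(gaussianReal 0 1) =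
      ∫ z, F (Real.sqrt (a ^ 2 + b ^ 2) * z) ∂(gaussianReal 0 1) := by
  rcases eq_or_lt_of_le (show 0 ≤ a ^ 2 + b ^ 2 by positivity) with h0 | hpos
  · have ha : a = 0 := by nlinarith [sq_nonneg a, sq_nonneg b]
    have hb : b = 0 := by nlinarith [sq_nonneg a, sq_nonneg b]
    subst ha
    subst hb
    simp
  set c := Real.sqrt (a ^ 2 + b ^ 2) with hc
  have hc0 : 0 < c := Real.sqrt_pos.mpr hpos
  have hcs : c ^ 2 = a ^ 2 + b ^ 2 := Real.sq_sqrt hpos.le
  have hrot := map_rotation (ρ := a / c) (σ := b / c) (by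
    rw [div_pow, div_pow, ← add_div, hcs]
    exact div_self hpos.ne')
  have hm : Measurable (fun p : ℝ × ℝ => a / c * p.1 + b / c * p.2) := by fun_prop
  have hFc : Measurable (fun t => F (c * t)) := hF.comp (by fun_prop)
  calc ∫ z₁, ∫ z₂, F (a * z₁ + b * z₂) ∂(gaussianReal 0 1) ∂(gaussianReal 0 1)
      = ∫ p : ℝ × ℝ, F (c * (a / c * p.1 + b / c * p.2))
          ∂((gaussianReal 0 1).prod (gaussianReal 0 1)) := by
        rw [integral_prod]
        · refine integral_congr_ae (Filter.Eventually.of_forall fun z₁ => ?_)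
          refine integral_congr_ae (Filter.Eventually.of_forall fun z₂ => ?_)
          simp only
          congr 1
          field_simp
        · exact integrable_of_bdd (hFc.comp hm) fun p => hB _
    _ = ∫ t, F (c * t) ∂(((gaussianReal 0 1).prod (gaussianReal 0 1)).map
          (fun p : ℝ × ℝ => a / c * p.1 + b / c * p.2)) := by
        rw [integral_map hm.aemeasurable hFc.aestronglyMeasurable]
    _ = _ := by rw [hrot]

end TwoShift

section Semigroup

variable {U V : ℝ → ℝ}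

lemma sq_sqrt_one_sub_sq {ρ : ℝ} (hρ : |ρ| ≤ 1) : Real.sqrt (1 - ρ ^ 2) ^ 2 = 1 - ρ ^ 2 := by
  apply Real.sq_sqrt
  have : ρ ^ 2 ≤ 1 := by
    rw [← sq_abs]
    exact pow_le_one₀ (abs_nonneg _) hρ
  linarith

/-- The semigroup property of the noise operator. -/
lemma noiseAvg_noiseAvg (hU : Measurable U) {B : ℝ} (hB : ∀ u, |U u| ≤ B) {c d : ℝ} (hc : |c| ≤ 1)
    (hd : |d| ≤ 1) (v : ℝ) :
    noiseAvg (noiseAvg U d) c v = noiseAvg U (c * d) v := by
  unfold noiseAvg
  set σc := Real.sqrt (1 - c ^ 2) with hσc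
  set σd := Real.sqrt (1 - d ^ 2) with hσd
  have hc2 : σc ^ 2 = 1 - c ^ 2 := sq_sqrt_one_sub_sq hc
  have hd2 : σd ^ 2 = 1 - d ^ 2 := sq_sqrt_one_sub_sq hd
  have hF : Measurable (fun t => U (c * d * v + t)) := hU.comp (by fun_prop)
  have h1 := integral_two_shift hF (B := B) (fun t => hB _) (d * σc) σd
  have h2 : ∀ w w' : ℝ, U (d * (c * v + σc * w) + σd * w') =
      U (c * d * v + (d * σc * w + σd * w')) := by
    intro w w'
    congr 1
    ring
  simp_rw [h2]
  rw [h1]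
  have h3 : (d * σc) ^ 2 + σd ^ 2 = 1 - (c * d) ^ 2 := by
    rw [mul_pow, hc2, hd2]
    ring
  rw [h3]

/-- The symmetry of the correlation function. -/
lemma corrFn_comm (hU : Measurable U) (hV : Measurable V) {A B : ℝ} (hA : ∀ u, |U u| ≤ A)
    (hB : ∀ u, |V u| ≤ B) {ρ : ℝ} (hρ : |ρ| ≤ 1) :
    corrFn U V ρ = corrFn V U ρ := by
  set σ := Real.sqrt (1 - ρ ^ 2) with hσ
  have hσ2 : σ ^ 2 = 1 - ρ ^ 2 := sq_sqrt_one_sub_sq hρ
  set a : Fin 2 → ℝ := ![1, 0] with ha
  set b : Fin 2 → ℝ := ![ρ, σ] with hb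
  have ha1 : ∑ i, a i ^ 2 = 1 := by
    simp [ha, Fin.sum_univ_two]
  have hb1 : ∑ i, b i ^ 2 = 1 := by
    simp [hb, Fin.sum_univ_two, hσ2]
  have hab : ∑ i, a i * b i = ρ := by
    simp [ha, hb, Fin.sum_univ_two]
  have hba : ∑ i, b i * a i = ρ := by
    simp [ha, hb, Fin.sum_univ_two]
  have h1 := integral_pair_unit hU hV hA hB ha1 hb1
  have h2 := integral_pair_unit hV hU hB hA hb1 ha1
  rw [hab] at h1
  rw [hba] at h2
  rw [← h1, ← h2]
  refine integral_congr_ae (Filter.Eventually.of_forall fun z => ?_)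
  exact mul_comm _ _

/-- The second moment of a noise average. -/
lemma integral_noiseAvg_sq (hU : Measurable U) {B : ℝ} (hB : ∀ u, |U u| ≤ B) {d : ℝ} (hd : |d| ≤ 1) :
    ∫ v, noiseAvg U d v ^ 2 ∂(gaussianReal 0 1) = corrFn U U (d ^ 2) := by
  have hP := measurable_noiseAvg hU d
  have hPB := abs_noiseAvg_le hU hB d
  have h1 : corrFn (noiseAvg U d) U d = corrFn U (noiseAvg U d) d :=
    corrFn_comm hP hU hPB hB hd
  have h2 : corrFn (noiseAvg U d) U d = ∫ v, noiseAvg U d v ^ 2 ∂(gaussianReal 0 1) := by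
    unfold corrFn
    refine integral_congr_ae (Filter.Eventually.of_forall fun v => ?_)
    simp only
    ring
  rw [← h2, h1]
  unfold corrFn
  refine integral_congr_ae (Filter.Eventually.of_forall fun v => ?_)
  simp only
  rw [noiseAvg_noiseAvg hU hB hd hd, sq]

/-- The mixed second moment. -/
lemma corrFn_noiseAvg (hU : Measurable U) {B : ℝ} (hB : ∀ u, |U u| ≤ B) {c d : ℝ} (hc : |c| ≤ 1)
    (hd : |d| ≤ 1) :
    corrFn U (noiseAvg U d) c = corrFn U U (c * d) := by
  unfold corrFn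
  refine integral_congr_ae (Filter.Eventually.of_forall fun v => ?_)
  simp only
  rw [noiseAvg_noiseAvg hU hB hc hd]

end Semigroup

section Ent

variable {c₁ c₂ : ℝ}

lemma entFn_sub_le {s t : ℝ} (hc₁ : 0 < c₁) (hs1 : c₁ ≤ s) (hs2 : s ≤ c₂) (ht1 : c₁ ≤ t)
    (ht2 : t ≤ c₂) :
    |entFn s - entFn t| ≤ (1 + |Real.log c₁| + |Real.log c₂|) * |s - t| := by
  have hlogbound : ∀ u, c₁ ≤ u → u ≤ c₂ → |Real.log u| ≤ |Real.log c₁| + |Real.log c₂| := by
    intro u hu1 hu2
    have hu0 : 0 < u := lt_of_lt_of_le hc₁ hu1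
    have h1 := Real.log_le_log hc₁ hu1
    have h2 := Real.log_le_log hu0 hu2
    rw [abs_le]
    constructor
    · linarith [neg_abs_le (Real.log c₁), abs_nonneg (Real.log c₂)]
    · linarith [le_abs_self (Real.log c₂), abs_nonneg (Real.log c₁)]
  have key : ∀ a b, c₁ ≤ a → a ≤ c₂ → c₁ ≤ b → b ≤ c₂ → b ≤ a →
      |entFn a - entFn b| ≤ (1 + |Real.log c₁| + |Real.log c₂|) * (a - b) := by
    intro a b ha1 ha2 hb1 hb2 hba
    have ha0 : 0 < a := lt_of_lt_of_le hc₁ ha1
    have hb0 : 0 < b := lt_of_lt_of_le hc₁ hb1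
    unfold entFn
    have e1 : a * Real.log a - b * Real.log b =
        (a - b) * Real.log a + b * (Real.log a - Real.log b) := by ring
    have h1 : Real.log a - Real.log b ≤ (a - b) / b := by
      rw [← Real.log_div ha0.ne' hb0.ne']
      have := Real.log_le_sub_one_of_pos (div_pos ha0 hb0)
      have e2 : (a - b) / b = a / b - 1 := by
        field_simp
      linarith
    have h2 : 0 ≤ Real.log a - Real.log b := by
      have := Real.log_le_log hb0 hba
      linarith
    have h3 : b * (Real.log a - Real.log b) ≤ a - b := by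
      calc _ ≤ b * ((a - b) / b) := mul_le_mul_of_nonneg_left h1 hb0.le
        _ = a - b := by field_simp
    have h4 : 0 ≤ b * (Real.log a - Real.log b) := mul_nonneg hb0.le h2
    have h5 := hlogbound a ha1 ha2
    have hab : 0 ≤ a - b := by linarith
    rw [e1]
    calc _ ≤ |(a - b) * Real.log a| + |b * (Real.log a - Real.log b)| := abs_add_le _ _
      _ ≤ (a - b) * (|Real.log c₁| + |Real.log c₂|) + (a - b) := by
          rw [abs_mul, abs_of_nonneg hab, abs_of_nonneg h4]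
          exact add_le_add (mul_le_mul_of_nonneg_left h5 hab) h3
      _ = _ := by ring
  rcases le_total t s with h | h
  · rw [abs_of_nonneg (show 0 ≤ s - t by linarith)]
    exact key s t hs1 hs2 ht1 ht2 h
  · rw [abs_sub_comm, abs_sub_comm s t, abs_of_nonneg (show 0 ≤ t - s by linarith)]
    exact key t s ht1 ht2 hs1 hs2 h

lemma abs_entFn_le {s : ℝ} (hc₁ : 0 < c₁) (hs1 : c₁ ≤ s) (hs2 : s ≤ c₂) :
    |entFn s| ≤ c₂ * (|Real.log c₁| + |Real.log c₂|) := by
  have hs0 : 0 < s := lt_of_lt_of_le hc₁ hs1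
  unfold entFn
  rw [abs_mul, abs_of_pos hs0]
  refine mul_le_mul hs2 ?_ (abs_nonneg _) (hs0.le.trans hs2)
  have h1 := Real.log_le_log hc₁ hs1
  have h2 := Real.log_le_log hs0 hs2
  rw [abs_le]
  constructor
  · linarith [neg_abs_le (Real.log c₁), abs_nonneg (Real.log c₂)]
  · linarith [le_abs_self (Real.log c₂), abs_nonneg (Real.log c₁)]

lemma measurable_entFn : Measurable entFn := by
  unfold entFn
  exact measurable_id.mul Real.measurable_log

/-- `t log t ≥ t - 1`. -/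
lemma entFn_ge (t : ℝ) (ht : 0 < t) : t - 1 ≤ entFn t := by
  unfold entFn
  have := Real.one_sub_inv_le_log_of_pos ht
  have h2 := mul_le_mul_of_nonneg_left this ht.le
  have h3 : t * (1 - t⁻¹) = t - 1 := by
    field_simp
  linarith

/-- `t log t ≤ t² - t`. -/
lemma entFn_le (t : ℝ) (ht : 0 < t) : entFn t ≤ t ^ 2 - t := by
  unfold entFn
  have := Real.log_le_sub_one_of_pos ht
  have h2 := mul_le_mul_of_nonneg_left this ht.le
  nlinarith

lemma integral_abs_le_sqrt {Ω : Type*} [MeasurableSpace Ω] {μ : Measure Ω} [IsProbabilityMeasure μ]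
    {F : Ω → ℝ} (hF : Measurable F) {B : ℝ} (hB : ∀ x, |F x| ≤ B) :
    ∫ x, |F x| ∂μ ≤ Real.sqrt (∫ x, F x ^ 2 ∂μ) := by
  apply Real.le_sqrt_of_sq_le
  set m := ∫ x, |F x| ∂μ with hm
  have hi1 : Integrable (fun x => |F x|) μ :=
    integrable_of_bdd hF.abs (B := B) fun x => by rw [abs_abs]; exact hB x
  have hi2 : Integrable (fun x => F x ^ 2) μ := by
    refine integrable_of_bdd (hF.pow_const 2) (B := B ^ 2) fun x => ?_
    rw [abs_pow]
    exact pow_le_pow_left₀ (abs_nonneg _) (hB x) 2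
  have h0 : 0 ≤ ∫ x, (|F x| - m) ^ 2 ∂μ := integral_nonneg fun x => sq_nonneg _
  have h1 : ∀ x, (|F x| - m) ^ 2 = F x ^ 2 - 2 * m * |F x| + m ^ 2 := by
    intro x
    have : |F x| ^ 2 = F x ^ 2 := sq_abs _
    nlinarith
  have hexp : ∫ x, (|F x| - m) ^ 2 ∂μ = (∫ x, F x ^ 2 ∂μ) - 2 * m * m + m ^ 2 := by
    have hi3 : Integrable (fun x => F x ^ 2 - 2 * m * |F x|) μ := hi2.sub (hi1.const_mul _)
    calc ∫ x, (|F x| - m) ^ 2 ∂μ
        = ∫ x, ((F x ^ 2 - 2 * m * |F x|) + m ^ 2) ∂μ := by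
          refine integral_congr_ae (Filter.Eventually.of_forall fun x => ?_)
          exact h1 x
      _ = (∫ x, (F x ^ 2 - 2 * m * |F x|) ∂μ) + ∫ _x, m ^ 2 ∂μ :=
          integral_add hi3 (integrable_const _)
      _ = ((∫ x, F x ^ 2 ∂μ) - ∫ x, 2 * m * |F x| ∂μ) + m ^ 2 := by
          rw [integral_sub hi2 (hi1.const_mul _)]
          simp
      _ = _ := by rw [integral_const_mul]
  rw [hexp] at h0
  nlinarith

end Ent

section Psi

variable {U : ℝ → ℝ} {c₁ c₂ : ℝ}

/-- The entropy functional of a general weight. -/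
noncomputable def psiU (U : ℝ → ℝ) (q : ℝ) : ℝ :=
  ∫ v, entFn (noiseAvg U (Real.sqrt q) v) ∂(gaussianReal 0 1)

/-- The heat flow of a weight at the time `1 - q`. -/
noncomputable def shiftAvg (U : ℝ → ℝ) (q t : ℝ) : ℝ :=
  ∫ w, U (t + Real.sqrt (1 - q) * w) ∂(gaussianReal 0 1)

lemma noiseAvg_sqrt_eq {q : ℝ} (h0 : 0 ≤ q) (U : ℝ → ℝ) (v : ℝ) :
    noiseAvg U (Real.sqrt q) v = shiftAvg U q (Real.sqrt q * v) := by
  unfold noiseAvg shiftAvg
  rw [Real.sq_sqrt h0]

lemma measurable_shiftAvg (hU : Measurable U) (q : ℝ) : Measurable (shiftAvg U q) := by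
  unfold shiftAvg
  have h1 : StronglyMeasurable (fun p : ℝ × ℝ => U (p.1 + Real.sqrt (1 - q) * p.2)) :=
    (hU.comp (by fun_prop)).stronglyMeasurable
  exact (h1.integral_prod_right' (ν := gaussianReal 0 1)).measurable

variable (hU : Measurable U) (hc₁ : 0 < c₁) (hb : ∀ u, c₁ ≤ U u ∧ U u ≤ c₂)

include hU hb in
lemma shiftAvg_bounds (q t : ℝ) : c₁ ≤ shiftAvg U q t ∧ shiftAvg U q t ≤ c₂ := by
  have hi : Integrable (fun w => U (t + Real.sqrt (1 - q) * w)) (gaussianReal 0 1) :=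
    integrable_comp_of_bdd hU hb (by fun_prop)
  unfold shiftAvg
  constructor
  · calc c₁ = ∫ _w, c₁ ∂(gaussianReal 0 1) := by simp
      _ ≤ _ := integral_mono (integrable_const _) hi fun w => (hb _).1
  · calc _ ≤ ∫ _w, c₂ ∂(gaussianReal 0 1) := integral_mono hi (integrable_const _) fun w => (hb _).2
      _ = c₂ := by simp

lemma abs_le_of_bounds {x : ℝ} (hc₁ : 0 < c₁) (h1 : c₁ ≤ x) (h2 : x ≤ c₂) : |x| ≤ c₂ := by
  rw [abs_of_pos (lt_of_lt_of_le hc₁ h1)]
  exact h2

include hU hc₁ hb in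
/-- The Chapman-Kolmogorov identity. -/
lemma integral_shiftAvg_shift {q q' : ℝ} (hqq : q ≤ q') (hq' : q' ≤ 1) (t : ℝ) :
    ∫ z, shiftAvg U q' (t + Real.sqrt (q' - q) * z) ∂(gaussianReal 0 1) = shiftAvg U q t := by
  unfold shiftAvg
  have hUB : ∀ u, |U u| ≤ c₂ := fun u => abs_le_of_bounds hc₁ (hb u).1 (hb u).2
  have hF : Measurable (fun s => U (t + s)) := hU.comp (by fun_prop)
  have h1 := integral_two_shift hF (B := c₂) (fun s => hUB _) (Real.sqrt (q' - q))
    (Real.sqrt (1 - q'))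
  have h2 : ∀ z w : ℝ, U (t + Real.sqrt (q' - q) * z + Real.sqrt (1 - q') * w) =
      U (t + (Real.sqrt (q' - q) * z + Real.sqrt (1 - q') * w)) := by
    intro z w
    congr 1
    ring
  simp_rw [h2]
  rw [h1, Real.sq_sqrt (by linarith), Real.sq_sqrt (by linarith)]
  have h3 : q' - q + (1 - q') = 1 - q := by ring
  rw [h3]

include hU hc₁ hb in
lemma psiU_eq {q : ℝ} (h0 : 0 ≤ q) :
    psiU U q = ∫ z, entFn (shiftAvg U q (Real.sqrt q * z)) ∂(gaussianReal 0 1) := by
  unfold psiU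
  refine integral_congr_ae (Filter.Eventually.of_forall fun v => ?_)
  simp only
  rw [noiseAvg_sqrt_eq h0]

include hU hc₁ hb in
lemma abs_entFn_shiftAvg_le (q t : ℝ) :
    |entFn (shiftAvg U q t)| ≤ c₂ * (|Real.log c₁| + |Real.log c₂|) :=
  abs_entFn_le hc₁ (shiftAvg_bounds hU hb q t).1 (shiftAvg_bounds hU hb q t).2

include hU hc₁ hb in
/-- The coupling of `Ψ(q')` on the finer scale. -/
lemma psiU_eq_two {q q' : ℝ} (h0 : 0 ≤ q) (hqq : q ≤ q') :
    psiU U q' = ∫ z₁, ∫ z₂, entFn (shiftAvg U q' (Real.sqrt q * z₁ + Real.sqrt (q' - q) * z₂))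
      ∂(gaussianReal 0 1) ∂(gaussianReal 0 1) := by
  have hq'0 : 0 ≤ q' := h0.trans hqq
  have hF : Measurable (fun s => entFn (shiftAvg U q' s)) :=
    measurable_entFn.comp (measurable_shiftAvg hU q')
  have h1 := integral_two_shift hF (fun s => abs_entFn_shiftAvg_le hU hc₁ hb q' s) (Real.sqrt q)
    (Real.sqrt (q' - q))
  rw [h1, Real.sq_sqrt h0, Real.sq_sqrt (by linarith)]
  have h2 : q + (q' - q) = q' := by ring
  rw [h2]
  exact psiU_eq hU hc₁ hb hq'0

include hU hc₁ hb in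
/-- The Lipschitz comparison of `Ψ` with the correlation function. -/
lemma abs_psiU_sub_le {q q' : ℝ} (h0 : 0 ≤ q) (hqq : q ≤ q') (hq' : q' ≤ 1) :
    |psiU U q' - psiU U q| ≤ (1 + |Real.log c₁| + |Real.log c₂|) *
      Real.sqrt (corrFn U U q' - corrFn U U q) := by
  have hq'0 : 0 ≤ q' := h0.trans hqq
  set Λ := 1 + |Real.log c₁| + |Real.log c₂| with hΛ
  have hΛ0 : 0 ≤ Λ := by positivity
  have hUB : ∀ u, |U u| ≤ c₂ := fun u => abs_le_of_bounds hc₁ (hb u).1 (hb u).2
  have hc20 : 0 < c₂ := lt_of_lt_of_le hc₁ ((hb 0).1.trans (hb 0).2)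
  set δ := Real.sqrt (q' - q) with hδ
  set s := Real.sqrt q with hs
  let μ := (gaussianReal 0 1).prod (gaussianReal 0 1)
  have hm1 : Measurable (fun p : ℝ × ℝ => shiftAvg U q' (s * p.1 + δ * p.2)) :=
    (measurable_shiftAvg hU q').comp (by fun_prop)
  have hm2 : Measurable (fun p : ℝ × ℝ => shiftAvg U q (s * p.1)) :=
    (measurable_shiftAvg hU q).comp (by fun_prop)
  set D : ℝ × ℝ → ℝ := fun p => shiftAvg U q' (s * p.1 + δ * p.2) - shiftAvg U q (s * p.1) with hD
  have hDm : Measurable D := hm1.sub hm2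
  have hDB : ∀ p, |D p| ≤ c₂ + c₂ := fun p =>
    (abs_sub _ _).trans (add_le_add
      (abs_le_of_bounds hc₁ (shiftAvg_bounds hU hb q' _).1 (shiftAvg_bounds hU hb q' _).2)
      (abs_le_of_bounds hc₁ (shiftAvg_bounds hU hb q _).1 (shiftAvg_bounds hU hb q _).2))
  -- the integral of the square
  have hsq : ∫ p, D p ^ 2 ∂μ = corrFn U U q' - corrFn U U q := by
    have hi : Integrable (fun p => D p ^ 2) μ := by
      refine integrable_of_bdd (hDm.pow_const 2) (B := (c₂ + c₂) ^ 2) fun p => ?_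
      rw [abs_pow]
      exact pow_le_pow_left₀ (abs_nonneg _) (hDB p) 2
    rw [integral_prod _ hi]
    have hinner : ∀ z₁ : ℝ, ∫ z₂, D (z₁, z₂) ^ 2 ∂(gaussianReal 0 1) =
        (∫ z₂, shiftAvg U q' (s * z₁ + δ * z₂) ^ 2 ∂(gaussianReal 0 1)) -
          shiftAvg U q (s * z₁) ^ 2 := by
      intro z₁
      have hA : Measurable (fun z₂ => shiftAvg U q' (s * z₁ + δ * z₂)) :=
        (measurable_shiftAvg hU q').comp (by fun_prop)
      have hAB : ∀ z₂, |shiftAvg U q' (s * z₁ + δ * z₂)| ≤ c₂ := fun z₂ =>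
        abs_le_of_bounds hc₁ (shiftAvg_bounds hU hb q' _).1 (shiftAvg_bounds hU hb q' _).2
      have hAi : Integrable (fun z₂ => shiftAvg U q' (s * z₁ + δ * z₂)) (gaussianReal 0 1) :=
        integrable_of_bdd hA hAB
      have hA2i : Integrable (fun z₂ => shiftAvg U q' (s * z₁ + δ * z₂) ^ 2) (gaussianReal 0 1) := by
        refine integrable_of_bdd (hA.pow_const 2) (B := c₂ ^ 2) fun z₂ => ?_
        rw [abs_pow]
        exact pow_le_pow_left₀ (abs_nonneg _) (hAB z₂) 2
      have hexp : ∀ z₂, D (z₁, z₂) ^ 2 = shiftAvg U q' (s * z₁ + δ * z₂) ^ 2 -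
          2 * shiftAvg U q (s * z₁) * shiftAvg U q' (s * z₁ + δ * z₂) +
            shiftAvg U q (s * z₁) ^ 2 := by
        intro z₂
        simp only [hD]
        ring
      have hA3i : Integrable (fun z₂ => shiftAvg U q' (s * z₁ + δ * z₂) ^ 2 -
          2 * shiftAvg U q (s * z₁) * shiftAvg U q' (s * z₁ + δ * z₂)) (gaussianReal 0 1) :=
        hA2i.sub (hAi.const_mul _)
      calc ∫ z₂, D (z₁, z₂) ^ 2 ∂(gaussianReal 0 1)
          = ∫ z₂, ((shiftAvg U q' (s * z₁ + δ * z₂) ^ 2 -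
              2 * shiftAvg U q (s * z₁) * shiftAvg U q' (s * z₁ + δ * z₂)) +
                shiftAvg U q (s * z₁) ^ 2) ∂(gaussianReal 0 1) := by
            refine integral_congr_ae (Filter.Eventually.of_forall fun z₂ => ?_)
            exact hexp z₂
        _ = (∫ z₂, (shiftAvg U q' (s * z₁ + δ * z₂) ^ 2 -
              2 * shiftAvg U q (s * z₁) * shiftAvg U q' (s * z₁ + δ * z₂)) ∂(gaussianReal 0 1)) +
              ∫ _z₂, shiftAvg U q (s * z₁) ^ 2 ∂(gaussianReal 0 1) :=
            integral_add hA3i (integrable_const _)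
        _ = ((∫ z₂, shiftAvg U q' (s * z₁ + δ * z₂) ^ 2 ∂(gaussianReal 0 1)) -
              2 * shiftAvg U q (s * z₁) *
                ∫ z₂, shiftAvg U q' (s * z₁ + δ * z₂) ∂(gaussianReal 0 1)) +
              shiftAvg U q (s * z₁) ^ 2 := by
            rw [integral_sub hA2i (hAi.const_mul _), integral_const_mul]
            simp
        _ = _ := by
            rw [integral_shiftAvg_shift hU hc₁ hb hqq hq' (s * z₁)]
            ring
    simp_rw [hinner]
    have hF : Measurable (fun t => shiftAvg U q' t ^ 2) :=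
      (measurable_shiftAvg hU q').pow_const 2
    have hFB : ∀ t, |shiftAvg U q' t ^ 2| ≤ c₂ ^ 2 := fun t => by
      rw [abs_pow]
      exact pow_le_pow_left₀ (abs_nonneg _)
        (abs_le_of_bounds hc₁ (shiftAvg_bounds hU hb q' _).1 (shiftAvg_bounds hU hb q' _).2) 2
    have h2s := integral_two_shift hF hFB s δ
    rw [hs, Real.sq_sqrt h0] at h2s
    have e1 : ∫ z₁, ∫ z₂, shiftAvg U q' (s * z₁ + δ * z₂) ^ 2 ∂(gaussianReal 0 1) ∂(gaussianReal 0 1)
        = corrFn U U q' := by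
      have h3 := h2s
      rw [hδ, Real.sq_sqrt (by linarith)] at h3
      have h4 : q + (q' - q) = q' := by ring
      rw [h4] at h3
      rw [hδ, hs, h3]
      have h5 := integral_noiseAvg_sq hU hUB (d := Real.sqrt q') (by
        rw [abs_of_nonneg (Real.sqrt_nonneg _)]
        exact Real.sqrt_le_one.mpr hq')
      rw [Real.sq_sqrt hq'0] at h5
      rw [← h5]
      refine integral_congr_ae (Filter.Eventually.of_forall fun v => ?_)
      simp only
      rw [noiseAvg_sqrt_eq hq'0]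
    have e2 : ∫ z₁, shiftAvg U q (s * z₁) ^ 2 ∂(gaussianReal 0 1) = corrFn U U q := by
      have h5 := integral_noiseAvg_sq hU hUB (d := Real.sqrt q) (by
        rw [abs_of_nonneg (Real.sqrt_nonneg _)]
        exact Real.sqrt_le_one.mpr (hqq.trans hq'))
      rw [Real.sq_sqrt h0] at h5
      rw [← h5]
      refine integral_congr_ae (Filter.Eventually.of_forall fun v => ?_)
      simp only
      rw [noiseAvg_sqrt_eq h0]
    have hi1 : Integrable (fun z₁ => ∫ z₂, shiftAvg U q' (s * z₁ + δ * z₂) ^ 2 ∂(gaussianReal 0 1))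
        (gaussianReal 0 1) := by
      have h6 : Integrable (fun p : ℝ × ℝ => shiftAvg U q' (s * p.1 + δ * p.2) ^ 2) μ :=
        integrable_of_bdd (hm1.pow_const 2) (B := c₂ ^ 2) fun p => hFB _
      exact h6.integral_prod_left
    have hi2 : Integrable (fun z₁ => shiftAvg U q (s * z₁) ^ 2) (gaussianReal 0 1) := by
      refine integrable_of_bdd (((measurable_shiftAvg hU q).comp (by fun_prop)).pow_const 2)
        (B := c₂ ^ 2) fun t => ?_
      rw [abs_pow]
      exact pow_le_pow_left₀ (abs_nonneg _)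
        (abs_le_of_bounds hc₁ (shiftAvg_bounds hU hb q _).1 (shiftAvg_bounds hU hb q _).2) 2
    rw [integral_sub hi1 hi2, e1, e2]
  -- the entropy difference
  have hdiff : psiU U q' - psiU U q = ∫ p, (entFn (shiftAvg U q' (s * p.1 + δ * p.2)) -
      entFn (shiftAvg U q (s * p.1))) ∂μ := by
    have hE1 : Measurable (fun p : ℝ × ℝ => entFn (shiftAvg U q' (s * p.1 + δ * p.2))) :=
      measurable_entFn.comp hm1
    have hE2 : Measurable (fun p : ℝ × ℝ => entFn (shiftAvg U q (s * p.1))) :=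
      measurable_entFn.comp hm2
    have hi1 : Integrable (fun p : ℝ × ℝ => entFn (shiftAvg U q' (s * p.1 + δ * p.2))) μ :=
      integrable_of_bdd hE1 fun p => abs_entFn_shiftAvg_le hU hc₁ hb q' _
    have hi2 : Integrable (fun p : ℝ × ℝ => entFn (shiftAvg U q (s * p.1))) μ :=
      integrable_of_bdd hE2 fun p => abs_entFn_shiftAvg_le hU hc₁ hb q _
    rw [integral_sub hi1 hi2, integral_prod _ hi1, integral_prod _ hi2, psiU_eq_two hU hc₁ hb h0 hqq,
      psiU_eq hU hc₁ hb h0]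
    congr 1
    refine integral_congr_ae (Filter.Eventually.of_forall fun z => ?_)
    simp [hs]
  rw [hdiff]
  have hb1 : ∀ p, |entFn (shiftAvg U q' (s * p.1 + δ * p.2)) - entFn (shiftAvg U q (s * p.1))| ≤
      Λ * |D p| := fun p => entFn_sub_le hc₁ (shiftAvg_bounds hU hb q' _).1
        (shiftAvg_bounds hU hb q' _).2 (shiftAvg_bounds hU hb q _).1 (shiftAvg_bounds hU hb q _).2
  have hi : Integrable (fun p => |D p|) μ :=
    integrable_of_bdd hDm.abs (B := c₂ + c₂) fun p => by rw [abs_abs]; exact hDB p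
  calc _ ≤ ∫ p, |entFn (shiftAvg U q' (s * p.1 + δ * p.2)) - entFn (shiftAvg U q (s * p.1))| ∂μ :=
        abs_integral_le_integral_abs
    _ ≤ ∫ p, Λ * |D p| ∂μ := integral_mono_of_nonneg
        (Filter.Eventually.of_forall fun p => abs_nonneg _) (hi.const_mul Λ)
        (Filter.Eventually.of_forall hb1)
    _ = Λ * ∫ p, |D p| ∂μ := integral_const_mul _ _
    _ ≤ Λ * Real.sqrt (∫ p, D p ^ 2 ∂μ) :=
        mul_le_mul_of_nonneg_left (integral_abs_le_sqrt hDm hDB) hΛ0
    _ = _ := by rw [hsq]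

end Psi

end Vale.Agent.Lib.P157
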