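import Vale.Agent.Lib.P157.RSConc
import Vale.Agent.Lib.P157.Freezing

/-!
The fluctuations of the self overlap and the cavity bound under the planted law.
-/

open MeasureTheory ProbabilityTheory
open scoped NNReal ENNReal Topology

set_option linter.unusedSectionVars false
set_option linter.unusedVariables false

namespace Vale.Agent.Lib.P157

section Constants

variable {U : ℝ → ℝ} {c₁ c₂ : ℝ}

/-- A concave power is dominated by a small constant plus a linear term. -/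
lemma sqrt_sqrt_bound {τ : ℝ} (hτ : 0 < τ) :
    ∃ A : ℝ, 0 ≤ A ∧ ∀ c : ℝ, 0 ≤ c → Real.sqrt (2 * Real.sqrt c) ≤ τ + A * c := by
  refine ⟨32 / τ ^ 3, by positivity, fun c hc => ?_⟩
  have h1 := sqrt_le_add_div (a := 2 * Real.sqrt c) (τ := τ / 2) (by positivity) (by positivity)
  have h2 := sqrt_le_add_div (a := c) (τ := τ ^ 2 / 8) hc (by positivity)
  have h3 : 2 * Real.sqrt c / (τ / 2) ≤ 2 * (τ ^ 2 / 8 + c / (τ ^ 2 / 8)) / (τ / 2) :=
    div_le_div_of_nonneg_right (by linarith) (by positivity)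
  have e : 2 * (τ ^ 2 / 8 + c / (τ ^ 2 / 8)) / (τ / 2) = τ / 2 + 32 / τ ^ 3 * c := by
    field_simp
    ring
  rw [e] at h3
  linarith

/-- The cavity comparison in terms of the sum of the squared covariances. -/
lemma theta_sub_psi_le (hU : Wgt U c₁ c₂) {τ : ℝ} (hτ : 0 < τ) :
    ∃ A : ℝ, 0 ≤ A ∧ ∀ N : ℕ, 1 ≤ N → ∀ v : (Fin N → Bool) → ℝ,
      |thetaOf U v - psiU U (qOf v)| ≤ τ + A * c2Of v := by
  set Λ := 1 + |Real.log c₁| + |Real.log c₂| with hΛ
  have hΛ0 : 0 < Λ := by positivity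
  set τ₁ := τ / (4 * Λ) with hτ₁
  have hτ₁0 : 0 < τ₁ := by positivity
  have hUB : ∀ u, |U u| ≤ c₂ := hU.abs_le
  obtain ⟨K, hK, hmod⟩ := corrFn_modulus hU.meas hUB (η := τ₁ ^ 2 / 6) (by positivity)
  set τ₂ := τ₁ ^ 2 / (6 * (K + 1)) with hτ₂
  have hτ₂0 : 0 < τ₂ := by positivity
  obtain ⟨A₂, hA₂, hbd⟩ := sqrt_sqrt_bound hτ₂0
  refine ⟨Λ * (3 * K * A₂ / τ₁), by positivity, fun N hN v => ?_⟩
  have hc : 0 ≤ c2Of v := by
    unfold c2Of
    positivity
  have h1 := thetaOf_sub_le v hU.meas hU.pos hU.bd hN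
  have h2 := deltaOf_le v hN hmod hK (U := U)
  have h3 := (thermOf_le v hN).trans (hbd _ hc)
  have h4 : deltaOf U v ≤ τ₁ ^ 2 + 3 * K * A₂ * c2Of v := by
    have h5 : 3 * K * thermOf v ≤ 3 * K * (τ₂ + A₂ * c2Of v) :=
      mul_le_mul_of_nonneg_left h3 (by positivity)
    have h6 : 3 * K * τ₂ ≤ τ₁ ^ 2 / 2 := by
      rw [hτ₂]
      have : 3 * K * (τ₁ ^ 2 / (6 * (K + 1))) = τ₁ ^ 2 / 2 * (K / (K + 1)) := by
        field_simp
        ring
      rw [this]
      have h7 : K / (K + 1) ≤ 1 := by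
        rw [div_le_one (by linarith)]
        linarith
      have h8 : 0 ≤ τ₁ ^ 2 / 2 := by positivity
      nlinarith
    nlinarith
  have h9 : Real.sqrt (deltaOf U v) ≤ τ₁ + (τ₁ ^ 2 + 3 * K * A₂ * c2Of v) / τ₁ :=
    (Real.sqrt_le_sqrt h4).trans (sqrt_le_add_div (by positivity) hτ₁0)
  have e : τ₁ + (τ₁ ^ 2 + 3 * K * A₂ * c2Of v) / τ₁ = 2 * τ₁ + 3 * K * A₂ / τ₁ * c2Of v := by
    field_simp
    ring
  rw [e] at h9
  have h10 := mul_le_mul_of_nonneg_left h9 hΛ0.le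
  have h11 : Λ * (2 * τ₁) = τ / 2 := by
    rw [hτ₁]
    field_simp
    ring
  calc _ ≤ Λ * Real.sqrt (deltaOf U v) := h1
    _ ≤ Λ * (2 * τ₁ + 3 * K * A₂ / τ₁ * c2Of v) := h10
    _ = τ / 2 + Λ * (3 * K * A₂ / τ₁) * c2Of v := by
        rw [mul_add, h11]
        ring
    _ ≤ _ := by linarith

/-- The modulus of continuity of the entropy functional in terms of the square of the distance. -/
lemma psi_sub_sq_le (hU : Wgt U c₁ c₂) {τ : ℝ} (hτ : 0 < τ) :
    ∃ A : ℝ, 0 ≤ A ∧ ∀ a b : ℝ, 0 ≤ a → a ≤ 1 → 0 ≤ b → b ≤ 1 →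
      |psiU U a - psiU U b| ≤ τ + A * (a - b) ^ 2 := by
  obtain ⟨K, hK, hmod⟩ := psiU_modulus hU.meas hU.pos hU.bd (η := τ / 2) (by positivity)
  set τ₂ := τ / (2 * (K + 1)) with hτ₂
  have hτ₂0 : 0 < τ₂ := by positivity
  refine ⟨K / τ₂, by positivity, fun a b ha ha1 hb hb1 => ?_⟩
  have h1 := hmod a b ha ha1 hb hb1
  have h2 : |a - b| ≤ τ₂ + (a - b) ^ 2 / τ₂ := by
    rw [← Real.sqrt_sq_eq_abs]
    exact sqrt_le_add_div (by positivity) hτ₂0
  have h3 : K * τ₂ ≤ τ / 2 := by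
    rw [hτ₂]
    have : K * (τ / (2 * (K + 1))) = τ / 2 * (K / (K + 1)) := by
      field_simp
    rw [this]
    have h7 : K / (K + 1) ≤ 1 := by
      rw [div_le_one (by linarith)]
      linarith
    nlinarith
  have h4 := mul_le_mul_of_nonneg_left h2 hK
  have e : K * (τ₂ + (a - b) ^ 2 / τ₂) = K * τ₂ + K / τ₂ * (a - b) ^ 2 := by
    field_simp
  rw [e] at h4
  linarith

end Constants

section EPtools

variable {N k : ℕ} {U : ℝ → ℝ} {c₁ c₂ : ℝ}

lemma abs_EP_le (hU : Wgt U c₁ c₂)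
    {F H : (Fin k → Fin N → ℝ) → (Fin N → Bool) → (Fin N → ℝ) → ℝ} {c a c' a' : ℝ}
    (ha : 0 ≤ a) (ha' : 0 ≤ a') (hF : LinG F c a) (hH : LinG H c' a')
    (h : ∀ G xs z, |F G xs z| ≤ H G xs z) : |EP U F| ≤ EP U H := by
  rw [abs_le]
  constructor
  · have h1 := EP_mono hU (F := fun G xs z => -1 * F G xs z) (by positivity) ha'
      (hF.const_mul (-1)) hH (fun G xs z => by
        have := abs_le.mp (h G xs z)
        linarith [this.1])
    rw [EP_const_mul] at h1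
    linarith
  · exact EP_mono hU ha ha' hF hH fun G xs z => (le_abs_self _).trans (h G xs z)

/-- The variance of the self overlap under the planted law. -/
noncomputable def VarG (U : ℝ → ℝ) (N k : ℕ) (s : ℝ) : ℝ :=
  EP (N := N) (k := k) U fun G xs z => (qY (patPot U G) s (obsv s xs z) - QG U N k s) ^ 2

lemma linG_q_sub_sq (hU : Wgt U c₁ c₂) (hN : 1 ≤ N) (s b : ℝ) (hb : |b| ≤ 1) :
    LinG (N := N) (k := k) (fun G xs z => (qY (patPot U G) s (obsv s xs z) - b) ^ 2) 4 0 := by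
  refine LinG.of_bdd (fun xs => ((hU.measurable_q_joint s xs).sub_const b).pow_const 2)
    fun G xs z => ?_
  rw [abs_pow]
  have h1 : |qY (patPot U G) s (obsv s xs z) - b| ≤ 2 := by
    have h2 := abs_qY_le (patPot U G) s hN (obsv s xs z)
    calc _ ≤ |qY (patPot U G) s (obsv s xs z)| + |b| := abs_sub _ _
      _ ≤ 2 := by linarith
  calc _ ≤ (2 : ℝ) ^ 2 := pow_le_pow_left₀ (abs_nonneg _) h1 2
    _ = 4 := by norm_num

lemma linG_q_sq (hU : Wgt U c₁ c₂) (hN : 1 ≤ N) (s : ℝ) :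
    LinG (N := N) (k := k) (fun G xs z => qY (patPot U G) s (obsv s xs z) ^ 2) 1 0 := by
  refine LinG.of_bdd (fun xs => (hU.measurable_q_joint s xs).pow_const 2) fun G xs z => ?_
  rw [abs_pow]
  exact pow_le_one₀ (abs_nonneg _) (abs_qY_le _ s hN _)

/-- The variance is the second moment minus the square of the mean. -/
lemma VarG_eq (hU : Wgt U c₁ c₂) (hN : 1 ≤ N) (s : ℝ) :
    VarG U N k s = EP (N := N) (k := k) U (fun G xs z => qY (patPot U G) s (obsv s xs z) ^ 2) -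
      QG U N k s ^ 2 := by
  set Q := QG U N k s with hQ
  have hq := linG_q (N := N) (k := k) hU hN s
  have hq2 := linG_q_sq (N := N) (k := k) hU hN s
  have e : (fun (G : Fin k → Fin N → ℝ) (xs : Fin N → Bool) (z : Fin N → ℝ) =>
      (qY (patPot U G) s (obsv s xs z) - Q) ^ 2) = fun G xs z =>
      (qY (patPot U G) s (obsv s xs z) ^ 2 - (2 * Q) * qY (patPot U G) s (obsv s xs z)) + Q ^ 2 := by
    funext G xs z
    ring
  unfold VarG
  rw [e, EP_add hU (by simp) (by simp) (hq2.sub (hq.const_mul (2 * Q))) (LinG.const (Q ^ 2)),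
    EP_sub hU (by simp) (by simp) hq2 (hq.const_mul (2 * Q)), EP_const_mul, EP_const hU hN,
    ← QG_eq, ← hQ]
  ring

lemma VarG_nonneg (hU : Wgt U c₁ c₂) (hN : 1 ≤ N) (s : ℝ) : 0 ≤ VarG U N k s := by
  have h := EP_mono hU (k := k) le_rfl le_rfl (LinG.const (N := N) 0)
    (linG_q_sub_sq hU hN s (QG U N k s) (by
      rw [abs_of_nonneg (QG_nonneg hU hN s)]
      exact QG_le_one hU hN s))
    (fun G xs z => sq_nonneg _)
  rw [EP_const hU hN] at h
  exact h

/-- The cavity bound under the planted law. -/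
theorem thetaG_bound (hU : Wgt U c₁ c₂) (hN : 1 ≤ N) {τ A A' : ℝ}
    (hA : 0 ≤ A) (hA' : 0 ≤ A')
    (h1 : ∀ v : (Fin N → Bool) → ℝ, |thetaOf U v - psiU U (qOf v)| ≤ τ + A * c2Of v)
    (h2 : ∀ a b : ℝ, 0 ≤ a → a ≤ 1 → 0 ≤ b → b ≤ 1 →
      |psiU U a - psiU U b| ≤ τ + A' * (a - b) ^ 2) (s : ℝ) :
    |thetaG U N k s - psiU U (QG U N k s)| ≤
      2 * τ + A * C2G U N k s + A' * VarG U N k s := by
  set Q := QG U N k s with hQ
  have hQ0 : 0 ≤ Q := QG_nonneg hU hN s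
  have hQ1 : Q ≤ 1 := QG_le_one hU hN s
  have hQa : |Q| ≤ 1 := by rwa [abs_of_nonneg hQ0]
  have hθ := linG_theta (N := N) (k := k) hU s
  have hc2 := linG_c2 (N := N) (k := k) hU hN s
  have hv := linG_q_sub_sq (N := N) (k := k) hU hN s Q hQa
  have e1 : thetaG U N k s - psiU U Q = EP (N := N) (k := k) U fun G xs z =>
      thetaOf U (tiltPot (patPot U G) s (obsv s xs z)) - psiU U Q := by
    rw [EP_sub hU (by simp) (by simp) hθ (LinG.const (psiU U Q)), EP_const hU hN]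
    rfl
  have hsum : (2 * τ + A * C2G U N k s + A' * VarG U N k s) = EP (N := N) (k := k) U fun G xs z =>
      (2 * τ + A * c2Y (patPot U G) s (obsv s xs z)) +
        A' * (qY (patPot U G) s (obsv s xs z) - Q) ^ 2 := by
    rw [EP_add hU (by simp) (by simp) ((LinG.const (2 * τ)).add (hc2.const_mul A))
      (hv.const_mul A'), EP_add hU (by simp) (by simp) (LinG.const (2 * τ)) (hc2.const_mul A),
      EP_const hU hN, EP_const_mul, EP_const_mul, ← C2G_eq]
    rfl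
  rw [e1, hsum]
  refine abs_EP_le hU (by simp) (by simp) (hθ.sub (LinG.const _))
    (((LinG.const (2 * τ)).add (hc2.const_mul A)).add (hv.const_mul A')) fun G xs z => ?_
  set V := tiltPot (patPot U G) s (obsv s xs z) with hV
  have hq0 : 0 ≤ qOf V := qOf_nonneg V
  have hq1 : qOf V ≤ 1 := qOf_le_one V hN
  have h3 := h1 V
  have h4 := h2 _ _ hq0 hq1 hQ0 hQ1
  have e2 : c2Y (patPot U G) s (obsv s xs z) = c2Of V := rfl
  have e3 : qY (patPot U G) s (obsv s xs z) = qOf V := rfl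
  rw [e2, e3]
  calc _ ≤ |thetaOf U V - psiU U (qOf V)| + |psiU U (qOf V) - psiU U Q| := abs_sub_le _ _ _
    _ ≤ _ := by linarith

end EPtools

end Vale.Agent.Lib.P157
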