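import Vale.Agent.Lib.P157.RSVar

/-!
Convexity in the side channel parameter and the bound for the variance of the self overlap.
-/

open MeasureTheory ProbabilityTheory
open scoped NNReal ENNReal Topology

set_option linter.unusedSectionVars false
set_option linter.unusedVariables false

namespace Vale.Agent.Lib.P157

section Convex

variable {N : ℕ}

lemma logAvg_mono' {S : Type*} [Fintype S] [Nonempty S] {a b : S → ℝ} (h : ∀ x, a x ≤ b x) :
    logAvg a ≤ logAvg b := by
  have := logAvg_le_of_le (a := a) (b := b) (c := 0) fun x => by simpa using h x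
  simpa using this

lemma logAvg_add_const {S : Type*} [Fintype S] [Nonempty S] (a : S → ℝ) (c : ℝ) :
    logAvg (fun x => a x + c) = logAvg a + c := by
  refine le_antisymm (logAvg_le_of_le fun x => le_rfl) ?_
  have := logAvg_le_of_le (a := a) (b := fun x => a x + c) (c := -c) fun x => by linarith
  linarith

/-- The convexified logarithm. -/
noncomputable def convL (v : (Fin N → Bool) → ℝ) (xs : Fin N → Bool) (z : Fin N → ℝ) (s : ℝ) : ℝ :=
  sideLog v s xs z + 3 * N / 2 * s ^ 2

lemma convL_eq (v : (Fin N → Bool) → ℝ) (xs : Fin N → Bool) (z : Fin N → ℝ) (s : ℝ) :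
    convL v xs z s = logAvg fun x => v x + s ^ 2 * (sdot x (svec xs) + N) + s * sdot x z := by
  have h : (fun x => v x + s ^ 2 * (sdot x (svec xs) + N) + s * sdot x z) = fun x =>
      tiltPot v s (obsv s xs z) x + s ^ 2 * N := by
    funext x
    unfold tiltPot
    rw [sdot_obsv]
    ring
  rw [h, logAvg_add_const]
  unfold convL sideLog
  ring

lemma convexOn_convL (v : (Fin N → Bool) → ℝ) (xs : Fin N → Bool) (z : Fin N → ℝ) :
    ConvexOn ℝ Set.univ (convL v xs z) := by
  refine ⟨convex_univ, fun s _ t _ a b ha hb hab => ?_⟩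
  simp only [smul_eq_mul]
  have hb' : b = 1 - a := by linarith
  have ha1 : a ≤ 1 := by linarith
  rw [convL_eq, convL_eq, convL_eq]
  have hmix := logAvg_mix_le (fun x => v x + s ^ 2 * (sdot x (svec xs) + N) + s * sdot x z)
    (fun x => v x + t ^ 2 * (sdot x (svec xs) + N) + t * sdot x z) ha ha1
  rw [hb']
  refine (logAvg_mono' fun x => ?_).trans hmix
  have hA : 0 ≤ sdot x (svec xs) + N := by
    have := abs_le.mp (abs_sdot_svec x xs)
    linarith [this.1]
  have h1 : (a * s + (1 - a) * t) ^ 2 ≤ a * s ^ 2 + (1 - a) * t ^ 2 := by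
    nlinarith [mul_nonneg (mul_nonneg ha (sub_nonneg.mpr ha1)) (sq_nonneg (s - t))]
  have h2 := mul_le_mul_of_nonneg_right h1 hA
  nlinarith

lemma hasDerivAt_convL (v : (Fin N → Bool) → ℝ) (xs : Fin N → Bool) (z : Fin N → ℝ) (s : ℝ) :
    HasDerivAt (convL v xs z) (ellOf v s xs z + 3 * N * s) s := by
  have h1 := hasDerivAt_sideLog v xs z s
  have h2 : HasDerivAt (fun s : ℝ => 3 * (N : ℝ) / 2 * s ^ 2) (3 * N / 2 * (2 * s ^ 1 * 1)) s :=
    ((hasDerivAt_id' s).fun_pow 2).const_mul _
  refine (h1.add h2).congr_deriv ?_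
  ring

/-- The slope bound from above. -/
lemma ell_le (v : (Fin N → Bool) → ℝ) (xs : Fin N → Bool) (z : Fin N → ℝ) {s η : ℝ} (hη : 0 < η) :
    ellOf v s xs z ≤ (sideLog v (s + η) xs z - sideLog v s xs z) / η + 3 * N / 2 * η := by
  have h := (convexOn_convL v xs z).le_slope_of_hasDerivAt (x := s) (y := s + η)
    (Set.mem_univ _) (Set.mem_univ _) (by linarith) (hasDerivAt_convL v xs z s)
  rw [slope_def_field] at h
  have e : s + η - s = η := by ring
  rw [e] at h
  unfold convL at h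
  have e2 : (sideLog v (s + η) xs z + 3 * ↑N / 2 * (s + η) ^ 2 -
      (sideLog v s xs z + 3 * ↑N / 2 * s ^ 2)) / η =
      (sideLog v (s + η) xs z - sideLog v s xs z) / η + 3 * N * s + 3 * N / 2 * η := by
    field_simp
    ring
  rw [e2] at h
  linarith

/-- The slope bound from below. -/
lemma le_ell (v : (Fin N → Bool) → ℝ) (xs : Fin N → Bool) (z : Fin N → ℝ) {s η : ℝ} (hη : 0 < η) :
    (sideLog v s xs z - sideLog v (s - η) xs z) / η - 3 * N / 2 * η ≤ ellOf v s xs z := by
  have h := (convexOn_convL v xs z).slope_le_of_hasDerivAt (x := s - η) (y := s)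
    (Set.mem_univ _) (Set.mem_univ _) (by linarith) (hasDerivAt_convL v xs z s)
  rw [slope_def_field] at h
  have e : s - (s - η) = η := by ring
  rw [e] at h
  unfold convL at h
  have e2 : (sideLog v s xs z + 3 * ↑N / 2 * s ^ 2 -
      (sideLog v (s - η) xs z + 3 * ↑N / 2 * (s - η) ^ 2)) / η =
      (sideLog v s xs z - sideLog v (s - η) xs z) / η + 3 * N * s - 3 * N / 2 * η := by
    field_simp
    ring
  rw [e2] at h
  linarith

end Convex

section Identity

variable {N k : ℕ} {U : ℝ → ℝ} {c₁ c₂ : ℝ}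

lemma EP_ell (hU : Wgt U c₁ c₂) (hN : 1 ≤ N) (s : ℝ) :
    EP (N := N) (k := k) U (fun G xs z => ellOf (patPot U G) s xs z) = s * N * QG U N k s := by
  unfold EP
  simp_rw [fun G : Fin k → Fin N → ℝ => priorE_ellOf (patPot U G) hN s]
  have e : ∀ G : Fin k → Fin N → ℝ, patY U G * (s * N * qbar (patPot U G) s) =
      s * N * (patY U G * qbar (patPot U G) s) := fun G => by ring
  simp_rw [e]
  rw [integral_const_mul]
  rfl

lemma linG_ell_q (hU : Wgt U c₁ c₂) (hN : 1 ≤ N) (s : ℝ) :
    LinG (N := N) (k := k)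
      (fun G xs z => ellOf (patPot U G) s xs z * qY (patPot U G) s (obsv s xs z))
      (3 * (|s| + 1) * N) 1 where
  meas xs := (hU.measurable_ell_joint s xs).mul (hU.measurable_q_joint s xs)
  bd G xs z := by
    rw [abs_mul]
    have h1 := (linG_ell (N := N) (k := k) hU s).bd G xs z
    have h2 := abs_qY_le (patPot U G) s hN (obsv s xs z)
    calc _ ≤ |ellOf (patPot U G) s xs z| * 1 :=
          mul_le_mul_of_nonneg_left h2 (abs_nonneg _)
      _ ≤ _ := by linarith

lemma EP_ell_q (hU : Wgt U c₁ c₂) (hN : 1 ≤ N) (s : ℝ) :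
    EP (N := N) (k := k) U
        (fun G xs z => ellOf (patPot U G) s xs z * qY (patPot U G) s (obsv s xs z)) =
      s * N * EP (N := N) (k := k) U (fun G xs z => qY (patPot U G) s (obsv s xs z) ^ 2) +
        2 * (s * N) * EP (N := N) (k := k) U (fun G xs z => tcY (patPot U G) s (obsv s xs z)) := by
  have hq2 := EP_integrable hU le_rfl (linG_q_sq (N := N) (k := k) hU hN s)
  have htc := EP_integrable hU le_rfl (linG_tc (N := N) (k := k) hU hN s)
  unfold EP
  rw [← integral_const_mul, ← integral_const_mul, ← integral_add (hq2.const_mul _)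
    (htc.const_mul _)]
  refine integral_congr_ae (Filter.Eventually.of_forall fun G => ?_)
  simp only
  rw [priorE_ellOf_mul _ hN s]
  ring

/-- **The variance identity.** -/
lemma var_identity (hU : Wgt U c₁ c₂) (hN : 1 ≤ N) (s : ℝ) :
    s * N * VarG U N k s =
      EP (N := N) (k := k) U (fun G xs z =>
        (ellOf (patPot U G) s xs z - s * N * QG U N k s) * qY (patPot U G) s (obsv s xs z)) -
      2 * (s * N) * EP (N := N) (k := k) U (fun G xs z => tcY (patPot U G) s (obsv s xs z)) := by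
  set Q := QG U N k s with hQ
  have hq := linG_q (N := N) (k := k) hU hN s
  have e : (fun (G : Fin k → Fin N → ℝ) (xs : Fin N → Bool) (z : Fin N → ℝ) =>
      (ellOf (patPot U G) s xs z - s * N * Q) * qY (patPot U G) s (obsv s xs z)) = fun G xs z =>
      ellOf (patPot U G) s xs z * qY (patPot U G) s (obsv s xs z) -
        (s * N * Q) * qY (patPot U G) s (obsv s xs z) := by
    funext G xs z
    ring
  rw [e, EP_sub hU (by simp) (by simp) (linG_ell_q hU hN s) (hq.const_mul (s * N * Q)),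
    EP_const_mul, EP_ell_q hU hN s, ← QG_eq, ← hQ, VarG_eq hU hN s, ← hQ]
  ring

/-- The deviation of the derivative of the logarithm from its mean. -/
lemma linG_ell_dev (hU : Wgt U c₁ c₂) (s b : ℝ) :
    LinG (N := N) (k := k) (fun G xs z => |ellOf (patPot U G) s xs z - b|)
      (3 * (|s| + 1) * N + |b|) (1 + 0) :=
  ((linG_ell hU s).sub (LinG.const b)).abs

/-- The variance bound in terms of the deviation of the derivative. -/
lemma var_bound (hU : Wgt U c₁ c₂) (hN : 1 ≤ N) {s σ : ℝ} (hs : 0 ≤ s) (hσ : 0 < σ) :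
    s * N * VarG U N k s ≤
      EP (N := N) (k := k) U (fun G xs z => |ellOf (patPot U G) s xs z - s * N * QG U N k s|) +
        2 * (s * N) * (σ + C2G U N k s / σ) := by
  have hN0 : (0 : ℝ) ≤ N := Nat.cast_nonneg N
  set Q := QG U N k s with hQ
  have hq := linG_q (N := N) (k := k) hU hN s
  have hc2 := linG_c2 (N := N) (k := k) hU hN s
  have htc := linG_tc (N := N) (k := k) hU hN s
  rw [var_identity hU hN s, ← hQ]
  have h1 : EP (N := N) (k := k) U (fun G xs z =>
      (ellOf (patPot U G) s xs z - s * N * Q) * qY (patPot U G) s (obsv s xs z)) ≤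
      EP (N := N) (k := k) U (fun G xs z => |ellOf (patPot U G) s xs z - s * N * Q|) := by
    refine EP_mono hU (c := 3 * (|s| + 1) * N + |s * N * Q|) (a := 1 + 0) (by simp) (by simp)
      ?_ (linG_ell_dev hU s _) fun G xs z => ?_
    · refine ⟨fun xs => ((hU.measurable_ell_joint s xs).sub_const _).mul
        (hU.measurable_q_joint s xs), fun G xs z => ?_⟩
      rw [abs_mul]
      have h2 := ((linG_ell_dev (N := N) (k := k) hU s (s * N * Q))).bd G xs z
      rw [abs_abs] at h2
      calc _ ≤ |ellOf (patPot U G) s xs z - s * N * Q| * 1 :=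
            mul_le_mul_of_nonneg_left (abs_qY_le _ s hN _) (abs_nonneg _)
        _ ≤ _ := by linarith
    · have h3 := abs_qY_le (patPot U G) s hN (obsv s xs z)
      calc _ ≤ |(ellOf (patPot U G) s xs z - s * N * Q) * qY (patPot U G) s (obsv s xs z)| :=
            le_abs_self _
        _ = |ellOf (patPot U G) s xs z - s * N * Q| * |qY (patPot U G) s (obsv s xs z)| :=
            abs_mul _ _
        _ ≤ |ellOf (patPot U G) s xs z - s * N * Q| * 1 :=
            mul_le_mul_of_nonneg_left h3 (abs_nonneg _)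
        _ = _ := mul_one _
  have h4 : |EP (N := N) (k := k) U (fun G xs z => tcY (patPot U G) s (obsv s xs z))| ≤
      σ + C2G U N k s / σ := by
    have e : σ + C2G U N k s / σ = EP (N := N) (k := k) U (fun G xs z =>
        σ + σ⁻¹ * c2Y (patPot U G) s (obsv s xs z)) := by
      rw [EP_add hU (by simp) (by simp) (LinG.const σ) (hc2.const_mul σ⁻¹), EP_const hU hN,
        EP_const_mul, ← C2G_eq]
      rw [div_eq_inv_mul]
    rw [e]
    refine abs_EP_le hU (by simp) (by simp) htc ((LinG.const σ).add (hc2.const_mul σ⁻¹))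
      fun G xs z => ?_
    have h5 := abs_tcY_le (patPot U G) s hN (obsv s xs z)
    have h6 := sqrt_le_add_div (c2Y_nonneg (patPot U G) s (obsv s xs z)) hσ
    rw [div_eq_inv_mul] at h6
    linarith
  have h7 : 0 ≤ 2 * (s * N) := by positivity
  have h8 := mul_le_mul_of_nonneg_left ((neg_le_abs _).trans h4) h7
  have e2 : 2 * (s * N) * -EP (N := N) (k := k) U (fun G xs z => tcY (patPot U G) s (obsv s xs z))
      = -(2 * (s * N) * EP (N := N) (k := k) U (fun G xs z => tcY (patPot U G) s (obsv s xs z))) := by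
    ring
  rw [e2] at h8
  linarith

end Identity

section Pointwise

variable {N k : ℕ} {U : ℝ → ℝ} {c₁ c₂ : ℝ}

/-- The deviation of the logarithm, at one point. -/
noncomputable def devF (U : ℝ → ℝ) (N k : ℕ) (u : ℝ) (G : Fin k → Fin N → ℝ) (xs : Fin N → Bool)
    (z : Fin N → ℝ) : ℝ := |sideLog (patPot U G) u xs z - N * eG U N k u|

/-- The real variable estimate behind the pointwise bound. -/
lemma ell_dev_abstract {N s η ell Lp L0 Lm ep e0 em Dp D0 Dm Q Qp Qm : ℝ} (hN0 : 0 ≤ N)
    (hη : 0 < η) (hηs : η ≤ s)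
    (hQQp : Q ≤ Qp) (hQmQ : Qm ≤ Q) (hQp1 : Qp ≤ 1) (hQm0 : 0 ≤ Qm)
    (hup : ell ≤ (Lp - L0) / η + 3 * N / 2 * η) (hlo : (L0 - Lm) / η - 3 * N / 2 * η ≤ ell)
    (htu : ep - e0 ≤ ((s + η) ^ 2 - s ^ 2) * Qp / 2)
    (htl : (s ^ 2 - (s - η) ^ 2) * Qm / 2 ≤ e0 - em)
    (hdp : |Lp - N * ep| ≤ Dp) (hd0 : |L0 - N * e0| ≤ D0) (hdm : |Lm - N * em| ≤ Dm) :
    |ell - s * N * Q| ≤ (Dp + 2 * D0 + Dm) / η + s * N * (Qp - Qm) + 2 * N * η := by
  have hs0 : 0 ≤ s := hη.le.trans hηs
  obtain ⟨hp1, hp2⟩ := abs_le.mp hdp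
  obtain ⟨h01, h02⟩ := abs_le.mp hd0
  obtain ⟨hm1, hm2⟩ := abs_le.mp hdm
  have hD0 : 0 ≤ D0 := (abs_nonneg _).trans hd0
  have hDp : 0 ≤ Dp := (abs_nonneg _).trans hdp
  have hDm : 0 ≤ Dm := (abs_nonneg _).trans hdm
  have hU1 : (Lp - L0) / η ≤ (Dp + D0) / η + N * (2 * s + η) * Qp / 2 := by
    have e1 : N * (2 * s + η) * Qp / 2 = N * ((s + η) ^ 2 - s ^ 2) * Qp / 2 / η := by
      field_simp
      ring
    rw [e1, ← add_div]
    refine div_le_div_of_nonneg_right ?_ hη.le
    have h3 := mul_le_mul_of_nonneg_left htu hN0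
    have e2 : N * (((s + η) ^ 2 - s ^ 2) * Qp / 2) = N * ((s + η) ^ 2 - s ^ 2) * Qp / 2 := by ring
    rw [e2] at h3
    linarith
  have hL1 : -((D0 + Dm) / η) + N * (2 * s - η) * Qm / 2 ≤ (L0 - Lm) / η := by
    have e1 : -((D0 + Dm) / η) + N * (2 * s - η) * Qm / 2 =
        (-(D0 + Dm) + N * (s ^ 2 - (s - η) ^ 2) * Qm / 2) / η := by
      field_simp
      ring
    rw [e1]
    refine div_le_div_of_nonneg_right ?_ hη.le
    have h3 := mul_le_mul_of_nonneg_left htl hN0
    have e2 : N * ((s ^ 2 - (s - η) ^ 2) * Qm / 2) = N * (s ^ 2 - (s - η) ^ 2) * Qm / 2 := by ring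
    rw [e2] at h3
    linarith
  have hdiv : (Dp + 2 * D0 + Dm) / η = (Dp + D0) / η + (D0 + Dm) / η := by
    field_simp
    ring
  have hdiv2 : 0 ≤ (Dp + D0) / η := by positivity
  have hdiv3 : 0 ≤ (D0 + Dm) / η := by positivity
  have hsN : 0 ≤ s * N := by positivity
  have hq1 : N * (2 * s + η) * Qp / 2 ≤ s * N * Qp + N * η / 2 := by
    have : N * η * Qp ≤ N * η * 1 := mul_le_mul_of_nonneg_left hQp1 (by positivity)
    nlinarith
  have hq2 : s * N * Qm - N * η / 2 ≤ N * (2 * s - η) * Qm / 2 := by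
    have : N * η * Qm ≤ N * η * 1 :=
      mul_le_mul_of_nonneg_left (hQmQ.trans (hQQp.trans hQp1)) (by positivity)
    nlinarith
  have hq3 : s * N * Qp - s * N * Q ≤ s * N * (Qp - Qm) := by
    have := mul_le_mul_of_nonneg_left hQmQ hsN
    nlinarith
  have hq4 : s * N * Q - s * N * Qm ≤ s * N * (Qp - Qm) := by
    have := mul_le_mul_of_nonneg_left hQQp hsN
    nlinarith
  have hNη : 0 ≤ N * η := by positivity
  rw [hdiv, abs_le]
  constructor
  · linarith
  · linarith

/-- The pointwise bound for the derivative of the logarithm. -/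
lemma ell_dev_le (hU : Wgt U c₁ c₂) (hN : 1 ≤ N) {s η : ℝ} (hη : 0 < η) (hηs : η ≤ s)
    (G : Fin k → Fin N → ℝ) (xs : Fin N → Bool) (z : Fin N → ℝ) :
    |ellOf (patPot U G) s xs z - s * N * QG U N k s| ≤
      (devF U N k (s + η) G xs z + 2 * devF U N k s G xs z + devF U N k (s - η) G xs z) / η +
        s * N * (QG U N k (s + η) - QG U N k (s - η)) + 2 * N * η := by
  have hs0 : 0 ≤ s := hη.le.trans hηs
  exact ell_dev_abstract (Nat.cast_nonneg N) hη hηs (QG_mono hU hN hs0 (by linarith))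
    (QG_mono hU hN (by linarith) (by linarith)) (QG_le_one hU hN _) (QG_nonneg hU hN _)
    (ell_le (patPot U G) xs z hη) (le_ell (patPot U G) xs z hη)
    (eG_tan_upper (k := k) hU hN hs0 (by linarith))
    (eG_tan_lower (k := k) hU hN (by linarith) (by linarith)) le_rfl le_rfl le_rfl

lemma linG_devF (hU : Wgt U c₁ c₂) (u : ℝ) :
    LinG (N := N) (k := k) (devF U N k u)
      (k * logBd c₁ c₂ + u ^ 2 * N + u ^ 2 * N / 2 + |N * eG U N k u|) (|u| + 0) :=
  linG_dev hU u _

/-- The bound on the deviation of the logarithm. -/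
noncomputable def devT (c₁ c₂ : ℝ) (N k : ℕ) (u : ℝ) : ℝ :=
  |u| * Real.sqrt N + 4 * Real.sqrt (k * logBd c₁ c₂ ^ 2 + 1)

lemma EP_devF_le (hU : Wgt U c₁ c₂) (hN : 1 ≤ N) (u : ℝ) :
    EP (N := N) (k := k) U (devF U N k u) ≤ devT c₁ c₂ N k u :=
  EP_abs_dev_le hU hN u

/-- The mean deviation of the derivative of the logarithm. -/
theorem EP_ell_dev_le (hU : Wgt U c₁ c₂) (hN : 1 ≤ N) {s η : ℝ} (hη : 0 < η) (hηs : η ≤ s) :
    EP (N := N) (k := k) U (fun G xs z => |ellOf (patPot U G) s xs z - s * N * QG U N k s|) ≤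
      (devT c₁ c₂ N k (s + η) + 2 * devT c₁ c₂ N k s + devT c₁ c₂ N k (s - η)) / η +
        s * N * (QG U N k (s + η) - QG U N k (s - η)) + 2 * N * η := by
  set C := s * N * (QG U N k (s + η) - QG U N k (s - η)) + 2 * N * η with hC
  have h1 := linG_devF (N := N) (k := k) hU (s + η)
  have h2 := linG_devF (N := N) (k := k) hU s
  have h3 := linG_devF (N := N) (k := k) hU (s - η)
  have hmain : EP (N := N) (k := k) U (fun G xs z =>
      |ellOf (patPot U G) s xs z - s * N * QG U N k s|) ≤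
      EP (N := N) (k := k) U (fun G xs z =>
        η⁻¹ * ((devF U N k (s + η) G xs z + 2 * devF U N k s G xs z) +
          devF U N k (s - η) G xs z) + C) := by
    refine EP_mono hU (by simp) ?_ (linG_ell_dev hU s _)
      ((((h1.add (h2.const_mul 2)).add h3).const_mul η⁻¹).add (LinG.const C)) fun G xs z => ?_
    · have := abs_nonneg η⁻¹
      positivity
    · have := ell_dev_le (k := k) hU hN hη hηs G xs z
      rw [div_eq_inv_mul] at this
      linarith
  refine hmain.trans ?_
  have hi : (0 : ℝ) ≤ η⁻¹ := by positivity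
  rw [EP_add hU (by positivity) (by simp) (((h1.add (h2.const_mul 2)).add h3).const_mul η⁻¹)
    (LinG.const C), EP_const hU hN, EP_const_mul, EP_add hU (by positivity) (by positivity)
    (h1.add (h2.const_mul 2)) h3, EP_add hU (by positivity) (by positivity) h1 (h2.const_mul 2),
    EP_const_mul]
  have h4 := EP_devF_le (k := k) hU hN (s + η)
  have h5 := EP_devF_le (k := k) hU hN s
  have h6 := EP_devF_le (k := k) hU hN (s - η)
  rw [add_assoc (_ / η), ← hC, div_eq_inv_mul]
  have h7 : η⁻¹ * (EP U (devF U N k (s + η)) + 2 * EP U (devF U N k s) +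
      EP U (devF U N k (s - η))) ≤ η⁻¹ * (devT c₁ c₂ N k (s + η) + 2 * devT c₁ c₂ N k s +
      devT c₁ c₂ N k (s - η)) := by
    refine mul_le_mul_of_nonneg_left ?_ hi
    linarith
  linarith

/-- **The variance bound.** -/
theorem VarG_le (hU : Wgt U c₁ c₂) (hN : 1 ≤ N) {s η σ : ℝ} (hη : 0 < η) (hηs : η ≤ s)
    (hσ : 0 < σ) :
    VarG U N k s ≤
      (devT c₁ c₂ N k (s + η) + 2 * devT c₁ c₂ N k s + devT c₁ c₂ N k (s - η)) / (η * (s * N)) +
        2 * η / s + (QG U N k (s + η) - QG U N k (s - η)) + 2 * σ + 2 * (C2G U N k s / σ) := by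
  have hN' : (0 : ℝ) < N := by exact_mod_cast hN
  have hs : 0 < s := lt_of_lt_of_le hη hηs
  have hsN : 0 < s * N := by positivity
  have h1 := var_bound (k := k) hU hN hs.le hσ
  have h2 := EP_ell_dev_le (k := k) hU hN hη hηs
  have h3 : s * N * VarG U N k s ≤ s * N *
      ((devT c₁ c₂ N k (s + η) + 2 * devT c₁ c₂ N k s + devT c₁ c₂ N k (s - η)) / (η * (s * N)) +
        2 * η / s + (QG U N k (s + η) - QG U N k (s - η)) + 2 * σ + 2 * (C2G U N k s / σ)) := by
    have e : s * N *
      ((devT c₁ c₂ N k (s + η) + 2 * devT c₁ c₂ N k s + devT c₁ c₂ N k (s - η)) / (η * (s * N)) +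
        2 * η / s + (QG U N k (s + η) - QG U N k (s - η)) + 2 * σ + 2 * (C2G U N k s / σ)) =
        (devT c₁ c₂ N k (s + η) + 2 * devT c₁ c₂ N k s + devT c₁ c₂ N k (s - η)) / η +
        s * N * (QG U N k (s + η) - QG U N k (s - η)) + 2 * N * η +
        2 * (s * N) * (σ + C2G U N k s / σ) := by
      field_simp
      ring
    rw [e]
    linarith
  exact le_of_mul_le_mul_left h3 hsN

end Pointwise

end Vale.Agent.Lib.P157
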