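import Vale.Agent.Lib.P157.DefsCrit
import Vale.Agent.Lib.P157.Joint

/-!
Resampling the component of a Gaussian pattern along a planted configuration.
-/

open MeasureTheory ProbabilityTheory Complex
open scoped NNReal ENNReal

set_option linter.unusedSectionVars false

namespace Vale.Agent.Lib.P157

variable {N : ℕ}

/-- The pattern `g` with its component along `xs` replaced by `u`. -/
noncomputable def resample (xs : Fin N → Bool) (u : ℝ) (g : Fin N → ℝ) : Fin N → ℝ :=
  fun i => g i + (u - patternField xs g) * (spinValue (xs i) / Real.sqrt N)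

lemma measurable_resample (xs : Fin N → Bool) :
    Measurable (fun p : ℝ × (Fin N → ℝ) => resample xs p.1 p.2) := by
  unfold resample
  refine measurable_pi_iff.mpr fun i => ?_
  exact ((measurable_pi_apply i).comp measurable_snd).add
    ((measurable_fst.sub ((measurable_patternField xs).comp measurable_snd)).mul_const _)

/-- The field at `x` of a resampled pattern. -/
lemma patternField_resample (hN : 1 ≤ N) (xs x : Fin N → Bool) (u : ℝ) (g : Fin N → ℝ) :
    patternField x (resample xs u g) =
      overlap x xs * u + ∑ i, g i * ((spinValue (x i) - overlap x xs * spinValue (xs i)) /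
        Real.sqrt N) := by
  have hN' : (0 : ℝ) < N := by exact_mod_cast hN
  have hs : Real.sqrt N ≠ 0 := (Real.sqrt_pos.mpr hN').ne'
  have hss : Real.sqrt N * Real.sqrt N = N := Real.mul_self_sqrt hN'.le
  set ρ := overlap x xs with hρ
  have hov : (∑ i, spinValue (x i) * spinValue (xs i)) = ρ * N := by
    rw [hρ]
    unfold overlap
    field_simp
  set F := patternField xs g with hFd
  have hF : F = (∑ i, g i * spinValue (xs i)) / Real.sqrt N := rfl
  unfold resample
  rw [← hFd]
  unfold patternField
  have h1 : ∑ i, (g i + (u - F) * (spinValue (xs i) / Real.sqrt N)) * spinValue (x i) =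
      ∑ i, g i * spinValue (x i) + (u - F) * (ρ * N) / Real.sqrt N := by
    have : ∀ i, (g i + (u - F) * (spinValue (xs i) / Real.sqrt N)) * spinValue (x i) =
        g i * spinValue (x i) + (u - F) / Real.sqrt N * (spinValue (x i) * spinValue (xs i)) := by
      intro i
      field_simp
    simp_rw [this]
    rw [Finset.sum_add_distrib, ← Finset.mul_sum, hov]
    ring
  rw [h1]
  have h2 : ∑ i, g i * ((spinValue (x i) - ρ * spinValue (xs i)) / Real.sqrt N) =
      (∑ i, g i * spinValue (x i)) / Real.sqrt N - ρ * F := by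
    rw [hF, Finset.sum_div, mul_comm ρ, Finset.sum_div, Finset.sum_mul, ← Finset.sum_sub_distrib]
    refine Finset.sum_congr rfl fun i _ => ?_
    field_simp
  rw [h2]
  have h3 : (u - F) * (ρ * N) / Real.sqrt N / Real.sqrt N = (u - F) * ρ := by
    field_simp
    rw [Real.sq_sqrt hN'.le]
  rw [add_div, h3]
  ring

lemma overlap_self (hN : 1 ≤ N) (xs : Fin N → Bool) : overlap xs xs = 1 := by
  have hN' : (N : ℝ) ≠ 0 := by
    have : (0 : ℝ) < N := by exact_mod_cast hN
    exact this.ne'
  unfold overlap
  have : ∀ i, spinValue (xs i) * spinValue (xs i) = 1 := fun i => by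
    have := spinValue_sq (xs i)
    nlinarith
  simp_rw [this]
  simp [hN']

/-- The field at `xs` of a pattern resampled at `xs` is the inserted value. -/
lemma patternField_resample_self (hN : 1 ≤ N) (xs : Fin N → Bool) (u : ℝ) (g : Fin N → ℝ) :
    patternField xs (resample xs u g) = u := by
  rw [patternField_resample hN, overlap_self hN]
  have : ∀ i, g i * ((spinValue (xs i) - 1 * spinValue (xs i)) / Real.sqrt N) = 0 := fun i => by
    simp
  simp_rw [this]
  simp

lemma sum_coeff_sq (hN : 1 ≤ N) (xs x : Fin N → Bool) :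
    ∑ i, ((spinValue (x i) - overlap x xs * spinValue (xs i)) / Real.sqrt N) ^ 2 =
      1 - overlap x xs ^ 2 := by
  have hN' : (0 : ℝ) < N := by exact_mod_cast hN
  set ρ := overlap x xs with hρ
  have hov : (∑ i, spinValue (x i) * spinValue (xs i)) = ρ * N := by
    rw [hρ]
    unfold overlap
    field_simp
  have h1 : ∀ i, ((spinValue (x i) - ρ * spinValue (xs i)) / Real.sqrt N) ^ 2 =
      (1 + ρ ^ 2 - 2 * ρ * (spinValue (x i) * spinValue (xs i))) / N := by
    intro i
    rw [div_pow, Real.sq_sqrt hN'.le]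
    congr 1
    have h2 := spinValue_sq (x i)
    have h3 := spinValue_sq (xs i)
    calc (spinValue (x i) - ρ * spinValue (xs i)) ^ 2
        = spinValue (x i) ^ 2 + ρ ^ 2 * spinValue (xs i) ^ 2
          - 2 * ρ * (spinValue (x i) * spinValue (xs i)) := by ring
      _ = _ := by rw [h2, h3]; ring
  simp_rw [h1]
  rw [← Finset.sum_div, Finset.sum_sub_distrib, ← Finset.mul_sum, hov]
  simp
  field_simp
  ring

/-- The resampled pattern is again a standard Gaussian vector. -/
lemma map_resample (hN : 1 ≤ N) (xs : Fin N → Bool) :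
    ((gaussianReal 0 1).prod (patternLaw N)).map (fun p => resample xs p.1 p.2) =
      patternLaw N := by
  have hm := measurable_resample xs
  have : IsProbabilityMeasure (((gaussianReal 0 1).prod (patternLaw N)).map
      (fun p => resample xs p.1 p.2)) := Measure.isProbabilityMeasure_map hm.aemeasurable
  have hN' : (0 : ℝ) < N := by exact_mod_cast hN
  have hs : Real.sqrt N ≠ 0 := (Real.sqrt_pos.mpr hN').ne'
  refine Measure.ext_of_charFunDual ?_
  funext L
  rw [charFunDual_apply, charFunDual_apply]
  have hc : Continuous fun v : Fin N → ℝ => cexp ((L v : ℂ) * I) := by fun_prop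
  rw [integral_map hm.aemeasurable hc.aestronglyMeasurable]
  -- coordinates of the functional
  set t : Fin N → ℝ := fun i => L (Pi.single i 1) with ht
  have hL : ∀ v : Fin N → ℝ, L v = ∑ i, v i * t i := by
    intro v
    have hv : v = ∑ i, v i • (Pi.single i (1 : ℝ) : Fin N → ℝ) := by
      ext j
      simp [Finset.sum_apply, Pi.single_apply]
    conv_lhs => rw [hv]
    rw [map_sum]
    simp [ht]
  set e : Fin N → ℝ := fun i => spinValue (xs i) / Real.sqrt N with he
  set β : ℝ := ∑ i, e i * t i with hβ
  have hee : ∑ i, e i ^ 2 = 1 := by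
    have : ∀ i, e i ^ 2 = 1 / N := by
      intro i
      simp only [he]
      rw [div_pow, spinValue_sq, Real.sq_sqrt hN'.le]
    simp_rw [this]
    simp
    field_simp
  have hfield : ∀ g : Fin N → ℝ, patternField xs g = ∑ i, g i * e i := fun g =>
    patternField_eq xs g
  -- right side
  have hR : ∫ v, cexp ((L v : ℂ) * I) ∂(patternLaw N) =
      cexp (-(((∑ i, t i ^ 2 : ℝ) : ℂ) / 2)) := by
    simp_rw [hL]
    exact integral_cexp_linear t
  -- left side
  have hform : ∀ p : ℝ × (Fin N → ℝ), L (resample xs p.1 p.2) =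
      β * p.1 + ∑ i, p.2 i * (t i - β * e i) := by
    intro p
    rw [hL]
    unfold resample
    simp only [hfield]
    have h1 : ∑ i, (p.2 i + (p.1 - ∑ j, p.2 j * e j) * e i) * t i =
        ∑ i, p.2 i * t i + (p.1 - ∑ j, p.2 j * e j) * β := by
      rw [hβ, Finset.mul_sum, ← Finset.sum_add_distrib]
      refine Finset.sum_congr rfl fun i _ => by ring
    have h2 : ∑ i, p.2 i * (t i - β * e i) = ∑ i, p.2 i * t i - β * ∑ j, p.2 j * e j := by
      rw [Finset.mul_sum, ← Finset.sum_sub_distrib]
      refine Finset.sum_congr rfl fun i _ => by ring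
    have h3 : ∑ i, (p.2 i + (p.1 - ∑ j, p.2 j * e j) * (spinValue (xs i) / Real.sqrt N)) * t i =
        ∑ i, (p.2 i + (p.1 - ∑ j, p.2 j * e j) * e i) * t i := rfl
    rw [h3, h1, h2]
    ring
  have hL2 : ∫ p : ℝ × (Fin N → ℝ), cexp ((L (resample xs p.1 p.2) : ℂ) * I)
      ∂((gaussianReal 0 1).prod (patternLaw N)) =
      cexp (-(((∑ i, t i ^ 2 : ℝ) : ℂ) / 2)) := by
    have h1 : ∀ p : ℝ × (Fin N → ℝ), cexp ((L (resample xs p.1 p.2) : ℂ) * I) =
        cexp ((β : ℂ) * (p.1 : ℂ) * I) *
          cexp (((∑ i, p.2 i * (t i - β * e i) : ℝ) : ℂ) * I) := by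
      intro p
      rw [← Complex.exp_add, hform]
      congr 1
      push_cast
      ring
    simp_rw [h1]
    rw [integral_prod_mul (L := ℂ) (fun u : ℝ => cexp ((β : ℂ) * (u : ℂ) * I))
      (fun g : Fin N → ℝ => cexp (((∑ i, g i * (t i - β * e i) : ℝ) : ℂ) * I))]
    rw [integral_cexp_linear]
    have h2 : ∫ u : ℝ, cexp ((β : ℂ) * (u : ℂ) * I) ∂(gaussianReal 0 1) =
        cexp (-((β : ℂ) ^ 2 / 2)) := by
      have := charFun_gaussianReal (μ := 0) (v := 1) β
      rw [charFun_apply_real] at this
      rw [this]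
      congr 1
      simp
    rw [h2, ← Complex.exp_add]
    congr 1
    have h3 : ∑ i, (t i - β * e i) ^ 2 = ∑ i, t i ^ 2 - β ^ 2 := by
      have : ∀ i, (t i - β * e i) ^ 2 = t i ^ 2 - 2 * β * (e i * t i) + β ^ 2 * e i ^ 2 := fun i => by
        ring
      simp_rw [this]
      rw [Finset.sum_add_distrib, Finset.sum_sub_distrib, ← Finset.mul_sum, ← Finset.mul_sum, hee,
        ← hβ]
      ring
    rw [h3]
    push_cast
    ring
  rw [hL2, hR]

end Vale.Agent.Lib.P157
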