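import Vale.Agent.Lib.P157.SphereMoment

/-!
The annealed limit on the sphere under the second moment criterion.
-/

open MeasureTheory ProbabilityTheory Matrix Filter Topology
open scoped ENNReal NNReal

set_option linter.unusedSectionVars false

namespace Vale.Agent.Lib.P157

variable {N M : ℕ} {f : ℝ → ℝ}

/-- The normalized weight of a configuration. -/
noncomputable def spW (f : ℝ → ℝ) (G : Fin M → Fin N → ℝ) (v : Fin N → ℝ) : ℝ :=
  ∏ a, normPot f (G a ⬝ᵥ v)

lemma hamExp_div (G : Fin M → Fin N → ℝ) (v : Fin N → ℝ) :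
    hamExp f G v / annealedConstant f ^ M = spW f G v := by
  unfold hamExp spW normPot
  rw [Finset.prod_div_distrib, Real.exp_sum]
  simp [dotProduct]

lemma spW_pos (hf : Measurable f) {L : ℝ} (hfL : ∀ u, |f u| ≤ L) (G : Fin M → Fin N → ℝ)
    (v : Fin N → ℝ) : 0 < spW f G v :=
  Finset.prod_pos fun a _ => lt_of_lt_of_le (Real.exp_pos _) (normPot_bounds hf hfL _).1

lemma spW_le (hf : Measurable f) {L : ℝ} (hfL : ∀ u, |f u| ≤ L) (G : Fin M → Fin N → ℝ)
    (v : Fin N → ℝ) : spW f G v ≤ Real.exp (2 * L) ^ M := by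
  unfold spW
  calc _ ≤ ∏ _a : Fin M, Real.exp (2 * L) := Finset.prod_le_prod
        (fun a _ => (lt_of_lt_of_le (Real.exp_pos _) (normPot_bounds hf hfL _).1).le)
        (fun a _ => (normPot_bounds hf hfL _).2)
    _ = _ := by simp

lemma measurable_spW (hf : Measurable f) :
    Measurable (fun p : (Fin M → Fin N → ℝ) × Metric.sphere (0 : EucN N) 1 =>
      spW f p.1 (p.2 : EucN N).ofLp) := by
  unfold spW
  refine Finset.measurable_prod _ fun a _ => (measurable_normPot hf).comp ?_
  simp only [dotProduct]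
  refine Finset.measurable_sum _ fun i _ => Measurable.mul ?_ ?_
  · exact (measurable_pi_apply i).comp ((measurable_pi_apply a).comp measurable_fst)
  · exact (measurable_sphere_coord i).comp measurable_snd

/-- The normalized sphere partition function. -/
noncomputable def spY (f : ℝ → ℝ) (G : Fin M → Fin N → ℝ) : ℝ :=
  spherePartitionFn f G / annealedConstant f ^ M

lemma spY_eq (hN : 1 ≤ N) (G : Fin M → Fin N → ℝ) :
    spY f G = ∫ u, spW f G (u : EucN N).ofLp ∂(sphereLaw N) := by
  unfold spY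
  rw [spherePartitionFn_eq hN, ← integral_div]
  simp_rw [hamExp_div]

lemma integral_spY (hN : 1 ≤ N) (hf : Measurable f) {L : ℝ} (hfL : ∀ u, |f u| ≤ L) :
    ∫ G, spY f G ∂(patternsLaw N M) = 1 := by
  have hc := annealedConstant_pos hf hfL
  unfold spY
  rw [integral_div, integral_spherePartitionFn hN hf hfL, div_self (pow_pos hc M).ne']

/-- The second moment of the normalized partition function. -/
lemma integral_spY_sq (hN : 1 ≤ N) (hf : Measurable f) {L : ℝ} (hfL : ∀ u, |f u| ≤ L) :
    ∫ G, spY f G ^ 2 ∂(patternsLaw N M) =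
      ∫ u : Metric.sphere (0 : EucN N) 1, ∫ v : Metric.sphere (0 : EucN N) 1,
        secMoment f ((u : EucN N).ofLp ⬝ᵥ (v : EucN N).ofLp) ^ M ∂(sphereLaw N) ∂(sphereLaw N) := by
  have : NeZero N := ⟨by omega⟩
  have hprobg : IsProbabilityMeasure (patternLaw N) := by
    unfold patternLaw
    infer_instance
  have hprobG : IsProbabilityMeasure (patternsLaw N M) := by
    unfold patternsLaw
    infer_instance
  set ν := sphereLaw N with hν
  have hBB : 0 ≤ Real.exp (2 * L) ^ M := by positivity
  have hmj : Measurable (fun q : (Fin M → Fin N → ℝ) ×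
      (Metric.sphere (0 : EucN N) 1 × Metric.sphere (0 : EucN N) 1) =>
      spW f q.1 (q.2.1 : EucN N).ofLp * spW f q.1 (q.2.2 : EucN N).ofLp) := by
    unfold spW
    refine Measurable.mul ?_ ?_
    · refine Finset.measurable_prod _ fun a _ => (measurable_normPot hf).comp ?_
      simp only [dotProduct]
      refine Finset.measurable_sum _ fun i _ => Measurable.mul ?_ ?_
      · exact (measurable_pi_apply i).comp ((measurable_pi_apply a).comp measurable_fst)
      · exact (measurable_sphere_coord i).comp (measurable_fst.comp measurable_snd)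
    · refine Finset.measurable_prod _ fun a _ => (measurable_normPot hf).comp ?_
      simp only [dotProduct]
      refine Finset.measurable_sum _ fun i _ => Measurable.mul ?_ ?_
      · exact (measurable_pi_apply i).comp ((measurable_pi_apply a).comp measurable_fst)
      · exact (measurable_sphere_coord i).comp (measurable_snd.comp measurable_snd)
  have hintJ : Integrable (Function.uncurry fun (G : Fin M → Fin N → ℝ)
      (p : Metric.sphere (0 : EucN N) 1 × Metric.sphere (0 : EucN N) 1) =>
      spW f G (p.1 : EucN N).ofLp * spW f G (p.2 : EucN N).ofLp)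
      ((patternsLaw N M).prod (ν.prod ν)) := by
    refine Integrable.of_bound hmj.aestronglyMeasurable
      (Real.exp (2 * L) ^ M * Real.exp (2 * L) ^ M) (Eventually.of_forall fun q => ?_)
    simp only [Function.uncurry, Real.norm_eq_abs]
    rw [abs_of_pos (mul_pos (spW_pos hf hfL _ _) (spW_pos hf hfL _ _))]
    exact mul_le_mul (spW_le hf hfL _ _) (spW_le hf hfL _ _) (spW_pos hf hfL _ _).le hBB
  have h1 : ∀ G : Fin M → Fin N → ℝ, spY f G ^ 2 =
      ∫ p : Metric.sphere (0 : EucN N) 1 × Metric.sphere (0 : EucN N) 1,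
        spW f G (p.1 : EucN N).ofLp * spW f G (p.2 : EucN N).ofLp ∂(ν.prod ν) := by
    intro G
    rw [integral_prod_mul (fun u : Metric.sphere (0 : EucN N) 1 => spW f G (u : EucN N).ofLp)
      (fun u : Metric.sphere (0 : EucN N) 1 => spW f G (u : EucN N).ofLp), spY_eq hN, sq]
  simp_rw [h1]
  rw [integral_integral_swap hintJ]
  have h2 : ∀ p : Metric.sphere (0 : EucN N) 1 × Metric.sphere (0 : EucN N) 1,
      ∫ G, spW f G (p.1 : EucN N).ofLp * spW f G (p.2 : EucN N).ofLp ∂(patternsLaw N M) =
        secMoment f ((p.1 : EucN N).ofLp ⬝ᵥ (p.2 : EucN N).ofLp) ^ M := by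
    intro p
    unfold spW
    simp_rw [← Finset.prod_mul_distrib]
    unfold patternsLaw
    rw [integral_fintype_prod_eq_prod (𝕜 := ℝ) (fun (_ : Fin M) (g : Fin N → ℝ) =>
      normPot f (g ⬝ᵥ (p.1 : EucN N).ofLp) * normPot f (g ⬝ᵥ (p.2 : EucN N).ofLp))]
    simp_rw [pair_integral hf hfL _ _ (sphere_dot_self p.1) (sphere_dot_self p.2)]
    simp
  simp_rw [h2]
  have hmdot : Measurable (fun p : Metric.sphere (0 : EucN N) 1 × Metric.sphere (0 : EucN N) 1 =>
      (p.1 : EucN N).ofLp ⬝ᵥ (p.2 : EucN N).ofLp) := by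
    simp only [dotProduct]
    refine Finset.measurable_sum _ fun i _ => Measurable.mul ?_ ?_
    · exact (measurable_sphere_coord i).comp measurable_fst
    · exact (measurable_sphere_coord i).comp measurable_snd
  have hint2 : Integrable (fun p : Metric.sphere (0 : EucN N) 1 × Metric.sphere (0 : EucN N) 1 =>
      secMoment f ((p.1 : EucN N).ofLp ⬝ᵥ (p.2 : EucN N).ofLp) ^ M) (ν.prod ν) := by
    refine Integrable.of_bound (((measurable_secMoment hf).comp hmdot).pow_const M).aestronglyMeasurable
      (Real.exp (4 * L) ^ M) (Eventually.of_forall fun p => ?_)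
    have hb := secMoment_bounds hf hfL ((p.1 : EucN N).ofLp ⬝ᵥ (p.2 : EucN N).ofLp)
    have hp := lt_of_lt_of_le (Real.exp_pos _) hb.1
    rw [Real.norm_eq_abs, abs_of_nonneg (pow_nonneg hp.le M)]
    exact pow_le_pow_left₀ hp.le hb.2 M
  rw [integral_prod _ hint2]

/-- The Paley-Zygmund inequality at level one half for a variable of mean one. -/
lemma paley_zygmund_half {Ω : Type*} [MeasurableSpace Ω] {μ : Measure Ω} [IsProbabilityMeasure μ]
    {Y : Ω → ℝ} (hY : Measurable Y) (hY0 : ∀ ω, 0 ≤ Y ω) {b : ℝ} (hYb : ∀ ω, Y ω ≤ b)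
    (h1 : ∫ ω, Y ω ∂μ = 1) :
    1 ≤ ∫ ω, Y ω ^ 2 ∂μ ∧ 1 / (4 * ∫ ω, Y ω ^ 2 ∂μ) ≤ μ.real {ω | 1 / 2 ≤ Y ω} := by
  have hiY : Integrable Y μ := by
    refine Integrable.of_bound hY.aestronglyMeasurable b (Eventually.of_forall fun ω => ?_)
    rw [Real.norm_eq_abs, abs_of_nonneg (hY0 ω)]
    exact hYb ω
  have hiY2 : Integrable (fun ω => Y ω ^ 2) μ := by
    refine Integrable.of_bound (hY.pow_const 2).aestronglyMeasurable (b ^ 2)
      (Eventually.of_forall fun ω => ?_)
    rw [Real.norm_eq_abs, abs_of_nonneg (sq_nonneg _)]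
    exact pow_le_pow_left₀ (hY0 ω) (hYb ω) 2
  set S := ∫ ω, Y ω ^ 2 ∂μ with hS
  have hS1 : 1 ≤ S := by
    have h2 : ∫ ω, (2 * Y ω - 1) ∂μ ≤ S := by
      refine integral_mono ((hiY.const_mul 2).sub (integrable_const 1)) hiY2 fun ω => ?_
      simp only
      nlinarith [sq_nonneg (Y ω - 1)]
    rw [integral_sub (hiY.const_mul 2) (integrable_const 1), integral_const_mul, h1] at h2
    simp at h2
    linarith
  refine ⟨hS1, ?_⟩
  have hS0 : 0 < S := by linarith
  set E : Set Ω := {ω | 1 / 2 ≤ Y ω} with hE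
  have hEm : MeasurableSet E := measurableSet_le measurable_const hY
  have hptw : ∀ ω, Y ω ≤ 1 / 2 + Y ω ^ 2 / (4 * S) + S * E.indicator 1 ω := by
    intro ω
    by_cases hω : ω ∈ E
    · simp only [Set.indicator_of_mem hω, Pi.one_apply, mul_one]
      have h3 : Y ω ≤ Y ω ^ 2 / (4 * S) + S := by
        have h4 : Y ω ^ 2 / (4 * S) + S - Y ω = (Y ω - 2 * S) ^ 2 / (4 * S) := by
          field_simp
          ring
        have h5 : 0 ≤ (Y ω - 2 * S) ^ 2 / (4 * S) := by positivity
        linarith
      linarith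
    · simp only [Set.indicator_of_notMem hω, mul_zero, add_zero]
      have h3 : Y ω < 1 / 2 := not_le.mp hω
      have h4 : 0 ≤ Y ω ^ 2 / (4 * S) := by positivity
      linarith
  have hA : Integrable (fun ω => (1 / 2 : ℝ) + Y ω ^ 2 / (4 * S)) μ :=
    (integrable_const _).add (hiY2.div_const _)
  have hB : Integrable (fun ω => S * E.indicator (1 : Ω → ℝ) ω) μ :=
    ((integrable_const (1 : ℝ)).indicator hEm).const_mul _
  have hint3 : Integrable (fun ω => (1 / 2 : ℝ) + Y ω ^ 2 / (4 * S) + S * E.indicator (1 : Ω → ℝ) ω) μ :=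
    hA.add hB
  have h6 := integral_mono hiY hint3 hptw
  have e1 : ∫ ω, ((1 / 2 : ℝ) + Y ω ^ 2 / (4 * S) + S * E.indicator (1 : Ω → ℝ) ω) ∂μ =
      (∫ ω, ((1 / 2 : ℝ) + Y ω ^ 2 / (4 * S)) ∂μ) + ∫ ω, S * E.indicator (1 : Ω → ℝ) ω ∂μ :=
    integral_add hA hB
  have e2 : ∫ ω, ((1 / 2 : ℝ) + Y ω ^ 2 / (4 * S)) ∂μ =
      (∫ _ω : Ω, (1 / 2 : ℝ) ∂μ) + ∫ ω, Y ω ^ 2 / (4 * S) ∂μ :=
    integral_add (integrable_const _) (hiY2.div_const _)
  have e3 : ∫ ω, Y ω ^ 2 / (4 * S) ∂μ = 1 / 4 := by
    rw [integral_div, ← hS]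
    field_simp
  rw [h1, e1, e2, e3, integral_const_mul, integral_indicator_one hEm] at h6
  simp only [integral_const, probReal_univ, smul_eq_mul, one_mul] at h6
  rw [div_le_iff₀ (by positivity)]
  nlinarith

lemma hamExp_update_le {L : ℝ} (hfL : ∀ u, |f u| ≤ L) (G : Fin M → Fin N → ℝ) (a : Fin M)
    (w v : Fin N → ℝ) : hamExp f (Function.update G a w) v ≤ Real.exp (2 * L) * hamExp f G v := by
  unfold hamExp
  rw [← Real.exp_add]
  refine Real.exp_le_exp.mpr ?_
  rw [← Finset.add_sum_erase _ _ (Finset.mem_univ a), ← Finset.add_sum_erase (a := a) _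
    (fun b => f (∑ i, G b i * v i)) (Finset.mem_univ a)]
  have h1 : ∑ b ∈ Finset.univ.erase a, f (∑ i, Function.update G a w b i * v i) =
      ∑ b ∈ Finset.univ.erase a, f (∑ i, G b i * v i) := by
    refine Finset.sum_congr rfl fun b hb => ?_
    rw [Function.update_of_ne (Finset.ne_of_mem_erase hb)]
  rw [h1]
  have h2 := abs_le.mp (hfL (∑ i, Function.update G a w a i * v i))
  have h3 := abs_le.mp (hfL (∑ i, G a i * v i))
  linarith [h2.2, h3.1]

lemma spherePartitionFn_update_le [NeZero N] (hf : Measurable f) {L : ℝ} (hfL : ∀ u, |f u| ≤ L)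
    (G : Fin M → Fin N → ℝ) (a : Fin M) (w : Fin N → ℝ) :
    spherePartitionFn f (Function.update G a w) ≤ Real.exp (2 * L) * spherePartitionFn f G := by
  have hN : 1 ≤ N := Nat.one_le_iff_ne_zero.mpr (NeZero.ne N)
  rw [spherePartitionFn_eq hN, spherePartitionFn_eq hN, ← integral_const_mul]
  have hbd : ∀ G' : Fin M → Fin N → ℝ, Integrable (fun u : Metric.sphere (0 : EucN N) 1 =>
      hamExp f G' (u : EucN N).ofLp) (sphereLaw N) := by
    intro G'
    have hmu : Measurable fun u : Metric.sphere (0 : EucN N) 1 => hamExp f G' (u : EucN N).ofLp :=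
      (measurable_hamExp_sphere hf).comp (measurable_const.prodMk measurable_id)
    refine Integrable.of_bound hmu.aestronglyMeasurable (Real.exp (M * L))
      (Eventually.of_forall fun u => ?_)
    have := hamExp_bounds hfL G' (u : EucN N).ofLp
    rw [Real.norm_eq_abs, abs_of_pos (lt_of_lt_of_le (Real.exp_pos _) this.1)]
    exact this.2
  exact integral_mono (hbd _) ((hbd _).const_mul _) fun u => hamExp_update_le hfL G a w _

/-- The free energy gap from the second moment. -/
theorem sphere_gap (hN : 1 ≤ N) (hM : 1 ≤ M) (hf : Measurable f) {L : ℝ} (hL : 0 < L)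
    (hfL : ∀ u, |f u| ≤ L) {S : ℝ} (hS : ∫ G, spY f G ^ 2 ∂(patternsLaw N M) ≤ S) :
    M * Real.log (annealedConstant f) - ∫ G, Real.log (spherePartitionFn f G) ∂(patternsLaw N M) ≤
      Real.log 2 + L * Real.sqrt (2 * M * Real.log (4 * S)) := by
  have : NeZero N := ⟨by omega⟩
  have hprobg : IsProbabilityMeasure (patternLaw N) := by
    unfold patternLaw
    infer_instance
  have hprobG : IsProbabilityMeasure (patternsLaw N M) := by
    unfold patternsLaw
    infer_instance
  have hc := annealedConstant_pos hf hfL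
  set A := (M : ℝ) * Real.log (annealedConstant f) with hA
  set F : (Fin M → Fin N → ℝ) → ℝ := fun G => Real.log (spherePartitionFn f G) with hF
  set m := ∫ G, F G ∂(patternsLaw N M) with hm
  have hZb := spherePartitionFn_bounds (N := N) (M := M) hf hfL
  have hZpos : ∀ G : Fin M → Fin N → ℝ, 0 < spherePartitionFn f G :=
    fun G => lt_of_lt_of_le (Real.exp_pos _) (hZb G).1
  have hFm : Measurable F := Real.measurable_log.comp (measurable_spherePartitionFn hf)
  have hFb : ∀ G, |F G| ≤ M * L := by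
    intro G
    have h1 : Real.log (Real.exp (-(M * L))) ≤ F G := Real.log_le_log (Real.exp_pos _) (hZb G).1
    have h2 : F G ≤ Real.log (Real.exp (M * L)) := Real.log_le_log (hZpos G) (hZb G).2
    rw [Real.log_exp] at h1 h2
    exact abs_le.mpr ⟨h1, h2⟩
  have hdiff : ∀ G a w, |F (Function.update G a w) - F G| ≤ 2 * L := by
    intro G a w
    have h1 := spherePartitionFn_update_le hf hfL G a w
    have h2 := spherePartitionFn_update_le hf hfL (Function.update G a w) a (G a)
    rw [Function.update_idem, Function.update_eq_self] at h2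
    have h3 : F (Function.update G a w) ≤ 2 * L + F G := by
      calc F (Function.update G a w) ≤ Real.log (Real.exp (2 * L) * spherePartitionFn f G) :=
            Real.log_le_log (hZpos _) h1
        _ = _ := by rw [Real.log_mul (Real.exp_pos _).ne' (hZpos G).ne', Real.log_exp]
    have h4 : F G ≤ 2 * L + F (Function.update G a w) := by
      calc F G ≤ Real.log (Real.exp (2 * L) * spherePartitionFn f (Function.update G a w)) :=
            Real.log_le_log (hZpos _) h2
        _ = _ := by rw [Real.log_mul (Real.exp_pos _).ne' (hZpos _).ne', Real.log_exp]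
    rw [abs_le]
    constructor <;> linarith
  set c : ℝ≥0 := ⟨2 * L, by positivity⟩ with hcdef
  have hcoe : (c : ℝ) = 2 * L := rfl
  have hsub := subgaussian_of_bounded_differences M (fun _ : Fin M => patternLaw N) F c hFm
    (M * L) hFb (fun g a v => by rw [hcoe]; exact hdiff g a v)
  have hsub' : HasSubgaussianMGF (fun g => F g - m) ((M : ℝ≥0) * (c / 2) ^ 2) (patternsLaw N M) :=
    hsub
  have hvcoe : (((M : ℝ≥0) * (c / 2) ^ 2 : ℝ≥0) : ℝ) = M * L ^ 2 := by
    push_cast
    rw [hcoe]
    ring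
  -- the event
  set t := A - Real.log 2 - m with ht
  by_cases ht0 : t ≤ 0
  · have : 0 ≤ L * Real.sqrt (2 * M * Real.log (4 * S)) := by positivity
    linarith
  have ht0' : 0 < t := not_le.mp ht0
  have htail := tail_of_subgaussian hsub' ht0'.le
  rw [hvcoe] at htail
  have hYm : Measurable (fun G : Fin M → Fin N → ℝ => spY f G) := by
    unfold spY
    exact (measurable_spherePartitionFn hf).div_const _
  have hY0 : ∀ G : Fin M → Fin N → ℝ, 0 ≤ spY f G := fun G => by
    unfold spY
    exact (div_pos (hZpos G) (pow_pos hc M)).le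
  have hYb : ∀ G : Fin M → Fin N → ℝ, spY f G ≤ Real.exp (M * L) / annealedConstant f ^ M := fun G => by
    unfold spY
    exact div_le_div_of_nonneg_right (hZb G).2 (pow_pos hc M).le
  obtain ⟨hS1, hPZ⟩ := paley_zygmund_half (μ := patternsLaw N M) hYm hY0 hYb (integral_spY hN hf hfL)
  have hsub2 : {G : Fin M → Fin N → ℝ | 1 / 2 ≤ spY f G} ⊆ {G | t ≤ F G - m} := by
    intro G hG
    have hG' : 1 / 2 ≤ spY f G := hG
    have h1 : Real.log (1 / 2) ≤ Real.log (spY f G) := Real.log_le_log (by norm_num) hG'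
    have h2 : Real.log (spY f G) = F G - A := by
      unfold spY
      rw [Real.log_div (hZpos G).ne' (pow_pos hc M).ne', Real.log_pow]
    have h3 : Real.log (1 / 2) = -Real.log 2 := by
      rw [one_div, Real.log_inv]
    change t ≤ F G - m
    rw [ht]
    linarith
  have hle := (measureReal_mono hsub2 (by finiteness)).trans htail
  have hfin := hPZ.trans hle
  set S' := ∫ G, spY f G ^ 2 ∂(patternsLaw N M) with hS'
  have hS'pos : 0 < S' := by linarith
  have hSpos : 0 < S := by linarith
  have hMpos : (0 : ℝ) < M := by exact_mod_cast hM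
  have h5 : 1 / (4 * S) ≤ Real.exp (-t ^ 2 / (2 * (M * L ^ 2))) := by
    refine le_trans ?_ hfin
    exact one_div_le_one_div_of_le (by positivity) (by linarith)
  have h6 : Real.log (1 / (4 * S)) ≤ -t ^ 2 / (2 * (M * L ^ 2)) := by
    have := Real.log_le_log (by positivity) h5
    rwa [Real.log_exp] at this
  have h7 : Real.log (1 / (4 * S)) = -Real.log (4 * S) := by
    rw [one_div, Real.log_inv]
  rw [h7] at h6
  have hden : 0 < 2 * ((M : ℝ) * L ^ 2) := by positivity
  have h8 : t ^ 2 ≤ 2 * (M * L ^ 2) * Real.log (4 * S) := by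
    have h9 : t ^ 2 / (2 * ((M : ℝ) * L ^ 2)) ≤ Real.log (4 * S) := by
      have : -t ^ 2 / (2 * ((M : ℝ) * L ^ 2)) = -(t ^ 2 / (2 * ((M : ℝ) * L ^ 2))) := by ring
      rw [this] at h6
      linarith
    rw [div_le_iff₀ hden] at h9
    linarith
  have h10 : t ≤ L * Real.sqrt (2 * M * Real.log (4 * S)) := by
    have h11 : (L * Real.sqrt (2 * M * Real.log (4 * S))) =
        Real.sqrt (L ^ 2 * (2 * M * Real.log (4 * S))) := by
      rw [Real.sqrt_mul (sq_nonneg L) (2 * M * Real.log (4 * S)), Real.sqrt_sq hL.le]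
    rw [h11]
    refine Real.le_sqrt_of_sq_le ?_
    calc t ^ 2 ≤ _ := h8
      _ = _ := by ring
  linarith

/-- **The second moment criterion on the sphere.** If `α log m(ρ) ≤ -(1/2) log (1 - ρ²)` for all
`ρ` in `(-1, 1)`, then the expected sphere pressure has the annealed limit. -/
theorem sphere_annealed_of_secMoment {α : ℝ} (hα : 0 < α) (hf : Measurable f) {L : ℝ} (hL : 0 < L)
    (hfL : ∀ u, |f u| ≤ L)
    (hC : ∀ ρ : ℝ, -1 < ρ → ρ < 1 → α * Real.log (secMoment f ρ) ≤ -(1 / 2) * Real.log (1 - ρ ^ 2)) :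
    Tendsto (fun N : ℕ => sphereExpectedPressure N ⌊α * N⌋₊ f) atTop
      (𝓝 (α * Real.log (annealedConstant f))) := by
  set D : ℝ := α * (4 * L) with hD
  have hD0 : 0 ≤ D := by positivity
  set C0 : ℝ := 2 * (D + 3) * Real.exp (2 * D + 4) with hC0
  have hC0pos : 0 < C0 := by positivity
  set c1 : ℝ := Real.log (4 * C0) with hc1
  set L' : ℝ := Real.log 2 + L * (2 * |c1| + 1) + 2 * L with hL'
  have hlog2 : 0 < Real.log 2 := Real.log_pos (by norm_num)
  have hL'pos : 0 < L' := by positivity
  have herr := tendsto_error_div hα hL'pos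
  have h1 : Tendsto (fun N : ℕ => ((⌊α * N⌋₊ : ℕ) / N : ℝ)) atTop (𝓝 α) :=
    (tendsto_nat_floor_mul_div_atTop hα.le).comp tendsto_natCast_atTop_atTop
  have h2 := h1.mul_const (Real.log (annealedConstant f))
  have h3 := h2.sub herr
  rw [sub_zero] at h3
  refine tendsto_of_tendsto_of_tendsto_of_le_of_le' h3 h2 ?_ ?_
  · have hev : ∀ᶠ N : ℕ in atTop, 1 ≤ α * N := by
      have : Tendsto (fun N : ℕ => α * (N : ℝ)) atTop atTop :=
        tendsto_natCast_atTop_atTop.const_mul_atTop hα
      exact this.eventually_ge_atTop 1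
    filter_upwards [eventually_ge_atTop 2, hev] with N hN2 hαN
    obtain ⟨n, rfl⟩ : ∃ n, N = n + 1 := ⟨N - 1, by omega⟩
    have hn : 1 ≤ n := by omega
    have hNr : ((n + 1 : ℕ) : ℝ) = (n : ℝ) + 1 := by push_cast; ring
    have hNpos : (0 : ℝ) < ((n + 1 : ℕ) : ℝ) := by positivity
    set M := ⌊α * ((n + 1 : ℕ) : ℝ)⌋₊ with hMdef
    have hM1 : 1 ≤ M := Nat.le_floor (by simpa using hαN)
    have hMle : (M : ℝ) ≤ α * ((n + 1 : ℕ) : ℝ) := Nat.floor_le (by positivity)
    have hMpos : (0 : ℝ) < M := by exact_mod_cast hM1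
    -- second moment bound
    set S : ℝ := C0 * ((n : ℝ) + 2) ^ 2 with hS
    have hS2 : ∫ G, spY f G ^ 2 ∂(patternsLaw (n + 1) M) ≤ S := by
      rw [integral_spY_sq (by omega) hf hfL]
      have hb : ∀ u : Metric.sphere (0 : EucN (n + 1)) 1,
          ∫ v : Metric.sphere (0 : EucN (n + 1)) 1,
            secMoment f ((u : EucN (n + 1)).ofLp ⬝ᵥ (v : EucN (n + 1)).ofLp) ^ M ∂(sphereLaw (n + 1)) ≤ S :=
        fun u => integral_sec_pow_le n hn hα M hMle hf hL hfL hC _ (sphere_dot_self u)
      calc _ ≤ ∫ _u : Metric.sphere (0 : EucN (n + 1)) 1, S ∂(sphereLaw (n + 1)) := by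
            refine integral_mono_of_nonneg ?_ (integrable_const _) (Eventually.of_forall hb)
            refine Eventually.of_forall fun u => ?_
            refine integral_nonneg fun v => ?_
            exact pow_nonneg (lt_of_lt_of_le (Real.exp_pos _) (secMoment_bounds hf hfL _).1).le M
        _ = S := by simp
    have hgap := sphere_gap (N := n + 1) (M := M) (by omega) hM1 hf hL hfL hS2
    -- the error
    have hlogN : 0 ≤ Real.log (((n + 1 : ℕ) : ℝ) + 1) :=
      Real.log_nonneg (by
        have : (0 : ℝ) ≤ ((n + 1 : ℕ) : ℝ) := by positivity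
        linarith)
    have hNeq : ((n + 1 : ℕ) : ℝ) + 1 = (n : ℝ) + 2 := by rw [hNr]; ring
    set lg := Real.log (((n + 1 : ℕ) : ℝ) + 1) with hlg
    have hlog4S : Real.log (4 * S) = c1 + 2 * lg := by
      have h4 : 4 * S = (4 * C0) * ((n : ℝ) + 2) ^ 2 := by rw [hS]; ring
      rw [h4, Real.log_mul (by positivity) (by positivity), Real.log_pow, hlg, hNeq]
      push_cast
      ring
    have hx0 : 0 ≤ Real.log (4 * S) ∨ Real.log (4 * S) < 0 := le_or_gt _ _
    set sq := Real.sqrt (α * ((n + 1 : ℕ) : ℝ)) with hsq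
    have hsq0 : 0 ≤ sq := Real.sqrt_nonneg _
    have hroot : Real.sqrt (2 * M * Real.log (4 * S)) ≤ sq * (2 * |c1| + 1 + 4 * lg) := by
      rcases hx0 with hx | hx
      · have h5 : 2 * (M : ℝ) * Real.log (4 * S) ≤ (α * ((n + 1 : ℕ) : ℝ)) * (2 * Real.log (4 * S)) := by
          have := mul_le_mul_of_nonneg_right hMle (by positivity : 0 ≤ 2 * Real.log (4 * S))
          linarith
        calc Real.sqrt (2 * M * Real.log (4 * S))
            ≤ Real.sqrt ((α * ((n + 1 : ℕ) : ℝ)) * (2 * Real.log (4 * S))) := Real.sqrt_le_sqrt h5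
          _ = sq * Real.sqrt (2 * Real.log (4 * S)) := by
              rw [Real.sqrt_mul (by positivity)]
          _ ≤ sq * (2 * |c1| + 1 + 4 * lg) := by
              refine mul_le_mul_of_nonneg_left ?_ hsq0
              set y := 2 * Real.log (4 * S) with hy
              have hy0 : 0 ≤ y := by positivity
              have h6 : Real.sqrt y ≤ y + 1 := by
                rw [Real.sqrt_le_left (by positivity)]
                nlinarith
              have h7 : y = 2 * c1 + 4 * lg := by rw [hy, hlog4S]; ring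
              have h8 : c1 ≤ |c1| := le_abs_self _
              linarith
      · have h5 : 2 * (M : ℝ) * Real.log (4 * S) ≤ 0 :=
          mul_nonpos_of_nonneg_of_nonpos (by positivity) hx.le
        rw [Real.sqrt_eq_zero_of_nonpos h5]
        positivity
    have hmain : ((M : ℝ) / ((n + 1 : ℕ) : ℝ)) * Real.log (annealedConstant f) -
        (2 * L' + lg * (1 + 2 * L' * sq) + 2 * L' * sq / 2) / ((n + 1 : ℕ) : ℝ) ≤
        sphereExpectedPressure (n + 1) M f := by
      unfold sphereExpectedPressure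
      rw [div_mul_eq_mul_div, ← sub_div]
      refine div_le_div_of_nonneg_right ?_ hNpos.le
      have h9 : L * Real.sqrt (2 * M * Real.log (4 * S)) ≤ L * (sq * (2 * |c1| + 1 + 4 * lg)) :=
        mul_le_mul_of_nonneg_left hroot hL.le
      have h10 : Real.log 2 + L * (sq * (2 * |c1| + 1 + 4 * lg)) ≤
          2 * L' + lg * (1 + 2 * L' * sq) + 2 * L' * sq / 2 := by
        have h11 : L * (2 * |c1| + 1) ≤ L' := by
          rw [hL']
          linarith
        have h12 : 2 * L ≤ L' := by
          rw [hL']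
          have : 0 ≤ L * (2 * |c1| + 1) := by positivity
          linarith
        have h13 : Real.log 2 ≤ L' := by
          rw [hL']
          have : 0 ≤ L * (2 * |c1| + 1) := by positivity
          linarith
        have h14 : sq * (L * (2 * |c1| + 1)) ≤ sq * L' := mul_le_mul_of_nonneg_left h11 hsq0
        have h15 : lg * sq * (4 * L) ≤ lg * sq * (2 * L') :=
          mul_le_mul_of_nonneg_left (by linarith) (mul_nonneg hlogN hsq0)
        nlinarith
      linarith
    exact hmain
  · filter_upwards [eventually_ge_atTop 1] with N hN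
    exact sphereExpectedPressure_le hN hf hfL

end Vale.Agent.Lib.P157
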