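import Vale.Agent.Lib.P157.DefsCrit

/-!
The Gaussian perceptron on the sphere `S_N = {x : ‖x‖² = N}`: points are written `x = √N • u`
with `u` on the unit sphere of Euclidean space.
-/

open MeasureTheory ProbabilityTheory

namespace Vale.Agent.Lib.P157

/-- Euclidean `N`-space. -/
abbrev EucN (N : ℕ) := EuclideanSpace ℝ (Fin N)

/-- The normalized surface measure on the unit sphere of Euclidean `N`-space (the image of the
normalized surface measure of `S_N` under `x ↦ x / √N`). -/
noncomputable def sphereLaw (N : ℕ) : Measure (Metric.sphere (0 : EucN N) 1) :=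
  ((volume : Measure (EucN N)).toSphere Set.univ)⁻¹ • (volume : Measure (EucN N)).toSphere

/-- The normalized field `g · x / √N` at the point `x = √N • u` of `S_N`. -/
noncomputable def sphereField {N : ℕ} (u : Metric.sphere (0 : EucN N) 1) (g : Fin N → ℝ) : ℝ :=
  (∑ i, g i * (Real.sqrt N * (u : EucN N) i)) / Real.sqrt N

/-- The partition function `∫ exp (∑ a, f (g^a · x / √N)) dμ_N(x)` on the sphere. -/
noncomputable def spherePartitionFn {N M : ℕ} (f : ℝ → ℝ) (G : Fin M → Fin N → ℝ) : ℝ :=
  ∫ u, Real.exp (∑ a, f (sphereField u (G a))) ∂(sphereLaw N)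

/-- The expected pressure `E p_N(f) = E (1/N) log Z` on the sphere with `M` patterns. -/
noncomputable def sphereExpectedPressure (N M : ℕ) (f : ℝ → ℝ) : ℝ :=
  (∫ G, Real.log (spherePartitionFn f G) ∂(patternsLaw N M)) / N

/-- The second moment function `m(ρ) = E [U (G) (P_ρ U) (G)]` of the normalized weight `U`: the
correlation of `U` at two standard Gaussians with correlation `ρ`. -/
noncomputable def secMoment (f : ℝ → ℝ) (ρ : ℝ) : ℝ :=
  ∫ v, normPot f v * noiseAvg (normPot f) ρ v ∂(gaussianReal 0 1)

end Vale.Agent.Lib.P157
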