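import Vale.Agent.Lib.P157.SphereTail
import Vale.Agent.Lib.P157.AnnealedCrit

/-!
The second moment method on the sphere.
-/

open MeasureTheory ProbabilityTheory Matrix Filter Topology Complex
open scoped ENNReal NNReal

set_option linter.unusedSectionVars false

namespace Vale.Agent.Lib.P157

section Tail

/-- `√(1 + 1/n)^n ≤ 2`. -/
lemma sqrt_one_add_pow_le (n : ℕ) (hn : 1 ≤ n) : Real.sqrt (1 + 1 / (n : ℝ)) ^ n ≤ 2 := by
  have hn' : (0 : ℝ) < n := by exact_mod_cast hn
  have h1 : Real.sqrt (1 + 1 / (n : ℝ)) ≤ Real.exp (1 / (2 * n)) := by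
    rw [Real.sqrt_le_left (Real.exp_pos _).le, ← Real.exp_nat_mul]
    have := Real.add_one_le_exp (1 / (n : ℝ))
    calc 1 + 1 / (n : ℝ) ≤ Real.exp (1 / (n : ℝ)) := by linarith
      _ = _ := by
        congr 1
        push_cast
        field_simp
  calc _ ≤ Real.exp (1 / (2 * n)) ^ n := pow_le_pow_left₀ (Real.sqrt_nonneg _) h1 n
    _ = Real.exp (1 / 2) := by
        rw [← Real.exp_nat_mul]
        congr 1
        field_simp
    _ ≤ 2 := by
        have h2 : Real.exp (1 / 2) ^ 2 = Real.exp 1 := by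
          rw [← Real.exp_nat_mul]
          norm_num
        have h3 := Real.exp_one_lt_d9
        have h4 : Real.exp (1 / 2) ^ 2 < 2 ^ 2 := by
          rw [h2]
          linarith
        exact le_of_lt (lt_of_pow_lt_pow_left₀ 2 (by norm_num) h4)

/-- The Gaussian tail bound for the first coordinate of a uniform point of the sphere. -/
lemma sphere_tail_coord (n : ℕ) (hn : 1 ≤ n) {s : ℝ} (hs0 : 0 ≤ s) (hs1 : s < 1) :
    (sphereLaw (n + 1)).real {v | s ≤ ((v : EucN (n + 1)).ofLp 0) ^ 2} ≤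
      2 * Real.sqrt (n + 1) * Real.sqrt (1 - s) ^ n := by
  have hn' : (0 : ℝ) < n := by exact_mod_cast hn
  have hss : 0 < 1 - s := by linarith
  have hprobg : IsProbabilityMeasure (patternLaw (n + 1)) := by
    unfold patternLaw
    infer_instance
  set e0 : Fin (n + 1) → ℝ := Pi.single 0 1 with he0
  have he : e0 ⬝ᵥ e0 = 1 := by
    simp [he0]
  set A0 : Set (Fin (n + 1) → ℝ) := {w | s ≤ w 0 ^ 2} with hA0
  have hA0m : MeasurableSet A0 :=
    measurableSet_le measurable_const ((measurable_pi_apply 0).pow_const 2)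
  set h : (Fin (n + 1) → ℝ) → ℝ := A0.indicator 1 with hh
  have hhm : Measurable h := measurable_one.indicator hA0m
  have hhb : ∀ x, |h x| ≤ 1 := by
    intro x
    by_cases hx : x ∈ A0 <;> simp [hh, hx]
  have hrep := integral_sphere_eq_gauss e0 he h hhm hhb
  have hset : {v : Metric.sphere (0 : EucN (n + 1)) 1 | s ≤ ((v : EucN (n + 1)).ofLp 0) ^ 2} =
      (fun v : Metric.sphere (0 : EucN (n + 1)) 1 => (v : EucN (n + 1)).ofLp) ⁻¹' A0 := rfl
  have hmv : Measurable (fun v : Metric.sphere (0 : EucN (n + 1)) 1 => (v : EucN (n + 1)).ofLp) :=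
    measurable_pi_iff.mpr fun i => measurable_sphere_coord i
  have h1 : (sphereLaw (n + 1)).real {v | s ≤ ((v : EucN (n + 1)).ofLp 0) ^ 2} =
      ∫ v, h (v : EucN (n + 1)).ofLp ∂(sphereLaw (n + 1)) := by
    rw [hset, ← integral_indicator_one (hmv hA0m)]
    rfl
  set lam : ℝ := n / (2 * (n + 1) * (1 - s)) with hlam
  have hlam0 : 0 ≤ lam := by positivity
  have hlam1 : 2 * lam * (1 - s) = n / (n + 1) := by
    rw [hlam]
    field_simp
  have hlam2 : 2 * lam * (1 - s) < 1 := by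
    rw [hlam1, div_lt_one (by positivity)]
    linarith
  have hchern := gauss_chernoff n hs1 hs0 hlam0 hlam2
  have hptw : ∀ g : Fin (n + 1) → ℝ, h (nrm e0 g) ≤
      Real.exp (lam * (g 0 ^ 2 - s * ∑ i : Fin (n + 1), g i ^ 2)) := by
    intro g
    by_cases hx : nrm e0 g ∈ A0
    · simp only [hh, Set.indicator_of_mem hx, Pi.one_apply]
      refine Real.one_le_exp (mul_nonneg hlam0 ?_)
      by_cases hg : g = 0
      · simp [hg]
      · have hpos := dot_self_pos hg
        have hx' : s ≤ nrm e0 g 0 ^ 2 := hx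
        unfold nrm at hx'
        rw [if_neg hg] at hx'
        simp only [Pi.smul_apply, smul_eq_mul] at hx'
        rw [mul_pow, inv_pow, Real.sq_sqrt hpos.le, inv_mul_eq_div, le_div_iff₀ hpos] at hx'
        have hd : g ⬝ᵥ g = ∑ i, g i ^ 2 := by
          simp [dotProduct, sq]
        rw [hd] at hx'
        linarith
    · simp only [hh, Set.indicator_of_notMem hx]
      exact (Real.exp_pos _).le
  have hint : Integrable (fun g : Fin (n + 1) → ℝ =>
      Real.exp (lam * (g 0 ^ 2 - s * ∑ i : Fin (n + 1), g i ^ 2))) (patternLaw (n + 1)) := by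
    set t : Fin (n + 1) → ℝ := Fin.cons (lam * (1 - s)) (fun _ => -(lam * s)) with ht
    have hts : ∀ g : Fin (n + 1) → ℝ, Real.exp (lam * (g 0 ^ 2 - s * ∑ i : Fin (n + 1), g i ^ 2)) =
        ∏ i, Real.exp (t i * g i ^ 2) := by
      intro g
      rw [← Real.exp_sum]
      congr 1
      rw [Fin.sum_univ_succ, Fin.sum_univ_succ]
      simp only [ht, Fin.cons_zero, Fin.cons_succ]
      have h3 : ∑ x : Fin n, -(lam * s) * g x.succ ^ 2 = -(lam * s) * ∑ x : Fin n, g x.succ ^ 2 := by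
        rw [Finset.mul_sum]
      rw [h3]
      ring
    simp_rw [hts]
    have hlt : ∀ i, t i < 1 / 2 := by
      intro i
      refine Fin.cases ?_ (fun j => ?_) i
      · simp only [ht, Fin.cons_zero]
        linarith
      · simp only [ht, Fin.cons_succ]
        have : 0 ≤ lam * s := mul_nonneg hlam0 hs0
        linarith
    unfold patternLaw
    exact Integrable.fintype_prod (f := fun (i : Fin (n + 1)) (u : ℝ) => Real.exp (t i * u ^ 2))
      fun i => integrable_exp_mul_sq (hlt i)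
  have hb2 : ∫ g, h (nrm e0 g) ∂(patternLaw (n + 1)) ≤
      Real.sqrt (1 / (1 - 2 * (lam * (1 - s)))) * Real.sqrt (1 / (1 + 2 * lam * s)) ^ n := by
    rw [← hchern]
    refine integral_mono ?_ hint hptw
    exact Integrable.of_bound (hhm.comp (measurable_nrm e0)).aestronglyMeasurable 1
      (Eventually.of_forall fun g => by simpa using hhb _)
  rw [h1, hrep]
  refine hb2.trans ?_
  have hf1 : Real.sqrt (1 / (1 - 2 * (lam * (1 - s)))) = Real.sqrt (n + 1) := by
    congr 1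
    have : 2 * (lam * (1 - s)) = n / (n + 1) := by
      rw [← hlam1]
      ring
    rw [this]
    field_simp
    ring
  have hpos2 : 0 < 1 + 2 * lam * s := by
    have : 0 ≤ 2 * lam * s := by positivity
    linarith
  have hf2 : 1 / (1 + 2 * lam * s) ≤ (1 + 1 / (n : ℝ)) * (1 - s) := by
    rw [div_le_iff₀ hpos2]
    have hs : 2 * lam * s = n * s / ((n + 1) * (1 - s)) := by
      rw [hlam]
      field_simp
    rw [hs]
    have h5 : (1 + 1 / (n : ℝ)) * (1 - s) * (1 + n * s / ((n + 1) * (1 - s))) =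
        (1 + 1 / (n : ℝ)) * ((1 - s) + n * s / (n + 1)) := by
      field_simp
    rw [h5]
    have h6 : (1 - s) + n * s / (n + 1) = (n + 1 - s) / (n + 1) := by
      field_simp
      ring
    rw [h6]
    have h7 : (1 + 1 / (n : ℝ)) * ((n + 1 - s) / (n + 1)) = (n + 1 - s) / n := by
      field_simp
    rw [h7, le_div_iff₀ hn']
    linarith
  have hf3 : Real.sqrt (1 / (1 + 2 * lam * s)) ≤ Real.sqrt (1 + 1 / (n : ℝ)) * Real.sqrt (1 - s) := by
    rw [← Real.sqrt_mul (by positivity)]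
    exact Real.sqrt_le_sqrt hf2
  rw [hf1]
  have hcomm : 2 * Real.sqrt ((n : ℝ) + 1) * Real.sqrt (1 - s) ^ n =
      Real.sqrt ((n : ℝ) + 1) * (2 * Real.sqrt (1 - s) ^ n) := by ring
  rw [hcomm]
  refine mul_le_mul_of_nonneg_left ?_ (Real.sqrt_nonneg _)
  calc Real.sqrt (1 / (1 + 2 * lam * s)) ^ n
      ≤ (Real.sqrt (1 + 1 / (n : ℝ)) * Real.sqrt (1 - s)) ^ n :=
        pow_le_pow_left₀ (Real.sqrt_nonneg _) hf3 n
    _ = Real.sqrt (1 + 1 / (n : ℝ)) ^ n * Real.sqrt (1 - s) ^ n := mul_pow _ _ _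
    _ ≤ 2 * Real.sqrt (1 - s) ^ n :=
        mul_le_mul_of_nonneg_right (sqrt_one_add_pow_le n hn) (by positivity)

/-- The overlap of a uniform point with a fixed unit vector. -/
lemma sphere_tail (n : ℕ) (hn : 1 ≤ n) (c : Fin (n + 1) → ℝ) (hc : c ⬝ᵥ c = 1) {s : ℝ} (hs0 : 0 ≤ s)
    (hs1 : s < 1) :
    (sphereLaw (n + 1)).real {v | s ≤ (c ⬝ᵥ (v : EucN (n + 1)).ofLp) ^ 2} ≤
      2 * Real.sqrt (n + 1) * Real.sqrt (1 - s) ^ n := by
  set e0 : Fin (n + 1) → ℝ := Pi.single 0 1 with he0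
  have he : e0 ⬝ᵥ e0 = 1 := by
    simp [he0]
  obtain ⟨Q, hQ⟩ := exists_orth_tr_mulVec c e0 (by rw [hc, he])
  set φ := sphMap (isoOf Q).symm with hφ
  have hφv : ∀ v : Metric.sphere (0 : EucN (n + 1)) 1,
      ((φ v : Metric.sphere (0 : EucN (n + 1)) 1) : EucN (n + 1)).ofLp =
        Q.1ᵀ *ᵥ (v : EucN (n + 1)).ofLp := fun v => rfl
  have hA : {v : Metric.sphere (0 : EucN (n + 1)) 1 | s ≤ (c ⬝ᵥ (v : EucN (n + 1)).ofLp) ^ 2} =
      φ ⁻¹' {v | s ≤ ((v : EucN (n + 1)).ofLp 0) ^ 2} := by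
    ext v
    simp only [Set.mem_ofPred_eq, Set.mem_preimage]
    rw [hφv]
    have h1 : (Q.1ᵀ *ᵥ (v : EucN (n + 1)).ofLp) 0 = c ⬝ᵥ (v : EucN (n + 1)).ofLp := by
      rw [← dot_orth_tr Q c, hQ, he0, single_one_dotProduct]
    rw [h1]
  have hm0 : MeasurableSet {v : Metric.sphere (0 : EucN (n + 1)) 1 |
      s ≤ ((v : EucN (n + 1)).ofLp 0) ^ 2} :=
    measurableSet_le measurable_const ((measurable_sphere_coord 0).pow_const 2)
  have hφm : Measurable φ := (continuous_sphMap _).measurable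
  rw [hA, ← map_measureReal_apply hφm hm0, hφ, sphereLaw_map_sphMap]
  exact sphere_tail_coord n hn hs0 hs1

end Tail

section Pair

variable {N M : ℕ} {f : ℝ → ℝ}

/-- The joint law of two linear forms with unit coefficient vectors. -/
lemma sph_joint_law_unit (c d : Fin N → ℝ) (hc : c ⬝ᵥ c = 1) (hd : d ⬝ᵥ d = 1) :
    (patternLaw N).map (fun g => (g ⬝ᵥ c, g ⬝ᵥ d)) =
      ((gaussianReal 0 1).prod (gaussianReal 0 1)).map
        (fun p : ℝ × ℝ => (p.1, (c ⬝ᵥ d) * p.1 + Real.sqrt (1 - (c ⬝ᵥ d) ^ 2) * p.2)) := by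
  have hprobg : IsProbabilityMeasure (patternLaw N) := by
    unfold patternLaw
    infer_instance
  set ρ := c ⬝ᵥ d with hρ
  set σ := Real.sqrt (1 - ρ ^ 2) with hσ
  have hρ2 : ρ ^ 2 ≤ 1 := by
    have h1 : (∑ i, c i * d i) ^ 2 ≤ (∑ i, c i ^ 2) * ∑ i, d i ^ 2 :=
      Finset.sum_mul_sq_le_sq_mul_sq _ _ _
    have h2 : ∑ i, c i ^ 2 = 1 := by
      rw [← hc]
      simp [dotProduct, sq]
    have h3 : ∑ i, d i ^ 2 = 1 := by
      rw [← hd]
      simp [dotProduct, sq]
    rw [h2, h3] at h1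
    simpa [hρ, dotProduct] using h1
  have hσsq : σ ^ 2 = 1 - ρ ^ 2 := Real.sq_sqrt (by linarith)
  have hmc : ∀ e : Fin N → ℝ, Measurable (fun g : Fin N → ℝ => g ⬝ᵥ e) := by
    intro e
    simp only [dotProduct]
    exact Finset.measurable_sum _ fun i _ => (measurable_pi_apply i).mul_const _
  have hm1 : Measurable (fun g : Fin N → ℝ => (g ⬝ᵥ c, g ⬝ᵥ d)) := (hmc c).prodMk (hmc d)
  have hm2 : Measurable (fun p : ℝ × ℝ => (p.1, ρ * p.1 + σ * p.2)) := by fun_prop
  have : IsProbabilityMeasure ((patternLaw N).map (fun g => (g ⬝ᵥ c, g ⬝ᵥ d))) :=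
    Measure.isProbabilityMeasure_map hm1.aemeasurable
  have : IsProbabilityMeasure (((gaussianReal 0 1).prod (gaussianReal 0 1)).map
      (fun p : ℝ × ℝ => (p.1, ρ * p.1 + σ * p.2))) :=
    Measure.isProbabilityMeasure_map hm2.aemeasurable
  refine Measure.ext_of_charFunDual ?_
  funext L
  rw [charFunDual_apply, charFunDual_apply]
  have hcont : Continuous fun v : ℝ × ℝ => cexp ((L v : ℂ) * I) := by fun_prop
  rw [integral_map hm1.aemeasurable hcont.aestronglyMeasurable,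
    integral_map hm2.aemeasurable hcont.aestronglyMeasurable]
  set a := L (1, 0) with ha
  set b := L (0, 1) with hb
  have hL : ∀ u v : ℝ, L (u, v) = a * u + b * v := by
    intro u v
    have : ((u, v) : ℝ × ℝ) = u • ((1, 0) : ℝ × ℝ) + v • ((0, 1) : ℝ × ℝ) := by
      ext <;> simp
    rw [this, map_add, map_smul, map_smul]
    simp only [smul_eq_mul]
    ring
  have hleft : ∫ g, cexp ((L (g ⬝ᵥ c, g ⬝ᵥ d) : ℂ) * I) ∂(patternLaw N) =
      cexp (-(((a ^ 2 + b ^ 2 + 2 * a * b * ρ : ℝ) : ℂ) / 2)) := by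
    have h1 : ∀ g : Fin N → ℝ, L (g ⬝ᵥ c, g ⬝ᵥ d) = ∑ i, g i * (a * c i + b * d i) := by
      intro g
      rw [hL]
      simp only [dotProduct]
      rw [Finset.mul_sum, Finset.mul_sum, ← Finset.sum_add_distrib]
      refine Finset.sum_congr rfl fun i _ => by ring
    simp_rw [h1]
    rw [integral_cexp_linear]
    have h2 : ∑ i, (a * c i + b * d i) ^ 2 = a ^ 2 + b ^ 2 + 2 * a * b * ρ := by
      have h3 : ∑ i, c i * c i = 1 := hc
      have h4 : ∑ i, d i * d i = 1 := hd
      have h5 : ∀ i, (a * c i + b * d i) ^ 2 =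
          a ^ 2 * (c i * c i) + b ^ 2 * (d i * d i) + 2 * a * b * (c i * d i) := fun i => by ring
      simp_rw [h5]
      rw [Finset.sum_add_distrib, Finset.sum_add_distrib, ← Finset.mul_sum, ← Finset.mul_sum,
        ← Finset.mul_sum, h3, h4]
      simp [hρ, dotProduct]
    rw [h2]
  have hright : ∫ p : ℝ × ℝ, cexp ((L (p.1, ρ * p.1 + σ * p.2) : ℂ) * I)
      ∂((gaussianReal 0 1).prod (gaussianReal 0 1)) =
      cexp (-(((a ^ 2 + b ^ 2 + 2 * a * b * ρ : ℝ) : ℂ) / 2)) := by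
    have h1 : ∀ p : ℝ × ℝ, cexp ((L (p.1, ρ * p.1 + σ * p.2) : ℂ) * I) =
        cexp (((a + b * ρ : ℝ) : ℂ) * (p.1 : ℂ) * I) *
          cexp (((b * σ : ℝ) : ℂ) * (p.2 : ℂ) * I) := by
      intro p
      rw [← Complex.exp_add, hL]
      congr 1
      push_cast
      ring
    simp_rw [h1]
    rw [integral_prod_mul (L := ℂ) (fun u : ℝ => cexp (((a + b * ρ : ℝ) : ℂ) * (u : ℂ) * I))
      (fun w : ℝ => cexp (((b * σ : ℝ) : ℂ) * (w : ℂ) * I))]
    have h2 : ∀ e : ℝ, ∫ u : ℝ, cexp ((e : ℂ) * (u : ℂ) * I) ∂(gaussianReal 0 1) =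
        cexp (-((e : ℂ) ^ 2 / 2)) := by
      intro e
      have := charFun_gaussianReal (μ := 0) (v := 1) e
      rw [charFun_apply_real] at this
      rw [this]
      congr 1
      simp
    rw [h2, h2, ← Complex.exp_add]
    congr 1
    have h3 : ((σ : ℂ)) ^ 2 = 1 - (ρ : ℂ) ^ 2 := by
      have := congrArg (fun t : ℝ => (t : ℂ)) hσsq
      push_cast at this
      exact this
    push_cast
    have h4 : ((a : ℂ) + b * ρ) ^ 2 + (b * σ) ^ 2 = a ^ 2 + b ^ 2 + 2 * a * b * ρ := by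
      have : ((b : ℂ) * σ) ^ 2 = b ^ 2 * σ ^ 2 := by ring
      rw [this, h3]
      ring
    linear_combination (-1 / 2 : ℂ) * h4
  rw [hleft, hright]

lemma pair_integral (hf : Measurable f) {L : ℝ} (hfL : ∀ u, |f u| ≤ L) (c d : Fin N → ℝ)
    (hc : c ⬝ᵥ c = 1) (hd : d ⬝ᵥ d = 1) :
    ∫ g, normPot f (g ⬝ᵥ c) * normPot f (g ⬝ᵥ d) ∂(patternLaw N) = secMoment f (c ⬝ᵥ d) := by
  have hU := measurable_normPot hf
  have hUb := normPot_bounds hf hfL
  have hmc : ∀ e : Fin N → ℝ, Measurable (fun g : Fin N → ℝ => g ⬝ᵥ e) := by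
    intro e
    simp only [dotProduct]
    exact Finset.measurable_sum _ fun i _ => (measurable_pi_apply i).mul_const _
  have hm1 : Measurable (fun g : Fin N → ℝ => (g ⬝ᵥ c, g ⬝ᵥ d)) := (hmc c).prodMk (hmc d)
  set ρ := c ⬝ᵥ d with hρ
  set σ := Real.sqrt (1 - ρ ^ 2) with hσ
  have hm2 : Measurable (fun p : ℝ × ℝ => (p.1, ρ * p.1 + σ * p.2)) := by fun_prop
  have hF : Measurable (fun p : ℝ × ℝ => normPot f p.1 * normPot f p.2) :=
    (hU.comp measurable_fst).mul (hU.comp measurable_snd)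
  have h1 : ∫ g, normPot f (g ⬝ᵥ c) * normPot f (g ⬝ᵥ d) ∂(patternLaw N) =
      ∫ p, normPot f p.1 * normPot f p.2 ∂((patternLaw N).map (fun g => (g ⬝ᵥ c, g ⬝ᵥ d))) :=
    (integral_map hm1.aemeasurable hF.aestronglyMeasurable).symm
  rw [h1, sph_joint_law_unit c d hc hd, integral_map hm2.aemeasurable hF.aestronglyMeasurable]
  have hintp : Integrable (fun p : ℝ × ℝ => normPot f p.1 * normPot f (ρ * p.1 + σ * p.2))
      ((gaussianReal 0 1).prod (gaussianReal 0 1)) := by
    refine Integrable.of_bound (hF.comp hm2).aestronglyMeasurable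
      (Real.exp (2 * L) * Real.exp (2 * L)) (Eventually.of_forall fun p => ?_)
    have h3 := hUb p.1
    have h4 := hUb (ρ * p.1 + σ * p.2)
    have h5 : 0 < normPot f p.1 := lt_of_lt_of_le (Real.exp_pos _) h3.1
    have h6 : 0 < normPot f (ρ * p.1 + σ * p.2) := lt_of_lt_of_le (Real.exp_pos _) h4.1
    simp only [Real.norm_eq_abs]
    rw [abs_of_pos (mul_pos h5 h6)]
    exact mul_le_mul h3.2 h4.2 h6.le (Real.exp_pos _).le
  rw [integral_prod _ hintp]
  unfold secMoment noiseAvg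
  refine integral_congr_ae (Eventually.of_forall fun v => ?_)
  simp only
  rw [integral_const_mul]

lemma secMoment_bounds (hf : Measurable f) {L : ℝ} (hfL : ∀ u, |f u| ≤ L) (ρ : ℝ) :
    Real.exp (-(4 * L)) ≤ secMoment f ρ ∧ secMoment f ρ ≤ Real.exp (4 * L) := by
  have hU := measurable_normPot hf
  have hUb := normPot_bounds hf hfL
  have hN := fun v => noiseAvg_bounds hU hUb ρ v
  have hm : Measurable fun v => normPot f v * noiseAvg (normPot f) ρ v :=
    hU.mul (measurable_noiseAvg hU ρ)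
  have hint : Integrable (fun v => normPot f v * noiseAvg (normPot f) ρ v) (gaussianReal 0 1) := by
    refine Integrable.of_bound hm.aestronglyMeasurable
      (Real.exp (2 * L) * Real.exp (2 * L)) (Eventually.of_forall fun v => ?_)
    have h3 := hUb v
    have h4 := hN v
    have h5 : 0 < normPot f v := lt_of_lt_of_le (Real.exp_pos _) h3.1
    have h6 : 0 < noiseAvg (normPot f) ρ v := lt_of_lt_of_le (Real.exp_pos _) h4.1
    rw [Real.norm_eq_abs, abs_of_pos (mul_pos h5 h6)]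
    exact mul_le_mul h3.2 h4.2 h6.le (Real.exp_pos _).le
  have e1 : Real.exp (-(4 * L)) = Real.exp (-(2 * L)) * Real.exp (-(2 * L)) := by
    rw [← Real.exp_add]
    congr 1
    ring
  have e2 : Real.exp (4 * L) = Real.exp (2 * L) * Real.exp (2 * L) := by
    rw [← Real.exp_add]
    congr 1
    ring
  unfold secMoment
  constructor
  · calc Real.exp (-(4 * L)) = ∫ _v, Real.exp (-(4 * L)) ∂(gaussianReal 0 1) := by simp
      _ ≤ _ := by
        refine integral_mono (integrable_const _) hint fun v => ?_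
        simp only
        rw [e1]
        exact mul_le_mul (hUb v).1 (hN v).1 (Real.exp_pos _).le
          (lt_of_lt_of_le (Real.exp_pos _) (hUb v).1).le
  · calc _ ≤ ∫ _v, Real.exp (4 * L) ∂(gaussianReal 0 1) := by
          refine integral_mono hint (integrable_const _) fun v => ?_
          simp only
          rw [e2]
          exact mul_le_mul (hUb v).2 (hN v).2 (lt_of_lt_of_le (Real.exp_pos _) (hN v).1).le
            (Real.exp_pos _).le
      _ = _ := by simp

lemma measurable_secMoment (hf : Measurable f) : Measurable (secMoment f) := by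
  have hU := measurable_normPot hf
  have h1 : Measurable (fun p : ℝ × ℝ × ℝ => normPot f p.2.1 *
      normPot f (p.1 * p.2.1 + Real.sqrt (1 - p.1 ^ 2) * p.2.2)) := by
    refine (hU.comp (by fun_prop)).mul (hU.comp ?_)
    have hs : Measurable (fun p : ℝ × ℝ × ℝ => Real.sqrt (1 - p.1 ^ 2)) :=
      Measurable.sqrt (by fun_prop)
    exact (by fun_prop : Measurable fun p : ℝ × ℝ × ℝ => p.1 * p.2.1).add
      (hs.mul (by fun_prop))
  have h2 : Measurable (fun p : ℝ × ℝ => ∫ w, normPot f p.2 *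
      normPot f (p.1 * p.2 + Real.sqrt (1 - p.1 ^ 2) * w) ∂(gaussianReal 0 1)) := by
    have h3 : Measurable (fun q : (ℝ × ℝ) × ℝ => normPot f q.1.2 *
        normPot f (q.1.1 * q.1.2 + Real.sqrt (1 - q.1.1 ^ 2) * q.2)) :=
      h1.comp (by fun_prop : Measurable fun q : (ℝ × ℝ) × ℝ => (q.1.1, q.1.2, q.2))
    exact (h3.stronglyMeasurable.integral_prod_right' (ν := gaussianReal 0 1)).measurable
  have h4 : secMoment f = fun ρ => ∫ v, ∫ w, normPot f v *
      normPot f (ρ * v + Real.sqrt (1 - ρ ^ 2) * w) ∂(gaussianReal 0 1) ∂(gaussianReal 0 1) := by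
    funext ρ
    unfold secMoment noiseAvg
    refine integral_congr_ae (Eventually.of_forall fun v => ?_)
    simp only
    rw [integral_const_mul]
  rw [h4]
  exact (h2.stronglyMeasurable.integral_prod_right' (ν := gaussianReal 0 1)).measurable

end Pair

section Bound

variable {f : ℝ → ℝ}

lemma exp_neg_two_mul_le {x : ℝ} (hx0 : 0 ≤ x) (hx1 : x ≤ 1 / 2) : Real.exp (-(2 * x)) ≤ 1 - x := by
  have h1 := Real.add_one_le_exp (2 * x)
  have h2 : 1 ≤ (1 - x) * (2 * x + 1) := by nlinarith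
  have h3 : 1 ≤ (1 - x) * Real.exp (2 * x) :=
    h2.trans (mul_le_mul_of_nonneg_left h1 (by linarith))
  rw [Real.exp_neg, inv_le_iff_one_le_mul₀ (Real.exp_pos _)]
  linarith

set_option maxHeartbeats 1000000 in
/-- The second moment integral over the overlap with a fixed unit vector is polynomially bounded
under the second moment criterion. -/
lemma integral_sec_pow_le (n : ℕ) (hn : 1 ≤ n) {α : ℝ} (hα : 0 < α) (M : ℕ)
    (hM : (M : ℝ) ≤ α * (n + 1 : ℕ)) (hf : Measurable f) {L : ℝ} (hL : 0 < L)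
    (hfL : ∀ u, |f u| ≤ L)
    (hC : ∀ ρ : ℝ, -1 < ρ → ρ < 1 → α * Real.log (secMoment f ρ) ≤ -(1 / 2) * Real.log (1 - ρ ^ 2))
    (c : Fin (n + 1) → ℝ) (hc : c ⬝ᵥ c = 1) :
    ∫ v, secMoment f (c ⬝ᵥ (v : EucN (n + 1)).ofLp) ^ M ∂(sphereLaw (n + 1)) ≤
      2 * (α * (4 * L) + 3) * Real.exp (2 * (α * (4 * L)) + 4) * ((n : ℝ) + 2) ^ 2 := by
  have hn' : (1 : ℝ) ≤ n := by exact_mod_cast hn
  obtain ⟨N, hNdef⟩ : ∃ N : ℕ, N = n + 1 := ⟨_, rfl⟩
  have hNr : (N : ℝ) = n + 1 := by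
    rw [hNdef]
    push_cast
    ring
  have hN2 : (2 : ℝ) ≤ N := by
    rw [hNr]
    linarith
  have hN0 : (0 : ℝ) < N := by linarith
  set D : ℝ := α * (4 * L) with hD
  have hD0 : 0 ≤ D := by positivity
  set B : ℝ := Real.exp (4 * L) with hB
  set q : ℝ := 1 - 1 / (N : ℝ) with hq
  have h1N : 1 / (N : ℝ) ≤ 1 / 2 := by
    rw [div_le_div_iff₀ hN0 (by norm_num)]
    linarith
  have h1N0 : 0 < 1 / (N : ℝ) := by positivity
  have hq0 : 0 < q := by
    rw [hq]
    linarith
  have hq1 : q < 1 := by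
    rw [hq]
    linarith
  have hqU : q ≤ Real.exp (-(1 / (N : ℝ))) := Real.one_sub_le_exp_neg _
  have hqL : Real.exp (-(2 * (1 / (N : ℝ)))) ≤ q := exp_neg_two_mul_le h1N0.le h1N
  set ξ0 : ℝ := Real.exp (-D) with hξ0
  have hξ00 : 0 < ξ0 := Real.exp_pos _
  have hξ01 : ξ0 ≤ 1 := Real.exp_le_one_iff.mpr (by linarith)
  set K : ℕ := ⌈D * N⌉₊ + 1 with hK
  have hKlow : D * N ≤ K := by
    rw [hK]
    push_cast
    have := Nat.le_ceil (D * N)
    linarith
  have hKup : (K : ℝ) ≤ D * N + 2 := by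
    rw [hK]
    push_cast
    have := Nat.ceil_lt_add_one (a := D * N) (by positivity)
    linarith
  have hqK : q ^ K ≤ ξ0 := by
    calc q ^ K ≤ Real.exp (-(1 / (N : ℝ))) ^ K := pow_le_pow_left₀ hq0.le hqU K
      _ = Real.exp (-(K / (N : ℝ))) := by
          rw [← Real.exp_nat_mul]
          congr 1
          field_simp
      _ ≤ ξ0 := by
          refine Real.exp_le_exp.mpr ?_
          have : D ≤ K / (N : ℝ) := by
            rw [le_div_iff₀ hN0]
            exact hKlow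
          linarith
  -- the tail sets
  set A : ℝ → Set (Metric.sphere (0 : EucN (n + 1)) 1) :=
    fun y => {v | 1 - y ^ 2 ≤ (c ⬝ᵥ (v : EucN (n + 1)).ofLp) ^ 2} with hA
  have hcdot : ∀ v : Metric.sphere (0 : EucN (n + 1)) 1,
      Measurable fun _ : Unit => c ⬝ᵥ (v : EucN (n + 1)).ofLp := fun v => measurable_const
  have hmdot : Measurable fun v : Metric.sphere (0 : EucN (n + 1)) 1 =>
      c ⬝ᵥ (v : EucN (n + 1)).ofLp := by
    simp only [dotProduct]
    exact Finset.measurable_sum _ fun i _ => (measurable_sphere_coord i).const_mul _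
  have hAm : ∀ y, MeasurableSet (A y) := fun y =>
    measurableSet_le measurable_const (hmdot.pow_const 2)
  set t : ℝ := 2 * Real.sqrt ((n : ℝ) + 1) with ht
  have ht0 : 0 ≤ t := by positivity
  have hAtail : ∀ y : ℝ, 0 < y → y ≤ 1 → (sphereLaw (n + 1)).real (A y) ≤ t * y ^ n := by
    intro y hy0 hy1
    have hy2 : y ^ 2 ≤ 1 := pow_le_one₀ hy0.le hy1
    have h1 := sphere_tail n hn c hc (s := 1 - y ^ 2) (by linarith) (by nlinarith)
    have h2 : Real.sqrt (1 - (1 - y ^ 2)) = y := by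
      have : 1 - (1 - y ^ 2) = y ^ 2 := by ring
      rw [this, Real.sqrt_sq hy0.le]
    rw [h2] at h1
    exact h1
  -- pointwise bound
  set Φ : Metric.sphere (0 : EucN (n + 1)) 1 → ℝ := fun v =>
    (∑ k ∈ Finset.range K, ((q ^ (k + 1)) ^ N)⁻¹ * (A (q ^ k)).indicator 1 v) +
      B ^ M * (A ξ0).indicator 1 v with hΦ
  have hρ2 : ∀ v : Metric.sphere (0 : EucN (n + 1)) 1, (c ⬝ᵥ (v : EucN (n + 1)).ofLp) ^ 2 ≤ 1 := by
    intro v
    have h1 : (∑ i, c i * (v : EucN (n + 1)).ofLp i) ^ 2 ≤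
        (∑ i, c i ^ 2) * ∑ i, ((v : EucN (n + 1)).ofLp i) ^ 2 :=
      Finset.sum_mul_sq_le_sq_mul_sq _ _ _
    have h2 : ∑ i, c i ^ 2 = 1 := by
      rw [← hc]
      simp [dotProduct, sq]
    have h3 : ∑ i, ((v : EucN (n + 1)).ofLp i) ^ 2 = 1 := by
      have h4 := sphere_dot_self v
      simpa [dotProduct, sq] using h4
    rw [h2, h3] at h1
    simpa [dotProduct] using h1
  have hind0 : ∀ (S : Set (Metric.sphere (0 : EucN (n + 1)) 1)) v,
      0 ≤ S.indicator (1 : Metric.sphere (0 : EucN (n + 1)) 1 → ℝ) v := by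
    intro S v
    by_cases h : v ∈ S <;> simp [h]
  have hB0 : 0 < B := Real.exp_pos _
  have hsecb := secMoment_bounds hf hfL
  have hsecpos : ∀ ρ, 0 < secMoment f ρ := fun ρ => lt_of_lt_of_le (Real.exp_pos _) (hsecb ρ).1
  have hptw : ∀ v : Metric.sphere (0 : EucN (n + 1)) 1, secMoment f (c ⬝ᵥ (v : EucN (n + 1)).ofLp) ^ M ≤ Φ v := by
    intro v
    set ρ := c ⬝ᵥ (v : EucN (n + 1)).ofLp with hρ
    have hsum0 : 0 ≤ ∑ k ∈ Finset.range K, ((q ^ (k + 1)) ^ N)⁻¹ * (A (q ^ k)).indicator 1 v :=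
      Finset.sum_nonneg fun k _ => mul_nonneg (by positivity) (hind0 _ _)
    by_cases hv : v ∈ A ξ0
    · have h1 : (A ξ0).indicator (1 : Metric.sphere (0 : EucN (n + 1)) 1 → ℝ) v = 1 := by
        simp [hv]
      simp only [hΦ, h1, mul_one]
      have h2 : secMoment f ρ ^ M ≤ B ^ M :=
        pow_le_pow_left₀ (hsecpos ρ).le (hsecb ρ).2 M
      linarith
    · have hv' : (c ⬝ᵥ (v : EucN (n + 1)).ofLp) ^ 2 < 1 - ξ0 ^ 2 := not_le.mp hv
      have hξ2 : ξ0 ^ 2 < 1 - ρ ^ 2 := by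
        rw [← hρ] at hv'
        linarith
      set ξ := Real.sqrt (1 - ρ ^ 2) with hξ
      have hτ0 : 0 < 1 - ρ ^ 2 := lt_trans (by positivity) hξ2
      have hξ0lt : ξ0 < ξ := by
        rw [hξ]
        exact Real.lt_sqrt_of_sq_lt hξ2
      have hξpos : 0 < ξ := lt_trans hξ00 hξ0lt
      have hξ1 : ξ ≤ 1 := by
        rw [hξ]
        refine Real.sqrt_le_one.mpr ?_ 
        nlinarith [sq_nonneg ρ]
      have hξsq : ξ ^ 2 = 1 - ρ ^ 2 := Real.sq_sqrt hτ0.le
      -- the criterion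
      have hρ1 : ρ ^ 2 < 1 := by linarith
      have hρabs : |ρ| < 1 := by
        rw [← sq_lt_one_iff_abs_lt_one]
        exact hρ1
      have hcrit := hC ρ (abs_lt.mp hρabs).1 (abs_lt.mp hρabs).2
      have hlogξ : Real.log (1 - ρ ^ 2) = 2 * Real.log ξ := by
        rw [← hξsq, Real.log_pow]
        norm_num
      have hlogξ0 : Real.log ξ ≤ 0 := Real.log_nonpos hξpos.le hξ1
      rw [hlogξ] at hcrit
      have hcrit2 : α * Real.log (secMoment f ρ) ≤ -Real.log ξ := by linarith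
      have hM2 : (M : ℝ) * Real.log (secMoment f ρ) ≤ N * (-Real.log ξ) := by
        by_cases hlog : Real.log (secMoment f ρ) ≤ 0
        · have h3 : (M : ℝ) * Real.log (secMoment f ρ) ≤ 0 :=
            mul_nonpos_of_nonneg_of_nonpos (by positivity) hlog
          have h4 : 0 ≤ (N : ℝ) * (-Real.log ξ) := mul_nonneg hN0.le (by linarith)
          linarith
        · have hlog' : 0 < Real.log (secMoment f ρ) := not_le.mp hlog
          calc (M : ℝ) * Real.log (secMoment f ρ)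
              ≤ (α * N) * Real.log (secMoment f ρ) :=
                mul_le_mul_of_nonneg_right (by rw [hNdef]; exact hM) hlog'.le
            _ = N * (α * Real.log (secMoment f ρ)) := by ring
            _ ≤ _ := mul_le_mul_of_nonneg_left hcrit2 hN0.le
      have hpow : secMoment f ρ ^ M ≤ (ξ ^ N)⁻¹ := by
        have h5 : secMoment f ρ ^ M = Real.exp (M * Real.log (secMoment f ρ)) := by
          rw [Real.exp_nat_mul, Real.exp_log (hsecpos ρ)]
        have h6 : (ξ ^ N)⁻¹ = Real.exp (N * (-Real.log ξ)) := by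
          rw [Real.exp_nat_mul, Real.exp_neg, Real.exp_log hξpos, inv_pow]
        rw [h5, h6]
        exact Real.exp_le_exp.mpr hM2
      -- the cell of ξ
      obtain ⟨k, hk1, hk2⟩ : ∃ k : ℕ, q ^ (k + 1) < ξ ∧ ξ ≤ q ^ k := by
        by_cases hξeq : ξ = 1
        · refine ⟨0, ?_, ?_⟩
          · rw [hξeq]
            simpa using hq1
          · rw [hξeq]
            simp
        · exact exists_nat_pow_near_of_lt_one hξpos hξ1 hq0 hq1
      have hkK : k < K := by
        have h7 : q ^ K < q ^ k := lt_of_le_of_lt hqK (lt_of_lt_of_le hξ0lt hk2)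
        exact (pow_lt_pow_iff_right_of_lt_one₀ hq0 hq1).mp h7
      have hvk : v ∈ A (q ^ k) := by
        change 1 - (q ^ k) ^ 2 ≤ (c ⬝ᵥ (v : EucN (n + 1)).ofLp) ^ 2
        rw [← hρ]
        have h8 : ξ ^ 2 ≤ (q ^ k) ^ 2 := pow_le_pow_left₀ hξpos.le hk2 2
        linarith
      have h9 : (ξ ^ N)⁻¹ ≤ ((q ^ (k + 1)) ^ N)⁻¹ := by
        refine inv_anti₀ (by positivity) (pow_le_pow_left₀ (by positivity) hk1.le N)
      have h10 : ((q ^ (k + 1)) ^ N)⁻¹ * (A (q ^ k)).indicator 1 v ≤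
          ∑ j ∈ Finset.range K, ((q ^ (j + 1)) ^ N)⁻¹ * (A (q ^ j)).indicator 1 v :=
        Finset.single_le_sum (f := fun j => ((q ^ (j + 1)) ^ N)⁻¹ * (A (q ^ j)).indicator 1 v)
          (fun j _ => mul_nonneg (by positivity) (hind0 _ _)) (Finset.mem_range.mpr hkK)
      have h11 : (A (q ^ k)).indicator (1 : Metric.sphere (0 : EucN (n + 1)) 1 → ℝ) v = 1 := by
        simp [hvk]
      rw [h11, mul_one] at h10
      have h12 : 0 ≤ B ^ M * (A ξ0).indicator 1 v := mul_nonneg (by positivity) (hind0 _ _)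
      simp only [hΦ]
      linarith
  -- integrate
  have hmsec : Measurable fun v : Metric.sphere (0 : EucN (n + 1)) 1 =>
      secMoment f (c ⬝ᵥ (v : EucN (n + 1)).ofLp) ^ M :=
    ((measurable_secMoment hf).comp hmdot).pow_const M
  have hintsec : Integrable (fun v : Metric.sphere (0 : EucN (n + 1)) 1 =>
      secMoment f (c ⬝ᵥ (v : EucN (n + 1)).ofLp) ^ M) (sphereLaw (n + 1)) := by
    refine Integrable.of_bound hmsec.aestronglyMeasurable (B ^ M) (Eventually.of_forall fun v => ?_)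
    rw [Real.norm_eq_abs, abs_of_nonneg (pow_nonneg (hsecpos _).le M)]
    exact pow_le_pow_left₀ (hsecpos _).le (hsecb _).2 M
  have hintind : ∀ y, Integrable ((A y).indicator (1 : Metric.sphere (0 : EucN (n + 1)) 1 → ℝ))
      (sphereLaw (n + 1)) := fun y => (integrable_const (1 : ℝ)).indicator (hAm y)
  have hintΦ : ∫ v, Φ v ∂(sphereLaw (n + 1)) =
      (∑ k ∈ Finset.range K, ((q ^ (k + 1)) ^ N)⁻¹ * (sphereLaw (n + 1)).real (A (q ^ k))) +
        B ^ M * (sphereLaw (n + 1)).real (A ξ0) := by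
    simp only [hΦ]
    rw [integral_add, integral_finsetSum, integral_const_mul]
    · congr 1
      · refine Finset.sum_congr rfl fun k _ => ?_
        rw [integral_const_mul, integral_indicator_one (hAm _)]
      · rw [integral_indicator_one (hAm _)]
    · exact fun k _ => (hintind _).const_mul _
    · exact integrable_finset_sum _ fun k _ => (hintind _).const_mul _
    · exact (hintind _).const_mul _
  have hintΦ' : Integrable Φ (sphereLaw (n + 1)) :=
    (integrable_finset_sum _ fun k _ => (hintind _).const_mul _).add ((hintind _).const_mul _)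
  have hmain : ∫ v, secMoment f (c ⬝ᵥ (v : EucN (n + 1)).ofLp) ^ M ∂(sphereLaw (n + 1)) ≤
      (∑ k ∈ Finset.range K, ((q ^ (k + 1)) ^ N)⁻¹ * (sphereLaw (n + 1)).real (A (q ^ k))) +
        B ^ M * (sphereLaw (n + 1)).real (A ξ0) := by
    rw [← hintΦ]
    exact integral_mono hintsec hintΦ' hptw
  refine hmain.trans ?_
  -- the terms
  have hqpow : ∀ j : ℕ, j ≤ K + N → (q ^ j)⁻¹ ≤ Real.exp (2 * D + 4) := by
    intro j hj
    have h1 : Real.exp (-(2 * (1 / (N : ℝ)))) ^ j ≤ q ^ j :=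
      pow_le_pow_left₀ (Real.exp_pos _).le hqL j
    have h2 : Real.exp (-(2 * (1 / (N : ℝ)))) ^ j = Real.exp (-(2 * j / (N : ℝ))) := by
      rw [← Real.exp_nat_mul]
      congr 1
      field_simp
    rw [h2] at h1
    calc (q ^ j)⁻¹ ≤ (Real.exp (-(2 * j / (N : ℝ))))⁻¹ := inv_anti₀ (Real.exp_pos _) h1
      _ = Real.exp (2 * j / (N : ℝ)) := by rw [← Real.exp_neg]; congr 1; ring
      _ ≤ _ := by
          refine Real.exp_le_exp.mpr ?_
          have h3 : (j : ℝ) ≤ K + N := by exact_mod_cast hj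
          rw [div_le_iff₀ hN0]
          have h4 : (K : ℝ) + N ≤ D * N + 2 + N := by linarith
          nlinarith
  have hterm : ∀ k ∈ Finset.range K, ((q ^ (k + 1)) ^ N)⁻¹ * (sphereLaw (n + 1)).real (A (q ^ k)) ≤
      t * Real.exp (2 * D + 4) := by
    intro k hk
    have hk' : k < K := Finset.mem_range.mp hk
    have h0 : 0 < q ^ k := by positivity
    have h1 := hAtail (q ^ k) h0 (pow_le_one₀ hq0.le hq1.le)
    have h2 : (q ^ (k + 1)) ^ N = q ^ (k + n + 1) * (q ^ k) ^ n := by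
      rw [← pow_mul, ← pow_mul, ← pow_add]
      congr 1
      rw [hNdef]
      ring
    calc ((q ^ (k + 1)) ^ N)⁻¹ * (sphereLaw (n + 1)).real (A (q ^ k))
        ≤ ((q ^ (k + 1)) ^ N)⁻¹ * (t * (q ^ k) ^ n) :=
          mul_le_mul_of_nonneg_left h1 (by positivity)
      _ = t * (q ^ (k + n + 1))⁻¹ := by
          rw [h2]
          field_simp
      _ ≤ t * Real.exp (2 * D + 4) :=
          mul_le_mul_of_nonneg_left (hqpow _ (by omega)) ht0
  have hsum : (∑ k ∈ Finset.range K, ((q ^ (k + 1)) ^ N)⁻¹ * (sphereLaw (n + 1)).real (A (q ^ k))) ≤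
      K * (t * Real.exp (2 * D + 4)) := by
    calc _ ≤ ∑ _k ∈ Finset.range K, t * Real.exp (2 * D + 4) := Finset.sum_le_sum hterm
      _ = _ := by simp
  have hlast : B ^ M * (sphereLaw (n + 1)).real (A ξ0) ≤ t * Real.exp D := by
    have h1 := hAtail ξ0 hξ00 hξ01
    have h2 : B ^ M ≤ Real.exp (D * N) := by
      rw [hB, ← Real.exp_nat_mul]
      refine Real.exp_le_exp.mpr ?_
      have hM' : (M : ℝ) ≤ α * N := by rw [hNdef]; exact hM
      calc (M : ℝ) * (4 * L) ≤ (α * N) * (4 * L) := mul_le_mul_of_nonneg_right hM' (by positivity)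
        _ = D * N := by rw [hD]; ring
    have h3 : ξ0 ^ n = Real.exp (-(D * n)) := by
      rw [hξ0, ← Real.exp_nat_mul]
      congr 1
      ring
    calc B ^ M * (sphereLaw (n + 1)).real (A ξ0)
        ≤ Real.exp (D * N) * (t * ξ0 ^ n) :=
          mul_le_mul h2 h1 measureReal_nonneg (Real.exp_pos _).le
      _ = t * (Real.exp (D * N) * Real.exp (-(D * n))) := by rw [h3]; ring
      _ = t * Real.exp D := by
          rw [← Real.exp_add]
          congr 2
          rw [hNr]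
          ring
  have hexp : Real.exp D ≤ Real.exp (2 * D + 4) := Real.exp_le_exp.mpr (by linarith)
  have hsqrt : Real.sqrt ((n : ℝ) + 1) ≤ (n : ℝ) + 2 := by
    rw [Real.sqrt_le_left (by positivity)]
    have h2 : ((n : ℝ) + 2) ^ 2 = (n : ℝ) ^ 2 + 4 * n + 4 := by ring
    rw [h2]
    have h3 : 0 ≤ (n : ℝ) ^ 2 := sq_nonneg _
    linarith
  have hKb : (K : ℝ) + 1 ≤ (D + 3) * ((n : ℝ) + 2) := by
    have h1 : (K : ℝ) ≤ D * ((n : ℝ) + 1) + 2 := by rw [← hNr]; exact hKup
    have h2 : (D + 3) * ((n : ℝ) + 2) = D * ((n : ℝ) + 1) + D + 3 * n + 6 := by ring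
    rw [h2]
    linarith
  have hE0 : 0 < Real.exp (2 * D + 4) := Real.exp_pos _
  calc _ ≤ (K : ℝ) * (t * Real.exp (2 * D + 4)) + t * Real.exp (2 * D + 4) := by
        have := mul_le_mul_of_nonneg_left hexp ht0
        linarith
    _ = ((K : ℝ) + 1) * (t * Real.exp (2 * D + 4)) := by ring
    _ ≤ ((D + 3) * ((n : ℝ) + 2)) * ((2 * ((n : ℝ) + 2)) * Real.exp (2 * D + 4)) := by
        refine mul_le_mul hKb ?_ (by positivity) (by positivity)
        refine mul_le_mul_of_nonneg_right ?_ hE0.le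
        rw [ht]
        linarith
    _ = _ := by ring

end Bound

end Vale.Agent.Lib.P157
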