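import Vale.Agent.Lib.P157.SphereDefs
import Vale.Agent.Lib.P157.Cube

/-!
Rotations: the orthogonal group with its Haar measure, its action on the sphere and on Gaussian
patterns, and the formula `∫ h (Oᵀ c) dO = ∫ h dν` for a unit vector `c`.
-/

open MeasureTheory ProbabilityTheory Matrix
open scoped ENNReal NNReal Pointwise

set_option linter.unusedSectionVars false

namespace Vale.Agent.Lib.P157

/-- The orthogonal group `O(N)`. -/
abbrev OrthG (N : ℕ) := Matrix.orthogonalGroup (Fin N) ℝ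

/-- The Borel sigma-algebra on `O(N)`. -/
noncomputable instance (N : ℕ) : MeasurableSpace (OrthG N) := borel _

instance (N : ℕ) : BorelSpace (OrthG N) := ⟨rfl⟩

/-- `O(N)` is compact: it is closed and its entries are bounded by `1`. -/
instance (N : ℕ) : CompactSpace (OrthG N) := by
  have hclosed : IsClosed {A : Matrix (Fin N) (Fin N) ℝ | star A * A = 1} :=
    isClosed_eq (continuous_star.mul continuous_id) continuous_const
  have hsub : {A : Matrix (Fin N) (Fin N) ℝ | star A * A = 1} ⊆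
      Set.pi Set.univ (fun _ => Set.pi Set.univ (fun _ => Set.Icc (-1 : ℝ) 1)) := by
    intro A hA i _ j _
    have h1 : (star A * A) j j = 1 := by
      rw [Set.mem_ofPred_eq.mp hA]
      simp
    have h2 : ∑ k, A k j * A k j = 1 := by
      rw [← h1]
      simp [Matrix.mul_apply, Matrix.star_eq_conjTranspose]
    have h3 : A i j * A i j ≤ ∑ k, A k j * A k j :=
      Finset.single_le_sum (f := fun k => A k j * A k j) (fun k _ => mul_self_nonneg _)
        (Finset.mem_univ i)
    rw [h2] at h3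
    constructor <;> nlinarith
  have hcomp : IsCompact {A : Matrix (Fin N) (Fin N) ℝ | star A * A = 1} := by
    refine IsCompact.of_isClosed_subset ?_ hclosed hsub
    exact isCompact_univ_pi (fun _ => isCompact_univ_pi (fun _ => isCompact_Icc))
  have hset : (Matrix.orthogonalGroup (Fin N) ℝ : Set (Matrix (Fin N) (Fin N) ℝ)) =
      {A : Matrix (Fin N) (Fin N) ℝ | star A * A = 1} := by
    ext A
    simp only [SetLike.mem_coe, Set.mem_ofPred_eq]
    exact Matrix.mem_unitaryGroup_iff'
  have : IsCompact (Matrix.orthogonalGroup (Fin N) ℝ : Set (Matrix (Fin N) (Fin N) ℝ)) := by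
    rw [hset]
    exact hcomp
  exact isCompact_iff_compactSpace.mp this

/-- Normalized Haar measure on `O(N)`. -/
noncomputable def haarG (N : ℕ) : Measure (OrthG N) := Measure.haarMeasure ⊤

variable {N : ℕ}

instance : IsProbabilityMeasure (haarG N) := by
  constructor
  have h := Measure.haarMeasure_self (G := OrthG N) (K₀ := ⊤)
  simpa [haarG] using h

instance : (haarG N).IsMulLeftInvariant := by
  unfold haarG
  infer_instance

lemma orth_tr_mul (O : OrthG N) : O.1ᵀ * O.1 = 1 := by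
  have h := (Matrix.mem_unitaryGroup_iff'.mp O.2)
  simpa [Matrix.star_eq_conjTranspose] using h

lemma orth_mul_tr (O : OrthG N) : O.1 * O.1ᵀ = 1 := by
  have h := (Matrix.mem_unitaryGroup_iff.mp O.2)
  simpa [Matrix.star_eq_conjTranspose] using h

lemma dot_orth (O : OrthG N) (y : Fin N → ℝ) : (O.1 *ᵥ y) ⬝ᵥ (O.1 *ᵥ y) = y ⬝ᵥ y := by
  rw [Matrix.dotProduct_mulVec, ← Matrix.mulVec_transpose, Matrix.mulVec_mulVec, orth_tr_mul,
    Matrix.one_mulVec]

/-- The linear isometry of an orthogonal matrix. -/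
noncomputable def isoOf (O : OrthG N) : EucN N ≃ₗᵢ[ℝ] EucN N where
  toFun y := WithLp.toLp 2 (O.1 *ᵥ y.ofLp)
  invFun y := WithLp.toLp 2 (O.1ᵀ *ᵥ y.ofLp)
  map_add' x y := by
    ext i
    simp [Matrix.mulVec_add]
  map_smul' c y := by
    ext i
    simp [Matrix.mulVec_smul]
  left_inv y := by
    ext i
    simp [Matrix.mulVec_mulVec, orth_tr_mul]
  right_inv y := by
    ext i
    simp [Matrix.mulVec_mulVec, orth_mul_tr]
  norm_map' y := by
    have h := dot_orth O y.ofLp
    simp only [dotProduct] at h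
    change ‖(WithLp.toLp 2 (O.1 *ᵥ y.ofLp) : EucN N)‖ = ‖y‖
    rw [EuclideanSpace.norm_eq, EuclideanSpace.norm_eq]
    congr 1
    simpa [sq] using h

lemma isoOf_apply (O : OrthG N) (y : EucN N) (i : Fin N) :
    (isoOf O y) i = (O.1 *ᵥ y.ofLp) i := rfl

/-- The map of the unit sphere induced by a linear isometry. -/
noncomputable def sphMap (R : EucN N ≃ₗᵢ[ℝ] EucN N) (u : Metric.sphere (0 : EucN N) 1) :
    Metric.sphere (0 : EucN N) 1 :=
  ⟨R u, by simpa using u.2⟩

lemma continuous_sphMap (R : EucN N ≃ₗᵢ[ℝ] EucN N) : Continuous (sphMap R) := by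
  unfold sphMap
  exact Continuous.subtype_mk (R.continuous.comp continuous_subtype_val) _

lemma toSphere_map_sphMap (R : EucN N ≃ₗᵢ[ℝ] EucN N) :
    ((volume : Measure (EucN N)).toSphere).map (sphMap R) = (volume : Measure (EucN N)).toSphere := by
  ext s hs
  rw [Measure.map_apply (continuous_sphMap R).measurable hs,
    Measure.toSphere_apply' _ ((continuous_sphMap R).measurable hs), Measure.toSphere_apply' _ hs]
  congr 1
  have hset : Set.Ioo (0 : ℝ) 1 • ((↑) '' (sphMap R ⁻¹' s) : Set (EucN N)) =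
      R ⁻¹' (Set.Ioo (0 : ℝ) 1 • ((↑) '' s : Set (EucN N))) := by
    ext x
    simp only [Set.mem_smul, Set.mem_image, Set.mem_preimage]
    constructor
    · rintro ⟨t, ht, _, ⟨u, hu, rfl⟩, rfl⟩
      refine ⟨t, ht, _, ⟨sphMap R u, hu, rfl⟩, ?_⟩
      simp [sphMap]
    · rintro ⟨t, ht, _, ⟨w, hw, rfl⟩, hx⟩
      refine ⟨t, ht, R.symm w, ⟨⟨R.symm w, by simpa using w.2⟩, ?_, rfl⟩, ?_⟩
      · have : sphMap R ⟨R.symm w, by simpa using w.2⟩ = w := by
          apply Subtype.ext
          simp [sphMap]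
        rw [this]
        exact hw
      · apply R.injective
        simp [hx]
  rw [hset]
  have hmp : MeasurePreserving (R.toHomeomorph.toMeasurableEquiv) (volume : Measure (EucN N)) volume :=
    R.measurePreserving
  exact hmp.measure_preimage_equiv _

lemma sphereLaw_map_sphMap (R : EucN N ≃ₗᵢ[ℝ] EucN N) :
    (sphereLaw N).map (sphMap R) = sphereLaw N := by
  unfold sphereLaw
  rw [Measure.map_smul, toSphere_map_sphMap]

instance sphereLaw_prob [NeZero N] : IsProbabilityMeasure (sphereLaw N) := by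
  constructor
  have : Nontrivial (EucN N) := Module.nontrivial_of_finrank_pos (R := ℝ)
    (by simpa using Nat.pos_of_ne_zero (NeZero.ne N))
  have h0 : (volume : Measure (EucN N)).toSphere Set.univ ≠ 0 := by
    rw [Measure.toSphere_apply_univ]
    simp only [ne_eq, mul_eq_zero, not_or]
    refine ⟨?_, ?_⟩
    · simpa using NeZero.ne N
    · exact (Metric.measure_ball_pos volume (0 : EucN N) one_pos).ne'
  have h1 : (volume : Measure (EucN N)).toSphere Set.univ ≠ ⊤ := measure_ne_top _ _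
  rw [sphereLaw, Measure.smul_apply, smul_eq_mul, ENNReal.inv_mul_cancel h0 h1]


/-- The Householder reflection: two vectors of the same length are related by a rotation. -/
lemma exists_orth_tr_mulVec (c y : Fin N → ℝ) (h : c ⬝ᵥ c = y ⬝ᵥ y) :
    ∃ Q : OrthG N, Q.1ᵀ *ᵥ c = y := by
  by_cases hcy : c = y
  · refine ⟨1, ?_⟩
    simp [hcy]
  set v : Fin N → ℝ := c - y with hv
  have hv0 : v ≠ 0 := fun h0 => hcy (sub_eq_zero.mp h0)
  have hvv : 0 < v ⬝ᵥ v := by
    have hne : v ⬝ᵥ v ≠ 0 := fun h0 => hv0 (dotProduct_self_eq_zero.mp h0)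
    have hnn : 0 ≤ v ⬝ᵥ v := by
      simp only [dotProduct]
      exact Finset.sum_nonneg fun i _ => mul_self_nonneg _
    exact lt_of_le_of_ne hnn (Ne.symm hne)
  set t : ℝ := 2 / (v ⬝ᵥ v) with ht
  have hvc : v ⬝ᵥ v = 2 * (v ⬝ᵥ c) := by
    simp only [hv, sub_dotProduct, dotProduct_sub]
    rw [dotProduct_comm y c, ← h]
    ring
  set A : Matrix (Fin N) (Fin N) ℝ := 1 - t • vecMulVec v v with hA
  have hAt : Aᵀ = A := by
    simp [hA, Matrix.transpose_sub, Matrix.transpose_smul, Matrix.transpose_vecMulVec]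
  have hPP : vecMulVec v v * vecMulVec v v = (v ⬝ᵥ v) • vecMulVec v v := by
    ext i j
    simp only [Matrix.mul_apply, vecMulVec_apply, Matrix.smul_apply, smul_eq_mul, dotProduct]
    rw [Finset.sum_mul]
    have : ∀ k, v i * v k * (v k * v j) = v k * v k * (v i * v j) := fun k => by ring
    simp_rw [this]
  have hAA : A * A = 1 := by
    rw [hA, sub_mul, mul_sub, mul_sub, Matrix.one_mul, Matrix.mul_one, Matrix.one_mul,
      Matrix.smul_mul, Matrix.mul_smul, hPP, smul_smul]
    have h2 : t * t * (v ⬝ᵥ v) = 2 * t := by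
      rw [ht]
      field_simp
    rw [smul_smul, h2, two_mul, add_smul]
    abel
  have hmem : A ∈ Matrix.orthogonalGroup (Fin N) ℝ := by
    rw [Matrix.mem_unitaryGroup_iff]
    have : star A = Aᵀ := by
      simp [Matrix.star_eq_conjTranspose]
    rw [this, hAt, hAA]
  refine ⟨⟨A, hmem⟩, ?_⟩
  change Aᵀ *ᵥ c = y
  rw [hAt]
  ext i
  have h1 : (A *ᵥ c) i = c i - t * (v i * (v ⬝ᵥ c)) := by
    simp only [hA, Matrix.sub_mulVec, Matrix.one_mulVec, Pi.sub_apply, Matrix.smul_mulVec]
    simp only [Pi.smul_apply, smul_eq_mul, Matrix.mulVec, dotProduct, vecMulVec_apply]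
    congr 2
    rw [Finset.mul_sum]
    exact Finset.sum_congr rfl fun k _ => by ring
  rw [h1]
  have h2 : t * (v ⬝ᵥ c) = 1 := by
    rw [ht, hvc]
    have hne : v ⬝ᵥ c ≠ 0 := by
      intro h0
      rw [hvc, h0] at hvv
      simp at hvv
    field_simp
  have h3 : t * (v i * (v ⬝ᵥ c)) = v i := by
    calc t * (v i * (v ⬝ᵥ c)) = (t * (v ⬝ᵥ c)) * v i := by ring
      _ = v i := by rw [h2, one_mul]
  rw [h3]
  simp [hv]

lemma integral_haar_tr (h : (Fin N → ℝ) → ℝ) (Q : OrthG N) (c : Fin N → ℝ) :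
    ∫ O : OrthG N, h (O.1ᵀ *ᵥ (Q.1ᵀ *ᵥ c)) ∂(haarG N) = ∫ O : OrthG N, h (O.1ᵀ *ᵥ c) ∂(haarG N) := by
  have := integral_mul_left_eq_self (μ := haarG N) (fun O : OrthG N => h (O.1ᵀ *ᵥ c)) Q
  simpa [Matrix.transpose_mul, Matrix.mulVec_mulVec] using this

lemma ofLp_dot_self (u : EucN N) : u.ofLp ⬝ᵥ u.ofLp = ‖u‖ ^ 2 := by
  rw [EuclideanSpace.real_norm_sq_eq]
  simp [dotProduct, sq]

lemma sphere_dot_self (u : Metric.sphere (0 : EucN N) 1) :
    (u : EucN N).ofLp ⬝ᵥ (u : EucN N).ofLp = 1 := by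
  rw [ofLp_dot_self]
  have : ‖(u : EucN N)‖ = 1 := by simpa using u.2
  rw [this]
  norm_num

lemma measurable_tr_mulVec_sphere :
    Measurable (fun p : Metric.sphere (0 : EucN N) 1 × OrthG N =>
      p.2.1ᵀ *ᵥ (p.1 : EucN N).ofLp) := by
  refine measurable_pi_iff.mpr fun i => ?_
  simp only [Matrix.mulVec, dotProduct, Matrix.transpose_apply]
  refine Finset.measurable_sum _ fun j _ => ?_
  refine Measurable.mul ?_ ?_
  · exact (continuous_subtype_val.matrix_elem j i).measurable.comp measurable_snd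
  · have : Continuous fun u : Metric.sphere (0 : EucN N) 1 => (u : EucN N) j := by
      fun_prop
    exact this.measurable.comp measurable_fst

/-- Averaging a function of a rotated unit vector over the Haar measure gives its average over the
sphere. -/
lemma integral_haar_eq_sphere [NeZero N] (h : (Fin N → ℝ) → ℝ) (hm : Measurable h) {C : ℝ}
    (hb : ∀ x, |h x| ≤ C) (c : Fin N → ℝ) (hc : c ⬝ᵥ c = 1) :
    ∫ O : OrthG N, h (O.1ᵀ *ᵥ c) ∂(haarG N) = ∫ u, h (u : EucN N).ofLp ∂(sphereLaw N) := by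
  set T := ∫ O : OrthG N, h (O.1ᵀ *ᵥ c) ∂(haarG N) with hT
  have h1 : ∀ u : Metric.sphere (0 : EucN N) 1,
      ∫ O : OrthG N, h (O.1ᵀ *ᵥ (u : EucN N).ofLp) ∂(haarG N) = T := by
    intro u
    obtain ⟨Q, hQ⟩ := exists_orth_tr_mulVec c (u : EucN N).ofLp (by rw [hc, sphere_dot_self])
    rw [← hQ]
    exact integral_haar_tr h Q c
  have hmeas : Measurable (fun p : Metric.sphere (0 : EucN N) 1 × OrthG N =>
      h (p.2.1ᵀ *ᵥ (p.1 : EucN N).ofLp)) := hm.comp measurable_tr_mulVec_sphere
  have hint : Integrable (Function.uncurry fun (u : Metric.sphere (0 : EucN N) 1) (O : OrthG N) =>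
      h (O.1ᵀ *ᵥ (u : EucN N).ofLp)) ((sphereLaw N).prod (haarG N)) := by
    refine Integrable.of_bound hmeas.aestronglyMeasurable C (Filter.Eventually.of_forall fun p => ?_)
    simpa [Function.uncurry] using hb _
  have h2 : T = ∫ u : Metric.sphere (0 : EucN N) 1, ∫ O : OrthG N,
      h (O.1ᵀ *ᵥ (u : EucN N).ofLp) ∂(haarG N) ∂(sphereLaw N) := by
    simp_rw [h1]
    simp
  rw [h2, integral_integral_swap hint]
  have hmu : Measurable fun u : Metric.sphere (0 : EucN N) 1 => h (u : EucN N).ofLp := by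
    refine hm.comp ?_
    refine measurable_pi_iff.mpr fun i => ?_
    have : Continuous fun u : Metric.sphere (0 : EucN N) 1 => (u : EucN N) i := by
      fun_prop
    exact this.measurable
  have h3 : ∀ O : OrthG N, ∫ u : Metric.sphere (0 : EucN N) 1, h (O.1ᵀ *ᵥ (u : EucN N).ofLp) ∂(sphereLaw N) =
      ∫ u, h (u : EucN N).ofLp ∂(sphereLaw N) := by
    intro O
    have hmap := sphereLaw_map_sphMap (isoOf O).symm
    conv_rhs => rw [← hmap]
    rw [integral_map (continuous_sphMap _).measurable.aemeasurable hmu.aestronglyMeasurable]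
    rfl
  simp_rw [h3]
  simp

lemma measurable_mulVec_orth (O : OrthG N) : Measurable (fun g : Fin N → ℝ => O.1 *ᵥ g) := by
  refine measurable_pi_iff.mpr fun i => ?_
  simp only [Matrix.mulVec, dotProduct]
  exact Finset.measurable_sum _ fun j _ => (measurable_pi_apply j).const_mul _

/-- Gaussian patterns are invariant under rotations. -/
lemma patternLaw_rot (O : OrthG N) :
    MeasurePreserving (fun g : Fin N → ℝ => O.1 *ᵥ g) (patternLaw N) (patternLaw N) := by
  refine ⟨measurable_mulVec_orth O, ?_⟩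
  have hto : Measurable (WithLp.toLp 2 : (Fin N → ℝ) → EucN N) := by
    exact (PiLp.continuous_toLp 2 _).measurable
  have hof : Measurable (WithLp.ofLp : EucN N → (Fin N → ℝ)) := by
    exact (PiLp.continuous_ofLp 2 _).measurable
  have h0 : (patternLaw N).map (WithLp.toLp 2) = stdGaussian (EucN N) := by
    unfold patternLaw
    exact map_pi_eq_stdGaussian
  have h1 : (stdGaussian (EucN N)).map (isoOf O) = stdGaussian (EucN N) := stdGaussian_map (isoOf O)
  have h2 : (fun g : Fin N → ℝ => O.1 *ᵥ g) =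
      (WithLp.ofLp : EucN N → (Fin N → ℝ)) ∘ (isoOf O) ∘ (WithLp.toLp 2) := rfl
  have h3 : (patternLaw N) = ((patternLaw N).map (WithLp.toLp 2)).map WithLp.ofLp := by
    rw [Measure.map_map hof hto]
    have : (WithLp.ofLp : EucN N → (Fin N → ℝ)) ∘ (WithLp.toLp 2) = id := rfl
    rw [this, Measure.map_id]
  rw [h2, ← Measure.map_map hof ((isoOf O).continuous.measurable.comp hto),
    ← Measure.map_map (isoOf O).continuous.measurable hto, h0, h1, ← h0, ← h3]

lemma patternsLaw_rot {M : ℕ} (O : OrthG N) :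
    MeasurePreserving (fun (G : Fin M → Fin N → ℝ) a => O.1 *ᵥ G a)
      (patternsLaw N M) (patternsLaw N M) :=
  measurePreserving_pi _ _ fun _ => patternLaw_rot O

end Vale.Agent.Lib.P157
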