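import Vale.Agent.Lib.P157.SphereTransfer

/-!
The tail of the overlap of a uniform point of the sphere with a fixed unit vector, through the
Gaussian representation of the uniform law.
-/

open MeasureTheory ProbabilityTheory Matrix Filter Topology
open scoped ENNReal NNReal

set_option linter.unusedSectionVars false

namespace Vale.Agent.Lib.P157

variable {N : ℕ}

lemma sphPdf_eq (t : ℝ) : gaussianPDFReal 0 1 t = (Real.sqrt (2 * Real.pi))⁻¹ * Real.exp (-(1 / 2) * t ^ 2) := by
  have h : gaussianPDFReal 0 1 t = (Real.sqrt (2 * Real.pi))⁻¹ * Real.exp (-(t ^ 2) / 2) := by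
    simp [gaussianPDFReal]
  rw [h]
  congr 2
  ring

lemma integrable_exp_mul_sq {t : ℝ} (ht : t < 1 / 2) :
    Integrable (fun u : ℝ => Real.exp (t * u ^ 2)) (gaussianReal 0 1) := by
  have hm := measurable_gaussianPDF 0 (1 : NNReal)
  rw [gaussianReal_of_var_ne_zero 0 (one_ne_zero),
    integrable_withDensity_iff_integrable_smul' hm (Filter.Eventually.of_forall
      (fun _ => gaussianPDF_lt_top))]
  have h2 : Integrable (fun u : ℝ => (Real.sqrt (2 * Real.pi))⁻¹ * Real.exp (-(1 / 2 - t) * u ^ 2)) :=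
    (integrable_exp_neg_mul_sq (by linarith : (0 : ℝ) < 1 / 2 - t)).const_mul _
  refine h2.congr (Filter.Eventually.of_forall fun u => ?_)
  simp only [smul_eq_mul]
  rw [gaussianPDF_def]
  simp only [ENNReal.toReal_ofReal (gaussianPDFReal_nonneg 0 1 u)]
  rw [sphPdf_eq, mul_assoc, ← Real.exp_add]
  congr 2
  ring

lemma integral_exp_mul_sq {t : ℝ} (ht : t < 1 / 2) :
    ∫ u : ℝ, Real.exp (t * u ^ 2) ∂(gaussianReal 0 1) = Real.sqrt (1 / (1 - 2 * t)) := by
  rw [integral_gaussianReal_eq_integral_smul one_ne_zero]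
  have h1 : ∀ u : ℝ, gaussianPDFReal 0 1 u • Real.exp (t * u ^ 2) =
      (Real.sqrt (2 * Real.pi))⁻¹ * Real.exp (-(1 / 2 - t) * u ^ 2) := by
    intro u
    rw [sphPdf_eq, smul_eq_mul, mul_assoc, ← Real.exp_add]
    congr 2
    ring
  simp_rw [h1]
  rw [integral_const_mul, integral_gaussian]
  have hpi := Real.pi_pos
  have ht' : 0 < 1 - 2 * t := by linarith
  have h2 : Real.pi / (1 / 2 - t) = (2 * Real.pi) * (1 / (1 - 2 * t)) := by
    field_simp
  rw [h2, Real.sqrt_mul (by positivity : (0:ℝ) ≤ 2 * Real.pi), ← mul_assoc,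
    inv_mul_cancel₀ (by positivity), one_mul]

/-- The normalized vector, with a fixed value at the origin. -/
noncomputable def nrm (e g : Fin N → ℝ) : Fin N → ℝ :=
  if g = 0 then e else (Real.sqrt (g ⬝ᵥ g))⁻¹ • g

lemma dot_self_pos {g : Fin N → ℝ} (hg : g ≠ 0) : 0 < g ⬝ᵥ g := by
  have hne : g ⬝ᵥ g ≠ 0 := fun h0 => hg (dotProduct_self_eq_zero.mp h0)
  have hnn : 0 ≤ g ⬝ᵥ g := by
    simp only [dotProduct]
    exact Finset.sum_nonneg fun i _ => mul_self_nonneg _
  exact lt_of_le_of_ne hnn (Ne.symm hne)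

lemma nrm_dot (e g : Fin N → ℝ) (he : e ⬝ᵥ e = 1) : nrm e g ⬝ᵥ nrm e g = 1 := by
  unfold nrm
  split_ifs with hg
  · exact he
  · have h := dot_self_pos hg
    rw [smul_dotProduct, dotProduct_smul, smul_eq_mul, smul_eq_mul, ← mul_assoc, ← mul_inv,
      Real.mul_self_sqrt h.le, inv_mul_cancel₀ h.ne']

lemma measurable_nrm (e : Fin N → ℝ) : Measurable (nrm e) := by
  unfold nrm
  refine Measurable.ite (measurableSet_singleton (0 : Fin N → ℝ)) measurable_const ?_
  refine measurable_pi_iff.mpr fun i => ?_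
  simp only [Pi.smul_apply, smul_eq_mul, dotProduct]
  refine Measurable.mul ?_ (measurable_pi_apply i)
  refine Measurable.inv (Measurable.sqrt ?_)
  exact Finset.measurable_sum _ fun j _ => (measurable_pi_apply j).mul (measurable_pi_apply j)

/-- The transpose of an orthogonal matrix. -/
noncomputable def trO (O : OrthG N) : OrthG N :=
  ⟨O.1ᵀ, by
    rw [Matrix.mem_unitaryGroup_iff]
    have : star O.1ᵀ = O.1 := by
      simp [Matrix.star_eq_conjTranspose]
    rw [this, orth_tr_mul]⟩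

lemma dot_orth_tr (O : OrthG N) (c d : Fin N → ℝ) : (O.1ᵀ *ᵥ c) ⬝ᵥ (O.1ᵀ *ᵥ d) = c ⬝ᵥ d := by
  rw [Matrix.dotProduct_mulVec, Matrix.vecMul_transpose, Matrix.mulVec_mulVec, orth_mul_tr,
    Matrix.one_mulVec]

lemma nrm_rot (e g : Fin N → ℝ) (hg : g ≠ 0) (O : OrthG N) :
    nrm e (O.1ᵀ *ᵥ g) = O.1ᵀ *ᵥ nrm e g := by
  have hg' : O.1ᵀ *ᵥ g ≠ 0 := by
    intro h0
    have h1 := congrArg (fun w => O.1 *ᵥ w) h0
    simp only [Matrix.mulVec_mulVec, orth_mul_tr, Matrix.one_mulVec, Matrix.mulVec_zero] at h1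
    exact hg h1
  unfold nrm
  rw [if_neg hg, if_neg hg', dot_orth_tr, Matrix.mulVec_smul]

lemma patternLaw_rot_tr (O : OrthG N) :
    MeasurePreserving (fun g : Fin N → ℝ => O.1ᵀ *ᵥ g) (patternLaw N) (patternLaw N) :=
  patternLaw_rot (trO O)

/-- The uniform law of the sphere is the law of a normalized Gaussian vector. -/
lemma integral_sphere_eq_gauss [NeZero N] (e : Fin N → ℝ) (he : e ⬝ᵥ e = 1)
    (h : (Fin N → ℝ) → ℝ) (hm : Measurable h) {C : ℝ} (hb : ∀ x, |h x| ≤ C) :
    ∫ u, h (u : EucN N).ofLp ∂(sphereLaw N) = ∫ g, h (nrm e g) ∂(patternLaw N) := by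
  have hprobg : IsProbabilityMeasure (patternLaw N) := by
    unfold patternLaw
    infer_instance
  have hmh : Measurable fun g => h (nrm e g) := hm.comp (measurable_nrm e)
  have step1 : ∀ O : OrthG N, ∫ g, h (nrm e (O.1ᵀ *ᵥ g)) ∂(patternLaw N) =
      ∫ g, h (nrm e g) ∂(patternLaw N) := by
    intro O
    have hmp := patternLaw_rot_tr O
    conv_rhs => rw [← hmp.map_eq]
    rw [integral_map hmp.measurable.aemeasurable hmh.aestronglyMeasurable]
  have hnull : ∀ᵐ g ∂(patternLaw N), g ≠ (0 : Fin N → ℝ) := by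
    have hns : NullSingletonClass (patternLaw N) := by
      unfold patternLaw
      have : NullSingletonClass (gaussianReal 0 1) := nullSingletonClass_gaussianReal one_ne_zero
      exact Measure.pi_nullSingletonClass (0 : Fin N)
    have h0 : (patternLaw N) {(0 : Fin N → ℝ)} = 0 := measure_singleton _
    exact compl_mem_ae_iff.mpr h0
  have step2 : ∀ᵐ g ∂(patternLaw N), ∫ O : OrthG N, h (nrm e (O.1ᵀ *ᵥ g)) ∂(haarG N) =
      ∫ u, h (u : EucN N).ofLp ∂(sphereLaw N) := by
    filter_upwards [hnull] with g hg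
    simp_rw [nrm_rot e g hg]
    exact integral_haar_eq_sphere h hm hb (nrm e g) (nrm_dot e g he)
  have hmjoint : Measurable (fun p : (Fin N → ℝ) × OrthG N => h (nrm e (p.2.1ᵀ *ᵥ p.1))) := by
    refine hmh.comp ?_
    refine measurable_pi_iff.mpr fun i => ?_
    simp only [Matrix.mulVec, dotProduct, Matrix.transpose_apply]
    refine Finset.measurable_sum _ fun j _ => Measurable.mul ?_ ?_
    · exact (continuous_subtype_val.matrix_elem j i).measurable.comp measurable_snd
    · exact (measurable_pi_apply j).comp measurable_fst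
  have hintJ : Integrable (Function.uncurry fun (g : Fin N → ℝ) (O : OrthG N) =>
      h (nrm e (O.1ᵀ *ᵥ g))) ((patternLaw N).prod (haarG N)) := by
    refine Integrable.of_bound hmjoint.aestronglyMeasurable C (Eventually.of_forall fun p => ?_)
    simpa [Function.uncurry] using hb _
  calc ∫ u, h (u : EucN N).ofLp ∂(sphereLaw N)
      = ∫ g, ∫ O : OrthG N, h (nrm e (O.1ᵀ *ᵥ g)) ∂(haarG N) ∂(patternLaw N) := by
        rw [integral_congr_ae step2]
        simp
    _ = ∫ O : OrthG N, ∫ g, h (nrm e (O.1ᵀ *ᵥ g)) ∂(patternLaw N) ∂(haarG N) :=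
        integral_integral_swap hintJ
    _ = ∫ g, h (nrm e g) ∂(patternLaw N) := by
        simp_rw [step1]
        simp

/-- The Chernoff bound for the first coordinate of a normalized Gaussian vector. -/
lemma gauss_chernoff (n : ℕ) {s lam : ℝ} (hs1 : s < 1) (hs0 : 0 ≤ s) (hlam : 0 ≤ lam)
    (hlam2 : 2 * lam * (1 - s) < 1) :
    ∫ g, Real.exp (lam * (g 0 ^ 2 - s * ∑ i : Fin (n + 1), g i ^ 2)) ∂(patternLaw (n + 1)) =
      Real.sqrt (1 / (1 - 2 * (lam * (1 - s)))) * Real.sqrt (1 / (1 + 2 * lam * s)) ^ n := by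
  set t : Fin (n + 1) → ℝ := Fin.cons (lam * (1 - s)) (fun _ => -(lam * s)) with ht
  have hts : ∀ g : Fin (n + 1) → ℝ, lam * (g 0 ^ 2 - s * ∑ i : Fin (n + 1), g i ^ 2) =
      ∑ i, t i * g i ^ 2 := by
    intro g
    rw [Fin.sum_univ_succ, Fin.sum_univ_succ]
    simp only [ht, Fin.cons_zero, Fin.cons_succ]
    have h3 : ∑ x : Fin n, -(lam * s) * g x.succ ^ 2 = -(lam * s) * ∑ x : Fin n, g x.succ ^ 2 := by
      rw [Finset.mul_sum]
    rw [h3]
    ring
  have hlt : ∀ i, t i < 1 / 2 := by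
    intro i
    refine Fin.cases ?_ (fun j => ?_) i
    · simp only [ht, Fin.cons_zero]
      linarith
    · simp only [ht, Fin.cons_succ]
      have : 0 ≤ lam * s := mul_nonneg hlam hs0
      linarith
  simp_rw [hts, Real.exp_sum]
  unfold patternLaw
  rw [integral_fintype_prod_eq_prod (𝕜 := ℝ) (fun (i : Fin (n + 1)) (u : ℝ) => Real.exp (t i * u ^ 2))]
  simp_rw [fun i => integral_exp_mul_sq (hlt i)]
  rw [Fin.prod_univ_succ]
  simp only [ht, Fin.cons_zero, Fin.cons_succ]
  simp only [Finset.prod_const, Finset.card_univ, Fintype.card_fin]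
  congr 3
  ring

end Vale.Agent.Lib.P157
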