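import Vale.Agent.Lib.P157.SphereAnneal

/-!
A quadratic test of the sum of the patterns improves the annealed bound on the sphere as soon as the
potential has a nonzero first Hermite coefficient.
-/

open MeasureTheory ProbabilityTheory Matrix Filter Topology
open scoped ENNReal NNReal

set_option linter.unusedSectionVars false

namespace Vale.Agent.Lib.P157

variable {N M : ℕ} {f : ℝ → ℝ}

/-- The transposition of a Gaussian pattern matrix is again a Gaussian pattern matrix. -/
lemma patternsLaw_transpose (N M : ℕ) :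
    MeasurePreserving (fun (G : Fin M → Fin N → ℝ) (i : Fin N) (a : Fin M) => G a i)
      (patternsLaw N M) (patternsLaw M N) := by
  have hm : Measurable (fun (G : Fin M → Fin N → ℝ) (i : Fin N) (a : Fin M) => G a i) := by
    refine measurable_pi_iff.mpr fun i => measurable_pi_iff.mpr fun a => ?_
    exact (measurable_pi_apply i).comp (measurable_pi_apply a)
  refine ⟨hm, ?_⟩
  unfold patternsLaw patternLaw
  symm
  refine Measure.pi_eq_generateFrom
    (C := fun _ => Set.pi Set.univ '' Set.pi Set.univ fun _ => {s | MeasurableSet s})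
    (fun _ => generateFrom_pi) (fun _ => isPiSystem_pi)
    (fun _ => Measure.FiniteSpanningSetsIn.pi fun _ => (gaussianReal 0 1).toFiniteSpanningSetsIn) ?_
  intro s hs
  choose t ht hst using hs
  have hms : MeasurableSet (Set.pi Set.univ s) := by
    refine MeasurableSet.univ_pi fun i => ?_
    rw [← hst i]
    exact MeasurableSet.univ_pi fun a => ht i a (Set.mem_univ a)
  rw [Measure.map_apply hm hms]
  have hset : (fun (G : Fin M → Fin N → ℝ) (i : Fin N) (a : Fin M) => G a i) ⁻¹' (Set.pi Set.univ s) =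
      Set.pi Set.univ fun a => Set.pi Set.univ fun i => t i a := by
    ext G
    simp only [Set.mem_preimage, Set.mem_pi, Set.mem_univ, forall_true_left, ← hst]
    constructor
    · intro h a i
      exact h i a
    · intro h i a
      exact h a i
  rw [hset, Measure.pi_pi]
  simp_rw [Measure.pi_pi, ← hst, Measure.pi_pi]
  exact Finset.prod_comm

/-- The projection of a Gaussian vector on a unit vector is standard Gaussian. -/
lemma map_dot_unit {n : ℕ} [NeZero n] (v : Fin n → ℝ) (hv : v ⬝ᵥ v = 1) :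
    MeasurePreserving (fun g : Fin n → ℝ => g ⬝ᵥ v) (patternLaw n) (gaussianReal 0 1) := by
  have he : (Pi.single 0 1 : Fin n → ℝ) ⬝ᵥ (Pi.single 0 1 : Fin n → ℝ) = 1 := by simp
  obtain ⟨Q, hQ⟩ := exists_orth_tr_mulVec (Pi.single 0 1 : Fin n → ℝ) v (by rw [he, hv])
  have h1 : (fun g : Fin n → ℝ => g ⬝ᵥ v) = (Function.eval 0) ∘ (fun g : Fin n → ℝ => Q.1 *ᵥ g) := by
    funext g
    simp only [Function.comp, Function.eval]
    rw [← hQ, Matrix.mulVec_transpose, dotProduct_comm, ← Matrix.dotProduct_mulVec]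
    simp [single_dotProduct]
  rw [h1]
  have hprob : ∀ i : Fin n, IsProbabilityMeasure ((fun _ => gaussianReal 0 1 : Fin n → Measure ℝ) i) :=
    fun _ => inferInstance
  exact (measurePreserving_eval (fun _ => gaussianReal 0 1 : Fin n → Measure ℝ) 0).comp (patternLaw_rot Q)

/-- The normalized sum of a Gaussian vector is standard Gaussian. -/
lemma map_sum_div (hM : 1 ≤ M) :
    MeasurePreserving (fun c : Fin M → ℝ => (∑ a, c a) / Real.sqrt M) (patternLaw M)
      (gaussianReal 0 1) := by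
  have : NeZero M := ⟨by omega⟩
  have hM' : (0 : ℝ) < M := by exact_mod_cast hM
  have hs : 0 < Real.sqrt M := Real.sqrt_pos.mpr hM'
  have hv : (fun _ : Fin M => (Real.sqrt M)⁻¹) ⬝ᵥ (fun _ : Fin M => (Real.sqrt M)⁻¹) = 1 := by
    simp only [dotProduct, Finset.sum_const, Finset.card_univ, Fintype.card_fin, nsmul_eq_mul]
    rw [← sq, inv_pow, Real.sq_sqrt hM'.le]
    field_simp
  have h := map_dot_unit (fun _ : Fin M => (Real.sqrt M)⁻¹) hv
  have h1 : (fun c : Fin M → ℝ => (∑ a, c a) / Real.sqrt M) =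
      fun c => c ⬝ᵥ (fun _ : Fin M => (Real.sqrt M)⁻¹) := by
    funext c
    simp only [dotProduct, div_eq_mul_inv, Finset.sum_mul]
  rw [h1]
  exact h

/-- The normalized sum of a column of the pattern matrix is standard Gaussian. -/
lemma map_col_sum (hM : 1 ≤ M) (i : Fin N) :
    MeasurePreserving (fun G : Fin M → Fin N → ℝ => (∑ a, G a i) / Real.sqrt M) (patternsLaw N M)
      (gaussianReal 0 1) := by
  have h1 : MeasurePreserving (fun H : Fin N → Fin M → ℝ => H i) (patternsLaw M N) (patternLaw M) := by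
    unfold patternsLaw patternLaw
    exact measurePreserving_eval _ i
  exact (map_sum_div hM).comp (h1.comp (patternsLaw_transpose N M))

/-- The sum of the squared column sums of the pattern matrix. -/
noncomputable def sumQ (G : Fin M → Fin N → ℝ) : ℝ := ∑ i, (∑ a, G a i) ^ 2

lemma measurable_sumQ : Measurable (sumQ : (Fin M → Fin N → ℝ) → ℝ) := by
  unfold sumQ
  refine Finset.measurable_sum _ fun i _ => Measurable.pow_const ?_ 2
  exact Finset.measurable_sum _ fun a _ => (measurable_pi_apply i).comp (measurable_pi_apply a)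

lemma sumQ_nonneg (G : Fin M → Fin N → ℝ) : 0 ≤ sumQ G :=
  Finset.sum_nonneg fun _ _ => sq_nonneg _

lemma sumQ_rot (O : OrthG N) (G : Fin M → Fin N → ℝ) :
    sumQ (fun a => O.1 *ᵥ G a) = sumQ G := by
  have h : ∀ i, ∑ a, (O.1 *ᵥ G a) i = (O.1 *ᵥ (fun i => ∑ a, G a i)) i := by
    intro i
    simp only [Matrix.mulVec, dotProduct]
    rw [Finset.sum_comm]
    refine Finset.sum_congr rfl fun j _ => ?_
    rw [Finset.mul_sum]
  have h2 := dot_orth O (fun i => ∑ a, G a i)
  unfold sumQ
  simp only [dotProduct] at h2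
  simp_rw [h, sq]
  exact h2

lemma hamExp_rot (f : ℝ → ℝ) (G : Fin M → Fin N → ℝ) (O : OrthG N) (e : Fin N → ℝ) :
    hamExp f (fun a => O.1 *ᵥ G a) e = hamExp f G (O.1ᵀ *ᵥ e) := by
  unfold hamExp
  congr 1
  refine Finset.sum_congr rfl fun a _ => ?_
  congr 1
  change (O.1 *ᵥ G a) ⬝ᵥ e = G a ⬝ᵥ (O.1ᵀ *ᵥ e)
  rw [Matrix.mulVec_transpose, dotProduct_comm (O.1 *ᵥ G a), Matrix.dotProduct_mulVec,
    dotProduct_comm]

lemma prob_patterns (N M : ℕ) : IsProbabilityMeasure (patternsLaw N M) := by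
  unfold patternsLaw patternLaw
  infer_instance

lemma gauss_sq_integrable : Integrable (fun t : ℝ => t ^ 2) (gaussianReal 0 1) := by
  have hid : MemLp (id : ℝ → ℝ) 2 (gaussianReal 0 1) := memLp_id_gaussianReal 2
  have := hid.integrable_sq
  simpa using this

lemma gauss_sq_integral : ∫ t, t ^ 2 ∂(gaussianReal 0 1) = 1 := by
  have h3 := variance_id_gaussianReal (μ := 0) (v := 1)
  rw [variance_eq_integral measurable_id.aemeasurable] at h3
  simpa [integral_id_gaussianReal] using h3

lemma col_sq_eq (hM : 1 ≤ M) (G : Fin M → Fin N → ℝ) (i : Fin N) :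
    (∑ a, G a i) ^ 2 = M * ((∑ a, G a i) / Real.sqrt M) ^ 2 := by
  have hM' : (0 : ℝ) < M := by exact_mod_cast hM
  rw [div_pow, Real.sq_sqrt hM'.le]
  field_simp

lemma integrable_col_sq (hM : 1 ≤ M) (i : Fin N) :
    Integrable (fun G : Fin M → Fin N → ℝ => (∑ a, G a i) ^ 2) (patternsLaw N M) := by
  have h := (map_col_sum (N := N) hM i).integrable_comp_of_integrable gauss_sq_integrable
  have h2 := h.const_mul (M : ℝ)
  refine h2.congr (Eventually.of_forall fun G => ?_)
  simp only [Function.comp]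
  exact (col_sq_eq hM G i).symm

lemma integral_col_sq (hM : 1 ≤ M) (i : Fin N) :
    ∫ G : Fin M → Fin N → ℝ, (∑ a, G a i) ^ 2 ∂(patternsLaw N M) = M := by
  simp_rw [col_sq_eq hM _ i]
  rw [integral_const_mul]
  have hmp := map_col_sum (N := N) hM i
  have h1 : ∫ G : Fin M → Fin N → ℝ, ((∑ a, G a i) / Real.sqrt M) ^ 2 ∂(patternsLaw N M) =
      ∫ t, t ^ 2 ∂((patternsLaw N M).map fun G : Fin M → Fin N → ℝ => (∑ a, G a i) / Real.sqrt M) := by
    rw [integral_map hmp.measurable.aemeasurable (by fun_prop)]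
  rw [h1, hmp.map_eq, gauss_sq_integral, mul_one]

lemma integrable_sumQ (hM : 1 ≤ M) :
    Integrable (sumQ : (Fin M → Fin N → ℝ) → ℝ) (patternsLaw N M) :=
  integrable_finsetSum _ fun i _ => integrable_col_sq hM i

lemma integral_sumQ (hM : 1 ≤ M) :
    ∫ G : Fin M → Fin N → ℝ, sumQ G ∂(patternsLaw N M) = N * M := by
  unfold sumQ
  rw [integral_finsetSum _ fun i _ => integrable_col_sq hM i]
  simp_rw [integral_col_sq hM]
  simp

/-- The tilted one-pattern constant `E exp (f G - t G)`. -/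
noncomputable def tiltConst (f : ℝ → ℝ) (t : ℝ) : ℝ :=
  ∫ x, Real.exp (f x - t * x) ∂(gaussianReal 0 1)

lemma integrable_of_le_exp_sq {g : ℝ → ℝ} (hg : Measurable g) {C : ℝ}
    (hb : ∀ x, |g x| ≤ C * Real.exp ((1 / 4 : ℝ) * x ^ 2)) :
    Integrable g (gaussianReal 0 1) := by
  have h := (integrable_exp_mul_sq (t := 1 / 4) (by norm_num)).const_mul C
  refine h.mono' hg.aestronglyMeasurable (Eventually.of_forall fun x => ?_)
  simpa using hb x

lemma integrable_exp_tilt (hf : Measurable f) {L : ℝ} (hfL : ∀ u, |f u| ≤ L) (t : ℝ) :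
    Integrable (fun x => Real.exp (f x - t * x)) (gaussianReal 0 1) := by
  refine integrable_of_le_exp_sq (C := Real.exp (L + t ^ 2))
    (Real.measurable_exp.comp (hf.sub (measurable_id.const_mul t))) fun x => ?_
  rw [abs_of_pos (Real.exp_pos _), ← Real.exp_add]
  refine Real.exp_le_exp.mpr ?_
  have h1 := (abs_le.mp (hfL x)).2
  nlinarith [sq_nonneg (t + x / 2)]

lemma tiltConst_pos (hf : Measurable f) {L : ℝ} (hfL : ∀ u, |f u| ≤ L) (t : ℝ) :
    0 < tiltConst f t := by
  unfold tiltConst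
  exact integral_exp_pos (integrable_exp_tilt hf hfL t)

lemma integral_other_col (hM : 1 ≤ M) {κ : ℝ} (hκ : 0 < κ) :
    ∫ c : Fin M → ℝ, Real.exp (-κ * (∑ a, c a) ^ 2) ∂(patternLaw M) =
      Real.sqrt (1 / (1 + 2 * (κ * M))) := by
  have hM' : (0 : ℝ) < M := by exact_mod_cast hM
  have hmp := map_sum_div hM
  have h1 : ∀ c : Fin M → ℝ, Real.exp (-κ * (∑ a, c a) ^ 2) =
      (fun x : ℝ => Real.exp (-(κ * M) * x ^ 2)) ((∑ a, c a) / Real.sqrt M) := by
    intro c
    simp only
    rw [div_pow, Real.sq_sqrt hM'.le]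
    congr 1
    field_simp
  simp_rw [h1]
  have h2 := integral_map (μ := patternLaw M) hmp.measurable.aemeasurable
    (f := fun x : ℝ => Real.exp (-(κ * M) * x ^ 2)) (by fun_prop)
  rw [← h2, hmp.map_eq, integral_exp_mul_sq (by nlinarith [mul_pos hκ hM'])]
  congr 2
  ring

lemma integral_first_col_le (hf : Measurable f) {L : ℝ} (hfL : ∀ u, |f u| ≤ L) {κ : ℝ}
    (hκ : 0 < κ) (t : ℝ) :
    ∫ c : Fin M → ℝ, Real.exp (∑ a, f (c a)) * Real.exp (-κ * (∑ a, c a) ^ 2) ∂(patternLaw M) ≤
      Real.exp (t ^ 2 / (4 * κ)) * tiltConst f t ^ M := by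
  have hprob : IsProbabilityMeasure (patternLaw M) := by
    unfold patternLaw
    infer_instance
  have h1 : Real.exp (t ^ 2 / (4 * κ)) * tiltConst f t ^ M =
      ∫ c : Fin M → ℝ, Real.exp (t ^ 2 / (4 * κ)) * ∏ a, Real.exp (f (c a) - t * c a)
        ∂(patternLaw M) := by
    rw [integral_const_mul]
    congr 1
    unfold patternLaw tiltConst
    rw [integral_fintype_prod_eq_prod (𝕜 := ℝ)
      (fun (_ : Fin M) (x : ℝ) => Real.exp (f x - t * x))]
    simp
  rw [h1]
  refine integral_mono_of_nonneg (Eventually.of_forall fun c => by positivity) ?_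
    (Eventually.of_forall fun c => ?_)
  · refine Integrable.const_mul ?_ _
    unfold patternLaw
    exact Integrable.fintype_prod (f := fun (_ : Fin M) (x : ℝ) => Real.exp (f x - t * x))
      fun _ => integrable_exp_tilt hf hfL t
  · simp only
    rw [← Real.exp_sum, ← Real.exp_add, ← Real.exp_add]
    refine Real.exp_le_exp.mpr ?_
    rw [Finset.sum_sub_distrib, ← Finset.mul_sum]
    set T := ∑ a, c a
    have h4 : -κ * T ^ 2 ≤ t ^ 2 / (4 * κ) - t * T := by
      have h5 : t ^ 2 / (4 * κ) - t * T - (-κ * T ^ 2) = (κ * T - t / 2) ^ 2 / κ := by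
        field_simp
        ring
      have h6 : 0 ≤ (κ * T - t / 2) ^ 2 / κ := by positivity
      linarith
    linarith

/-- The integrand of the tilted first moment at the first coordinate vector. -/
lemma integral_at_single (hM : 1 ≤ M) (n : ℕ) (hf : Measurable f) {κ : ℝ} (hκ : 0 < κ) :
    ∫ G : Fin M → Fin (n + 1) → ℝ,
        hamExp f G (Pi.single 0 1) * Real.exp (-κ * sumQ G) ∂(patternsLaw (n + 1) M) =
      (∫ c : Fin M → ℝ, Real.exp (∑ a, f (c a)) * Real.exp (-κ * (∑ a, c a) ^ 2) ∂(patternLaw M)) *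
        Real.sqrt (1 / (1 + 2 * (κ * M))) ^ n := by
  set ψ : Fin (n + 1) → (Fin M → ℝ) → ℝ := fun i c =>
    (if i = 0 then Real.exp (∑ a, f (c a)) else 1) * Real.exp (-κ * (∑ a, c a) ^ 2) with hψ
  have hψm : ∀ i, Measurable (ψ i) := by
    intro i
    refine Measurable.mul ?_ ?_
    · by_cases h : i = 0
      · simp only [h, if_true]
        exact Real.measurable_exp.comp (Finset.measurable_sum _ fun a _ =>
          hf.comp (measurable_pi_apply a))
      · simp only [h, if_false]
        exact measurable_const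
    · refine Real.measurable_exp.comp (Measurable.const_mul ?_ _)
      exact (Finset.measurable_sum _ fun a _ => measurable_pi_apply a).pow_const 2
  have h1 : ∀ G : Fin M → Fin (n + 1) → ℝ,
      hamExp f G (Pi.single 0 1) * Real.exp (-κ * sumQ G) =
        (fun H : Fin (n + 1) → Fin M → ℝ => ∏ i, ψ i (H i)) (fun i a => G a i) := by
    intro G
    have e1 : ∀ a, ∑ i, G a i * (Pi.single 0 1 : Fin (n + 1) → ℝ) i = G a 0 := by
      intro a
      simp [Pi.single_apply]
    have e2 : Real.exp (-κ * sumQ G) = ∏ i, Real.exp (-κ * (∑ a, G a i) ^ 2) := by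
      unfold sumQ
      rw [Finset.mul_sum, Real.exp_sum]
    have e3 : hamExp f G (Pi.single 0 1) =
        ∏ i : Fin (n + 1), (if i = 0 then Real.exp (∑ a, f (G a i)) else 1) := by
      rw [Finset.prod_ite_eq' Finset.univ 0]
      simp only [Finset.mem_univ, if_true]
      unfold hamExp
      simp_rw [e1]
    rw [e2, e3]
    simp only [hψ]
    rw [Finset.prod_mul_distrib]
  simp_rw [h1]
  have hmp := patternsLaw_transpose (n + 1) M
  have h2 := integral_map (μ := patternsLaw (n + 1) M) hmp.measurable.aemeasurable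
    (f := fun H : Fin (n + 1) → Fin M → ℝ => ∏ i, ψ i (H i))
    (Finset.measurable_prod _ fun i _ => (hψm i).comp (measurable_pi_apply i)).aestronglyMeasurable
  rw [← h2, hmp.map_eq]
  have h3 : ∫ H : Fin (n + 1) → Fin M → ℝ, ∏ i, ψ i (H i) ∂(patternsLaw M (n + 1)) =
      ∏ i, ∫ c, ψ i c ∂(patternLaw M) := by
    unfold patternsLaw
    exact integral_fintype_prod_eq_prod (𝕜 := ℝ) ψ
  rw [h3, Fin.prod_univ_succ]
  have h0 : ∫ c, ψ 0 c ∂(patternLaw M) =
      ∫ c : Fin M → ℝ, Real.exp (∑ a, f (c a)) * Real.exp (-κ * (∑ a, c a) ^ 2) ∂(patternLaw M) := by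
    simp only [hψ, if_true]
  have h4 : ∀ i : Fin n, ∫ c, ψ i.succ c ∂(patternLaw M) = Real.sqrt (1 / (1 + 2 * (κ * M))) := by
    intro i
    rw [← integral_other_col hM hκ]
    simp only [hψ, Fin.succ_ne_zero, if_false, one_mul]
  rw [h0]
  simp_rw [h4]
  simp

/-- The tilted first moment does not depend on the point of the sphere. -/
lemma integral_rot_unit (hf : Measurable f) {κ : ℝ} {n : ℕ} (v : Fin (n + 1) → ℝ)
    (hv : v ⬝ᵥ v = 1) :
    ∫ G : Fin M → Fin (n + 1) → ℝ, hamExp f G v * Real.exp (-κ * sumQ G) ∂(patternsLaw (n + 1) M) =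
      ∫ G : Fin M → Fin (n + 1) → ℝ, hamExp f G (Pi.single 0 1) * Real.exp (-κ * sumQ G)
        ∂(patternsLaw (n + 1) M) := by
  have he : (Pi.single 0 1 : Fin (n + 1) → ℝ) ⬝ᵥ (Pi.single 0 1 : Fin (n + 1) → ℝ) = 1 := by simp
  obtain ⟨Q, hQ⟩ := exists_orth_tr_mulVec (Pi.single 0 1 : Fin (n + 1) → ℝ) v (by rw [he, hv])
  have hmp := patternsLaw_rot (M := M) Q
  have hm : Measurable (fun G : Fin M → Fin (n + 1) → ℝ =>
      hamExp f G (Pi.single 0 1) * Real.exp (-κ * sumQ G)) := by
    refine Measurable.mul ?_ ?_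
    · exact (measurable_hamExp_joint hf).comp (measurable_id.prodMk measurable_const)
    · exact Real.measurable_exp.comp (measurable_sumQ.const_mul _)
  conv_rhs => rw [← hmp.map_eq]
  rw [integral_map hmp.measurable.aemeasurable hm.aestronglyMeasurable]
  refine integral_congr_ae (Eventually.of_forall fun G => ?_)
  simp only
  rw [hamExp_rot, sumQ_rot, hQ]

lemma integral_Z_tilt_le (hM : 1 ≤ M) (n : ℕ) (hf : Measurable f) {L : ℝ} (hfL : ∀ u, |f u| ≤ L)
    {κ : ℝ} (hκ : 0 < κ) (t : ℝ) :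
    ∫ G : Fin M → Fin (n + 1) → ℝ, spherePartitionFn f G * Real.exp (-κ * sumQ G)
        ∂(patternsLaw (n + 1) M) ≤
      Real.exp (t ^ 2 / (4 * κ)) * tiltConst f t ^ M * Real.sqrt (1 / (1 + 2 * (κ * M))) ^ n := by
  have hN : 1 ≤ n + 1 := by omega
  have hprobG := prob_patterns (n + 1) M
  have h1 : ∀ G : Fin M → Fin (n + 1) → ℝ, spherePartitionFn f G * Real.exp (-κ * sumQ G) =
      ∫ u, hamExp f G (u : EucN (n + 1)).ofLp * Real.exp (-κ * sumQ G) ∂(sphereLaw (n + 1)) := by
    intro G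
    rw [spherePartitionFn_eq hN, integral_mul_const]
  simp_rw [h1]
  have hmj : Measurable (fun p : (Fin M → Fin (n + 1) → ℝ) × Metric.sphere (0 : EucN (n + 1)) 1 =>
      hamExp f p.1 (p.2 : EucN (n + 1)).ofLp * Real.exp (-κ * sumQ p.1)) :=
    (measurable_hamExp_sphere hf).mul
      (Real.measurable_exp.comp ((measurable_sumQ.comp measurable_fst).const_mul _))
  have hintJ : Integrable (Function.uncurry fun (G : Fin M → Fin (n + 1) → ℝ)
      (u : Metric.sphere (0 : EucN (n + 1)) 1) =>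
      hamExp f G (u : EucN (n + 1)).ofLp * Real.exp (-κ * sumQ G))
      ((patternsLaw (n + 1) M).prod (sphereLaw (n + 1))) := by
    refine Integrable.of_bound hmj.aestronglyMeasurable (Real.exp (M * L))
      (Eventually.of_forall fun p => ?_)
    simp only [Function.uncurry]
    have hb := hamExp_bounds hfL p.1 (p.2 : EucN (n + 1)).ofLp
    have h0 : 0 < hamExp f p.1 (p.2 : EucN (n + 1)).ofLp := lt_of_lt_of_le (Real.exp_pos _) hb.1
    rw [Real.norm_eq_abs, abs_of_pos (mul_pos h0 (Real.exp_pos _))]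
    have h2 : Real.exp (-κ * sumQ p.1) ≤ 1 := by
      rw [Real.exp_le_one_iff]
      nlinarith [sumQ_nonneg p.1]
    calc _ ≤ hamExp f p.1 (p.2 : EucN (n + 1)).ofLp * 1 :=
          mul_le_mul_of_nonneg_left h2 h0.le
      _ ≤ _ := by simpa using hb.2
  rw [integral_integral_swap hintJ]
  have h2 : ∀ u : Metric.sphere (0 : EucN (n + 1)) 1,
      ∫ G : Fin M → Fin (n + 1) → ℝ, hamExp f G (u : EucN (n + 1)).ofLp * Real.exp (-κ * sumQ G)
        ∂(patternsLaw (n + 1) M) =
      ∫ G : Fin M → Fin (n + 1) → ℝ, hamExp f G (Pi.single 0 1) * Real.exp (-κ * sumQ G)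
        ∂(patternsLaw (n + 1) M) := fun u => integral_rot_unit hf _ (sphere_dot_self u)
  simp_rw [h2]
  rw [integral_const]
  simp only [probReal_univ, one_smul]
  rw [integral_at_single hM n hf hκ]
  have hs : 0 ≤ Real.sqrt (1 / (1 + 2 * (κ * M))) ^ n := by positivity
  exact mul_le_mul_of_nonneg_right (integral_first_col_le hf hfL hκ t) hs

/-- The tilted bound for the sphere pressure, at every finite size: for every `lam > 0` and `t`,
`E p_N ≤ lam / 2 - ((N - 1) / (2 N)) log (1 + lam) + (M / N) (t² / (2 lam) + log E exp (f G - t G))`. -/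
theorem sphere_tilt_bound (hN : 1 ≤ N) (hM : 1 ≤ M) (hf : Measurable f) {L : ℝ}
    (hfL : ∀ u, |f u| ≤ L) {lam : ℝ} (hlam : 0 < lam) (t : ℝ) :
    sphereExpectedPressure N M f ≤
      lam / 2 - (((N : ℝ) - 1) / (2 * N)) * Real.log (1 + lam) +
        (M / N : ℝ) * (t ^ 2 / (2 * lam) + Real.log (tiltConst f t)) := by
  obtain ⟨n, rfl⟩ : ∃ n, N = n + 1 := ⟨N - 1, by omega⟩
  have : NeZero (n + 1) := ⟨by omega⟩
  have hM' : (0 : ℝ) < M := by exact_mod_cast hM
  have hn' : (0 : ℝ) < ((n + 1 : ℕ) : ℝ) := by positivity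
  set κ : ℝ := lam / (2 * M) with hκdef
  have hκ : 0 < κ := by positivity
  have hprobG := prob_patterns (n + 1) M
  have hκM : 2 * (κ * M) = lam := by
    rw [hκdef]
    field_simp
  have hA := tiltConst_pos hf hfL t
  set A := tiltConst f t with hAdef
  set s := Real.sqrt (1 / (1 + 2 * (κ * M))) with hsdef
  have hs : 0 < s := by
    rw [hsdef, hκM]
    positivity
  set B := Real.exp (t ^ 2 / (4 * κ)) * A ^ M * s ^ n with hBdef
  have hB : 0 < B := by positivity
  have hlogs : Real.log s = -(Real.log (1 + lam) / 2) := by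
    rw [hsdef, hκM, Real.log_sqrt (by positivity), one_div, Real.log_inv]
    ring
  have hlogB : Real.log B = t ^ 2 / (4 * κ) + M * Real.log A + n * Real.log s := by
    rw [hBdef, Real.log_mul (by positivity) (by positivity), Real.log_mul (by positivity) (by positivity),
      Real.log_exp, Real.log_pow, Real.log_pow]
  have hZb := spherePartitionFn_bounds (N := n + 1) (M := M) hf hfL
  have hZm := measurable_spherePartitionFn (N := n + 1) (M := M) hf
  have hZpos : ∀ G : Fin M → Fin (n + 1) → ℝ, 0 < spherePartitionFn f G :=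
    fun G => lt_of_lt_of_le (Real.exp_pos _) (hZb G).1
  have hWm : Measurable (fun G : Fin M → Fin (n + 1) → ℝ => Real.exp (-κ * sumQ G)) :=
    Real.measurable_exp.comp (measurable_sumQ.const_mul _)
  have hZW : Integrable (fun G : Fin M → Fin (n + 1) → ℝ =>
      spherePartitionFn f G * Real.exp (-κ * sumQ G)) (patternsLaw (n + 1) M) := by
    refine Integrable.of_bound (hZm.mul hWm).aestronglyMeasurable (Real.exp (M * L))
      (Eventually.of_forall fun G => ?_)
    rw [Real.norm_eq_abs, abs_of_pos (mul_pos (hZpos G) (Real.exp_pos _))]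
    have h2 : Real.exp (-κ * sumQ G) ≤ 1 := by
      rw [Real.exp_le_one_iff]
      nlinarith [sumQ_nonneg G]
    calc _ ≤ spherePartitionFn f G * 1 := mul_le_mul_of_nonneg_left h2 (hZpos G).le
      _ ≤ _ := by simpa using (hZb G).2
  have hlogZ : Integrable (fun G : Fin M → Fin (n + 1) → ℝ => Real.log (spherePartitionFn f G))
      (patternsLaw (n + 1) M) := by
    refine Integrable.of_bound (Real.measurable_log.comp hZm).aestronglyMeasurable (M * L)
      (Eventually.of_forall fun G => ?_)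
    rw [Real.norm_eq_abs, abs_le]
    have h1 := Real.log_le_log (Real.exp_pos _) (hZb G).1
    have h2 := Real.log_le_log (hZpos G) (hZb G).2
    rw [Real.log_exp] at h1 h2
    exact ⟨h1, h2⟩
  have hpt : ∀ G : Fin M → Fin (n + 1) → ℝ, Real.log (spherePartitionFn f G) ≤
      Real.log B + (spherePartitionFn f G * Real.exp (-κ * sumQ G)) / B - 1 + κ * sumQ G := by
    intro G
    have hx : 0 < (spherePartitionFn f G * Real.exp (-κ * sumQ G)) / B :=
      div_pos (mul_pos (hZpos G) (Real.exp_pos _)) hB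
    have h1 := Real.log_le_sub_one_of_pos hx
    rw [Real.log_div (mul_pos (hZpos G) (Real.exp_pos _)).ne' hB.ne',
      Real.log_mul (hZpos G).ne' (Real.exp_pos _).ne', Real.log_exp] at h1
    linarith
  have hI1 : Integrable (fun G : Fin M → Fin (n + 1) → ℝ => Real.log B +
      (spherePartitionFn f G * Real.exp (-κ * sumQ G)) / B) (patternsLaw (n + 1) M) :=
    (integrable_const (Real.log B)).add (hZW.div_const B)
  have hI2 : Integrable (fun G : Fin M → Fin (n + 1) → ℝ => Real.log B +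
      (spherePartitionFn f G * Real.exp (-κ * sumQ G)) / B - 1) (patternsLaw (n + 1) M) :=
    hI1.sub (integrable_const (1 : ℝ))
  have hI3 : Integrable (fun G : Fin M → Fin (n + 1) → ℝ => κ * sumQ G) (patternsLaw (n + 1) M) :=
    (integrable_sumQ (N := n + 1) hM).const_mul κ
  have hI4 : Integrable (fun G : Fin M → Fin (n + 1) → ℝ => Real.log B +
      (spherePartitionFn f G * Real.exp (-κ * sumQ G)) / B - 1 + κ * sumQ G)
      (patternsLaw (n + 1) M) := hI2.add hI3
  have hint : ∫ G : Fin M → Fin (n + 1) → ℝ, Real.log (spherePartitionFn f G)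
      ∂(patternsLaw (n + 1) M) ≤ ∫ G : Fin M → Fin (n + 1) → ℝ, (Real.log B +
      (spherePartitionFn f G * Real.exp (-κ * sumQ G)) / B - 1 + κ * sumQ G)
        ∂(patternsLaw (n + 1) M) := integral_mono hlogZ hI4 hpt
  have hR : ∫ G : Fin M → Fin (n + 1) → ℝ, (Real.log B +
      (spherePartitionFn f G * Real.exp (-κ * sumQ G)) / B - 1 + κ * sumQ G)
        ∂(patternsLaw (n + 1) M) =
      Real.log B + (∫ G : Fin M → Fin (n + 1) → ℝ,
        spherePartitionFn f G * Real.exp (-κ * sumQ G) ∂(patternsLaw (n + 1) M)) / B - 1 +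
        κ * (((n + 1 : ℕ) : ℝ) * M) := by
    rw [integral_add hI2 hI3, integral_sub hI1 (integrable_const (1 : ℝ)),
      integral_add (integrable_const (Real.log B)) (hZW.div_const B), integral_div,
      integral_const_mul, integral_sumQ hM]
    simp
  have hle := integral_Z_tilt_le hM n hf hfL hκ t
  have hdiv : (∫ G : Fin M → Fin (n + 1) → ℝ,
      spherePartitionFn f G * Real.exp (-κ * sumQ G) ∂(patternsLaw (n + 1) M)) / B ≤ 1 :=
    (div_le_one hB).mpr hle
  have hfinal : ∫ G : Fin M → Fin (n + 1) → ℝ, Real.log (spherePartitionFn f G)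
      ∂(patternsLaw (n + 1) M) ≤ Real.log B + κ * (((n + 1 : ℕ) : ℝ) * M) := by
    rw [hR] at hint
    linarith
  unfold sphereExpectedPressure
  rw [div_le_iff₀ hn']
  refine hfinal.trans (le_of_eq ?_)
  rw [hlogB, hlogs]
  have e1 : t ^ 2 / (4 * κ) = M * (t ^ 2 / (2 * lam)) := by
    rw [hκdef]
    field_simp
    ring
  have e2 : κ * (((n + 1 : ℕ) : ℝ) * M) = lam / 2 * ((n + 1 : ℕ) : ℝ) := by
    rw [hκdef]
    field_simp
  rw [e1, e2]
  push_cast
  have hn2 : ((n : ℝ) + 1) ≠ 0 := by positivity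
  field_simp
  ring

lemma exp_le_quad (y : ℝ) : Real.exp y ≤ 1 + y + y ^ 2 * Real.exp |y| := by
  have hexp : 1 ≤ Real.exp |y| := Real.one_le_exp (abs_nonneg y)
  by_cases hy : |y| ≤ 1
  · have h := Real.abs_exp_sub_one_sub_id_le hy
    have h2 := (abs_le.mp h).2
    nlinarith [sq_nonneg y]
  · push Not at hy
    have hsq : 1 ≤ y ^ 2 := by
      have := (one_lt_sq_iff_one_lt_abs y).mpr hy
      exact this.le
    by_cases hy0 : 0 ≤ y
    · rw [abs_of_nonneg hy0] at hexp ⊢
      nlinarith [Real.exp_pos y]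
    · push Not at hy0
      have h1 : Real.exp y ≤ 1 := Real.exp_le_one_iff.mpr hy0.le
      rw [abs_of_neg hy0] at hy hexp ⊢
      have h2 : -y ≤ y ^ 2 := by nlinarith
      nlinarith [sq_nonneg y]

/-- The first Hermite moment `E [G exp (f G)]`. -/
noncomputable def hermMean (f : ℝ → ℝ) : ℝ := ∫ x, x * Real.exp (f x) ∂(gaussianReal 0 1)

/-- The constant `E [exp (f G) G² exp |G|]`. -/
noncomputable def hermRem (f : ℝ → ℝ) : ℝ :=
  ∫ x, Real.exp (f x) * (x ^ 2 * Real.exp |x|) ∂(gaussianReal 0 1)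

lemma integrable_hermMean (hf : Measurable f) {L : ℝ} (hfL : ∀ u, |f u| ≤ L) :
    Integrable (fun x => x * Real.exp (f x)) (gaussianReal 0 1) := by
  refine integrable_of_le_exp_sq (C := Real.exp (L + 1))
    (measurable_id.mul (Real.measurable_exp.comp hf)) fun x => ?_
  rw [abs_mul, abs_of_pos (Real.exp_pos _), Real.exp_add, mul_assoc]
  have h1 : Real.exp (f x) ≤ Real.exp L := Real.exp_le_exp.mpr (abs_le.mp (hfL x)).2
  have h2 : |x| ≤ Real.exp 1 * Real.exp ((1 / 4 : ℝ) * x ^ 2) := by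
    rw [← Real.exp_add]
    have h3 := Real.add_one_le_exp (1 + (1 / 4 : ℝ) * x ^ 2)
    have h4 : |x| ^ 2 = x ^ 2 := sq_abs x
    nlinarith [sq_nonneg (|x| - 2), abs_nonneg x]
  calc |x| * Real.exp (f x) = Real.exp (f x) * |x| := mul_comm _ _
    _ ≤ Real.exp L * (Real.exp 1 * Real.exp ((1 / 4 : ℝ) * x ^ 2)) :=
        mul_le_mul h1 h2 (abs_nonneg x) (Real.exp_pos _).le

lemma integrable_hermRem (hf : Measurable f) {L : ℝ} (hfL : ∀ u, |f u| ≤ L) :
    Integrable (fun x => Real.exp (f x) * (x ^ 2 * Real.exp |x|)) (gaussianReal 0 1) := by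
  refine integrable_of_le_exp_sq (C := Real.exp L * (2 * Real.exp 4))
    ((Real.measurable_exp.comp hf).mul ((measurable_id.pow_const 2).mul
      (Real.measurable_exp.comp measurable_id.abs))) fun x => ?_
  have hpos : 0 ≤ Real.exp (f x) * (x ^ 2 * Real.exp |x|) := by positivity
  rw [abs_of_nonneg hpos, mul_assoc (Real.exp L)]
  have h1 : Real.exp (f x) ≤ Real.exp L := Real.exp_le_exp.mpr (abs_le.mp (hfL x)).2
  have h2 : x ^ 2 * Real.exp |x| ≤ 2 * Real.exp 4 * Real.exp ((1 / 4 : ℝ) * x ^ 2) := by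
    have h3 := Real.quadratic_le_exp_of_nonneg (abs_nonneg x)
    have h4 : |x| ^ 2 = x ^ 2 := sq_abs x
    have h5 : x ^ 2 ≤ 2 * Real.exp |x| := by
      nlinarith [abs_nonneg x]
    have h6 : Real.exp |x| * Real.exp |x| ≤ Real.exp 4 * Real.exp ((1 / 4 : ℝ) * x ^ 2) := by
      rw [← Real.exp_add, ← Real.exp_add]
      refine Real.exp_le_exp.mpr ?_
      nlinarith [sq_nonneg (|x| - 4), abs_nonneg x]
    have hpe := Real.exp_pos |x|
    nlinarith
  calc _ ≤ Real.exp L * (x ^ 2 * Real.exp |x|) := by gcongr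
    _ ≤ _ := by gcongr

lemma hermRem_nonneg : 0 ≤ hermRem f :=
  integral_nonneg fun x => by positivity

lemma tilt_le (hf : Measurable f) {L : ℝ} (hfL : ∀ u, |f u| ≤ L) {t : ℝ} (ht : |t| ≤ 1) :
    tiltConst f t ≤ annealedConstant f - t * hermMean f + t ^ 2 * hermRem f := by
  have h0 := integrable_exp_gaussian hf hfL
  have h1 := integrable_hermMean hf hfL
  have h2 := integrable_hermRem hf hfL
  have hI1 : Integrable (fun x => Real.exp (f x) - t * (x * Real.exp (f x))) (gaussianReal 0 1) :=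
    h0.sub (h1.const_mul t)
  have hI2 : Integrable (fun x => t ^ 2 * (Real.exp (f x) * (x ^ 2 * Real.exp |x|)))
      (gaussianReal 0 1) := h2.const_mul (t ^ 2)
  have hI3 : Integrable (fun x => t * (x * Real.exp (f x))) (gaussianReal 0 1) := h1.const_mul t
  have hR : annealedConstant f - t * hermMean f + t ^ 2 * hermRem f =
      ∫ x, (Real.exp (f x) - t * (x * Real.exp (f x)) +
        t ^ 2 * (Real.exp (f x) * (x ^ 2 * Real.exp |x|))) ∂(gaussianReal 0 1) := by
    rw [integral_add hI1 hI2, integral_sub h0 hI3, integral_const_mul, integral_const_mul]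
    rfl
  rw [hR]
  unfold tiltConst
  refine integral_mono (integrable_exp_tilt hf hfL t) (hI1.add hI2) fun x => ?_
  simp only
  have h3 := exp_le_quad (-(t * x))
  have h4 : |-(t * x)| ≤ |x| := by
    rw [abs_neg, abs_mul]
    nlinarith [abs_nonneg x, abs_nonneg t]
  have h5 : Real.exp |-(t * x)| ≤ Real.exp |x| := Real.exp_le_exp.mpr h4
  have h6 : (-(t * x)) ^ 2 * Real.exp |-(t * x)| ≤ t ^ 2 * (x ^ 2 * Real.exp |x|) := by
    have : (-(t * x)) ^ 2 = t ^ 2 * x ^ 2 := by ring
    rw [this, mul_assoc]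
    gcongr
  have h7 : f x - t * x = f x + -(t * x) := by ring
  rw [h7, Real.exp_add]
  have hp := Real.exp_pos (f x)
  calc Real.exp (f x) * Real.exp (-(t * x))
      ≤ Real.exp (f x) * (1 + -(t * x) + t ^ 2 * (x ^ 2 * Real.exp |x|)) :=
        mul_le_mul_of_nonneg_left (by linarith) hp.le
    _ = _ := by ring

/-- When the first Hermite moment does not vanish, the limit of the tilted bound lies below the
annealed value for a suitable choice of the parameters. -/
lemma exists_gamma_lt {α : ℝ} (hα : 0 < α) (hf : Measurable f) {L : ℝ} (hfL : ∀ u, |f u| ≤ L)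
    (hc : hermMean f ≠ 0) :
    ∃ lam t : ℝ, 0 < lam ∧ lam / 2 - (1 / 2) * Real.log (1 + lam) +
      α * (t ^ 2 / (2 * lam) + Real.log (tiltConst f t)) <
        α * Real.log (annealedConstant f) := by
  have ha0 := annealedConstant_pos hf hfL
  set a0 := annealedConstant f with ha0def
  set c' := hermMean f / a0 with hc'def
  set D' := hermRem f / a0 with hD'def
  have hD' : 0 ≤ D' := div_nonneg hermRem_nonneg ha0.le
  have hc' : c' ≠ 0 := div_ne_zero hc ha0.ne'
  set X := α * c' ^ 2 with hXdef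
  have hX : 0 < X := by positivity
  set E := 1 / 4 + X * D' with hEdef
  have hE : 0 < E := by positivity
  set lam := min (1 / (1 + |c'|)) (X / (4 * E)) with hlamdef
  have hlam : 0 < lam := lt_min (by positivity) (by positivity)
  have hl1 : lam ≤ 1 / (1 + |c'|) := min_le_left _ _
  have hl2 : lam ≤ X / (4 * E) := min_le_right _ _
  have hl1' : lam * (1 + |c'|) ≤ 1 := by
    rwa [le_div_iff₀ (by positivity)] at hl1
  have hl2' : lam * E ≤ X / 4 := by
    rw [le_div_iff₀ (by positivity)] at hl2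
    linarith
  set t := lam * c' with htdef
  have ht : |t| ≤ 1 := by
    rw [htdef, abs_mul, abs_of_pos hlam]
    nlinarith [abs_nonneg c']
  refine ⟨lam, t, hlam, ?_⟩
  have htilt := tilt_le hf hfL ht
  have hApos := tiltConst_pos hf hfL t
  have hlog : Real.log (tiltConst f t) ≤ Real.log a0 - t * c' + t ^ 2 * D' := by
    have h1 := Real.log_le_sub_one_of_pos (div_pos hApos ha0)
    rw [Real.log_div hApos.ne' ha0.ne'] at h1
    have h2 : tiltConst f t / a0 ≤ 1 - t * c' + t ^ 2 * D' := by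
      rw [div_le_iff₀ ha0]
      have e : (1 - t * c' + t ^ 2 * D') * a0 =
          a0 - t * (c' * a0) + t ^ 2 * (D' * a0) := by ring
      rw [e, hc'def, hD'def, div_mul_cancel₀ _ ha0.ne', div_mul_cancel₀ _ ha0.ne']
      exact htilt
    linarith
  have hlog1 : lam / 2 - (1 / 2) * Real.log (1 + lam) ≤ lam ^ 2 / 4 := by
    have h1 := Real.le_log_one_add_of_nonneg hlam.le
    have h2 : lam / 2 - (1 / 2) * (2 * lam / (lam + 2)) ≤ lam ^ 2 / 4 := by
      have e : lam / 2 - (1 / 2) * (2 * lam / (lam + 2)) = lam ^ 2 / (2 * (lam + 2)) := by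
        field_simp
        ring
      rw [e]
      rw [div_le_div_iff₀ (by positivity) (by norm_num)]
      nlinarith [sq_nonneg lam, sq_pos_of_pos hlam]
    linarith
  have hquad : t ^ 2 / (2 * lam) = lam * c' ^ 2 / 2 := by
    rw [htdef]
    field_simp
  have hfin : lam ^ 2 / 4 + α * (lam * c' ^ 2 / 2 - t * c' + t ^ 2 * D') < 0 := by
    have e : lam ^ 2 / 4 + α * (lam * c' ^ 2 / 2 - t * c' + t ^ 2 * D') =
        lam * (lam * E - X / 2) := by
      rw [htdef, hEdef, hXdef]
      ring
    rw [e]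
    refine mul_neg_of_pos_of_neg hlam ?_
    linarith
  have hmul : α * (t ^ 2 / (2 * lam) + Real.log (tiltConst f t)) ≤
      α * (lam * c' ^ 2 / 2 + (Real.log a0 - t * c' + t ^ 2 * D')) := by
    rw [hquad]
    exact mul_le_mul_of_nonneg_left (by linarith) hα.le
  nlinarith

/-- On the sphere the pressure stays strictly below the annealed value when the first Hermite
moment of the potential does not vanish, at every density. -/
theorem sphere_strict_of_mean_ne {α : ℝ} (hα : 0 < α) (hf : Measurable f) {L : ℝ}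
    (hfL : ∀ u, |f u| ≤ L) (hc : hermMean f ≠ 0) :
    ∃ δ : ℝ, 0 < δ ∧ ∀ᶠ N : ℕ in atTop,
      sphereExpectedPressure N ⌊α * N⌋₊ f ≤ α * Real.log (annealedConstant f) - δ := by
  obtain ⟨lam, t, hlam, hlt⟩ := exists_gamma_lt hα hf hfL hc
  set Γ := lam / 2 - (1 / 2) * Real.log (1 + lam) +
      α * (t ^ 2 / (2 * lam) + Real.log (tiltConst f t)) with hΓ
  set δ := (α * Real.log (annealedConstant f) - Γ) / 2 with hδ
  have hδpos : 0 < δ := by
    rw [hδ]
    linarith
  refine ⟨δ, hδpos, ?_⟩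
  have h1 : Tendsto (fun N : ℕ => ((⌊α * N⌋₊ : ℕ) / N : ℝ)) atTop (𝓝 α) :=
    (tendsto_nat_floor_mul_div_atTop hα.le).comp tendsto_natCast_atTop_atTop
  have h2 : Tendsto (fun N : ℕ => (((N : ℝ) - 1) / (2 * N))) atTop (𝓝 (1 / 2)) := by
    have h3 : Tendsto (fun N : ℕ => (1 / 2 : ℝ) - (1 / 2) * (1 / (N : ℝ))) atTop
        (𝓝 ((1 / 2 : ℝ) - (1 / 2) * 0)) :=
      tendsto_const_nhds.sub (tendsto_one_div_atTop_nhds_zero_nat.const_mul _)
    have h4 : (1 / 2 : ℝ) - (1 / 2) * 0 = 1 / 2 := by norm_num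
    rw [h4] at h3
    refine h3.congr' ?_
    filter_upwards [eventually_ge_atTop 1] with N hN
    have hN' : (N : ℝ) ≠ 0 := by
      have : (1 : ℝ) ≤ N := by exact_mod_cast hN
      linarith
    field_simp
  have h5 : Tendsto (fun N : ℕ => lam / 2 - (((N : ℝ) - 1) / (2 * N)) * Real.log (1 + lam) +
      ((⌊α * N⌋₊ : ℕ) / N : ℝ) * (t ^ 2 / (2 * lam) + Real.log (tiltConst f t))) atTop (𝓝 Γ) :=
    (tendsto_const_nhds.sub (h2.mul_const _)).add (h1.mul_const _)
  have h6 : Γ < Γ + δ := by linarith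
  have h7 := h5.eventually_lt_const h6
  have h8 : ∀ᶠ N : ℕ in atTop, 1 ≤ α * N :=
    (tendsto_natCast_atTop_atTop.const_mul_atTop hα).eventually_ge_atTop 1
  filter_upwards [h7, h8, eventually_ge_atTop 1] with N hN7 hN8 hN1
  have hfl : 1 ≤ ⌊α * N⌋₊ := Nat.le_floor (by simpa using hN8)
  have hb := sphere_tilt_bound hN1 hfl hf hfL hlam t
  have : Γ + δ = α * Real.log (annealedConstant f) - δ := by
    rw [hδ]
    ring
  linarith

/-- The annealed limit on the sphere forces the first Hermite moment of the potential to vanish. -/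
theorem hermMean_eq_zero_of_sphere_annealed {α : ℝ} (hα : 0 < α) (hf : Measurable f) {L : ℝ}
    (hfL : ∀ u, |f u| ≤ L)
    (h : Tendsto (fun N : ℕ => sphereExpectedPressure N ⌊α * N⌋₊ f) atTop
      (𝓝 (α * Real.log (annealedConstant f)))) :
    hermMean f = 0 := by
  by_contra hc
  obtain ⟨δ, hδ, hev⟩ := sphere_strict_of_mean_ne hα hf hfL hc
  have h2 := le_of_tendsto h hev
  linarith

end Vale.Agent.Lib.P157
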