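import Vale.Agent.Lib.P157.Window2

/-!
Scalar estimates and the key inequality for the window potential.
-/

open MeasureTheory ProbabilityTheory
open scoped NNReal ENNReal

set_option linter.unusedSectionVars false

namespace Vale.Agent.Lib.P157

section Shell

lemma shellRate_neg (ρ : ℝ) : shellRate (-ρ) = shellRate ρ := by
  unfold shellRate
  have : (1 + -ρ) / 2 = 1 - (1 + ρ) / 2 := by ring
  rw [this, Real.binEntropy_one_sub]

lemma log_two_gt_half : (1 / 2 : ℝ) < Real.log 2 := by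
  have := Real.log_two_gt_d9
  linarith

lemma log_two_lt_seven_tenths : Real.log 2 < 7 / 10 := by
  have := Real.log_two_lt_d9
  linarith

/-- The quadratic lower bound on the rate. -/
lemma shellRate_ge_sq {ρ : ℝ} (h0 : -1 ≤ ρ) (h1 : ρ ≤ 1) : ρ ^ 2 / 2 ≤ shellRate ρ := by
  unfold shellRate
  rcases eq_or_lt_of_le h1 with rfl | hlt1
  · have : (1 + (1 : ℝ)) / 2 = 1 := by norm_num
    rw [this, Real.binEntropy_one]
    have := log_two_gt_half
    norm_num
    linarith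
  rcases eq_or_lt_of_le h0 with rfl | hgt0
  · have : (1 + (-1 : ℝ)) / 2 = 0 := by norm_num
    rw [this, Real.binEntropy_zero]
    have := log_two_gt_half
    norm_num
    linarith
  set x := (1 + ρ) / 2 with hx
  have hx0 : 0 < x := by
    rw [hx]
    linarith
  have hx1 : 0 < 1 - x := by
    rw [hx]
    linarith
  have hρ : ρ = 2 * x - 1 := by
    rw [hx]
    ring
  set A := Real.exp ρ / (2 * x) with hA
  set B := Real.exp (-ρ) / (2 * (1 - x)) with hB
  have hApos : 0 < A := by positivity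
  have hBpos : 0 < B := by positivity
  have hconc := strictConcaveOn_log_Ioi.concaveOn.2 (Set.mem_Ioi.mpr hApos)
    (Set.mem_Ioi.mpr hBpos) hx0.le hx1.le (by ring)
  simp only [smul_eq_mul] at hconc
  have hsum : x * A + (1 - x) * B = Real.cosh ρ := by
    rw [hA, hB, Real.cosh_eq]
    field_simp
  rw [hsum] at hconc
  have hlA : Real.log A = ρ - Real.log 2 - Real.log x := by
    rw [hA, Real.log_div (Real.exp_pos _).ne' (by positivity), Real.log_exp,
      Real.log_mul (by norm_num) hx0.ne']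
    ring
  have hlB : Real.log B = -ρ - Real.log 2 - Real.log (1 - x) := by
    rw [hB, Real.log_div (Real.exp_pos _).ne' (by positivity), Real.log_exp,
      Real.log_mul (by norm_num) hx1.ne']
    ring
  rw [hlA, hlB] at hconc
  have hcosh : Real.log (Real.cosh ρ) ≤ ρ ^ 2 / 2 := by
    have h2 := Real.cosh_le_exp_half_sq ρ
    have h3 := Real.log_le_log (Real.cosh_pos ρ) h2
    rwa [Real.log_exp] at h3
  have hbin : Real.binEntropy x = -(x * Real.log x) - (1 - x) * Real.log (1 - x) := by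
    unfold Real.binEntropy
    rw [Real.log_inv, Real.log_inv]
    ring
  rw [hbin]
  have hexpand : x * (ρ - Real.log 2 - Real.log x) + (1 - x) * (-ρ - Real.log 2 - Real.log (1 - x)) =
      ρ * (2 * x - 1) - Real.log 2 - x * Real.log x - (1 - x) * Real.log (1 - x) := by ring
  rw [hexpand, ← hρ] at hconc
  nlinarith

/-- The lower bound on the rate near overlap one. -/
lemma shellRate_ge_sigma {ρ σ : ℝ} (h0 : 0 ≤ ρ) (h1 : ρ ≤ 1) (hσ0 : 0 ≤ σ)
    (hσ : σ ^ 2 = 1 - ρ ^ 2) : Real.log 2 - 3 / 2 * σ ≤ shellRate ρ := by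
  unfold shellRate
  set y := (1 - ρ) / 2 with hy
  have hy0 : 0 ≤ y := by
    rw [hy]
    linarith
  have hy1 : y ≤ 1 / 2 := by
    rw [hy]
    linarith
  have hxy : (1 + ρ) / 2 = 1 - y := by
    rw [hy]
    ring
  rw [hxy, Real.binEntropy_one_sub]
  have hsq : 2 * y ≤ σ ^ 2 := by
    rw [hσ, hy]
    nlinarith
  suffices h : Real.binEntropy y ≤ 3 / 2 * σ by linarith
  rcases eq_or_lt_of_le hy0 with h2 | h2
  · rw [← h2, Real.binEntropy_zero]
    positivity
  have hs : 0 < Real.sqrt y := Real.sqrt_pos.mpr h2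
  have hss : Real.sqrt y * Real.sqrt y = y := Real.mul_self_sqrt hy0
  have h1y : 0 < 1 - y := by linarith
  unfold Real.binEntropy
  have ht1 : y * Real.log y⁻¹ ≤ 2 * Real.sqrt y - 2 * y := by
    have h3 := Real.log_le_sub_one_of_pos (show 0 < (Real.sqrt y)⁻¹ by positivity)
    have h4 : Real.log y⁻¹ = 2 * Real.log (Real.sqrt y)⁻¹ := by
      rw [Real.log_inv, Real.log_inv, Real.log_sqrt hy0]
      ring
    rw [h4]
    have h5 : y * (2 * Real.log (Real.sqrt y)⁻¹) ≤ y * (2 * ((Real.sqrt y)⁻¹ - 1)) := by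
      gcongr
    refine h5.trans (le_of_eq ?_)
    have h6 : y * (Real.sqrt y)⁻¹ = Real.sqrt y := by
      nth_rw 1 [← hss]
      field_simp
    rw [show y * (2 * ((Real.sqrt y)⁻¹ - 1)) = 2 * (y * (Real.sqrt y)⁻¹) - 2 * y by ring, h6]
  have ht2 : (1 - y) * Real.log (1 - y)⁻¹ ≤ y := by
    have h3 := Real.log_le_sub_one_of_pos (show 0 < (1 - y)⁻¹ by positivity)
    have h5 : (1 - y) * Real.log (1 - y)⁻¹ ≤ (1 - y) * ((1 - y)⁻¹ - 1) := by
      gcongr
    refine h5.trans (le_of_eq ?_)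
    field_simp
    ring
  have hrt : Real.sqrt y ≤ 3 / 4 * σ := by
    apply Real.sqrt_le_iff.mpr
    constructor
    · positivity
    · nlinarith
  linarith

end Shell

section Scalars

variable {p τ : ℝ}

/-- Relative entropy of Bernoulli laws. -/
noncomputable def bernKL (τ p : ℝ) : ℝ :=
  τ * Real.log (τ / p) + (1 - τ) * Real.log ((1 - τ) / (1 - p))

lemma bernKL_ge_sub (h0 : 0 < p) (h1 : p < τ) (h2 : τ < 1) :
    τ * Real.log (τ / p) + p - τ ≤ bernKL τ p := by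
  unfold bernKL
  have hp1 : 0 < 1 - p := by linarith
  have ht1 : 0 < 1 - τ := by linarith
  have hlog := Real.one_sub_inv_le_log_of_pos (show 0 < (1 - τ) / (1 - p) by positivity)
  have h3 : (1 - τ) * (1 - ((1 - τ) / (1 - p))⁻¹) ≤ (1 - τ) * Real.log ((1 - τ) / (1 - p)) :=
    mul_le_mul_of_nonneg_left hlog ht1.le
  have h4 : (1 - τ) * (1 - ((1 - τ) / (1 - p))⁻¹) = p - τ := by
    field_simp
    ring
  rw [h4] at h3
  linarith

/-- The chi-squared type lower bound. -/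
lemma bernKL_ge_sq (h0 : 0 < p) (h1 : p < τ) (h2 : τ < 1) :
    (τ - p) ^ 2 / (4 * τ) ≤ bernKL τ p := by
  have hτ : 0 < τ := h0.trans h1
  refine le_trans ?_ (bernKL_ge_sub h0 h1 h2)
  set B := τ / p with hB
  have hBpos : 0 < B := by positivity
  have hs : 0 < Real.sqrt B := Real.sqrt_pos.mpr hBpos
  have hss : Real.sqrt B * Real.sqrt B = B := Real.mul_self_sqrt hBpos.le
  have hτeq : τ = p * B := by
    rw [hB]
    field_simp
  have hlog : 2 * (1 - (Real.sqrt B)⁻¹) ≤ Real.log B := by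
    have h3 := Real.one_sub_inv_le_log_of_pos hs
    rw [Real.log_sqrt hBpos.le] at h3
    linarith
  have hfin : p * (Real.sqrt B - 1) ^ 2 ≤ τ * Real.log B + p - τ := by
    have h4 : τ * (2 * (1 - (Real.sqrt B)⁻¹)) ≤ τ * Real.log B :=
      mul_le_mul_of_nonneg_left hlog hτ.le
    have h5 : τ * (2 * (1 - (Real.sqrt B)⁻¹)) = p * (2 * B - 2 * Real.sqrt B) := by
      rw [hτeq]
      have : B * (Real.sqrt B)⁻¹ = Real.sqrt B := by
        nth_rw 1 [← hss]
        field_simp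
      rw [show p * B * (2 * (1 - (Real.sqrt B)⁻¹)) = p * (2 * B - 2 * (B * (Real.sqrt B)⁻¹)) by ring,
        this]
    rw [h5] at h4
    have h6 : p * (Real.sqrt B - 1) ^ 2 = p * (2 * B - 2 * Real.sqrt B) + p - p * B := by
      have : (Real.sqrt B - 1) ^ 2 = B - 2 * Real.sqrt B + 1 := by
        nlinarith
      rw [this]
      ring
    rw [h6, hτeq]
    rw [hτeq] at h4
    linarith
  refine le_trans ?_ hfin
  rw [div_le_iff₀ (by positivity)]
  have h7 : τ - p = p * (Real.sqrt B - 1) * (Real.sqrt B + 1) := by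
    rw [hτeq]
    nlinarith
  have h8 : (Real.sqrt B + 1) ^ 2 ≤ 4 * B := by
    have hB1 : 1 ≤ Real.sqrt B := by
      apply Real.one_le_sqrt.mpr
      rw [hB, one_le_div h0]
      exact h1.le
    nlinarith
  rw [h7, hτeq]
  have h9 : (p * (Real.sqrt B - 1) * (Real.sqrt B + 1)) ^ 2 =
      p * (p * (Real.sqrt B - 1) ^ 2) * (Real.sqrt B + 1) ^ 2 := by ring
  rw [h9]
  have h10 : 0 ≤ p * (p * (Real.sqrt B - 1) ^ 2) := by positivity
  calc _ ≤ p * (p * (Real.sqrt B - 1) ^ 2) * (4 * B) := mul_le_mul_of_nonneg_left h8 h10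
    _ = _ := by ring

lemma bernKL_nonneg (h0 : 0 < p) (h1 : p < τ) (h2 : τ < 1) : 0 ≤ bernKL τ p := by
  refine le_trans ?_ (bernKL_ge_sq h0 h1 h2)
  have : 0 < τ := h0.trans h1
  positivity

/-- The entropy lower bound. -/
lemma bernKL_ge_log (h0 : 0 < p) (h1 : p < τ) (h2 : τ < 1) :
    τ * (Real.log (τ / p) - 1) ≤ bernKL τ p := by
  have := bernKL_ge_sub h0 h1 h2
  nlinarith

/-- The upper bound by the chi-squared quantity. -/
lemma bernKL_le (h0 : 0 < p) (h1 : p < τ) (h2 : τ < 1) (hl : 1 ≤ -Real.log p) :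
    let a := τ / p
    let b := (1 - τ) / (1 - p)
    bernKL τ p ≤ 8 * (-Real.log p) * (((a - b) ^ 2 / (2 * a)) * p) := by
  intro a b
  have hτ : 0 < τ := h0.trans h1
  have hp1 : 0 < 1 - p := by linarith
  have ht1 : 0 < 1 - τ := by linarith
  have ha1 : 1 < a := by
    simp only [a]
    rw [one_lt_div h0]
    exact h1
  have hb0 : 0 < b := by
    simp only [b]
    positivity
  have hb1 : b < 1 := by
    simp only [b]
    rw [div_lt_one hp1]
    linarith
  have hapos : 0 < a := by linarith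
  have hτa : τ = a * p := by
    simp only [a]
    field_simp
  have h1τ : 1 - τ = b * (1 - p) := by
    simp only [b]
    field_simp
  have hKL : bernKL τ p = τ * Real.log a + (1 - τ) * Real.log b := rfl
  rw [hKL]
  set ℓ := -Real.log p with hℓ
  have hℓ0 : 0 < ℓ := by linarith
  rcases le_or_gt 2 a with ha2 | ha2
  · -- large ratio
    have hlogb : (1 - τ) * Real.log b ≤ 0 :=
      mul_nonpos_of_nonneg_of_nonpos ht1.le (Real.log_nonpos hb0.le hb1.le)
    have hloga : Real.log a ≤ ℓ := by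
      have h3 : a ≤ p⁻¹ := by
        simp only [a]
        rw [div_eq_mul_inv]
        have : 0 < p⁻¹ := by positivity
        nlinarith
      have h4 := Real.log_le_log hapos h3
      rwa [Real.log_inv] at h4
    have h5 : a / 8 ≤ (a - b) ^ 2 / (2 * a) := by
      rw [le_div_iff₀ (by positivity)]
      nlinarith
    have h6 : a / 8 * p ≤ ((a - b) ^ 2 / (2 * a)) * p := mul_le_mul_of_nonneg_right h5 h0.le
    have h7 : 8 * ℓ * (a / 8 * p) ≤ 8 * ℓ * (((a - b) ^ 2 / (2 * a)) * p) :=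
      mul_le_mul_of_nonneg_left h6 (by positivity)
    have h8 : 8 * ℓ * (a / 8 * p) = ℓ * τ := by
      rw [hτa]
      ring
    have h9 : τ * Real.log a ≤ τ * ℓ := mul_le_mul_of_nonneg_left hloga hτ.le
    nlinarith
  · -- small ratio
    have hlog1 := Real.log_le_sub_one_of_pos hapos
    have hlog2 := Real.log_le_sub_one_of_pos hb0
    have h3 : τ * Real.log a + (1 - τ) * Real.log b ≤ τ * (a - 1) + (1 - τ) * (b - 1) :=
      add_le_add (mul_le_mul_of_nonneg_left hlog1 hτ.le) (mul_le_mul_of_nonneg_left hlog2 ht1.le)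
    have hnorm : b + (a - b) * p = 1 := by
      have : a * p + b * (1 - p) = 1 := by
        rw [← hτa, ← h1τ]
        ring
      linarith
    have h4 : τ * (a - 1) + (1 - τ) * (b - 1) = (a - b) ^ 2 * p * (1 - p) := by
      have e1 : a - 1 = (a - b) * (1 - p) := by linarith
      have e2 : b - 1 = -((a - b) * p) := by linarith
      rw [e1, e2, h1τ]
      nth_rw 1 [hτa]
      ring
    have h5 : (a - b) ^ 2 * p * (1 - p) ≤ (a - b) ^ 2 * p := by
      have : 0 ≤ (a - b) ^ 2 * p := by positivity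
      nlinarith
    have h6 : (a - b) ^ 2 * p ≤ 8 * ℓ * (((a - b) ^ 2 / (2 * a)) * p) := by
      have h7 : 8 * ℓ * (((a - b) ^ 2 / (2 * a)) * p) = ((a - b) ^ 2 * p) * (4 * ℓ / a) := by
        field_simp
        ring
      rw [h7]
      have h8 : 1 ≤ 4 * ℓ / a := by
        rw [one_le_div hapos]
        linarith
      have : 0 ≤ (a - b) ^ 2 * p := by positivity
      nlinarith
    linarith

/-- Elementary bound on the logarithm used for the numerical conditions. -/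
lemma log_le_div_twenty_add {ℓ : ℝ} (hℓ : 0 < ℓ) : Real.log ℓ ≤ ℓ / 20 + 2 := by
  have h1 := Real.log_le_sub_one_of_pos (show 0 < ℓ / 20 by positivity)
  rw [Real.log_div hℓ.ne' (by norm_num)] at h1
  have h2 : Real.log 20 ≤ 3 := by
    rw [Real.log_le_iff_le_exp (by norm_num)]
    have h3 : Real.exp 3 = Real.exp 1 ^ 3 := by
      rw [← Real.exp_nat_mul]
      norm_num
    rw [h3]
    have h4 := Real.exp_one_gt_d9
    have : (2.718 : ℝ) ^ 3 ≤ Real.exp 1 ^ 3 := by gcongr; linarith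
    norm_num at this ⊢
    linarith
  linarith

lemma log_const_le {c : ℝ} {k : ℕ} (hc : 0 < c) (h : c ≤ (2.7 : ℝ) ^ k) : Real.log c ≤ k := by
  rw [Real.log_le_iff_le_exp hc]
  have h3 : Real.exp (k : ℝ) = Real.exp 1 ^ k := by
    rw [← Real.exp_nat_mul]
    norm_num
  rw [h3]
  have h4 := Real.exp_one_gt_d9
  have : (2.7 : ℝ) ^ k ≤ Real.exp 1 ^ k := by gcongr; linarith
  linarith

/-- Far regime, small mean compared to the noise scale. -/
lemma far_case_one {D τ τ' σ ρ E : ℝ} (hτ : 0 < τ) (hσ0 : 0 < σ) (hD0 : 0 ≤ D)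
    (hD1 : τ' ^ 2 ≤ 5 * τ * D) (hE1' : Real.log 2 * E ≤ 7 / 10 * (τ' ^ 2 * (2 * ρ ^ 2 / σ)))
    (hcase : 14 * τ ≤ σ) : Real.log 2 * E ≤ D * (ρ ^ 2 / 2) := by
  refine hE1'.trans ?_
  have h3 : τ' ^ 2 * (2 * ρ ^ 2 / σ) ≤ (5 * τ * D) * (2 * ρ ^ 2 / σ) :=
    mul_le_mul_of_nonneg_right hD1 (by positivity)
  have h5 : 7 / 10 * ((5 * τ * D) * (2 * ρ ^ 2 / σ)) = D * ρ ^ 2 * (7 * τ / σ) := by
    field_simp
    ring
  have h6 : 7 * τ / σ ≤ 1 / 2 := by
    rw [div_le_iff₀ hσ0]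
    linarith
  have h7 : 0 ≤ D * ρ ^ 2 := by positivity
  have h8 : D * ρ ^ 2 * (7 * τ / σ) ≤ D * ρ ^ 2 * (1 / 2) := mul_le_mul_of_nonneg_left h6 h7
  have h9 : D * ρ ^ 2 * (1 / 2) = D * (ρ ^ 2 / 2) := by ring
  linarith

/-- Far regime, noise larger than the reciprocal entropy. -/
lemma far_case_two {D τ τ' σ ρ E ℓ : ℝ} (hτ : 0 < τ) (hσ0 : 0 < σ) (hℓ0 : 0 < ℓ)
    (hτ'0 : 0 < τ') (hτ'le : τ' ≤ τ) (hτ1 : τ < 1)
    (hE1' : Real.log 2 * E ≤ 7 / 10 * (τ' ^ 2 * (2 * ρ ^ 2 / σ)))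
    (hD2 : τ * (ℓ / 2) ≤ D) (hcase2 : 6 / ℓ ≤ σ) : Real.log 2 * E ≤ D * (ρ ^ 2 / 2) := by
  refine hE1'.trans ?_
  have hτ'2 : τ' ^ 2 ≤ τ * τ := by
    rw [sq]
    exact mul_le_mul hτ'le hτ'le hτ'0.le hτ.le
  have hℓσ : 6 ≤ ℓ * σ := by
    rw [div_le_iff₀ hℓ0] at hcase2
    linarith
  have h3 : τ' ^ 2 * (2 * ρ ^ 2 / σ) ≤ τ * τ * (2 * ρ ^ 2 / σ) :=
    mul_le_mul_of_nonneg_right hτ'2 (by positivity)
  have h5 : 7 / 10 * (τ * τ * (2 * ρ ^ 2 / σ)) = τ * ρ ^ 2 * (7 / 5 * τ / σ) := by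
    field_simp
    ring
  have h6 : (τ * (ℓ / 2)) * (ρ ^ 2 / 2) = τ * ρ ^ 2 * (ℓ / 4) := by ring
  have h7 : 7 / 5 * τ / σ ≤ ℓ / 4 := by
    rw [div_le_iff₀ hσ0]
    have : 7 / 5 * τ ≤ 7 / 5 := by linarith
    have : ℓ / 4 * σ = (ℓ * σ) / 4 := by ring
    linarith
  have h8 : 0 ≤ τ * ρ ^ 2 := by positivity
  have h10 := mul_le_mul_of_nonneg_left h7 h8
  have h9 : (τ * (ℓ / 2)) * (ρ ^ 2 / 2) ≤ D * (ρ ^ 2 / 2) :=
    mul_le_mul_of_nonneg_right hD2 (by positivity)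
  linarith

/-- Far regime, very small noise: the logarithmic bound. -/
lemma far_case_three {D τ τ' σ ρ E ℓ x : ℝ} (hτ : 0 < τ) (hτ1 : τ < 1) (hσ0 : 0 < σ)
    (hσ1 : σ ≤ 1) (hℓ : 100 ≤ ℓ)
    (hτ'0 : 0 < τ') (hτ'le : τ' ≤ τ) (hx0 : 0 ≤ x) (hx : x ≤ 2 * ρ ^ 2 / σ)
    (hρ : σ ^ 2 = 1 - ρ ^ 2) (hσn : 1 / (100 * ℓ) ≤ σ) (hE2 : E ≤ τ * Real.log (1 + τ' * x) + τ')
    (hD2 : τ * (ℓ / 2) ≤ D) (hcase2 : σ < 6 / ℓ) : Real.log 2 * E ≤ D * (ρ ^ 2 / 2) := by
  have hℓ0 : 0 < ℓ := by linarith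
  have hlog2 := log_two_lt_seven_tenths
  have hlog2' := log_two_gt_half
  have hσsmall : σ < 6 / 100 := by
    refine lt_of_lt_of_le hcase2 ?_
    rw [div_le_div_iff₀ hℓ0 (by norm_num)]
    linarith
  have hσsq : σ ^ 2 ≤ 1 / 2 := by nlinarith
  have hρhalf : 1 / 2 ≤ ρ ^ 2 := by linarith
  have hρ1 : ρ ^ 2 ≤ 1 := by linarith [sq_nonneg σ]
  have hτ'1 : τ' ≤ 1 := by linarith
  have hxb : x ≤ 200 * ℓ := by
    have h3 : 2 * ρ ^ 2 / σ ≤ 2 / σ := by
      apply div_le_div_of_nonneg_right _ hσ0.le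
      linarith
    have h4 : 2 / σ ≤ 200 * ℓ := by
      rw [div_le_iff₀ hσ0]
      have h5 : 1 ≤ σ * (100 * ℓ) := by
        rw [div_le_iff₀ (by positivity)] at hσn
        linarith
      linarith
    linarith
  have hlogx : Real.log (1 + τ' * x) ≤ 8 + ℓ / 20 := by
    have h3a : τ' * x ≤ 1 * (200 * ℓ) := mul_le_mul hτ'1 hxb hx0 (by norm_num)
    have h3 : 1 + τ' * x ≤ 201 * ℓ := by linarith
    have hpos : 0 < 1 + τ' * x := by positivity
    have h4 := Real.log_le_log hpos h3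
    rw [Real.log_mul (by norm_num) hℓ0.ne'] at h4
    have h5 := log_le_div_twenty_add hℓ0
    have h6 : Real.log 201 ≤ ((6 : ℕ) : ℝ) := log_const_le (by norm_num) (by norm_num)
    push_cast at h6
    linarith
  have hE3 : E ≤ τ * (9 + ℓ / 20) := by
    have h3 : τ * Real.log (1 + τ' * x) ≤ τ * (8 + ℓ / 20) :=
      mul_le_mul_of_nonneg_left hlogx hτ.le
    linarith
  have hpos : 0 ≤ τ * (9 + ℓ / 20) := by positivity
  have h4 : Real.log 2 * E ≤ 7 / 10 * (τ * (9 + ℓ / 20)) := by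
    by_cases hE : 0 ≤ E
    · have h5 : Real.log 2 * E ≤ 7 / 10 * E := mul_le_mul_of_nonneg_right hlog2.le hE
      linarith
    · have h5 : Real.log 2 * E ≤ 0 :=
        mul_nonpos_of_nonneg_of_nonpos (by linarith) (by linarith)
      linarith
  have h5 : 7 / 10 * (τ * (9 + ℓ / 20)) ≤ τ * (ℓ / 2) * (1 / 4) := by
    have h6 : 7 / 10 * (9 + ℓ / 20) ≤ ℓ / 2 * (1 / 4) := by linarith
    have h7 := mul_le_mul_of_nonneg_left h6 hτ.le
    have e1 : τ * (7 / 10 * (9 + ℓ / 20)) = 7 / 10 * (τ * (9 + ℓ / 20)) := by ring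
    have e2 : τ * (ℓ / 2 * (1 / 4)) = τ * (ℓ / 2) * (1 / 4) := by ring
    linarith
  have h6 : τ * (ℓ / 2) * (1 / 4) ≤ D * (ρ ^ 2 / 2) := by
    have h7 : (1 / 4 : ℝ) ≤ ρ ^ 2 / 2 := by linarith
    have h8 : 0 ≤ τ * (ℓ / 2) := by positivity
    calc _ ≤ τ * (ℓ / 2) * (ρ ^ 2 / 2) := mul_le_mul_of_nonneg_left h7 h8
      _ ≤ _ := mul_le_mul_of_nonneg_right hD2 (by positivity)
  linarith

/-- The scalar inequality in the far regime. -/
lemma far_scalar (h0 : 0 < p) (h1 : p < τ) (h2 : τ < 1) (hp : p ≤ 1 / 10)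
    (hl : 100 ≤ -Real.log p) {τ' σ ρ x E : ℝ} (hτ' : τ' = (τ - p) / (1 - p))
    (hσ1 : σ ≤ 1) (hσn : 1 / (100 * (-Real.log p)) ≤ σ) (hρ : σ ^ 2 = 1 - ρ ^ 2) (hx0 : 0 ≤ x)
    (hx : x ≤ 2 * ρ ^ 2 / σ) (hE1 : E ≤ τ' ^ 2 * x)
    (hE2 : E ≤ τ * Real.log (1 + τ' * x) + τ') :
    Real.log 2 * E ≤ bernKL τ p * (ρ ^ 2 / 2) := by
  set ℓ := -Real.log p with hℓ
  have hτ : 0 < τ := h0.trans h1
  have hp1 : 0 < 1 - p := by linarith
  have hℓ0 : 0 < ℓ := by linarith
  have hσ0 : 0 < σ := lt_of_lt_of_le (by positivity) hσn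
  have hlog2 := log_two_lt_seven_tenths
  have hlog2' := log_two_gt_half
  have hτ'0 : 0 < τ' := by
    rw [hτ']
    exact div_pos (by linarith) hp1
  have hτ'le : τ' ≤ τ := by
    rw [hτ', div_le_iff₀ hp1]
    nlinarith
  have hD0 := bernKL_nonneg h0 h1 h2
  have hρ2 : 0 ≤ ρ ^ 2 := sq_nonneg _
  have hD1 : τ' ^ 2 ≤ 5 * τ * bernKL τ p := by
    have h3 := bernKL_ge_sq h0 h1 h2
    rw [div_le_iff₀ (by positivity)] at h3
    have h4 : τ - p = τ' * (1 - p) := by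
      rw [hτ']
      field_simp
    rw [h4] at h3
    have h5 : (4 / 5 : ℝ) ≤ (1 - p) ^ 2 := by nlinarith
    have h6 : τ' ^ 2 * (4 / 5) ≤ τ' ^ 2 * (1 - p) ^ 2 := mul_le_mul_of_nonneg_left h5 (sq_nonneg _)
    nlinarith
  have hE1' : Real.log 2 * E ≤ 7 / 10 * (τ' ^ 2 * (2 * ρ ^ 2 / σ)) := by
    have h3 : τ' ^ 2 * x ≤ τ' ^ 2 * (2 * ρ ^ 2 / σ) := mul_le_mul_of_nonneg_left hx (sq_nonneg _)
    have h4 : 0 ≤ τ' ^ 2 * (2 * ρ ^ 2 / σ) := by positivity
    by_cases hE : 0 ≤ E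
    · have h5 : Real.log 2 * E ≤ 7 / 10 * E := mul_le_mul_of_nonneg_right hlog2.le hE
      linarith
    · have h5 : Real.log 2 * E ≤ 0 :=
        mul_nonpos_of_nonneg_of_nonpos (by linarith) (by linarith)
      linarith
  rcases le_or_gt (14 * τ) σ with hcase | hcase
  · exact far_case_one hτ hσ0 hD0 hD1 hE1' hcase
  · -- the entropy is of order ℓ
    have hτlow : 1 / (1400 * ℓ) ≤ τ := by
      have h3 : 1 / (100 * ℓ) < 14 * τ := lt_of_le_of_lt hσn hcase
      have h4 : 1 / (1400 * ℓ) = (1 / (100 * ℓ)) / 14 := by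
        field_simp
        norm_num
      rw [h4, div_le_iff₀ (by norm_num)]
      linarith
    have hlogτ : -Real.log (1400 * ℓ) ≤ Real.log τ := by
      have h3 := Real.log_le_log (by positivity) hτlow
      rwa [one_div, Real.log_inv] at h3
    have hlogℓ : Real.log (1400 * ℓ) ≤ 8 + (ℓ / 20 + 2) := by
      rw [Real.log_mul (by norm_num) hℓ0.ne']
      have h3 := log_le_div_twenty_add hℓ0
      have h4 : Real.log 1400 ≤ ((8 : ℕ) : ℝ) := log_const_le (by norm_num) (by norm_num)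
      push_cast at h4
      linarith
    have hD2 : τ * (ℓ / 2) ≤ bernKL τ p := by
      have h3 := bernKL_ge_log h0 h1 h2
      have h4 : Real.log (τ / p) = Real.log τ + ℓ := by
        rw [Real.log_div hτ.ne' h0.ne', hℓ]
        ring
      rw [h4] at h3
      have h5 : ℓ / 2 ≤ Real.log τ + ℓ - 1 := by linarith
      exact (mul_le_mul_of_nonneg_left h5 hτ.le).trans h3
    rcases le_or_gt (6 / ℓ) σ with hcase2 | hcase2
    · exact far_case_two hτ hσ0 hℓ0 hτ'0 hτ'le h2 hE1' hD2 hcase2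
    · exact far_case_three hτ h2 hσ0 hσ1 hl hτ'0 hτ'le hx0 hx hρ hσn hE2 hD2 hcase2

end Scalars

end Vale.Agent.Lib.P157
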