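import Vale.Agent.Lib.P157.SphereTilt
import Vale.Agent.Lib.P157.GaussFacts
import Vale.Agent.Lib.P157.Window3

/-!
When the first Hermite moment of the potential vanishes, the second moment function is `1 + O(ρ²)`,
through the Mehler kernel in the Hilbert-Schmidt norm; so the annealed limit holds on the sphere at
small density, and the vanishing of this moment is exactly the condition for some annealed density.
-/

open MeasureTheory ProbabilityTheory Matrix Filter Topology
open scoped ENNReal NNReal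

set_option linter.unusedSectionVars false

namespace Vale.Agent.Lib.P157

variable {f : ℝ → ℝ}

/-- Cauchy-Schwarz for real functions, by the discriminant. -/
lemma cs_real {Ω : Type*} [MeasurableSpace Ω] {μ : Measure Ω} {a b : Ω → ℝ}
    (ha : Integrable (fun ω => a ω ^ 2) μ) (hb : Integrable (fun ω => b ω ^ 2) μ)
    (hab : Integrable (fun ω => a ω * b ω) μ) :
    (∫ ω, a ω * b ω ∂μ) ^ 2 ≤ (∫ ω, a ω ^ 2 ∂μ) * ∫ ω, b ω ^ 2 ∂μ := by
  have h1 : ∀ s : ℝ, 0 ≤ (∫ ω, b ω ^ 2 ∂μ) * (s * s) + (-2 * ∫ ω, a ω * b ω ∂μ) * s +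
      ∫ ω, a ω ^ 2 ∂μ := by
    intro s
    have h2 : 0 ≤ ∫ ω, (a ω - s * b ω) ^ 2 ∂μ := integral_nonneg fun ω => sq_nonneg _
    have e1 : ∀ ω, (a ω - s * b ω) ^ 2 =
        a ω ^ 2 - 2 * s * (a ω * b ω) + s ^ 2 * b ω ^ 2 := fun ω => by ring
    simp_rw [e1] at h2
    have hI1 : Integrable (fun ω => 2 * s * (a ω * b ω)) μ := hab.const_mul _
    have hI2 : Integrable (fun ω => s ^ 2 * b ω ^ 2) μ := hb.const_mul _
    have hI3 : Integrable (fun ω => a ω ^ 2 - 2 * s * (a ω * b ω)) μ := ha.sub hI1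
    rw [integral_add hI3 hI2, integral_sub ha hI1, integral_const_mul, integral_const_mul] at h2
    nlinarith
  have h3 := discrim_le_zero h1
  unfold discrim at h3
  nlinarith

/-- The ratio of the density of the Gaussian law of mean `m` and variance `σ²` to the standard one. -/
noncomputable def rk (σ m t : ℝ) : ℝ := σ⁻¹ * Real.exp (-(t - m) ^ 2 / (2 * σ ^ 2) + t ^ 2 / 2)

lemma measurable_rk (σ m : ℝ) : Measurable (rk σ m) := by
  unfold rk
  fun_prop

lemma rk_pos {σ : ℝ} (hσ : 0 < σ) (m t : ℝ) : 0 < rk σ m t := by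
  unfold rk
  positivity

lemma integral_mul_rk {σ : ℝ} (hσ : 0 < σ) (m : ℝ) (g : ℝ → ℝ) :
    ∫ t, g t * rk σ m t ∂(gaussianReal 0 1) = ∫ t, g t ∂(gaussianReal m ⟨σ ^ 2, sq_nonneg _⟩) := by
  have hγ : gaussianReal 0 (⟨(1 : ℝ) ^ 2, sq_nonneg _⟩) = gaussianReal 0 1 := by
    congr 1
    ext
    simp
    rfl
  have h1 := integral_gaussian_density (m := 0) (σ := 1) one_pos (fun t => g t * rk σ m t)
  have h2 := integral_gaussian_density (m := m) hσ g
  rw [hγ] at h1
  refine h1.trans (Eq.trans ?_ h2.symm)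
  refine integral_congr_ae (Eventually.of_forall fun t => ?_)
  simp only
  unfold rk
  have e : Real.exp (-(t - 0) ^ 2 / (2 * 1 ^ 2)) *
      Real.exp (-(t - m) ^ 2 / (2 * σ ^ 2) + t ^ 2 / 2) =
      Real.exp (-(t - m) ^ 2 / (2 * σ ^ 2)) := by
    rw [← Real.exp_add]
    congr 1
    ring
  have hp : Real.sqrt (2 * Real.pi) ≠ 0 := (Real.sqrt_pos.mpr (by positivity)).ne'
  calc (Real.sqrt (2 * Real.pi) * 1)⁻¹ * Real.exp (-(t - 0) ^ 2 / (2 * 1 ^ 2)) *
        (g t * (σ⁻¹ * Real.exp (-(t - m) ^ 2 / (2 * σ ^ 2) + t ^ 2 / 2)))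
      = (Real.sqrt (2 * Real.pi) * σ)⁻¹ * (Real.exp (-(t - 0) ^ 2 / (2 * 1 ^ 2)) *
        Real.exp (-(t - m) ^ 2 / (2 * σ ^ 2) + t ^ 2 / 2)) * g t := by
          field_simp
    _ = _ := by rw [e]

/-- The exponent of the squared density ratio. -/
lemma integral_rk_sq {σ ρ : ℝ} (hσ : 0 < σ) (hs : σ ^ 2 = 1 - ρ ^ 2) (m : ℝ) :
    ∫ t, rk σ m t * rk σ m t ∂(gaussianReal 0 1) =
      (σ * Real.sqrt (1 + ρ ^ 2))⁻¹ * Real.exp (m ^ 2 / (1 + ρ ^ 2)) := by
  refine (integral_mul_rk hσ m (rk σ m)).trans ((integral_gaussian_density hσ (rk σ m)).trans ?_)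
  have h1ρ : 0 < 1 + ρ ^ 2 := by positivity
  set a : ℝ := (1 + ρ ^ 2) / (2 * σ ^ 2) with ha
  have hapos : 0 < a := by positivity
  set t0 : ℝ := 2 * m / (1 + ρ ^ 2) with ht0
  have hint : ∀ t : ℝ, (Real.sqrt (2 * Real.pi) * σ)⁻¹ * Real.exp (-(t - m) ^ 2 / (2 * σ ^ 2)) *
      rk σ m t = ((Real.sqrt (2 * Real.pi) * σ)⁻¹ * σ⁻¹ * Real.exp (m ^ 2 / (1 + ρ ^ 2))) *
        Real.exp (-a * (t - t0) ^ 2) := by
    intro t
    unfold rk
    have e : -(t - m) ^ 2 / (2 * σ ^ 2) + (-(t - m) ^ 2 / (2 * σ ^ 2) + t ^ 2 / 2) =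
        m ^ 2 / (1 + ρ ^ 2) + -a * (t - t0) ^ 2 := by
      have hρ2 : ρ ^ 2 = 1 - σ ^ 2 := by linarith
      rw [ha, ht0]
      rw [hρ2]
      have h2σ : 2 - σ ^ 2 ≠ 0 := by
        have : 0 < 1 + ρ ^ 2 := h1ρ
        rw [hρ2] at this
        linarith
      have h3 : 1 + (1 - σ ^ 2) = 2 - σ ^ 2 := by ring
      rw [h3]
      have hσ2 : σ ^ 2 ≠ 0 := by positivity
      field_simp
      ring
    calc _ = (Real.sqrt (2 * Real.pi) * σ)⁻¹ * σ⁻¹ *
          (Real.exp (-(t - m) ^ 2 / (2 * σ ^ 2)) *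
            Real.exp (-(t - m) ^ 2 / (2 * σ ^ 2) + t ^ 2 / 2)) := by ring
      _ = _ := by
        rw [← Real.exp_add, e, Real.exp_add]
        ring
  simp_rw [hint]
  rw [integral_const_mul]
  have hG : ∫ t : ℝ, Real.exp (-a * (t - t0) ^ 2) = Real.sqrt (Real.pi / a) := by
    have := integral_sub_right_eq_self (μ := (volume : Measure ℝ)) (fun t : ℝ => Real.exp (-a * t ^ 2)) t0
    rw [this, integral_gaussian]
  rw [hG]
  have hsq : Real.sqrt (Real.pi / a) =
      Real.sqrt (2 * Real.pi) * σ / Real.sqrt (1 + ρ ^ 2) := by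
    have e : Real.pi / a = (2 * Real.pi) * σ ^ 2 / (1 + ρ ^ 2) := by
      rw [ha]
      field_simp
    rw [e, Real.sqrt_div (by positivity), Real.sqrt_mul (by positivity), Real.sqrt_sq hσ.le]
  rw [hsq]
  have hp : Real.sqrt (2 * Real.pi) ≠ 0 := (Real.sqrt_pos.mpr (by positivity)).ne'
  have hq : Real.sqrt (1 + ρ ^ 2) ≠ 0 := (Real.sqrt_pos.mpr h1ρ).ne'
  field_simp

/-- The square of the density ratio is integrable. -/
lemma integrable_rk_sq {σ : ℝ} (hσ : 0 < σ) (hσ1 : σ ^ 2 ≤ 1) (m : ℝ) :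
    Integrable (fun t => rk σ m t ^ 2) (gaussianReal 0 1) := by
  set κ : ℝ := 1 / σ ^ 2 with hκ
  have hκ1 : 1 ≤ κ := by
    rw [hκ, le_div_iff₀ (by positivity)]
    linarith
  refine integrable_of_le_exp_sq (C := (σ⁻¹) ^ 2 * Real.exp ((2 * κ * m) ^ 2))
    ((measurable_rk σ m).pow_const 2) fun t => ?_
  rw [abs_of_nonneg (sq_nonneg _)]
  unfold rk
  rw [mul_pow, ← Real.exp_nat_mul, mul_assoc]
  refine mul_le_mul_of_nonneg_left ?_ (by positivity)
  rw [← Real.exp_add]
  refine Real.exp_le_exp.mpr ?_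
  have e : (((2 : ℕ) : ℝ)) * (-(t - m) ^ 2 / (2 * σ ^ 2) + t ^ 2 / 2) =
      -(κ * (t - m) ^ 2) + t ^ 2 := by
    rw [hκ]
    push_cast
    field_simp
  rw [e]
  nlinarith [mul_nonneg (sub_nonneg.mpr hκ1) (sq_nonneg t), mul_nonneg (by linarith : (0 : ℝ) ≤ κ)
    (sq_nonneg m), sq_nonneg (2 * κ * m - t / 2)]

lemma integrable_rk {σ : ℝ} (hσ : 0 < σ) (hσ1 : σ ^ 2 ≤ 1) (m : ℝ) :
    Integrable (fun t => rk σ m t) (gaussianReal 0 1) := by
  have h := ((integrable_rk_sq hσ hσ1 m).add (integrable_const (1 : ℝ)))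
  refine h.mono' (measurable_rk σ m).aestronglyMeasurable (Eventually.of_forall fun t => ?_)
  simp only [Pi.add_apply, Real.norm_eq_abs]
  rw [abs_of_pos (rk_pos hσ m t)]
  nlinarith [sq_nonneg (rk σ m t - 1)]

lemma integrable_id_gauss : Integrable (fun t : ℝ => t) (gaussianReal 0 1) := by
  have h := gauss_sq_integrable.add (integrable_const (1 : ℝ))
  refine h.mono' measurable_id.aestronglyMeasurable (Eventually.of_forall fun t => ?_)
  simp only [Pi.add_apply, Real.norm_eq_abs]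
  have h2 : |t| ^ 2 = t ^ 2 := sq_abs t
  nlinarith [sq_nonneg (|t| - 1)]

lemma integrable_id_mul_rk {σ : ℝ} (hσ : 0 < σ) (hσ1 : σ ^ 2 ≤ 1) (m : ℝ) :
    Integrable (fun t => t * rk σ m t) (gaussianReal 0 1) := by
  have h := gauss_sq_integrable.add (integrable_rk_sq hσ hσ1 m)
  refine h.mono' (measurable_id.mul (measurable_rk σ m)).aestronglyMeasurable
    (Eventually.of_forall fun t => ?_)
  simp only [Pi.add_apply, Real.norm_eq_abs]
  rw [abs_mul, abs_of_pos (rk_pos hσ m t)]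
  have h2 : |t| ^ 2 = t ^ 2 := sq_abs t
  nlinarith [sq_nonneg (|t| - rk σ m t), abs_nonneg t, rk_pos hσ m t]

lemma integral_one_aux (m : ℝ) (v : ℝ≥0) : ∫ _t : ℝ, (1 : ℝ) ∂(gaussianReal m v) = 1 := by
  simp

/-- The second moment of the remainder of the density ratio. -/
lemma integral_rem_sq {σ ρ : ℝ} (hσ : 0 < σ) (hs : σ ^ 2 = 1 - ρ ^ 2) (m : ℝ) :
    Integrable (fun t => (rk σ m t - 1 - m * t) ^ 2) (gaussianReal 0 1) ∧
    ∫ t, (rk σ m t - 1 - m * t) ^ 2 ∂(gaussianReal 0 1) =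
      (σ * Real.sqrt (1 + ρ ^ 2))⁻¹ * Real.exp (m ^ 2 / (1 + ρ ^ 2)) - 1 - m ^ 2 := by
  have hσ1 : σ ^ 2 ≤ 1 := by nlinarith [sq_nonneg ρ]
  have h1 := integrable_rk_sq hσ hσ1 m
  have h2 := integrable_rk hσ hσ1 m
  have h3 := integrable_id_mul_rk hσ hσ1 m
  have h4 := gauss_sq_integrable
  have h5 := integrable_id_gauss
  have e : ∀ t, (rk σ m t - 1 - m * t) ^ 2 =
      rk σ m t ^ 2 + 1 + m ^ 2 * t ^ 2 - 2 * rk σ m t - 2 * m * (t * rk σ m t) + 2 * m * t := by
    intro t
    ring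
  have hI1 : Integrable (fun t => rk σ m t ^ 2 + 1) (gaussianReal 0 1) := h1.add (integrable_const _)
  have hI2 : Integrable (fun t => m ^ 2 * t ^ 2) (gaussianReal 0 1) := h4.const_mul _
  have hI3 : Integrable (fun t => rk σ m t ^ 2 + 1 + m ^ 2 * t ^ 2) (gaussianReal 0 1) := hI1.add hI2
  have hI4 : Integrable (fun t => 2 * rk σ m t) (gaussianReal 0 1) := h2.const_mul _
  have hI5 : Integrable (fun t => rk σ m t ^ 2 + 1 + m ^ 2 * t ^ 2 - 2 * rk σ m t)
      (gaussianReal 0 1) := hI3.sub hI4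
  have hI6 : Integrable (fun t => 2 * m * (t * rk σ m t)) (gaussianReal 0 1) := h3.const_mul _
  have hI7 : Integrable (fun t => rk σ m t ^ 2 + 1 + m ^ 2 * t ^ 2 - 2 * rk σ m t -
      2 * m * (t * rk σ m t)) (gaussianReal 0 1) := hI5.sub hI6
  have hI8 : Integrable (fun t => 2 * m * t) (gaussianReal 0 1) := h5.const_mul _
  have hI9 : Integrable (fun t => rk σ m t ^ 2 + 1 + m ^ 2 * t ^ 2 - 2 * rk σ m t -
      2 * m * (t * rk σ m t) + 2 * m * t) (gaussianReal 0 1) := hI7.add hI8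
  constructor
  · refine hI9.congr (Eventually.of_forall fun t => ?_)
    simp only
    exact (e t).symm
  · simp_rw [e]
    rw [integral_add hI7 hI8, integral_sub hI5 hI6, integral_sub hI3 hI4, integral_add hI1 hI2,
      integral_add h1 (integrable_const _), integral_const_mul, integral_const_mul,
      integral_const_mul, integral_const_mul, gauss_sq_integral]
    have i1 : ∫ t, rk σ m t ^ 2 ∂(gaussianReal 0 1) =
        (σ * Real.sqrt (1 + ρ ^ 2))⁻¹ * Real.exp (m ^ 2 / (1 + ρ ^ 2)) := by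
      rw [← integral_rk_sq hσ hs m]
      simp_rw [sq]
    have i2 : ∫ t, rk σ m t ∂(gaussianReal 0 1) = 1 := by
      have := integral_mul_rk hσ m (fun _ => (1 : ℝ))
      simp only [one_mul] at this
      exact this.trans (integral_one_aux m _)
    have i3 : ∫ t, t * rk σ m t ∂(gaussianReal 0 1) = m := by
      have := integral_mul_rk hσ m (fun t => t)
      exact this.trans integral_id_gaussianReal
    have i4 : ∫ t : ℝ, t ∂(gaussianReal 0 1) = 0 := integral_id_gaussianReal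
    rw [i1, i2, i3, i4]
    simp
    ring

section main

variable {L : ℝ}

lemma normPot_abs_le (hf : Measurable f) (hfL : ∀ u, |f u| ≤ L) (t : ℝ) :
    |normPot f t - 1| ≤ Real.exp (2 * L) := by
  have h := normPot_bounds hf hfL t
  have hL : 0 ≤ L := le_trans (abs_nonneg _) (hfL 0)
  have h1 : 1 ≤ Real.exp (2 * L) := Real.one_le_exp (by positivity)
  rw [abs_le]
  constructor
  · linarith [Real.exp_pos (-(2 * L))]
  · linarith

lemma sq_exp_two (L : ℝ) : Real.exp (2 * L) ^ 2 = Real.exp (4 * L) := by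
  rw [← Real.exp_nat_mul]
  congr 1
  push_cast
  ring

lemma integrable_normPot (hf : Measurable f) (hfL : ∀ u, |f u| ≤ L) :
    Integrable (normPot f) (gaussianReal 0 1) := by
  refine Integrable.of_bound (measurable_normPot hf).aestronglyMeasurable (Real.exp (2 * L))
    (Eventually.of_forall fun t => ?_)
  have h := normPot_bounds hf hfL t
  rw [Real.norm_eq_abs, abs_of_pos (lt_of_lt_of_le (Real.exp_pos _) h.1)]
  exact h.2

lemma integral_normPot' (hf : Measurable f) (hfL : ∀ u, |f u| ≤ L) :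
    ∫ u, normPot f u ∂(gaussianReal 0 1) = 1 := by
  unfold normPot
  rw [integral_div]
  exact div_self (annealedConstant_pos hf hfL).ne'

/-- A bounded function times an integrable one. -/
lemma integrable_bdd_mul' {g h : ℝ → ℝ} (hg : Measurable g) {C : ℝ} (hC : ∀ t, |g t| ≤ C)
    (hh : Integrable h (gaussianReal 0 1)) : Integrable (fun t => g t * h t) (gaussianReal 0 1) := by
  refine Integrable.mono' (hh.norm.const_mul C) (hg.aestronglyMeasurable.mul hh.1)
    (Eventually.of_forall fun t => ?_)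
  rw [Real.norm_eq_abs, abs_mul, Real.norm_eq_abs]
  exact mul_le_mul_of_nonneg_right (hC t) (abs_nonneg _)

/-- The noise operator through the remainder of the density ratio, when the weight is orthogonal to
the constants and to the first coordinate. -/
lemma noise_eq_rem (hf : Measurable f) (hfL : ∀ u, |f u| ≤ L)
    (hc : ∫ x, x * Real.exp (f x) ∂(gaussianReal 0 1) = 0) {σ ρ : ℝ} (hσ : 0 < σ)
    (hs : σ ^ 2 = 1 - ρ ^ 2) (x : ℝ) :
    noiseAvg (normPot f) ρ x - 1 =
      ∫ t, (normPot f t - 1) * (rk σ (ρ * x) t - 1 - (ρ * x) * t) ∂(gaussianReal 0 1) := by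
  have hσ1 : σ ^ 2 ≤ 1 := by nlinarith [sq_nonneg ρ]
  set m := ρ * x with hm
  set U := normPot f with hU
  have hUm : Measurable U := measurable_normPot hf
  have hUb : ∀ t, |U t| ≤ Real.exp (2 * L) := fun t => by
    have h := normPot_bounds hf hfL t
    rw [abs_of_pos (lt_of_lt_of_le (Real.exp_pos _) h.1)]
    exact h.2
  have h1 : Integrable (fun t => U t * rk σ m t) (gaussianReal 0 1) :=
    integrable_bdd_mul' hUm hUb (integrable_rk hσ hσ1 m)
  have h2 : Integrable U (gaussianReal 0 1) := integrable_normPot hf hfL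
  have h3 : Integrable (fun t => U t * t) (gaussianReal 0 1) :=
    integrable_bdd_mul' hUm hUb integrable_id_gauss
  have h4 := integrable_rk hσ hσ1 m
  have h5 := integrable_id_gauss
  have e : ∀ t, (U t - 1) * (rk σ m t - 1 - m * t) =
      U t * rk σ m t - U t - m * (U t * t) - rk σ m t + 1 + m * t := fun t => by ring
  simp_rw [e]
  have hI1 : Integrable (fun t => U t * rk σ m t - U t) (gaussianReal 0 1) := h1.sub h2
  have hI2 : Integrable (fun t => m * (U t * t)) (gaussianReal 0 1) := h3.const_mul _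
  have hI3 : Integrable (fun t => U t * rk σ m t - U t - m * (U t * t)) (gaussianReal 0 1) :=
    hI1.sub hI2
  have hI4 : Integrable (fun t => U t * rk σ m t - U t - m * (U t * t) - rk σ m t)
      (gaussianReal 0 1) := hI3.sub h4
  have hI5 : Integrable (fun t => U t * rk σ m t - U t - m * (U t * t) - rk σ m t + 1)
      (gaussianReal 0 1) := hI4.add (integrable_const _)
  have hI6 : Integrable (fun t => m * t) (gaussianReal 0 1) := h5.const_mul _
  rw [integral_add hI5 hI6, integral_add hI4 (integrable_const _), integral_sub hI3 h4,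
    integral_sub hI1 hI2, integral_sub h1 h2, integral_const_mul, integral_const_mul]
  have i1 : ∫ t, U t * rk σ m t ∂(gaussianReal 0 1) = noiseAvg U ρ x := by
    rw [noiseAvg_eq_integral_shift hUm hσ.le hs x]
    exact integral_mul_rk hσ m U
  have i2 : ∫ t, U t ∂(gaussianReal 0 1) = 1 := integral_normPot' hf hfL
  have i3 : ∫ t, U t * t ∂(gaussianReal 0 1) = 0 := by
    have ha := annealedConstant_pos hf hfL
    have e2 : ∀ t, U t * t = (t * Real.exp (f t)) / annealedConstant f := fun t => by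
      rw [hU]
      unfold normPot
      ring
    simp_rw [e2]
    rw [integral_div, hc, zero_div]
  have i4 : ∫ t, rk σ m t ∂(gaussianReal 0 1) = 1 := by
    have := integral_mul_rk hσ m (fun _ => (1 : ℝ))
    simp only [one_mul] at this
    exact this.trans (integral_one_aux m _)
  have i5 : ∫ t : ℝ, t ∂(gaussianReal 0 1) = 0 := integral_id_gaussianReal
  rw [i1, i2, i3, i4, i5]
  simp

lemma noise_sq_le (hf : Measurable f) (hfL : ∀ u, |f u| ≤ L)
    (hc : ∫ x, x * Real.exp (f x) ∂(gaussianReal 0 1) = 0) {σ ρ : ℝ} (hσ : 0 < σ)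
    (hs : σ ^ 2 = 1 - ρ ^ 2) (x : ℝ) :
    (noiseAvg (normPot f) ρ x - 1) ^ 2 ≤ Real.exp (4 * L) *
      ((σ * Real.sqrt (1 + ρ ^ 2))⁻¹ * Real.exp ((ρ * x) ^ 2 / (1 + ρ ^ 2)) - 1 - (ρ * x) ^ 2) := by
  have hR := integral_rem_sq hσ hs (ρ * x)
  have hVm : Measurable fun t => normPot f t - 1 := (measurable_normPot hf).sub measurable_const
  have hVb := normPot_abs_le hf hfL
  have hV2 : Integrable (fun t => (normPot f t - 1) ^ 2) (gaussianReal 0 1) := by
    refine Integrable.of_bound (hVm.pow_const 2).aestronglyMeasurable (Real.exp (2 * L) ^ 2)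
      (Eventually.of_forall fun t => ?_)
    rw [Real.norm_eq_abs, abs_of_nonneg (sq_nonneg _), ← sq_abs]
    exact pow_le_pow_left₀ (abs_nonneg _) (hVb t) 2
  have hσ1 : σ ^ 2 ≤ 1 := by nlinarith [sq_nonneg ρ]
  have hDm : Measurable fun t => rk σ (ρ * x) t - 1 - (ρ * x) * t :=
    ((measurable_rk σ _).sub measurable_const).sub (measurable_id.const_mul _)
  have hD1 : Integrable (fun t => rk σ (ρ * x) t - 1 - (ρ * x) * t) (gaussianReal 0 1) :=
    ((integrable_rk hσ hσ1 _).sub (integrable_const _)).sub (integrable_id_gauss.const_mul _)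
  have hVD : Integrable (fun t => (normPot f t - 1) * (rk σ (ρ * x) t - 1 - (ρ * x) * t))
      (gaussianReal 0 1) := integrable_bdd_mul' hVm hVb hD1
  have h := cs_real hV2 hR.1 hVD
  rw [← noise_eq_rem hf hfL hc hσ hs x, hR.2] at h
  refine h.trans (mul_le_mul_of_nonneg_right ?_ ?_)
  · have : ∫ t, (normPot f t - 1) ^ 2 ∂(gaussianReal 0 1) ≤ ∫ _t, Real.exp (4 * L) ∂(gaussianReal 0 1) := by
      refine integral_mono hV2 (integrable_const _) fun t => ?_
      simp only
      rw [← sq_exp_two, ← sq_abs]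
      exact pow_le_pow_left₀ (abs_nonneg _) (hVb t) 2
    simpa using this
  · rw [← hR.2]
    exact integral_nonneg fun t => sq_nonneg _

/-- The integral over the first variable of the Hilbert-Schmidt remainder. -/
lemma integral_K {σ ρ : ℝ} (hσ : 0 < σ) (hs : σ ^ 2 = 1 - ρ ^ 2) :
    Integrable (fun x : ℝ => (σ * Real.sqrt (1 + ρ ^ 2))⁻¹ * Real.exp ((ρ * x) ^ 2 / (1 + ρ ^ 2)) -
      1 - (ρ * x) ^ 2) (gaussianReal 0 1) ∧
    ∫ x : ℝ, ((σ * Real.sqrt (1 + ρ ^ 2))⁻¹ * Real.exp ((ρ * x) ^ 2 / (1 + ρ ^ 2)) -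
      1 - (ρ * x) ^ 2) ∂(gaussianReal 0 1) = ρ ^ 4 / σ ^ 2 := by
  have h1ρ : 0 < 1 + ρ ^ 2 := by positivity
  set A := (σ * Real.sqrt (1 + ρ ^ 2))⁻¹ with hA
  set c := ρ ^ 2 / (1 + ρ ^ 2) with hc
  have hρ1 : ρ ^ 2 < 1 := by nlinarith [sq_pos_of_pos hσ]
  have hc2 : c < 1 / 2 := by
    rw [hc, div_lt_iff₀ h1ρ]
    linarith
  have e : ∀ x : ℝ, (ρ * x) ^ 2 / (1 + ρ ^ 2) = c * x ^ 2 := fun x => by
    rw [hc]
    ring
  have e2 : ∀ x : ℝ, (ρ * x) ^ 2 = ρ ^ 2 * x ^ 2 := fun x => by ring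
  simp_rw [e, e2]
  have h1 : Integrable (fun x : ℝ => A * Real.exp (c * x ^ 2)) (gaussianReal 0 1) :=
    (integrable_exp_mul_sq hc2).const_mul _
  have h2 : Integrable (fun x : ℝ => A * Real.exp (c * x ^ 2) - 1) (gaussianReal 0 1) :=
    h1.sub (integrable_const _)
  have h3 : Integrable (fun x : ℝ => ρ ^ 2 * x ^ 2) (gaussianReal 0 1) :=
    gauss_sq_integrable.const_mul _
  refine ⟨h2.sub h3, ?_⟩
  rw [integral_sub h2 h3, integral_sub h1 (integrable_const _), integral_const_mul,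
    integral_const_mul, integral_exp_mul_sq hc2, gauss_sq_integral]
  have e3 : 1 / (1 - 2 * c) = (1 + ρ ^ 2) / σ ^ 2 := by
    rw [hc, hs]
    have h4 : 1 - ρ ^ 2 ≠ 0 := by linarith
    have h5 : 1 - 2 * (ρ ^ 2 / (1 + ρ ^ 2)) = (1 - ρ ^ 2) / (1 + ρ ^ 2) := by
      field_simp
      ring
    rw [h5]
    field_simp
  rw [e3, Real.sqrt_div h1ρ.le, Real.sqrt_sq hσ.le, hA]
  have hq : Real.sqrt (1 + ρ ^ 2) ≠ 0 := (Real.sqrt_pos.mpr h1ρ).ne'
  have e4 : (σ * Real.sqrt (1 + ρ ^ 2))⁻¹ * (Real.sqrt (1 + ρ ^ 2) / σ) = 1 / σ ^ 2 := by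
    field_simp
  rw [e4]
  simp only [probReal_univ, smul_eq_mul, mul_one, integral_const]
  have hσ2 : σ ^ 2 ≠ 0 := by positivity
  field_simp
  rw [hs]
  ring

/-- The second moment function is `1 + O(ρ²)` when the first Hermite moment vanishes. -/
lemma secMoment_sub_one_le (hf : Measurable f) (hfL : ∀ u, |f u| ≤ L)
    (hc : ∫ x, x * Real.exp (f x) ∂(gaussianReal 0 1) = 0) {σ ρ : ℝ} (hσ : 0 < σ)
    (hs : σ ^ 2 = 1 - ρ ^ 2) :
    secMoment f ρ - 1 ≤ Real.exp (4 * L) * (ρ ^ 2 / σ) := by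
  set U := normPot f with hU
  have hUm : Measurable U := measurable_normPot hf
  have hUb : ∀ t, |U t| ≤ Real.exp (2 * L) := fun t => by
    have h := normPot_bounds hf hfL t
    rw [abs_of_pos (lt_of_lt_of_le (Real.exp_pos _) h.1)]
    exact h.2
  have hPm : Measurable fun x => noiseAvg U ρ x - 1 :=
    (measurable_noiseAvg hUm ρ).sub measurable_const
  have hPb : ∀ x, |noiseAvg U ρ x - 1| ≤ Real.exp (2 * L) := by
    intro x
    have hub := normPot_bounds hf hfL
    have h := noiseAvg_bounds hUm hub ρ x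
    have hL : 0 ≤ L := le_trans (abs_nonneg _) (hfL 0)
    have h1 : 1 ≤ Real.exp (2 * L) := Real.one_le_exp (by positivity)
    rw [abs_le]
    constructor
    · linarith [Real.exp_pos (-(2 * L))]
    · linarith
  have hU2 : Integrable (fun t => U t ^ 2) (gaussianReal 0 1) := by
    refine Integrable.of_bound (hUm.pow_const 2).aestronglyMeasurable (Real.exp (2 * L) ^ 2)
      (Eventually.of_forall fun t => ?_)
    rw [Real.norm_eq_abs, abs_of_nonneg (sq_nonneg _), ← sq_abs]
    exact pow_le_pow_left₀ (abs_nonneg _) (hUb t) 2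
  have hP2 : Integrable (fun x => (noiseAvg U ρ x - 1) ^ 2) (gaussianReal 0 1) := by
    refine Integrable.of_bound (hPm.pow_const 2).aestronglyMeasurable (Real.exp (2 * L) ^ 2)
      (Eventually.of_forall fun t => ?_)
    rw [Real.norm_eq_abs, abs_of_nonneg (sq_nonneg _), ← sq_abs]
    exact pow_le_pow_left₀ (abs_nonneg _) (hPb t) 2
  have hUP : Integrable (fun x => U x * (noiseAvg U ρ x - 1)) (gaussianReal 0 1) :=
    integrable_bdd_mul' hUm hUb (Integrable.of_bound hPm.aestronglyMeasurable (Real.exp (2 * L))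
      (Eventually.of_forall fun t => by rw [Real.norm_eq_abs]; exact hPb t))
  have hcs := cs_real hU2 hP2 hUP
  have hint1 : ∫ x, U x * (noiseAvg U ρ x - 1) ∂(gaussianReal 0 1) = secMoment f ρ - 1 := by
    have e : ∀ x, U x * (noiseAvg U ρ x - 1) = U x * noiseAvg U ρ x - U x := fun x => by ring
    simp_rw [e]
    have hUint : Integrable U (gaussianReal 0 1) := integrable_normPot hf hfL
    have h1 : Integrable (fun x => U x * noiseAvg U ρ x) (gaussianReal 0 1) :=
      (hUP.add hUint).congr (Eventually.of_forall fun x => by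
        simp only [Pi.add_apply]
        ring)
    rw [integral_sub h1 hUint, integral_normPot' hf hfL]
    rfl
  rw [hint1] at hcs
  have hU2le : ∫ t, U t ^ 2 ∂(gaussianReal 0 1) ≤ Real.exp (4 * L) := by
    have : ∫ t, U t ^ 2 ∂(gaussianReal 0 1) ≤ ∫ _t, Real.exp (4 * L) ∂(gaussianReal 0 1) := by
      refine integral_mono hU2 (integrable_const _) fun t => ?_
      simp only
      rw [← sq_exp_two, ← sq_abs]
      exact pow_le_pow_left₀ (abs_nonneg _) (hUb t) 2
    simpa using this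
  have hK := integral_K hσ hs
  have hP2le : ∫ x, (noiseAvg U ρ x - 1) ^ 2 ∂(gaussianReal 0 1) ≤
      Real.exp (4 * L) * (ρ ^ 4 / σ ^ 2) := by
    rw [← hK.2, ← integral_const_mul]
    refine integral_mono hP2 (hK.1.const_mul _) fun x => ?_
    exact noise_sq_le hf hfL hc hσ hs x
  have hfin : (secMoment f ρ - 1) ^ 2 ≤ (Real.exp (4 * L) * (ρ ^ 2 / σ)) ^ 2 := by
    have e : (Real.exp (4 * L) * (ρ ^ 2 / σ)) ^ 2 =
        Real.exp (4 * L) * (Real.exp (4 * L) * (ρ ^ 4 / σ ^ 2)) := by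
      field_simp
    rw [e]
    refine hcs.trans (mul_le_mul hU2le hP2le (integral_nonneg fun x => sq_nonneg _)
      (Real.exp_pos _).le)
  have hnn : 0 ≤ Real.exp (4 * L) * (ρ ^ 2 / σ) := by positivity
  exact (abs_le_of_sq_le_sq' hfin hnn).2

/-- At small density the second moment criterion holds when the first Hermite moment vanishes. -/
lemma secMoment_criterion (hf : Measurable f) (hfL : ∀ u, |f u| ≤ L)
    (hc : ∫ x, x * Real.exp (f x) ∂(gaussianReal 0 1) = 0) {α : ℝ} (hα : 0 < α)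
    (hαL : α ≤ Real.exp (-(4 * L)) / 3) {ρ : ℝ} (h1 : -1 < ρ) (h2 : ρ < 1) :
    α * Real.log (secMoment f ρ) ≤ -(1 / 2) * Real.log (1 - ρ ^ 2) := by
  have hL : 0 ≤ L := le_trans (abs_nonneg _) (hfL 0)
  have hρ1 : ρ ^ 2 < 1 := by nlinarith
  have hρpos : 0 < 1 - ρ ^ 2 := by linarith
  have hmb := secMoment_bounds hf hfL ρ
  have hmpos : 0 < secMoment f ρ := lt_of_lt_of_le (Real.exp_pos _) hmb.1
  by_cases hcase : ρ ^ 2 ≤ 1 / 2
  · set σ := Real.sqrt (1 - ρ ^ 2) with hσdef
    have hσ : 0 < σ := Real.sqrt_pos.mpr hρpos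
    have hs : σ ^ 2 = 1 - ρ ^ 2 := Real.sq_sqrt hρpos.le
    have h3 := secMoment_sub_one_le hf hfL hc hσ hs
    have h4 : Real.log (secMoment f ρ) ≤ secMoment f ρ - 1 := Real.log_le_sub_one_of_pos hmpos
    have hσ23 : 2 / 3 ≤ σ := by
      have : (2 / 3 : ℝ) ^ 2 ≤ σ ^ 2 := by
        rw [hs]
        norm_num
        linarith
      exact (abs_le_of_sq_le_sq' this hσ.le).2
    have h5 : ρ ^ 2 / σ ≤ (3 / 2) * ρ ^ 2 := by
      rw [div_le_iff₀ hσ]
      nlinarith [sq_nonneg ρ]
    have h6 : Real.log (1 - ρ ^ 2) ≤ -ρ ^ 2 := by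
      have := Real.log_le_sub_one_of_pos hρpos
      linarith
    have h7 : α * Real.exp (4 * L) ≤ 1 / 3 := by
      have e : Real.exp (-(4 * L)) * Real.exp (4 * L) = 1 := by
        rw [← Real.exp_add]
        simp
      have := mul_le_mul_of_nonneg_right hαL (Real.exp_pos (4 * L)).le
      calc α * Real.exp (4 * L) ≤ Real.exp (-(4 * L)) / 3 * Real.exp (4 * L) := this
        _ = (Real.exp (-(4 * L)) * Real.exp (4 * L)) / 3 := by ring
        _ = 1 / 3 := by rw [e]
    have h8 : Real.log (secMoment f ρ) ≤ Real.exp (4 * L) * ((3 / 2) * ρ ^ 2) :=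
      h4.trans (h3.trans (mul_le_mul_of_nonneg_left h5 (Real.exp_pos _).le))
    have h9 : α * Real.log (secMoment f ρ) ≤ α * (Real.exp (4 * L) * ((3 / 2) * ρ ^ 2)) :=
      mul_le_mul_of_nonneg_left h8 hα.le
    have h10 : α * (Real.exp (4 * L) * ((3 / 2) * ρ ^ 2)) ≤ ρ ^ 2 / 2 := by
      have : (α * Real.exp (4 * L)) * ((3 / 2) * ρ ^ 2) ≤ (1 / 3) * ((3 / 2) * ρ ^ 2) :=
        mul_le_mul_of_nonneg_right h7 (by positivity)
      nlinarith
    linarith
  · push Not at hcase
    have h3 : Real.log (secMoment f ρ) ≤ 4 * L := by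
      have := Real.log_le_log hmpos hmb.2
      rwa [Real.log_exp] at this
    have h4 : α * (4 * L) ≤ 1 / 3 := by
      have h5 : 4 * L ≤ Real.exp (4 * L) := by
        have := Real.add_one_le_exp (4 * L)
        linarith
      have h6 : Real.exp (-(4 * L)) * (4 * L) ≤ 1 := by
        have e : Real.exp (-(4 * L)) * Real.exp (4 * L) = 1 := by
          rw [← Real.exp_add]
          simp
        calc _ ≤ Real.exp (-(4 * L)) * Real.exp (4 * L) :=
              mul_le_mul_of_nonneg_left h5 (Real.exp_pos _).le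
          _ = 1 := e
      have h7 : α * (4 * L) ≤ Real.exp (-(4 * L)) / 3 * (4 * L) :=
        mul_le_mul_of_nonneg_right hαL (by positivity)
      linarith
    have h5 : Real.log (1 - ρ ^ 2) ≤ -Real.log 2 := by
      have h6 : 1 - ρ ^ 2 ≤ 1 / 2 := by linarith
      have h7 := Real.log_le_log hρpos h6
      rwa [one_div, Real.log_inv] at h7
    have hl2 := Real.log_two_gt_d9
    have h8 : α * Real.log (secMoment f ρ) ≤ α * (4 * L) :=
      mul_le_mul_of_nonneg_left h3 hα.le
    linarith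

/-- The conditional first moment exponent is at most the second moment function minus one. -/
lemma crossEnt_le_secMoment (hf : Measurable f) (hfL : ∀ u, |f u| ≤ L) (ρ : ℝ) :
    crossEnt f ρ ≤ secMoment f ρ - 1 := by
  set U := normPot f with hU
  have hUm : Measurable U := measurable_normPot hf
  have hub := normPot_bounds hf hfL
  have hUb : ∀ t, |U t| ≤ Real.exp (2 * L) := fun t => by
    have h := hub t
    rw [abs_of_pos (lt_of_lt_of_le (Real.exp_pos _) h.1)]
    exact h.2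
  have hNb := fun v => noiseAvg_bounds hUm hub ρ v
  have hNm := measurable_noiseAvg hUm ρ
  have hNint : Integrable (noiseAvg U ρ) (gaussianReal 0 1) := by
    refine Integrable.of_bound hNm.aestronglyMeasurable (Real.exp (2 * L))
      (Eventually.of_forall fun v => ?_)
    have h := hNb v
    rw [Real.norm_eq_abs, abs_of_pos (lt_of_lt_of_le (Real.exp_pos _) h.1)]
    exact h.2
  have hUint : Integrable U (gaussianReal 0 1) := integrable_normPot hf hfL
  have h1 : Integrable (fun x => U x * noiseAvg U ρ x) (gaussianReal 0 1) :=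
    integrable_bdd_mul' hUm hUb hNint
  have hlogm : Measurable fun v => Real.log (noiseAvg U ρ v) := Real.measurable_log.comp hNm
  have hlogint : Integrable (fun v => Real.log (noiseAvg U ρ v)) (gaussianReal 0 1) := by
    refine Integrable.of_bound hlogm.aestronglyMeasurable (2 * L)
      (Eventually.of_forall fun v => ?_)
    rw [Real.norm_eq_abs]
    exact abs_log_noise_le hf hfL ρ v
  have h2 : Integrable (fun v => U v * Real.log (noiseAvg U ρ v)) (gaussianReal 0 1) :=
    integrable_bdd_mul' hUm hUb hlogint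
  have e : secMoment f ρ - 1 = ∫ x, (U x * noiseAvg U ρ x - U x) ∂(gaussianReal 0 1) := by
    rw [integral_sub h1 hUint, integral_normPot' hf hfL]
    rfl
  rw [e]
  unfold crossEnt
  refine integral_mono h2 (h1.sub hUint) fun v => ?_
  have hN := hNb v
  have hNpos : 0 < noiseAvg U ρ v := lt_of_lt_of_le (Real.exp_pos _) hN.1
  have hUpos : 0 < U v := lt_of_lt_of_le (Real.exp_pos _) (hub v).1
  have h3 := Real.log_le_sub_one_of_pos hNpos
  simp only
  nlinarith

/-- The conditional first moment criterion of the cube at small density, when the first Hermite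
moment vanishes. -/
lemma crossEnt_criterion (hf : Measurable f) (hfL : ∀ u, |f u| ≤ L)
    (hc : ∫ x, x * Real.exp (f x) ∂(gaussianReal 0 1) = 0) {α : ℝ} (hα : 0 < α)
    (hαL : α ≤ Real.exp (-(4 * L)) / 3) {ρ : ℝ} (h1 : -1 ≤ ρ) (h2 : ρ ≤ 1) :
    α * crossEnt f ρ ≤ shellRate ρ := by
  have hL : 0 ≤ L := le_trans (abs_nonneg _) (hfL 0)
  have hrate := shellRate_ge_sq h1 h2
  by_cases hcase : ρ ^ 2 ≤ 1 / 2
  · have hρpos : 0 < 1 - ρ ^ 2 := by linarith
    set σ := Real.sqrt (1 - ρ ^ 2) with hσdef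
    have hσ : 0 < σ := Real.sqrt_pos.mpr hρpos
    have hs : σ ^ 2 = 1 - ρ ^ 2 := Real.sq_sqrt hρpos.le
    have h3 := secMoment_sub_one_le hf hfL hc hσ hs
    have h4 := crossEnt_le_secMoment hf hfL ρ
    have hσ23 : 2 / 3 ≤ σ := by
      have : (2 / 3 : ℝ) ^ 2 ≤ σ ^ 2 := by
        rw [hs]
        norm_num
        linarith
      exact (abs_le_of_sq_le_sq' this hσ.le).2
    have h5 : ρ ^ 2 / σ ≤ (3 / 2) * ρ ^ 2 := by
      rw [div_le_iff₀ hσ]
      nlinarith [sq_nonneg ρ]
    have h7 : α * Real.exp (4 * L) ≤ 1 / 3 := by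
      have e : Real.exp (-(4 * L)) * Real.exp (4 * L) = 1 := by
        rw [← Real.exp_add]
        simp
      have := mul_le_mul_of_nonneg_right hαL (Real.exp_pos (4 * L)).le
      calc α * Real.exp (4 * L) ≤ Real.exp (-(4 * L)) / 3 * Real.exp (4 * L) := this
        _ = (Real.exp (-(4 * L)) * Real.exp (4 * L)) / 3 := by ring
        _ = 1 / 3 := by rw [e]
    have h8 : crossEnt f ρ ≤ Real.exp (4 * L) * ((3 / 2) * ρ ^ 2) :=
      h4.trans (h3.trans (mul_le_mul_of_nonneg_left h5 (Real.exp_pos _).le))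
    have h9 : α * crossEnt f ρ ≤ α * (Real.exp (4 * L) * ((3 / 2) * ρ ^ 2)) :=
      mul_le_mul_of_nonneg_left h8 hα.le
    have h10 : α * (Real.exp (4 * L) * ((3 / 2) * ρ ^ 2)) ≤ ρ ^ 2 / 2 := by
      have : (α * Real.exp (4 * L)) * ((3 / 2) * ρ ^ 2) ≤ (1 / 3) * ((3 / 2) * ρ ^ 2) :=
        mul_le_mul_of_nonneg_right h7 (by positivity)
      nlinarith
    linarith
  · push Not at hcase
    have h3 : crossEnt f ρ ≤ 2 * L := (abs_le.mp (abs_crossEnt_le hf hfL ρ)).2
    have h4 : α * (2 * L) ≤ 1 / 6 := by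
      have h5 : 4 * L ≤ Real.exp (4 * L) := by
        have := Real.add_one_le_exp (4 * L)
        linarith
      have h6 : Real.exp (-(4 * L)) * (4 * L) ≤ 1 := by
        have e : Real.exp (-(4 * L)) * Real.exp (4 * L) = 1 := by
          rw [← Real.exp_add]
          simp
        calc _ ≤ Real.exp (-(4 * L)) * Real.exp (4 * L) :=
              mul_le_mul_of_nonneg_left h5 (Real.exp_pos _).le
          _ = 1 := e
      have h7 : α * (2 * L) ≤ Real.exp (-(4 * L)) / 3 * (2 * L) :=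
        mul_le_mul_of_nonneg_right hαL (by positivity)
      nlinarith
    have h8 : α * crossEnt f ρ ≤ α * (2 * L) := mul_le_mul_of_nonneg_left h3 hα.le
    linarith

end main

/-- The annealed limit on the sphere at small density when the first Hermite moment vanishes. -/
theorem sphere_annealed_of_mean_zero (hf : Measurable f) {L : ℝ} (hL : 0 < L)
    (hfL : ∀ u, |f u| ≤ L) (hc : ∫ x, x * Real.exp (f x) ∂(gaussianReal 0 1) = 0) {α : ℝ}
    (hα : 0 < α) (hαL : α ≤ Real.exp (-(4 * L)) / 3) :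
    Tendsto (fun N : ℕ => sphereExpectedPressure N ⌊α * N⌋₊ f) atTop
      (𝓝 (α * Real.log (annealedConstant f))) :=
  sphere_annealed_of_secMoment hα hf hL hfL fun _ρ h1 h2 =>
    secMoment_criterion hf hfL hc hα hαL h1 h2

/-- The annealed limit on the cube at small density when the first Hermite moment vanishes. -/
theorem cube_annealed_of_mean_zero (hf : Measurable f) {L : ℝ} (hL : 0 < L)
    (hfL : ∀ u, |f u| ≤ L) (hc : ∫ x, x * Real.exp (f x) ∂(gaussianReal 0 1) = 0) {α : ℝ}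
    (hα : 0 < α) (hαL : α ≤ Real.exp (-(4 * L)) / 3) :
    Tendsto (fun N : ℕ => expectedPressure N ⌊α * N⌋₊ f) atTop
      (𝓝 (α * Real.log (annealedConstant f))) :=
  annealed_of_crossEnt_le hα hf hL hfL fun _ρ h1 h2 =>
    crossEnt_criterion hf hfL hc hα hαL h1 h2

/-- The annealed limit on the cube at some density forces the first Hermite moment to vanish. -/
theorem mean_zero_of_cube_annealed (hf : Measurable f) {L : ℝ} (hfL : ∀ u, |f u| ≤ L) {α : ℝ}
    (hα : 0 < α)
    (h : Tendsto (fun N : ℕ => expectedPressure N ⌊α * N⌋₊ f) atTop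
      (𝓝 (α * Real.log (annealedConstant f)))) :
    ∫ x, x * Real.exp (f x) ∂(gaussianReal 0 1) = 0 :=
  hermMean_eq_zero_of_sphere_annealed hα hf hfL (sphere_tendsto_of_cube hα hf hfL h)

/-- Some density has the annealed limit on the sphere exactly when the first Hermite moment of the
potential vanishes. -/
theorem sphere_exists_annealed_iff (hf : Measurable f) {L : ℝ} (hL : 0 < L)
    (hfL : ∀ u, |f u| ≤ L) :
    (∃ α : ℝ, 0 < α ∧ Tendsto (fun N : ℕ => sphereExpectedPressure N ⌊α * N⌋₊ f) atTop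
      (𝓝 (α * Real.log (annealedConstant f)))) ↔
      ∫ x, x * Real.exp (f x) ∂(gaussianReal 0 1) = 0 := by
  constructor
  · rintro ⟨α, hα, h⟩
    exact hermMean_eq_zero_of_sphere_annealed hα hf hfL h
  · intro hc
    refine ⟨Real.exp (-(4 * L)) / 3, by positivity, ?_⟩
    exact sphere_annealed_of_mean_zero hf hL hfL hc (by positivity) le_rfl

end Vale.Agent.Lib.P157
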