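import Vale.Agent.Lib.P157.SphereTilt2
import Vale.Agent.Lib.P157.RSPsi

/-!
The sharp constant in the second moment bound when the first Hermite moment vanishes: the Cauchy-Schwarz
inequality along the semigroup boosts the crude bound to `m(ρ) - 1 ≤ ρ² (m(1) - 1)`.
-/

open MeasureTheory ProbabilityTheory Matrix Filter Topology
open scoped ENNReal NNReal

set_option linter.unusedSectionVars false

namespace Vale.Agent.Lib.P157

variable {f : ℝ → ℝ} {L : ℝ}

lemma noiseAvg_one (U : ℝ → ℝ) (v : ℝ) : noiseAvg U 1 v = U v := by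
  unfold noiseAvg
  simp

/-- Cauchy-Schwarz along the semigroup. -/
lemma secMoment_cs (hf : Measurable f) (hfL : ∀ u, |f u| ≤ L) {ρ : ℝ} (hρ : |ρ| ≤ 1) :
    (secMoment f ρ - 1) ^ 2 ≤ (secMoment f 1 - 1) * (secMoment f (ρ ^ 2) - 1) := by
  set U := normPot f with hU
  have hUm : Measurable U := measurable_normPot hf
  have hub := normPot_bounds hf hfL
  have hUb : ∀ t, |U t| ≤ Real.exp (2 * L) := fun t => by
    have h := hub t
    rw [abs_of_pos (lt_of_lt_of_le (Real.exp_pos _) h.1)]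
    exact h.2
  have hL : 0 ≤ L := le_trans (abs_nonneg _) (hfL 0)
  have h1L : 1 ≤ Real.exp (2 * L) := Real.one_le_exp (by positivity)
  have hNm := measurable_noiseAvg hUm ρ
  have hNb : ∀ v, |noiseAvg U ρ v| ≤ Real.exp (2 * L) := abs_noiseAvg_le hUm hUb ρ
  have hNint : Integrable (noiseAvg U ρ) (gaussianReal 0 1) :=
    Integrable.of_bound hNm.aestronglyMeasurable (Real.exp (2 * L))
      (Eventually.of_forall fun v => by rw [Real.norm_eq_abs]; exact hNb v)
  have hUint : Integrable U (gaussianReal 0 1) := integrable_normPot hf hfL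
  have hUU : Integrable (fun x => U x * U x) (gaussianReal 0 1) := integrable_bdd_mul' hUm hUb hUint
  have hUN : Integrable (fun x => U x * noiseAvg U ρ x) (gaussianReal 0 1) :=
    integrable_bdd_mul' hUm hUb hNint
  have hNN : Integrable (fun x => noiseAvg U ρ x ^ 2) (gaussianReal 0 1) := by
    have := integrable_bdd_mul' hNm hNb hNint
    refine this.congr (Eventually.of_forall fun x => ?_)
    simp only
    ring
  have i1 : ∫ x, U x ∂(gaussianReal 0 1) = 1 := integral_normPot' hf hfL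
  have i2 : ∫ x, noiseAvg U ρ x ∂(gaussianReal 0 1) = 1 := by
    rw [integral_noiseAvg hUm hUb hρ, i1]
  have i3 : ∫ x, U x * noiseAvg U ρ x ∂(gaussianReal 0 1) = secMoment f ρ := rfl
  have i4 : ∫ x, U x * U x ∂(gaussianReal 0 1) = secMoment f 1 := by
    unfold secMoment
    simp_rw [noiseAvg_one]
    rfl
  have i5 : ∫ x, noiseAvg U ρ x ^ 2 ∂(gaussianReal 0 1) = secMoment f (ρ ^ 2) :=
    integral_noiseAvg_sq hUm hUb hρ
  have hA : Integrable (fun x => (U x - 1) ^ 2) (gaussianReal 0 1) := by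
    have h := (hUU.sub (hUint.const_mul 2)).add (integrable_const (1 : ℝ))
    refine h.congr (Eventually.of_forall fun x => ?_)
    simp only [Pi.add_apply, Pi.sub_apply]
    ring
  have hB : Integrable (fun x => (noiseAvg U ρ x - 1) ^ 2) (gaussianReal 0 1) := by
    have h := (hNN.sub (hNint.const_mul 2)).add (integrable_const (1 : ℝ))
    refine h.congr (Eventually.of_forall fun x => ?_)
    simp only [Pi.add_apply, Pi.sub_apply]
    ring
  have hAB : Integrable (fun x => (U x - 1) * (noiseAvg U ρ x - 1)) (gaussianReal 0 1) := by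
    have h := ((hUN.sub hUint).sub hNint).add (integrable_const (1 : ℝ))
    refine h.congr (Eventually.of_forall fun x => ?_)
    simp only [Pi.add_apply, Pi.sub_apply]
    ring
  have j1 : ∫ x, (U x - 1) * (noiseAvg U ρ x - 1) ∂(gaussianReal 0 1) = secMoment f ρ - 1 := by
    have e : ∀ x, (U x - 1) * (noiseAvg U ρ x - 1) =
        U x * noiseAvg U ρ x - U x - noiseAvg U ρ x + 1 := fun x => by ring
    simp_rw [e]
    have hI1 : Integrable (fun x => U x * noiseAvg U ρ x - U x) (gaussianReal 0 1) := hUN.sub hUint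
    have hI2 : Integrable (fun x => U x * noiseAvg U ρ x - U x - noiseAvg U ρ x)
        (gaussianReal 0 1) := hI1.sub hNint
    rw [integral_add hI2 (integrable_const _), integral_sub hI1 hNint, integral_sub hUN hUint,
      i1, i2, i3]
    simp
  have j2 : ∫ x, (U x - 1) ^ 2 ∂(gaussianReal 0 1) = secMoment f 1 - 1 := by
    have e : ∀ x, (U x - 1) ^ 2 = U x * U x - 2 * U x + 1 := fun x => by ring
    simp_rw [e]
    have hI1 : Integrable (fun x => 2 * U x) (gaussianReal 0 1) := hUint.const_mul 2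
    have hI2 : Integrable (fun x => U x * U x - 2 * U x) (gaussianReal 0 1) := hUU.sub hI1
    rw [integral_add hI2 (integrable_const _), integral_sub hUU hI1, integral_const_mul, i1, i4]
    simp
    ring
  have j3 : ∫ x, (noiseAvg U ρ x - 1) ^ 2 ∂(gaussianReal 0 1) = secMoment f (ρ ^ 2) - 1 := by
    have e : ∀ x, (noiseAvg U ρ x - 1) ^ 2 = noiseAvg U ρ x ^ 2 - 2 * noiseAvg U ρ x + 1 :=
      fun x => by ring
    simp_rw [e]
    have hI1 : Integrable (fun x => 2 * noiseAvg U ρ x) (gaussianReal 0 1) := hNint.const_mul 2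
    have hI2 : Integrable (fun x => noiseAvg U ρ x ^ 2 - 2 * noiseAvg U ρ x)
        (gaussianReal 0 1) := hNN.sub hI1
    rw [integral_add hI2 (integrable_const _), integral_sub hNN hI1, integral_const_mul, i2, i5]
    simp
    ring
  have hcs := cs_real hA hB hAB
  rwa [j1, j2, j3] at hcs

lemma secMoment_one_sub_nonneg (hf : Measurable f) (hfL : ∀ u, |f u| ≤ L) :
    0 ≤ secMoment f 1 - 1 := by
  have h := secMoment_cs hf hfL (ρ := 1) (by simp)
  have e : (1 : ℝ) ^ 2 = 1 := by norm_num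
  rw [e] at h
  set U := normPot f with hU
  have hUm : Measurable U := measurable_normPot hf
  have hub := normPot_bounds hf hfL
  have hUb : ∀ t, |U t| ≤ Real.exp (2 * L) := fun t => by
    have h := hub t
    rw [abs_of_pos (lt_of_lt_of_le (Real.exp_pos _) h.1)]
    exact h.2
  have hUint : Integrable U (gaussianReal 0 1) := integrable_normPot hf hfL
  have hUU : Integrable (fun x => U x * U x) (gaussianReal 0 1) := integrable_bdd_mul' hUm hUb hUint
  have i4 : ∫ x, U x * U x ∂(gaussianReal 0 1) = secMoment f 1 := by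
    unfold secMoment
    simp_rw [noiseAvg_one]
    rfl
  have i1 : ∫ x, U x ∂(gaussianReal 0 1) = 1 := integral_normPot' hf hfL
  have h0 : 0 ≤ ∫ x, (U x - 1) ^ 2 ∂(gaussianReal 0 1) := integral_nonneg fun x => sq_nonneg _
  have j2 : ∫ x, (U x - 1) ^ 2 ∂(gaussianReal 0 1) = secMoment f 1 - 1 := by
    have e : ∀ x, (U x - 1) ^ 2 = U x * U x - 2 * U x + 1 := fun x => by ring
    simp_rw [e]
    have hI1 : Integrable (fun x => 2 * U x) (gaussianReal 0 1) := hUint.const_mul 2
    have hI2 : Integrable (fun x => U x * U x - 2 * U x) (gaussianReal 0 1) := hUU.sub hI1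
    rw [integral_add hI2 (integrable_const _), integral_sub hUU hI1, integral_const_mul, i1, i4]
    simp
    ring
  rw [← j2]
  exact h0

/-- The crude quadratic bound near zero. -/
lemma secMoment_crude (hf : Measurable f) (hfL : ∀ u, |f u| ≤ L)
    (hc : ∫ x, x * Real.exp (f x) ∂(gaussianReal 0 1) = 0) {ρ : ℝ} (hρ : ρ ^ 2 ≤ 1 / 2) :
    secMoment f ρ - 1 ≤ (3 / 2) * Real.exp (4 * L) * ρ ^ 2 := by
  have hρpos : 0 < 1 - ρ ^ 2 := by linarith
  set σ := Real.sqrt (1 - ρ ^ 2) with hσdef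
  have hσ : 0 < σ := Real.sqrt_pos.mpr hρpos
  have hs : σ ^ 2 = 1 - ρ ^ 2 := Real.sq_sqrt hρpos.le
  have h3 := secMoment_sub_one_le hf hfL hc hσ hs
  have hσ23 : 2 / 3 ≤ σ := by
    have : (2 / 3 : ℝ) ^ 2 ≤ σ ^ 2 := by
      rw [hs]
      norm_num
      linarith
    exact (abs_le_of_sq_le_sq' this hσ.le).2
  have h5 : ρ ^ 2 / σ ≤ (3 / 2) * ρ ^ 2 := by
    rw [div_le_iff₀ hσ]
    nlinarith [sq_nonneg ρ]
  have h6 := mul_le_mul_of_nonneg_left h5 (Real.exp_pos (4 * L)).le
  calc _ ≤ _ := h3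
    _ ≤ _ := h6
    _ = _ := by ring

/-- The boosted bound on `(0, 1)`. -/
lemma secMoment_le_pos (hf : Measurable f) (hfL : ∀ u, |f u| ≤ L)
    (hc : ∫ x, x * Real.exp (f x) ∂(gaussianReal 0 1) = 0) {ρ : ℝ} (h0 : 0 < ρ) (h1 : ρ < 1) :
    secMoment f ρ - 1 ≤ (secMoment f 1 - 1) * ρ ^ 2 := by
  set B := secMoment f 1 - 1 with hB
  have hB0 : 0 ≤ B := secMoment_one_sub_nonneg hf hfL
  rcases eq_or_lt_of_le hB0 with hB00 | hBpos
  · have h := secMoment_cs hf hfL (ρ := ρ) (by rw [abs_of_pos h0]; exact h1.le)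
    rw [← hB, ← hB00, zero_mul] at h
    rw [← hB00, zero_mul]
    nlinarith [sq_nonneg (secMoment f ρ - 1)]
  by_contra hcon
  push Not at hcon
  have hρ2 : 0 < ρ ^ 2 := by positivity
  set t0 := (secMoment f ρ - 1) / (B * ρ ^ 2) with ht0
  have ht01 : 1 < t0 := by
    rw [ht0, lt_div_iff₀ (by positivity)]
    linarith
  have hind : ∀ k : ℕ, t0 ^ (2 ^ k) * (B * (ρ ^ (2 ^ k)) ^ 2) ≤ secMoment f (ρ ^ (2 ^ k)) - 1 := by
    intro k
    induction k with
    | zero =>
      simp only [pow_zero, pow_one]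
      rw [ht0, div_mul_cancel₀ _ (by positivity)]
    | succ k ih =>
      set x := ρ ^ (2 ^ k) with hx
      set t := t0 ^ (2 ^ k) with ht
      have hxpos : 0 < x := by positivity
      have hx1 : x < 1 := pow_lt_one₀ h0.le h1 (by positivity)
      have htpos : 0 < t := by positivity
      have hcs := secMoment_cs hf hfL (ρ := x) (by rw [abs_of_pos hxpos]; exact hx1.le)
      rw [← hB] at hcs
      have e1 : ρ ^ (2 ^ (k + 1)) = x ^ 2 := by
        rw [hx, ← pow_mul, pow_succ]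
      have e2 : t0 ^ (2 ^ (k + 1)) = t ^ 2 := by
        rw [ht, ← pow_mul, pow_succ]
      rw [e1, e2]
      have hlow : 0 ≤ t * (B * x ^ 2) := by positivity
      have hsq : (t * (B * x ^ 2)) ^ 2 ≤ (secMoment f x - 1) ^ 2 :=
        pow_le_pow_left₀ hlow ih 2
      have h3 : B * (t ^ 2 * (B * (x ^ 2) ^ 2)) ≤ B * (secMoment f (x ^ 2) - 1) := by
        calc B * (t ^ 2 * (B * (x ^ 2) ^ 2)) = (t * (B * x ^ 2)) ^ 2 := by ring
          _ ≤ _ := hsq
          _ ≤ _ := hcs
      exact le_of_mul_le_mul_left h3 hBpos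
  -- both sequences diverge
  have hT : Tendsto (fun k : ℕ => (2 : ℕ) ^ k) atTop atTop :=
    tendsto_atTop_mono (fun k => (Nat.lt_two_pow_self (n := k)).le) tendsto_id
  have hS1 : Tendsto (fun k : ℕ => t0 ^ (2 ^ k)) atTop atTop :=
    (tendsto_pow_atTop_atTop_of_one_lt ht01).comp hT
  have hS2 : Tendsto (fun k : ℕ => ρ ^ (2 ^ k)) atTop (𝓝 0) :=
    (tendsto_pow_atTop_nhds_zero_of_lt_one h0.le h1).comp hT
  have hev1 := hS1.eventually_gt_atTop ((3 / 2) * Real.exp (4 * L) / B)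
  have hev2 : ∀ᶠ k : ℕ in atTop, ρ ^ (2 ^ k) < 1 / 2 :=
    hS2.eventually_lt_const (by norm_num)
  obtain ⟨k, hk1, hk2⟩ := (hev1.and hev2).exists
  set x := ρ ^ (2 ^ k) with hx
  have hxpos : 0 < x := by positivity
  have hx2 : x ^ 2 ≤ 1 / 2 := by nlinarith
  have h4 := hind k
  have h5 := secMoment_crude hf hfL hc hx2
  have hx2pos : 0 < x ^ 2 := by positivity
  have h6 : t0 ^ (2 ^ k) * (B * x ^ 2) ≤ (3 / 2) * Real.exp (4 * L) * x ^ 2 := h4.trans h5
  have h7 : t0 ^ (2 ^ k) * B ≤ (3 / 2) * Real.exp (4 * L) := by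
    have : (t0 ^ (2 ^ k) * B) * x ^ 2 ≤ ((3 / 2) * Real.exp (4 * L)) * x ^ 2 := by
      calc _ = t0 ^ (2 ^ k) * (B * x ^ 2) := by ring
        _ ≤ _ := h6
    exact le_of_mul_le_mul_right this hx2pos
  rw [div_lt_iff₀ hBpos] at hk1
  linarith

/-- The second moment function at every correlation, when the first Hermite moment vanishes. -/
theorem secMoment_le (hf : Measurable f) (hfL : ∀ u, |f u| ≤ L)
    (hc : ∫ x, x * Real.exp (f x) ∂(gaussianReal 0 1) = 0) {ρ : ℝ} (h1 : -1 ≤ ρ) (h2 : ρ ≤ 1) :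
    secMoment f ρ - 1 ≤ (secMoment f 1 - 1) * ρ ^ 2 := by
  have hB0 := secMoment_one_sub_nonneg hf hfL
  have hρ : |ρ| ≤ 1 := abs_le.mpr ⟨h1, h2⟩
  have hpos : ∀ x : ℝ, 0 < x → x ≤ 1 → secMoment f x - 1 ≤ (secMoment f 1 - 1) * x ^ 2 := by
    intro x hx0 hx1
    rcases eq_or_lt_of_le hx1 with rfl | hlt
    · simp
    · exact secMoment_le_pos hf hfL hc hx0 hlt
  rcases lt_trichotomy ρ 0 with hneg | hzero | hp
  · have hcs := secMoment_cs hf hfL hρ
    have hb := hpos (ρ ^ 2) (sq_pos_iff.mpr hneg.ne) (by rw [← sq_abs]; exact pow_le_one₀ (abs_nonneg _) hρ)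
    have hnn : 0 ≤ (secMoment f 1 - 1) * ρ ^ 2 := by positivity
    have h3 : (secMoment f ρ - 1) ^ 2 ≤ ((secMoment f 1 - 1) * ρ ^ 2) ^ 2 := by
      calc _ ≤ _ := hcs
        _ ≤ (secMoment f 1 - 1) * ((secMoment f 1 - 1) * (ρ ^ 2) ^ 2) :=
            mul_le_mul_of_nonneg_left hb hB0
        _ = _ := by ring
    exact (abs_le_of_sq_le_sq' h3 hnn).2
  · subst hzero
    have := secMoment_crude hf hfL hc (ρ := 0) (by norm_num)
    simpa using this
  · exact hpos ρ hp h2

lemma secMoment_one_eq :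
    secMoment f 1 - 1 =
      (∫ x, Real.exp (f x) ^ 2 ∂(gaussianReal 0 1)) / annealedConstant f ^ 2 - 1 := by
  have : secMoment f 1 =
      (∫ x, Real.exp (f x) ^ 2 ∂(gaussianReal 0 1)) / annealedConstant f ^ 2 := by
    unfold secMoment
    simp_rw [noiseAvg_one]
    rw [← integral_div]
    refine integral_congr_ae (Eventually.of_forall fun x => ?_)
    simp only
    unfold normPot
    ring
  rw [this]

/-- The annealed limit on the sphere up to the explicit density `1 / (2 Var U)`. -/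
theorem sphere_annealed_of_var (hf : Measurable f) {L : ℝ} (hL : 0 < L)
    (hfL : ∀ u, |f u| ≤ L) (hc : ∫ x, x * Real.exp (f x) ∂(gaussianReal 0 1) = 0) {α : ℝ}
    (hα : 0 < α) (hαB : α * (secMoment f 1 - 1) ≤ 1 / 2) :
    Tendsto (fun N : ℕ => sphereExpectedPressure N ⌊α * N⌋₊ f) atTop
      (𝓝 (α * Real.log (annealedConstant f))) := by
  refine sphere_annealed_of_secMoment hα hf hL hfL fun ρ h1 h2 => ?_
  have hρ1 : ρ ^ 2 < 1 := by nlinarith
  have hρpos : 0 < 1 - ρ ^ 2 := by linarith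
  have hmb := secMoment_bounds hf hfL ρ
  have hmpos : 0 < secMoment f ρ := lt_of_lt_of_le (Real.exp_pos _) hmb.1
  have h3 := Real.log_le_sub_one_of_pos hmpos
  have h4 := secMoment_le hf hfL hc h1.le h2.le
  have h5 : Real.log (1 - ρ ^ 2) ≤ -ρ ^ 2 := by
    have := Real.log_le_sub_one_of_pos hρpos
    linarith
  have h6 : α * Real.log (secMoment f ρ) ≤ α * ((secMoment f 1 - 1) * ρ ^ 2) :=
    mul_le_mul_of_nonneg_left (h3.trans h4) hα.le
  have h7 : α * ((secMoment f 1 - 1) * ρ ^ 2) ≤ (1 / 2) * ρ ^ 2 := by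
    have := mul_le_mul_of_nonneg_right hαB (sq_nonneg ρ)
    calc _ = (α * (secMoment f 1 - 1)) * ρ ^ 2 := by ring
      _ ≤ _ := this
  linarith

/-- The annealed limit on the cube up to the explicit density `1 / (2 Var U)`. -/
theorem cube_annealed_of_var (hf : Measurable f) {L : ℝ} (hL : 0 < L)
    (hfL : ∀ u, |f u| ≤ L) (hc : ∫ x, x * Real.exp (f x) ∂(gaussianReal 0 1) = 0) {α : ℝ}
    (hα : 0 < α) (hαB : α * (secMoment f 1 - 1) ≤ 1 / 2) :
    Tendsto (fun N : ℕ => expectedPressure N ⌊α * N⌋₊ f) atTop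
      (𝓝 (α * Real.log (annealedConstant f))) := by
  refine annealed_of_crossEnt_le hα hf hL hfL fun ρ h1 h2 => ?_
  have hrate := shellRate_ge_sq h1 h2
  have h3 := crossEnt_le_secMoment hf hfL ρ
  have h4 := secMoment_le hf hfL hc h1 h2
  have h6 : α * crossEnt f ρ ≤ α * ((secMoment f 1 - 1) * ρ ^ 2) :=
    mul_le_mul_of_nonneg_left (h3.trans h4) hα.le
  have h7 : α * ((secMoment f 1 - 1) * ρ ^ 2) ≤ (1 / 2) * ρ ^ 2 := by
    have := mul_le_mul_of_nonneg_right hαB (sq_nonneg ρ)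
    calc _ = (α * (secMoment f 1 - 1)) * ρ ^ 2 := by ring
      _ ≤ _ := this
  linarith

end Vale.Agent.Lib.P157
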