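import Vale.Agent.Lib.P157.SphereRot

/-!
The sphere pressure dominates the cube pressure: a uniform point of the sphere is a Haar rotation
of a fixed point of the cube, Gaussian patterns are rotation invariant, and the logarithm is concave.
-/

open MeasureTheory ProbabilityTheory Matrix Filter Topology
open scoped ENNReal NNReal

set_option linter.unusedSectionVars false

namespace Vale.Agent.Lib.P157

variable {N M : ℕ} {f : ℝ → ℝ}

/-- The integrand of the partition function at a vector `v`. -/
noncomputable def hamExp (f : ℝ → ℝ) (G : Fin M → Fin N → ℝ) (v : Fin N → ℝ) : ℝ :=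
  Real.exp (∑ a, f (∑ i, G a i * v i))

lemma measurable_hamExp_joint (hf : Measurable f) :
    Measurable (fun p : (Fin M → Fin N → ℝ) × (Fin N → ℝ) => hamExp f p.1 p.2) := by
  unfold hamExp
  refine Real.measurable_exp.comp (Finset.measurable_sum _ fun a _ => hf.comp ?_)
  refine Finset.measurable_sum _ fun i _ => Measurable.mul ?_ ?_
  · exact (measurable_pi_apply i).comp ((measurable_pi_apply a).comp measurable_fst)
  · exact (measurable_pi_apply i).comp measurable_snd

lemma measurable_hamExp (hf : Measurable f) (G : Fin M → Fin N → ℝ) :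
    Measurable (hamExp f G) :=
  (measurable_hamExp_joint hf).comp (measurable_const.prodMk measurable_id)

lemma hamExp_bounds {L : ℝ} (hfL : ∀ u, |f u| ≤ L) (G : Fin M → Fin N → ℝ) (v : Fin N → ℝ) :
    Real.exp (-(M * L)) ≤ hamExp f G v ∧ hamExp f G v ≤ Real.exp (M * L) := by
  unfold hamExp
  have h1 : |∑ a, f (∑ i, G a i * v i)| ≤ M * L := by
    calc _ ≤ ∑ a : Fin M, |f (∑ i, G a i * v i)| := Finset.abs_sum_le_sum_abs _ _
      _ ≤ ∑ _a : Fin M, L := Finset.sum_le_sum fun a _ => hfL _
      _ = M * L := by simp
  exact ⟨Real.exp_le_exp.mpr (abs_le.mp h1).1, Real.exp_le_exp.mpr (abs_le.mp h1).2⟩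

/-- The unit vector of a cube point. -/
noncomputable def cubeVec (x : Fin N → Bool) : Fin N → ℝ := fun i => spinValue (x i) / Real.sqrt N

lemma cubeVec_dot (hN : 1 ≤ N) (x : Fin N → Bool) : cubeVec x ⬝ᵥ cubeVec x = 1 := by
  have hN' : (0 : ℝ) < N := by exact_mod_cast hN
  have h2 : ∀ i, cubeVec x i * cubeVec x i = 1 / N := by
    intro i
    unfold cubeVec
    rw [← sq, div_pow, spinValue_sq, Real.sq_sqrt hN'.le]
  simp only [dotProduct, h2]
  simp
  field_simp

lemma partitionFn_rot (f : ℝ → ℝ) (G : Fin M → Fin N → ℝ) (O : OrthG N) :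
    partitionFn f (fun a => O.1 *ᵥ G a) =
      (∑ x : Fin N → Bool, hamExp f G (O.1ᵀ *ᵥ cubeVec x)) / 2 ^ N := by
  unfold partitionFn hamExp
  congr 1
  refine Finset.sum_congr rfl fun x _ => ?_
  congr 1
  refine Finset.sum_congr rfl fun a _ => ?_
  congr 1
  rw [patternField_eq]
  change (O.1 *ᵥ G a) ⬝ᵥ cubeVec x = G a ⬝ᵥ (O.1ᵀ *ᵥ cubeVec x)
  rw [Matrix.mulVec_transpose, dotProduct_comm (O.1 *ᵥ G a), Matrix.dotProduct_mulVec,
    dotProduct_comm]

lemma sphereField_eq (hN : 1 ≤ N) (u : Metric.sphere (0 : EucN N) 1) (g : Fin N → ℝ) :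
    sphereField u g = ∑ i, g i * (u : EucN N) i := by
  have hN' : (0 : ℝ) < Real.sqrt N := Real.sqrt_pos.mpr (by exact_mod_cast hN)
  unfold sphereField
  rw [Finset.sum_div]
  refine Finset.sum_congr rfl fun i _ => ?_
  field_simp

lemma spherePartitionFn_eq (hN : 1 ≤ N) (f : ℝ → ℝ) (G : Fin M → Fin N → ℝ) :
    spherePartitionFn f G = ∫ u, hamExp f G (u : EucN N).ofLp ∂(sphereLaw N) := by
  unfold spherePartitionFn hamExp
  simp_rw [sphereField_eq hN]

/-- The sphere partition function is the Haar average of the rotated cube partition functions. -/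
lemma spherePartitionFn_eq_haar [NeZero N] (hf : Measurable f) {L : ℝ} (hfL : ∀ u, |f u| ≤ L)
    (G : Fin M → Fin N → ℝ) :
    spherePartitionFn f G = ∫ O : OrthG N, partitionFn f (fun a => O.1 *ᵥ G a) ∂(haarG N) := by
  have hN : 1 ≤ N := Nat.one_le_iff_ne_zero.mpr (NeZero.ne N)
  simp_rw [partitionFn_rot]
  rw [integral_div, integral_finsetSum]
  · have h1 : ∀ x : Fin N → Bool, ∫ O : OrthG N, hamExp f G (O.1ᵀ *ᵥ cubeVec x) ∂(haarG N) =
        spherePartitionFn f G := by
      intro x
      rw [spherePartitionFn_eq hN]
      refine integral_haar_eq_sphere (hamExp f G) (measurable_hamExp hf G)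
        (C := Real.exp (M * L)) (fun v => ?_) _ (cubeVec_dot hN x)
      have := hamExp_bounds hfL G v
      rw [abs_of_pos (lt_of_lt_of_le (Real.exp_pos _) this.1)]
      exact this.2
    simp_rw [h1]
    simp
  · intro x _
    have hmO : Measurable fun O : OrthG N => O.1ᵀ *ᵥ cubeVec x := by
      refine measurable_pi_iff.mpr fun i => ?_
      simp only [Matrix.mulVec, dotProduct, Matrix.transpose_apply]
      refine Finset.measurable_sum _ fun j _ => Measurable.mul_const ?_ _
      exact (continuous_subtype_val.matrix_elem j i).measurable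
    refine Integrable.of_bound ((measurable_hamExp hf G).comp hmO).aestronglyMeasurable
      (Real.exp (M * L)) (Eventually.of_forall fun O => ?_)
    have := hamExp_bounds hfL G (O.1ᵀ *ᵥ cubeVec x)
    simp only [Real.norm_eq_abs]
    rw [abs_of_pos (lt_of_lt_of_le (Real.exp_pos _) this.1)]
    exact this.2

lemma measurable_partitionFn (hf : Measurable f) :
    Measurable (fun G : Fin M → Fin N → ℝ => partitionFn f G) := by
  unfold partitionFn
  refine Measurable.div_const (Finset.measurable_sum _ fun x _ => ?_) _
  refine Real.measurable_exp.comp (Finset.measurable_sum _ fun a _ => ?_)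
  exact hf.comp ((measurable_patternField x).comp (measurable_pi_apply a))

lemma partitionFn_bounds {L : ℝ} (hfL : ∀ u, |f u| ≤ L) (G : Fin M → Fin N → ℝ) :
    Real.exp (-(M * L)) ≤ partitionFn f G ∧ partitionFn f G ≤ Real.exp (M * L) := by
  have hrot := partitionFn_rot f G (1 : OrthG N)
  have h1 : (fun a => ((1 : OrthG N).1 : Matrix (Fin N) (Fin N) ℝ) *ᵥ G a) = G := by
    ext a i
    simp
  rw [h1] at hrot
  rw [hrot]
  have hcard : ((Finset.univ : Finset (Fin N → Bool)).card : ℝ) = 2 ^ N := by
    simp
  constructor
  · rw [le_div_iff₀ (by positivity)]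
    calc _ = ∑ _x : Fin N → Bool, Real.exp (-(M * L)) := by
            rw [Finset.sum_const, nsmul_eq_mul, hcard]; ring
      _ ≤ _ := Finset.sum_le_sum fun x _ => (hamExp_bounds hfL G _).1
  · rw [div_le_iff₀ (by positivity)]
    calc _ ≤ ∑ _x : Fin N → Bool, Real.exp (M * L) :=
            Finset.sum_le_sum fun x _ => (hamExp_bounds hfL G _).2
      _ = _ := by rw [Finset.sum_const, nsmul_eq_mul, hcard]; ring

lemma measurable_rot_patterns :
    Measurable (fun p : (Fin M → Fin N → ℝ) × OrthG N => fun a => p.2.1 *ᵥ p.1 a) := by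
  refine measurable_pi_iff.mpr fun a => measurable_pi_iff.mpr fun i => ?_
  simp only [Matrix.mulVec, dotProduct]
  refine Finset.measurable_sum _ fun j _ => Measurable.mul ?_ ?_
  · exact (continuous_subtype_val.matrix_elem i j).measurable.comp measurable_snd
  · exact (measurable_pi_apply j).comp ((measurable_pi_apply a).comp measurable_fst)

lemma spherePartitionFn_bounds [NeZero N] (hf : Measurable f) {L : ℝ} (hfL : ∀ u, |f u| ≤ L)
    (G : Fin M → Fin N → ℝ) :
    Real.exp (-(M * L)) ≤ spherePartitionFn f G ∧ spherePartitionFn f G ≤ Real.exp (M * L) := by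
  have hN : 1 ≤ N := Nat.one_le_iff_ne_zero.mpr (NeZero.ne N)
  rw [spherePartitionFn_eq hN]
  have hmu : Measurable fun u : Metric.sphere (0 : EucN N) 1 => hamExp f G (u : EucN N).ofLp := by
    refine (measurable_hamExp hf G).comp ?_
    refine measurable_pi_iff.mpr fun i => ?_
    have : Continuous fun u : Metric.sphere (0 : EucN N) 1 => (u : EucN N) i := by
      fun_prop
    exact this.measurable
  have hint : Integrable (fun u : Metric.sphere (0 : EucN N) 1 => hamExp f G (u : EucN N).ofLp)
      (sphereLaw N) := by
    refine Integrable.of_bound hmu.aestronglyMeasurable (Real.exp (M * L))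
      (Eventually.of_forall fun u => ?_)
    have := hamExp_bounds hfL G (u : EucN N).ofLp
    rw [Real.norm_eq_abs, abs_of_pos (lt_of_lt_of_le (Real.exp_pos _) this.1)]
    exact this.2
  constructor
  · calc Real.exp (-(M * L)) = ∫ _u : Metric.sphere (0 : EucN N) 1, Real.exp (-(M * L)) ∂(sphereLaw N) := by
          simp
      _ ≤ _ := integral_mono (integrable_const _) hint fun u => (hamExp_bounds hfL G _).1
  · calc _ ≤ ∫ _u : Metric.sphere (0 : EucN N) 1, Real.exp (M * L) ∂(sphereLaw N) :=
          integral_mono hint (integrable_const _) fun u => (hamExp_bounds hfL G _).2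
      _ = _ := by simp

lemma measurable_sphere_coord (i : Fin N) :
    Measurable fun u : Metric.sphere (0 : EucN N) 1 => (u : EucN N) i := by
  have : Continuous fun u : Metric.sphere (0 : EucN N) 1 => (u : EucN N) i := by
    fun_prop
  exact this.measurable

lemma measurable_hamExp_sphere (hf : Measurable f) :
    Measurable (fun p : (Fin M → Fin N → ℝ) × Metric.sphere (0 : EucN N) 1 =>
      hamExp f p.1 (p.2 : EucN N).ofLp) := by
  unfold hamExp
  refine Real.measurable_exp.comp (Finset.measurable_sum _ fun a _ => hf.comp ?_)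
  refine Finset.measurable_sum _ fun i _ => Measurable.mul ?_ ?_
  · exact (measurable_pi_apply i).comp ((measurable_pi_apply a).comp measurable_fst)
  · exact (measurable_sphere_coord i).comp measurable_snd

lemma measurable_spherePartitionFn [NeZero N] (hf : Measurable f) :
    Measurable (fun G : Fin M → Fin N → ℝ => spherePartitionFn f G) := by
  have hN : 1 ≤ N := Nat.one_le_iff_ne_zero.mpr (NeZero.ne N)
  have h1 : (fun G : Fin M → Fin N → ℝ => spherePartitionFn f G) =
      fun G => ∫ u, hamExp f G (u : EucN N).ofLp ∂(sphereLaw N) :=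
    funext (spherePartitionFn_eq hN f)
  rw [h1]
  exact ((measurable_hamExp_sphere hf).stronglyMeasurable.integral_prod_right'
    (ν := sphereLaw N)).measurable

/-- The logarithm is concave: the logarithm of an average of numbers at least `a > 0` is at least
the average of the logarithms. -/
lemma log_integral_ge {Ω : Type*} [MeasurableSpace Ω] {μ : Measure Ω} [IsProbabilityMeasure μ]
    {g : Ω → ℝ} (hg : Measurable g) {a b : ℝ} (ha : 0 < a) (hgb : ∀ ω, a ≤ g ω ∧ g ω ≤ b) :
    ∫ ω, Real.log (g ω) ∂μ ≤ Real.log (∫ ω, g ω ∂μ) := by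
  have hconc : ConcaveOn ℝ (Set.Ici a) Real.log :=
    strictConcaveOn_log_Ioi.concaveOn.subset (fun x hx => lt_of_lt_of_le ha hx) (convex_Ici a)
  have hcont : ContinuousOn Real.log (Set.Ici a) :=
    Real.continuousOn_log.mono fun x hx => ne_of_gt (lt_of_lt_of_le ha hx)
  have hi : Integrable g μ := by
    refine Integrable.of_bound hg.aestronglyMeasurable b (Eventually.of_forall fun ω => ?_)
    rw [Real.norm_eq_abs, abs_of_pos (lt_of_lt_of_le ha (hgb ω).1)]
    exact (hgb ω).2
  have hi2 : Integrable (Real.log ∘ g) μ := by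
    refine Integrable.of_bound (Real.measurable_log.comp hg).aestronglyMeasurable
      (max |Real.log a| |Real.log b|) (Eventually.of_forall fun ω => ?_)
    have h1 : Real.log a ≤ Real.log (g ω) := Real.log_le_log ha (hgb ω).1
    have h2 : Real.log (g ω) ≤ Real.log b :=
      Real.log_le_log (lt_of_lt_of_le ha (hgb ω).1) (hgb ω).2
    rw [Real.norm_eq_abs, Function.comp, abs_le]
    constructor
    · have := neg_abs_le (Real.log a)
      have h3 := le_max_left |Real.log a| |Real.log b|
      linarith
    · have := le_abs_self (Real.log b)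
      have h3 := le_max_right |Real.log a| |Real.log b|
      linarith
  exact hconc.le_map_integral hcont isClosed_Ici (Eventually.of_forall fun ω => (hgb ω).1) hi hi2

/-- The cube pressure is at most the sphere pressure, at every finite size. -/
theorem expectedPressure_le_sphere (hN : 1 ≤ N) (hf : Measurable f) {L : ℝ} (hfL : ∀ u, |f u| ≤ L) :
    expectedPressure N M f ≤ sphereExpectedPressure N M f := by
  have : NeZero N := ⟨by omega⟩
  have hN' : (0 : ℝ) ≤ N := by positivity
  unfold expectedPressure sphereExpectedPressure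
  refine div_le_div_of_nonneg_right ?_ hN'
  have hprobG : IsProbabilityMeasure (patternsLaw N M) := by
    unfold patternsLaw patternLaw
    infer_instance
  set a := Real.exp (-(M * L)) with ha
  set b := Real.exp (M * L) with hb
  have ha0 : 0 < a := Real.exp_pos _
  have hbd : ∀ G : Fin M → Fin N → ℝ, |Real.log (partitionFn f G)| ≤ max |Real.log a| |Real.log b| := by
    intro G
    have hb1 := partitionFn_bounds hfL G
    have h1 : Real.log a ≤ Real.log (partitionFn f G) := Real.log_le_log ha0 hb1.1
    have h2 : Real.log (partitionFn f G) ≤ Real.log b :=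
      Real.log_le_log (lt_of_lt_of_le ha0 hb1.1) hb1.2
    rw [abs_le]
    constructor
    · have := neg_abs_le (Real.log a)
      have h3 := le_max_left |Real.log a| |Real.log b|
      linarith
    · have := le_abs_self (Real.log b)
      have h3 := le_max_right |Real.log a| |Real.log b|
      linarith
  have hmlog : Measurable (fun G : Fin M → Fin N → ℝ => Real.log (partitionFn f G)) :=
    Real.measurable_log.comp (measurable_partitionFn hf)
  have hmjoint : Measurable (fun p : (Fin M → Fin N → ℝ) × OrthG N =>
      Real.log (partitionFn f (fun a => p.2.1 *ᵥ p.1 a))) :=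
    hmlog.comp measurable_rot_patterns
  have hintJ : Integrable (Function.uncurry fun (G : Fin M → Fin N → ℝ) (O : OrthG N) =>
      Real.log (partitionFn f (fun a => O.1 *ᵥ G a))) ((patternsLaw N M).prod (haarG N)) := by
    refine Integrable.of_bound hmjoint.aestronglyMeasurable (max |Real.log a| |Real.log b|)
      (Eventually.of_forall fun p => ?_)
    simpa [Function.uncurry] using hbd _
  -- the rotated cube average
  have hrotint : ∀ O : OrthG N,
      ∫ G, Real.log (partitionFn f (fun a => O.1 *ᵥ G a)) ∂(patternsLaw N M) =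
        ∫ G, Real.log (partitionFn f G) ∂(patternsLaw N M) := by
    intro O
    have hmp := patternsLaw_rot (M := M) O
    conv_rhs => rw [← hmp.map_eq]
    rw [integral_map hmp.measurable.aemeasurable hmlog.aestronglyMeasurable]
  have h1 : ∫ G, Real.log (partitionFn f G) ∂(patternsLaw N M) =
      ∫ G, ∫ O : OrthG N, Real.log (partitionFn f (fun a => O.1 *ᵥ G a)) ∂(haarG N) ∂(patternsLaw N M) := by
    rw [integral_integral_swap hintJ]
    simp_rw [hrotint]
    simp
  rw [h1]
  have hsph : ∀ G : Fin M → Fin N → ℝ,
      ∫ O : OrthG N, Real.log (partitionFn f (fun a => O.1 *ᵥ G a)) ∂(haarG N) ≤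
        Real.log (spherePartitionFn f G) := by
    intro G
    rw [spherePartitionFn_eq_haar hf hfL G]
    have hmO : Measurable fun O : OrthG N => partitionFn f (fun a => O.1 *ᵥ G a) :=
      (measurable_partitionFn hf).comp
        (measurable_rot_patterns.comp (measurable_const.prodMk measurable_id))
    exact log_integral_ge hmO ha0 fun O => partitionFn_bounds hfL _
  have hbds := spherePartitionFn_bounds (N := N) (M := M) hf hfL
  refine integral_mono ?_ ?_ hsph
  · exact hintJ.integral_prod_left
  · refine Integrable.of_bound (Real.measurable_log.comp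
      (measurable_spherePartitionFn hf)).aestronglyMeasurable
      (max |Real.log a| |Real.log b|) (Eventually.of_forall fun G => ?_)
    have hb1 := hbds G
    have h1 : Real.log a ≤ Real.log (spherePartitionFn f G) := Real.log_le_log ha0 hb1.1
    have h2 : Real.log (spherePartitionFn f G) ≤ Real.log b :=
      Real.log_le_log (lt_of_lt_of_le ha0 hb1.1) hb1.2
    rw [Real.norm_eq_abs, abs_le]
    constructor
    · have := neg_abs_le (Real.log a)
      have h3 := le_max_left |Real.log a| |Real.log b|
      linarith
    · have := le_abs_self (Real.log b)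
      have h3 := le_max_right |Real.log a| |Real.log b|
      linarith

lemma integral_partitionFn (hN : 1 ≤ N) (hf : Measurable f) {L : ℝ} (hfL : ∀ u, |f u| ≤ L) :
    ∫ G, partitionFn f G ∂(patternsLaw N M) = annealedConstant f ^ M := by
  have hprobg : IsProbabilityMeasure (patternLaw N) := by
    unfold patternLaw
    infer_instance
  have h1 : ∀ x : Fin N → Bool, ∫ G, Real.exp (∑ a, f (patternField x (G a))) ∂(patternsLaw N M) =
      annealedConstant f ^ M := by
    intro x
    simp_rw [Real.exp_sum]
    unfold patternsLaw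
    rw [integral_fintype_prod_eq_prod (𝕜 := ℝ)
      (fun (_ : Fin M) (g : Fin N → ℝ) => Real.exp (f (patternField x g)))]
    simp [integral_exp_field hN hf x]
  unfold partitionFn
  rw [integral_div, integral_finsetSum]
  · simp_rw [h1]
    simp
  · intro x _
    have hm : Measurable (fun G : Fin M → Fin N → ℝ => Real.exp (∑ a, f (patternField x (G a)))) :=
      Real.measurable_exp.comp (Finset.measurable_sum _ fun a _ =>
        hf.comp ((measurable_patternField x).comp (measurable_pi_apply a)))
    have hprobG : IsProbabilityMeasure (patternsLaw N M) := by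
      unfold patternsLaw
      infer_instance
    refine Integrable.of_bound hm.aestronglyMeasurable (Real.exp (M * L))
      (Eventually.of_forall fun G => ?_)
    rw [Real.norm_eq_abs, abs_of_pos (Real.exp_pos _)]
    refine Real.exp_le_exp.mpr ?_
    calc _ ≤ ∑ _a : Fin M, L := Finset.sum_le_sum fun a _ => (abs_le.mp (hfL _)).2
      _ = M * L := by simp

lemma integral_spherePartitionFn (hN : 1 ≤ N) (hf : Measurable f) {L : ℝ} (hfL : ∀ u, |f u| ≤ L) :
    ∫ G, spherePartitionFn f G ∂(patternsLaw N M) = annealedConstant f ^ M := by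
  have : NeZero N := ⟨by omega⟩
  have hprobG : IsProbabilityMeasure (patternsLaw N M) := by
    unfold patternsLaw patternLaw
    infer_instance
  simp_rw [spherePartitionFn_eq_haar hf hfL]
  have hmjoint : Measurable (fun p : (Fin M → Fin N → ℝ) × OrthG N =>
      partitionFn f (fun a => p.2.1 *ᵥ p.1 a)) :=
    (measurable_partitionFn hf).comp measurable_rot_patterns
  have hintJ : Integrable (Function.uncurry fun (G : Fin M → Fin N → ℝ) (O : OrthG N) =>
      partitionFn f (fun a => O.1 *ᵥ G a)) ((patternsLaw N M).prod (haarG N)) := by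
    refine Integrable.of_bound hmjoint.aestronglyMeasurable (Real.exp (M * L))
      (Eventually.of_forall fun p => ?_)
    have hb := partitionFn_bounds (N := N) (M := M) hfL (fun a => p.2.1 *ᵥ p.1 a)
    simp only [Function.uncurry, Real.norm_eq_abs]
    rw [abs_of_pos (lt_of_lt_of_le (Real.exp_pos _) hb.1)]
    exact hb.2
  rw [integral_integral_swap hintJ]
  have hrotint : ∀ O : OrthG N,
      ∫ G, partitionFn f (fun a => O.1 *ᵥ G a) ∂(patternsLaw N M) = annealedConstant f ^ M := by
    intro O
    have hmp := patternsLaw_rot (M := M) O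
    rw [← integral_partitionFn (M := M) hN hf hfL]
    conv_rhs => rw [← hmp.map_eq]
    rw [integral_map hmp.measurable.aemeasurable (measurable_partitionFn hf).aestronglyMeasurable]
  simp_rw [hrotint]
  simp

/-- The sphere pressure is at most the annealed value, at every finite size. -/
theorem sphereExpectedPressure_le (hN : 1 ≤ N) (hf : Measurable f) {L : ℝ} (hfL : ∀ u, |f u| ≤ L) :
    sphereExpectedPressure N M f ≤ (M / N : ℝ) * Real.log (annealedConstant f) := by
  have : NeZero N := ⟨by omega⟩
  have hN' : (0 : ℝ) < N := by exact_mod_cast hN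
  have hprobG : IsProbabilityMeasure (patternsLaw N M) := by
    unfold patternsLaw patternLaw
    infer_instance
  have h := log_integral_ge (μ := patternsLaw N M) (measurable_spherePartitionFn (N := N) (M := M) hf)
    (Real.exp_pos (-(M * L))) (spherePartitionFn_bounds hf hfL)
  rw [integral_spherePartitionFn hN hf hfL, Real.log_pow] at h
  unfold sphereExpectedPressure
  rw [div_le_iff₀ hN']
  calc _ ≤ _ := h
    _ = _ := by field_simp

/-- If the cube pressure has the annealed limit, so has the sphere pressure. -/
theorem sphere_tendsto_of_cube {α : ℝ} (hα : 0 < α) (hf : Measurable f) {L : ℝ}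
    (hfL : ∀ u, |f u| ≤ L)
    (h : Tendsto (fun N : ℕ => expectedPressure N ⌊α * N⌋₊ f) atTop
      (𝓝 (α * Real.log (annealedConstant f)))) :
    Tendsto (fun N : ℕ => sphereExpectedPressure N ⌊α * N⌋₊ f) atTop
      (𝓝 (α * Real.log (annealedConstant f))) := by
  have h1 : Tendsto (fun N : ℕ => ((⌊α * N⌋₊ : ℕ) / N : ℝ)) atTop (𝓝 α) :=
    (tendsto_nat_floor_mul_div_atTop hα.le).comp tendsto_natCast_atTop_atTop
  have h2 := h1.mul_const (Real.log (annealedConstant f))
  refine tendsto_of_tendsto_of_tendsto_of_le_of_le' h h2 ?_ ?_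
  · filter_upwards [eventually_ge_atTop 1] with N hN
    exact expectedPressure_le_sphere hN hf hfL
  · filter_upwards [eventually_ge_atTop 1] with N hN
    exact sphereExpectedPressure_le hN hf hfL

end Vale.Agent.Lib.P157
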