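import Vale.Agent.Lib.P157.GaussFacts

/-!
The window potential: Gaussian mass estimates and bounds on its noise average.
-/

open MeasureTheory ProbabilityTheory
open scoped NNReal ENNReal

set_option linter.unusedSectionVars false

namespace Vale.Agent.Lib.P157

/-- Numerical bounds on the Gaussian density at `0` and at `1`. -/
lemma sqrt_two_pi_ge : (5 / 2 : ℝ) ≤ Real.sqrt (2 * Real.pi) := by
  apply Real.le_sqrt_of_sq_le
  have := Real.pi_gt_d2
  nlinarith

lemma sqrt_two_pi_le : Real.sqrt (2 * Real.pi) ≤ (13 / 5 : ℝ) := by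
  apply Real.sqrt_le_iff.mpr
  constructor
  · norm_num
  · have := Real.pi_lt_d2
    nlinarith

lemma exp_half_le : Real.exp (1 / 2) ≤ (17 / 10 : ℝ) := by
  have h1 : Real.exp (1 / 2) ^ 2 = Real.exp 1 := by
    rw [← Real.exp_nat_mul]
    norm_num
  have h2 := Real.exp_one_lt_d9
  have h3 := Real.exp_pos (1 / 2 : ℝ)
  nlinarith

/-- The standard Gaussian density. -/
noncomputable def stdDensity (t : ℝ) : ℝ :=
  (Real.sqrt (2 * Real.pi))⁻¹ * Real.exp (-t ^ 2 / 2)

lemma stdDensity_le (t : ℝ) : stdDensity t ≤ 2 / 5 := by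
  unfold stdDensity
  have h1 : (Real.sqrt (2 * Real.pi))⁻¹ ≤ 2 / 5 := by
    rw [inv_le_comm₀ (by linarith [sqrt_two_pi_ge]) (by norm_num)]
    have h0 : (2 / 5 : ℝ)⁻¹ = 5 / 2 := by norm_num
    rw [h0]
    exact sqrt_two_pi_ge
  have h2 : Real.exp (-t ^ 2 / 2) ≤ 1 := by
    rw [Real.exp_le_one_iff]
    have := sq_nonneg t
    linarith
  have h3 : 0 ≤ (Real.sqrt (2 * Real.pi))⁻¹ := by positivity
  calc _ ≤ (2 / 5 : ℝ) * 1 := mul_le_mul h1 h2 (Real.exp_pos _).le (by norm_num)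
    _ = 2 / 5 := by norm_num

lemma stdDensity_ge {t : ℝ} (ht : |t| ≤ 1) : (1 / 5 : ℝ) ≤ stdDensity t := by
  unfold stdDensity
  have h1 : (5 / 13 : ℝ) ≤ (Real.sqrt (2 * Real.pi))⁻¹ := by
    rw [le_inv_comm₀ (by norm_num) (by linarith [sqrt_two_pi_ge])]
    have h0 : (5 / 13 : ℝ)⁻¹ = 13 / 5 := by norm_num
    rw [h0]
    exact sqrt_two_pi_le
  have h2 : (10 / 17 : ℝ) ≤ Real.exp (-t ^ 2 / 2) := by
    have h3 : -(1 / 2 : ℝ) ≤ -t ^ 2 / 2 := by
      have : t ^ 2 ≤ 1 := by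
        rw [← sq_abs]
        exact pow_le_one₀ (abs_nonneg _) ht
      linarith
    have h4 : Real.exp (-(1 / 2)) ≤ Real.exp (-t ^ 2 / 2) := Real.exp_le_exp.mpr h3
    refine le_trans ?_ h4
    rw [Real.exp_neg, le_inv_comm₀ (by norm_num) (Real.exp_pos _)]
    norm_num
    have := exp_half_le
    norm_num at this
    exact this
  calc (1 / 5 : ℝ) ≤ (5 / 13) * (10 / 17) := by norm_num
    _ ≤ _ := mul_le_mul h1 h2 (by norm_num) (by positivity)

lemma measurable_stdDensity : Measurable stdDensity := by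
  unfold stdDensity
  fun_prop

lemma gaussianReal_zero_one_eq : (gaussianReal 0 ⟨(1 : ℝ) ^ 2, sq_nonneg _⟩) = gaussianReal 0 1 := by
  congr 1
  ext
  simp
  rfl

/-- Density form of the standard Gaussian integral. -/
lemma integral_std_density (g : ℝ → ℝ) :
    ∫ t, g t ∂(gaussianReal 0 1) = ∫ t, stdDensity t * g t := by
  rw [← gaussianReal_zero_one_eq, integral_gaussian_density (σ := 1) one_pos]
  refine integral_congr_ae (Filter.Eventually.of_forall fun t => ?_)
  simp only [stdDensity, mul_one, one_pow, sub_zero]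

lemma integrable_std_density_mul {g : ℝ → ℝ} (hg : Measurable g) {B : ℝ} (hB : ∀ t, |g t| ≤ B) :
    Integrable (fun t => stdDensity t * g t) := by
  have h0 : Integrable (gaussianPDFReal 0 1) := integrable_gaussianPDFReal 0 1
  have h1 : gaussianPDFReal 0 1 = stdDensity := by
    funext t
    simp [gaussianPDFReal, stdDensity]
  rw [h1] at h0
  refine Integrable.mul_bdd (c := B) h0 hg.aestronglyMeasurable
    (Filter.Eventually.of_forall fun t => ?_)
  simpa using hB t

/-- Gaussian mass of an interval, upper bound. -/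
lemma mass_Icc_le {x y : ℝ} (hxy : x ≤ y) :
    ∫ u, (Set.Icc x y).indicator (fun _ => (1 : ℝ)) u ∂(gaussianReal 0 1) ≤ 2 / 5 * (y - x) := by
  rw [integral_std_density]
  have hm : Measurable ((Set.Icc x y).indicator (fun _ => (1 : ℝ))) :=
    measurable_const.indicator measurableSet_Icc
  have hpt : ∀ t, stdDensity t * (Set.Icc x y).indicator (fun _ => (1 : ℝ)) t =
      (Set.Icc x y).indicator stdDensity t := by
    intro t
    by_cases ht : t ∈ Set.Icc x y <;> simp [ht]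
  simp_rw [hpt]
  rw [integral_indicator measurableSet_Icc]
  have h1 : ∫ t in Set.Icc x y, stdDensity t ≤ ∫ _t in Set.Icc x y, (2 / 5 : ℝ) := by
    refine setIntegral_mono_on ?_ (by simp) measurableSet_Icc fun t _ => stdDensity_le t
    have h0 : Integrable stdDensity := by
      have h0 : Integrable (gaussianPDFReal 0 1) := integrable_gaussianPDFReal 0 1
      have h1 : gaussianPDFReal 0 1 = stdDensity := by
        funext t
        simp [gaussianPDFReal, stdDensity]
      rwa [h1] at h0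
    exact h0.integrableOn
  refine h1.trans (le_of_eq ?_)
  simp [Real.volume_real_Icc_of_le hxy]
  ring

/-- Gaussian mass of an interval, lower bound. -/
lemma le_mass_Icc {x y : ℝ} (hx : -1 ≤ x) (hxy : x ≤ y) (hy : y ≤ 1) :
    1 / 5 * (y - x) ≤ ∫ u, (Set.Icc x y).indicator (fun _ => (1 : ℝ)) u ∂(gaussianReal 0 1) := by
  rw [integral_std_density]
  have hpt : ∀ t, stdDensity t * (Set.Icc x y).indicator (fun _ => (1 : ℝ)) t =
      (Set.Icc x y).indicator stdDensity t := by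
    intro t
    by_cases ht : t ∈ Set.Icc x y <;> simp [ht]
  simp_rw [hpt]
  rw [integral_indicator measurableSet_Icc]
  have h1 : ∫ _t in Set.Icc x y, (1 / 5 : ℝ) ≤ ∫ t in Set.Icc x y, stdDensity t := by
    refine setIntegral_mono_on (by simp) ?_ measurableSet_Icc fun t ht => stdDensity_ge ?_
    · have h0 : Integrable (gaussianPDFReal 0 1) := integrable_gaussianPDFReal 0 1
      have h1 : gaussianPDFReal 0 1 = stdDensity := by
        funext t
        simp [gaussianPDFReal, stdDensity]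
      rw [h1] at h0
      exact h0.integrableOn
    · rw [abs_le]
      exact ⟨hx.trans ht.1, ht.2.trans hy⟩
  refine le_trans (le_of_eq ?_) h1
  simp [Real.volume_real_Icc_of_le hxy]
  ring

section Window

variable {κ : ℝ}

lemma measurable_winPot (κ : ℝ) : Measurable (winPot κ) :=
  measurable_const.indicator measurableSet_Icc

lemma winPot_of_mem {v : ℝ} (hv : |v| ≤ κ) : winPot κ v = 1 := by
  unfold winPot
  rw [Set.indicator_of_mem]
  exact abs_le.mp hv

lemma winPot_of_notMem {v : ℝ} (hv : κ < |v|) : winPot κ v = 0 := by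
  unfold winPot
  rw [Set.indicator_of_notMem]
  intro hm
  have : |v| ≤ κ := abs_le.mpr hm
  linarith

lemma winPot_cases (κ v : ℝ) : winPot κ v = 0 ∨ winPot κ v = 1 := by
  unfold winPot
  by_cases h : v ∈ Set.Icc (-κ) κ
  · right
    rw [Set.indicator_of_mem h]
  · left
    rw [Set.indicator_of_notMem h]

lemma winPot_nonneg (κ v : ℝ) : 0 ≤ winPot κ v := by
  rcases winPot_cases κ v with h | h <;> rw [h] <;> norm_num

lemma winPot_le_one (κ v : ℝ) : winPot κ v ≤ 1 := by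
  rcases winPot_cases κ v with h | h <;> rw [h] <;> norm_num

lemma abs_winPot_le (κ v : ℝ) : |winPot κ v| ≤ 1 := by
  rw [abs_of_nonneg (winPot_nonneg κ v)]
  exact winPot_le_one κ v

lemma winPot_even (κ v : ℝ) : winPot κ (-v) = winPot κ v := by
  rcases lt_or_ge κ |v| with h | h
  · rw [winPot_of_notMem h, winPot_of_notMem (by rwa [abs_neg])]
  · rw [winPot_of_mem h, winPot_of_mem (by rwa [abs_neg])]

/-- The Gaussian mass of the window. -/
noncomputable def winMass (κ : ℝ) : ℝ := ∫ u, winPot κ u ∂(gaussianReal 0 1)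

lemma winMass_le (hκ : 0 < κ) : winMass κ ≤ 4 / 5 * κ := by
  have := mass_Icc_le (x := -κ) (y := κ) (by linarith)
  unfold winMass winPot
  refine this.trans (le_of_eq ?_)
  ring

lemma le_winMass (hκ : 0 < κ) (hκ1 : κ ≤ 1) : 2 / 5 * κ ≤ winMass κ := by
  have := le_mass_Icc (x := -κ) (y := κ) (by linarith) (by linarith) hκ1
  unfold winMass winPot
  refine le_trans (le_of_eq ?_) this
  ring

/-- The noise average of the window. -/
noncomputable abbrev winNoise (κ ρ v : ℝ) : ℝ := noiseAvg (winPot κ) ρ v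

lemma winNoise_bounds (κ ρ v : ℝ) : 0 ≤ winNoise κ ρ v ∧ winNoise κ ρ v ≤ 1 :=
  noiseAvg_bounds (measurable_winPot κ) (fun u => ⟨winPot_nonneg κ u, winPot_le_one κ u⟩) ρ v

lemma integral_winNoise {ρ : ℝ} (hρ : |ρ| ≤ 1) :
    ∫ v, winNoise κ ρ v ∂(gaussianReal 0 1) = winMass κ :=
  integral_noiseAvg (measurable_winPot κ) (abs_winPot_le κ) hρ

/-- The density comparison for the noise average on the window. -/
lemma density_pair_le {ρ σ κ v t : ℝ} (hρ0 : 0 ≤ ρ) (hσ : 0 < σ) (hσ2 : σ ^ 2 = 1 - ρ ^ 2)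
    (hv : |v| ≤ κ) (ht : |t| ≤ κ) :
    (Real.sqrt (2 * Real.pi) * σ)⁻¹ * Real.exp (-(t - ρ * v) ^ 2 / (2 * σ ^ 2)) +
      (Real.sqrt (2 * Real.pi) * σ)⁻¹ * Real.exp (-(t - ρ * -v) ^ 2 / (2 * σ ^ 2)) ≤
      2 * ((1 / σ) * Real.cosh (ρ * κ ^ 2 / σ ^ 2)) * stdDensity t := by
  have hσ2pos : 0 < σ ^ 2 := by positivity
  set y := ρ * t * v / σ ^ 2 with hy
  have hexp1 : -(t - ρ * v) ^ 2 / (2 * σ ^ 2) ≤ -t ^ 2 / 2 + y := by
    rw [hy, div_le_iff₀ (by positivity)]
    have h1 : (-t ^ 2 / 2 + ρ * t * v / σ ^ 2) * (2 * σ ^ 2) = -t ^ 2 * σ ^ 2 + 2 * ρ * t * v := by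
      field_simp
    rw [h1, hσ2]
    nlinarith [sq_nonneg (ρ * v), sq_nonneg (ρ * t)]
  have hexp2 : -(t - ρ * -v) ^ 2 / (2 * σ ^ 2) ≤ -t ^ 2 / 2 + -y := by
    rw [hy, div_le_iff₀ (by positivity)]
    have h1 : (-t ^ 2 / 2 + -(ρ * t * v / σ ^ 2)) * (2 * σ ^ 2) = -t ^ 2 * σ ^ 2 - 2 * ρ * t * v := by
      field_simp
      ring
    rw [h1, hσ2]
    nlinarith [sq_nonneg (ρ * v), sq_nonneg (ρ * t)]
  have hcosh : Real.cosh y ≤ Real.cosh (ρ * κ ^ 2 / σ ^ 2) := by
    rw [Real.cosh_le_cosh]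
    have h2 : |ρ * κ ^ 2 / σ ^ 2| = ρ * κ ^ 2 / σ ^ 2 := abs_of_nonneg (by positivity)
    rw [h2, hy, abs_div, abs_of_pos hσ2pos, abs_mul, abs_mul, abs_of_nonneg hρ0]
    have h3 : |t| * |v| ≤ κ * κ := mul_le_mul ht hv (abs_nonneg _) ((abs_nonneg _).trans ht)
    have h4 : ρ * |t| * |v| ≤ ρ * κ ^ 2 := by nlinarith
    exact div_le_div_of_nonneg_right h4 hσ2pos.le
  have hsq : 0 < Real.sqrt (2 * Real.pi) := by linarith [sqrt_two_pi_ge]
  have hinv : (Real.sqrt (2 * Real.pi) * σ)⁻¹ = (1 / σ) * (Real.sqrt (2 * Real.pi))⁻¹ := by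
    field_simp
  rw [hinv]
  unfold stdDensity
  set A := (Real.sqrt (2 * Real.pi))⁻¹ with hA
  have hApos : 0 < A := by positivity
  have hsum : Real.exp (-(t - ρ * v) ^ 2 / (2 * σ ^ 2)) + Real.exp (-(t - ρ * -v) ^ 2 / (2 * σ ^ 2)) ≤
      Real.exp (-t ^ 2 / 2) * (2 * Real.cosh (ρ * κ ^ 2 / σ ^ 2)) := by
    calc _ ≤ Real.exp (-t ^ 2 / 2 + y) + Real.exp (-t ^ 2 / 2 + -y) :=
          add_le_add (Real.exp_le_exp.mpr hexp1) (Real.exp_le_exp.mpr hexp2)
      _ = Real.exp (-t ^ 2 / 2) * (2 * Real.cosh y) := by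
          rw [Real.exp_add, Real.exp_add, Real.cosh_eq]
          ring
      _ ≤ _ := by gcongr
  have h1σ : 0 < 1 / σ := by positivity
  calc _ = (1 / σ) * A * (Real.exp (-(t - ρ * v) ^ 2 / (2 * σ ^ 2)) +
        Real.exp (-(t - ρ * -v) ^ 2 / (2 * σ ^ 2))) := by ring
    _ ≤ (1 / σ) * A * (Real.exp (-t ^ 2 / 2) * (2 * Real.cosh (ρ * κ ^ 2 / σ ^ 2))) := by
        gcongr
    _ = _ := by ring

/-- **The noise average on the window is bounded by the mass times a density ratio.** -/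
lemma winNoise_le {ρ σ v : ℝ} (hκ : 0 < κ) (hρ0 : 0 ≤ ρ) (hσ : 0 < σ) (hσ2 : σ ^ 2 = 1 - ρ ^ 2)
    (hv : |v| ≤ κ) :
    winNoise κ ρ v ≤ winMass κ * ((1 / σ) * Real.cosh (ρ * κ ^ 2 / σ ^ 2)) := by
  have hm := measurable_winPot κ
  set R := (1 / σ) * Real.cosh (ρ * κ ^ 2 / σ ^ 2) with hR
  have hRpos : 0 < R := by
    rw [hR]
    have := Real.cosh_pos (ρ * κ ^ 2 / σ ^ 2)
    positivity
  have hfor : ∀ w : ℝ, winNoise κ ρ w = ∫ t, (Real.sqrt (2 * Real.pi) * σ)⁻¹ *
      Real.exp (-(t - ρ * w) ^ 2 / (2 * σ ^ 2)) * winPot κ t := by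
    intro w
    have h1 := noiseAvg_eq_integral_shift hm hσ.le hσ2 w
    simp only [winNoise]
    rw [h1, integral_gaussian_density hσ]
  have heven : winNoise κ ρ (-v) = winNoise κ ρ v := noiseAvg_neg_arg (winPot_even κ) ρ v
  have hdens : ∀ m : ℝ, Integrable (fun t => (Real.sqrt (2 * Real.pi) * σ)⁻¹ *
      Real.exp (-(t - m) ^ 2 / (2 * σ ^ 2)) * winPot κ t) := by
    intro m
    have h0 : Integrable (gaussianPDFReal m ⟨σ ^ 2, sq_nonneg _⟩) := integrable_gaussianPDFReal _ _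
    have h1 : gaussianPDFReal m ⟨σ ^ 2, sq_nonneg _⟩ = fun t =>
        (Real.sqrt (2 * Real.pi) * σ)⁻¹ * Real.exp (-(t - m) ^ 2 / (2 * σ ^ 2)) := by
      funext t
      exact pdf_eq hσ t
    rw [h1] at h0
    refine Integrable.mul_bdd (c := 1) h0 hm.aestronglyMeasurable
      (Filter.Eventually.of_forall fun t => ?_)
    simpa using abs_winPot_le κ t
  have hsum : 2 * winNoise κ ρ v ≤ 2 * (R * winMass κ) := by
    have h1 : 2 * winNoise κ ρ v = winNoise κ ρ v + winNoise κ ρ (-v) := by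
      rw [heven]
      ring
    rw [h1, hfor v, hfor (-v), ← integral_add (hdens _) (hdens _)]
    have h2 : 2 * (R * winMass κ) = ∫ t, 2 * R * (stdDensity t * winPot κ t) := by
      rw [integral_const_mul]
      unfold winMass
      rw [integral_std_density]
      ring
    rw [h2]
    refine integral_mono ((hdens _).add (hdens _))
      ((integrable_std_density_mul hm (abs_winPot_le κ)).const_mul _) fun t => ?_
    rcases lt_or_ge κ |t| with ht | ht
    · rw [winPot_of_notMem ht]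
      simp
    · rw [winPot_of_mem ht]
      have := density_pair_le hρ0 hσ hσ2 hv ht
      simp only [mul_one]
      rw [hR]
      linarith
  linarith

/-- Far from the edge of the window the noise moves the field out with a definite probability. -/
lemma winNoise_edge {ρ σ v : ℝ} (hκ : 0 < κ) (hρ0 : 0 ≤ ρ) (hρ1 : ρ ≤ 1) (hσ : 0 < σ)
    (hσ2 : σ ^ 2 = 1 - ρ ^ 2) (hκσ : κ * σ < 1 / 4) (hv1 : κ - σ / 4 ≤ v) :
    winNoise κ ρ v ≤ 9 / 10 := by
  have hσ1 : σ ≤ 1 := by nlinarith [sq_nonneg ρ]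
  have hmass := le_mass_Icc (x := 1 / 2) (y := 1) (by norm_num) (by norm_num) le_rfl
  have hs : Real.sqrt (1 - ρ ^ 2) = σ := by
    rw [← hσ2, Real.sqrt_sq hσ.le]
  set S : Set ℝ := Set.Icc (1 / 2) 1 with hS
  have hpt : ∀ w, winPot κ (ρ * v + σ * w) ≤ 1 - S.indicator (fun _ => (1 : ℝ)) w := by
    intro w
    by_cases hw : w ∈ S
    · rw [Set.indicator_of_mem hw]
      have hw1 : (1 / 2 : ℝ) ≤ w := hw.1
      have hout : κ < |ρ * v + σ * w| := by
        refine lt_of_lt_of_le ?_ (le_abs_self _)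
        have h1 : ρ * (κ - σ / 4) ≤ ρ * v := mul_le_mul_of_nonneg_left hv1 hρ0
        have h2 : σ * (1 / 2) ≤ σ * w := mul_le_mul_of_nonneg_left hw1 hσ.le
        have h3 : 1 - ρ ≤ σ ^ 2 := by
          rw [hσ2]
          nlinarith
        have h4 : κ * (1 - ρ) ≤ κ * σ ^ 2 := mul_le_mul_of_nonneg_left h3 hκ.le
        have h5 : κ * σ ^ 2 < σ / 4 := by
          have := mul_lt_mul_of_pos_right hκσ hσ
          nlinarith
        nlinarith
      rw [winPot_of_notMem hout]
      norm_num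
    · rw [Set.indicator_of_notMem hw]
      linarith [winPot_le_one κ (ρ * v + σ * w)]
  have hmS : Measurable (S.indicator (fun _ => (1 : ℝ))) :=
    measurable_const.indicator measurableSet_Icc
  have hi1 : Integrable (fun w => winPot κ (ρ * v + σ * w)) (gaussianReal 0 1) :=
    integrable_of_bdd (B := 1) ((measurable_winPot κ).comp (by fun_prop)) fun w => abs_winPot_le κ _
  have hi2 : Integrable (S.indicator (fun _ => (1 : ℝ))) (gaussianReal 0 1) :=
    integrable_of_bdd (B := 1) hmS fun w => by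
      by_cases hw : w ∈ S <;> simp [hw]
  simp only [winNoise, noiseAvg]
  rw [hs]
  calc ∫ w, winPot κ (ρ * v + σ * w) ∂(gaussianReal 0 1)
      ≤ ∫ w, (1 - S.indicator (fun _ => (1 : ℝ)) w) ∂(gaussianReal 0 1) :=
        integral_mono hi1 ((integrable_const _).sub hi2) hpt
    _ = 1 - ∫ w, S.indicator (fun _ => (1 : ℝ)) w ∂(gaussianReal 0 1) := by
        rw [integral_sub (integrable_const _) hi2]
        simp
    _ ≤ 9 / 10 := by
        have : (1 / 10 : ℝ) ≤ ∫ w, S.indicator (fun _ => (1 : ℝ)) w ∂(gaussianReal 0 1) := by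
          refine le_trans (by norm_num) hmass
        linarith

/-- The edge integral. -/
lemma edge_integral_ge {ρ σ : ℝ} (hκ : 0 < κ) (hκ1 : κ ≤ 1) (hρ0 : 0 ≤ ρ) (hρ1 : ρ ≤ 1) (hσ : 0 < σ)
    (hσ2 : σ ^ 2 = 1 - ρ ^ 2) (hκσ : κ * σ < 1 / 4) (hσκ : σ ≤ 4 * κ) :
    σ / 2000 ≤ ∫ v, winPot κ v * (1 - winNoise κ ρ v) ^ 2 ∂(gaussianReal 0 1) := by
  have hσ1 : σ ≤ 1 := by nlinarith [sq_nonneg ρ]
  set S : Set ℝ := Set.Icc (κ - σ / 4) κ with hS
  have hmass := le_mass_Icc (x := κ - σ / 4) (y := κ) (by linarith) (by linarith) hκ1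
  have hmS : Measurable (S.indicator (fun _ => (1 : ℝ))) :=
    measurable_const.indicator measurableSet_Icc
  have hi2 : Integrable (S.indicator (fun _ => (1 : ℝ))) (gaussianReal 0 1) :=
    integrable_of_bdd (B := 1) hmS fun w => by
      by_cases hw : w ∈ S <;> simp [hw]
  have hπm : Measurable (winNoise κ ρ) := measurable_noiseAvg (measurable_winPot κ) ρ
  have hi1 : Integrable (fun v => winPot κ v * (1 - winNoise κ ρ v) ^ 2) (gaussianReal 0 1) := by
    refine integrable_of_bdd (B := 1)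
      ((measurable_winPot κ).mul ((measurable_const.sub hπm).pow_const 2)) fun v => ?_
    have hb := winNoise_bounds κ ρ v
    have h0 : 0 ≤ (1 - winNoise κ ρ v) ^ 2 := sq_nonneg _
    have h1 : (1 - winNoise κ ρ v) ^ 2 ≤ 1 := by nlinarith [hb.1, hb.2]
    rw [abs_of_nonneg (mul_nonneg (winPot_nonneg κ v) h0)]
    calc _ ≤ (1 : ℝ) * 1 := mul_le_mul (winPot_le_one κ v) h1 h0 (by norm_num)
      _ = 1 := by norm_num
  have hpt : ∀ v, (1 / 100 : ℝ) * S.indicator (fun _ => (1 : ℝ)) v ≤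
      winPot κ v * (1 - winNoise κ ρ v) ^ 2 := by
    intro v
    by_cases hv : v ∈ S
    · rw [Set.indicator_of_mem hv]
      have hv' : |v| ≤ κ := by
        rw [abs_le]
        exact ⟨by linarith [hv.1], hv.2⟩
      rw [winPot_of_mem hv']
      have := winNoise_edge hκ hρ0 hρ1 hσ hσ2 hκσ hv.1
      have h2 : (1 / 10 : ℝ) ≤ 1 - winNoise κ ρ v := by linarith
      nlinarith
    · rw [Set.indicator_of_notMem hv]
      have := mul_nonneg (winPot_nonneg κ v) (sq_nonneg (1 - winNoise κ ρ v))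
      simpa using this
  have h3 := integral_mono (hi2.const_mul (1 / 100)) hi1 hpt
  rw [integral_const_mul] at h3
  refine le_trans ?_ h3
  have h4 : 1 / 5 * (κ - (κ - σ / 4)) = σ / 20 := by ring
  rw [h4] at hmass
  linarith

end Window

end Vale.Agent.Lib.P157
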