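import Vale.Agent.Lib.P157.Window1

/-!
Integral bounds for the cross entropy of a two-valued weight on the window.
-/

open MeasureTheory ProbabilityTheory
open scoped NNReal ENNReal

set_option linter.unusedSectionVars false

namespace Vale.Agent.Lib.P157

lemma log_one_sub_le {y : ℝ} (h0 : 0 ≤ y) (h1 : y < 1) : Real.log (1 - y) ≤ -y - y ^ 2 / 2 := by
  have hs := Real.hasSum_pow_div_log_of_abs_lt_one (x := y) (by rwa [abs_of_nonneg h0])
  have h2 := sum_le_hasSum (Finset.range 2) (fun i _ => by positivity) hs
  simp only [Finset.sum_range_succ, Finset.range_zero, Finset.sum_empty] at h2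
  norm_num at h2
  linarith

section Bounds

variable {κ ρ a b : ℝ}

/-- The two-valued weight. -/
noncomputable def twoVal (κ a b : ℝ) (v : ℝ) : ℝ := b + (a - b) * winPot κ v

/-- Its noise average. -/
noncomputable def twoValNoise (κ ρ a b : ℝ) (v : ℝ) : ℝ := b + (a - b) * winNoise κ ρ v

lemma measurable_twoVal : Measurable (twoVal κ a b) :=
  ((measurable_winPot κ).const_mul _).const_add _

lemma measurable_winNoise : Measurable (winNoise κ ρ) :=
  measurable_noiseAvg (measurable_winPot κ) ρ

lemma measurable_twoValNoise : Measurable (twoValNoise κ ρ a b) :=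
  (measurable_winNoise.const_mul _).const_add _

lemma noiseAvg_twoVal (v : ℝ) : noiseAvg (twoVal κ a b) ρ v = twoValNoise κ ρ a b v := by
  unfold noiseAvg twoVal twoValNoise
  simp only [winNoise, noiseAvg]
  have hi : Integrable (fun w => winPot κ (ρ * v + Real.sqrt (1 - ρ ^ 2) * w)) (gaussianReal 0 1) :=
    integrable_of_bdd (B := 1) ((measurable_winPot κ).comp (by fun_prop)) fun w => abs_winPot_le κ _
  rw [integral_add (integrable_const _) (hi.const_mul _), integral_const_mul]
  simp

variable (hb : 0 < b) (hab : b < a) (hnorm : b + (a - b) * winMass κ = 1)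
  (hp0 : 0 ≤ winMass κ) (hp1 : winMass κ ≤ 1) (hρ : |ρ| ≤ 1)

include hb hab in
lemma twoValNoise_bounds (v : ℝ) :
    b ≤ twoValNoise κ ρ a b v ∧ twoValNoise κ ρ a b v ≤ a := by
  have h := winNoise_bounds κ ρ v
  unfold twoValNoise
  have hd : 0 < a - b := by linarith
  constructor
  · have := mul_nonneg hd.le h.1
    linarith
  · have := mul_le_mul_of_nonneg_left h.2 hd.le
    linarith

include hb hab in
lemma twoVal_bounds (v : ℝ) : b ≤ twoVal κ a b v ∧ twoVal κ a b v ≤ a := by
  have h1 := winPot_nonneg κ v
  have h2 := winPot_le_one κ v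
  unfold twoVal
  have hd : 0 < a - b := by linarith
  constructor
  · have := mul_nonneg hd.le h1
    linarith
  · have := mul_le_mul_of_nonneg_left h2 hd.le
    linarith

include hb hab in
lemma integrable_crossTerm :
    Integrable (fun v => twoVal κ a b v * Real.log (twoValNoise κ ρ a b v)) (gaussianReal 0 1) := by
  have h1 := twoVal_bounds (κ := κ) hb hab
  have h2 := twoValNoise_bounds (κ := κ) (ρ := ρ) hb hab
  have hapos : 0 < a := by linarith
  refine integrable_of_bdd (B := a * (|Real.log a| + |Real.log b|))
    (measurable_twoVal.mul (Real.measurable_log.comp measurable_twoValNoise)) fun v => ?_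
  rw [abs_mul]
  refine mul_le_mul ?_ ?_ (abs_nonneg _) hapos.le
  · rw [abs_of_pos (lt_of_lt_of_le hb (h1 v).1)]
    exact (h1 v).2
  · have hV : 0 < twoValNoise κ ρ a b v := lt_of_lt_of_le hb (h2 v).1
    have h3 := Real.log_le_log hV (h2 v).2
    have h4 := Real.log_le_log hb (h2 v).1
    rw [abs_le]
    constructor
    · linarith [neg_abs_le (Real.log b), abs_nonneg (Real.log a)]
    · linarith [le_abs_self (Real.log a), abs_nonneg (Real.log b)]

lemma integrable_winPot : Integrable (winPot κ) (gaussianReal 0 1) :=
  integrable_of_bdd (B := 1) (measurable_winPot κ) (abs_winPot_le κ)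

lemma integrable_winNoise : Integrable (winNoise κ ρ) (gaussianReal 0 1) := by
  refine integrable_of_bdd (B := 1) measurable_winNoise fun v => ?_
  have h := winNoise_bounds κ ρ v
  rw [abs_of_nonneg h.1]
  exact h.2

lemma integrable_pot_mul_noise :
    Integrable (fun v => winPot κ v * winNoise κ ρ v) (gaussianReal 0 1) := by
  refine integrable_of_bdd (B := 1) ((measurable_winPot κ).mul measurable_winNoise) fun v => ?_
  have h := winNoise_bounds κ ρ v
  rw [abs_mul, abs_of_nonneg h.1]
  calc _ ≤ (1 : ℝ) * 1 := mul_le_mul (abs_winPot_le κ v) h.2 h.1 (by norm_num)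
    _ = 1 := by norm_num

lemma integrable_edge :
    Integrable (fun v => winPot κ v * (1 - winNoise κ ρ v) ^ 2) (gaussianReal 0 1) := by
  refine integrable_of_bdd (B := 1)
    ((measurable_winPot κ).mul ((measurable_const.sub measurable_winNoise).pow_const 2)) fun v => ?_
  have hb := winNoise_bounds κ ρ v
  have h0 : 0 ≤ (1 - winNoise κ ρ v) ^ 2 := sq_nonneg _
  have h1 : (1 - winNoise κ ρ v) ^ 2 ≤ 1 := by nlinarith [hb.1, hb.2]
  rw [abs_of_nonneg (mul_nonneg (winPot_nonneg κ v) h0)]
  calc _ ≤ (1 : ℝ) * 1 := mul_le_mul (winPot_le_one κ v) h1 h0 (by norm_num)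
    _ = 1 := by norm_num

include hb hab hρ in
/-- The near bound: relative entropy against the noise average. -/
lemma crossTerm_near :
    ∫ v, twoVal κ a b v * Real.log (twoValNoise κ ρ a b v) ∂(gaussianReal 0 1) ≤
      (winMass κ * a * Real.log a + (1 - winMass κ) * b * Real.log b) -
        ((a - b) ^ 2 / (2 * a)) *
          ∫ v, winPot κ v * (1 - winNoise κ ρ v) ^ 2 ∂(gaussianReal 0 1) := by
  have hapos : 0 < a := by linarith
  have hd : 0 < a - b := by linarith
  have hpt : ∀ v, twoVal κ a b v * Real.log (twoValNoise κ ρ a b v) ≤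
      (winPot κ v * (a * Real.log a) + (1 - winPot κ v) * (b * Real.log b)) -
        (a - b) * (winPot κ v - winNoise κ ρ v) -
          ((a - b) ^ 2 / (2 * a)) * (winPot κ v * (1 - winNoise κ ρ v) ^ 2) := by
    intro v
    have hπ := winNoise_bounds κ ρ v
    set π := winNoise κ ρ v with hπd
    rcases winPot_cases κ v with h | h
    · -- outside the window
      have hU : twoVal κ a b v = b := by
        unfold twoVal
        rw [h]
        ring
      have hV : twoValNoise κ ρ a b v = b * (1 + (a - b) * π / b) := by
        unfold twoValNoise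
        rw [← hπd]
        field_simp
      rw [hU, hV, h]
      have hz : 0 ≤ (a - b) * π / b := div_nonneg (mul_nonneg hd.le hπ.1) hb.le
      rw [Real.log_mul hb.ne' (by positivity)]
      have h1 := Real.log_le_sub_one_of_pos (show 0 < 1 + (a - b) * π / b by positivity)
      have h2 : b * Real.log (1 + (a - b) * π / b) ≤ (a - b) * π := by
        calc _ ≤ b * ((a - b) * π / b) := by
              refine mul_le_mul_of_nonneg_left ?_ hb.le
              linarith
          _ = (a - b) * π := by field_simp
      nlinarith
    · -- inside the window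
      have hU : twoVal κ a b v = a := by
        unfold twoVal
        rw [h]
        ring
      set y := ((a - b) / a) * (1 - π) with hy
      have hy0 : 0 ≤ y := by
        rw [hy]
        have : 0 ≤ 1 - π := by linarith [hπ.2]
        positivity
      have hy1 : y < 1 := by
        have h3 : (a - b) / a < 1 := by
          rw [div_lt_one hapos]
          linarith
        have h4 : (1 - π) ≤ 1 := by linarith [hπ.1]
        have h5 : 0 ≤ (a - b) / a := by positivity
        calc y ≤ ((a - b) / a) * 1 := mul_le_mul_of_nonneg_left h4 h5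
          _ < 1 := by linarith
      have hV : twoValNoise κ ρ a b v = a * (1 - y) := by
        unfold twoValNoise
        rw [← hπd, hy]
        field_simp
        ring
      rw [hU, hV, h]
      rw [Real.log_mul hapos.ne' (by linarith)]
      have hl := log_one_sub_le hy0 hy1
      have e1 : a * y = (a - b) * (1 - π) := by
        rw [hy]
        field_simp
      have e2 : a * (y ^ 2 / 2) = ((a - b) ^ 2 / (2 * a)) * (1 - π) ^ 2 := by
        rw [hy]
        field_simp
      have h6 : a * Real.log (1 - y) ≤ a * (-y - y ^ 2 / 2) :=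
        mul_le_mul_of_nonneg_left hl hapos.le
      have h7 : a * (-y - y ^ 2 / 2) = -(a * y) - a * (y ^ 2 / 2) := by ring
      rw [h7, e1, e2] at h6
      nlinarith
  have hiL := integrable_crossTerm (κ := κ) (ρ := ρ) hb hab
  have hip := integrable_winPot (κ := κ)
  have hin := integrable_winNoise (κ := κ) (ρ := ρ)
  have hie := integrable_edge (κ := κ) (ρ := ρ)
  have hi1a : Integrable (fun v => winPot κ v * (a * Real.log a)) (gaussianReal 0 1) :=
    hip.mul_const _
  have hi1b : Integrable (fun v => (1 - winPot κ v) * (b * Real.log b)) (gaussianReal 0 1) :=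
    ((integrable_const _).sub hip).mul_const _
  have hi1 : Integrable (fun v => winPot κ v * (a * Real.log a) +
      (1 - winPot κ v) * (b * Real.log b)) (gaussianReal 0 1) := hi1a.add hi1b
  have hi2 : Integrable (fun v => (a - b) * (winPot κ v - winNoise κ ρ v)) (gaussianReal 0 1) :=
    (hip.sub hin).const_mul _
  have hi3 : Integrable (fun v => ((a - b) ^ 2 / (2 * a)) * (winPot κ v * (1 - winNoise κ ρ v) ^ 2))
      (gaussianReal 0 1) := hie.const_mul _
  have hi12 : Integrable (fun v => winPot κ v * (a * Real.log a) +
      (1 - winPot κ v) * (b * Real.log b) - (a - b) * (winPot κ v - winNoise κ ρ v))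
      (gaussianReal 0 1) := hi1.sub hi2
  have hi123 : Integrable (fun v => winPot κ v * (a * Real.log a) +
      (1 - winPot κ v) * (b * Real.log b) - (a - b) * (winPot κ v - winNoise κ ρ v) -
      ((a - b) ^ 2 / (2 * a)) * (winPot κ v * (1 - winNoise κ ρ v) ^ 2))
      (gaussianReal 0 1) := hi12.sub hi3
  have hmono := integral_mono hiL hi123 hpt
  refine hmono.trans (le_of_eq ?_)
  rw [integral_sub hi12 hi3, integral_sub hi1 hi2, integral_add hi1a hi1b, integral_mul_const,
    integral_mul_const, integral_sub (integrable_const _) hip, integral_const_mul,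
    integral_sub hip hin, integral_const_mul, integral_winNoise hρ]
  have hpd : ∫ v, winPot κ v ∂(gaussianReal 0 1) = winMass κ := rfl
  rw [hpd]
  simp
  ring

include hb hab hnorm hρ in
/-- The second moment bound. -/
lemma crossTerm_second :
    ∫ v, twoVal κ a b v * Real.log (twoValNoise κ ρ a b v) ∂(gaussianReal 0 1) ≤
      (a - b) ^ 2 * ((∫ v, winPot κ v * winNoise κ ρ v ∂(gaussianReal 0 1)) - winMass κ ^ 2) := by
  have hapos : 0 < a := by linarith
  have hd : 0 < a - b := by linarith
  have hU := twoVal_bounds (κ := κ) hb hab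
  have hV := twoValNoise_bounds (κ := κ) (ρ := ρ) hb hab
  set p := winMass κ with hp
  have hpt : ∀ v, twoVal κ a b v * Real.log (twoValNoise κ ρ a b v) ≤
      (b + (a - b) * winPot κ v) * ((a - b) * (winNoise κ ρ v - p)) := by
    intro v
    have hVpos := lt_of_lt_of_le hb (hV v).1
    have h1 := Real.log_le_sub_one_of_pos hVpos
    have hUpos := lt_of_lt_of_le hb (hU v).1
    have h2 : twoValNoise κ ρ a b v - 1 = (a - b) * (winNoise κ ρ v - p) := by
      unfold twoValNoise
      linear_combination hnorm
    rw [h2] at h1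
    have := mul_le_mul_of_nonneg_left h1 hUpos.le
    unfold twoVal at this ⊢
    exact this
  have hiL := integrable_crossTerm (κ := κ) (ρ := ρ) hb hab
  have hip := integrable_winPot (κ := κ)
  have hin := integrable_winNoise (κ := κ) (ρ := ρ)
  have hipn := integrable_pot_mul_noise (κ := κ) (ρ := ρ)
  have hexp : ∀ v, (b + (a - b) * winPot κ v) * ((a - b) * (winNoise κ ρ v - p)) =
      b * (a - b) * winNoise κ ρ v - b * (a - b) * p +
        (a - b) ^ 2 * (winPot κ v * winNoise κ ρ v) - (a - b) ^ 2 * p * winPot κ v := by
    intro v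
    ring
  have hiR1 : Integrable (fun v => b * (a - b) * winNoise κ ρ v - b * (a - b) * p)
      (gaussianReal 0 1) := (hin.const_mul _).sub (integrable_const _)
  have hiR2 : Integrable (fun v => b * (a - b) * winNoise κ ρ v - b * (a - b) * p +
      (a - b) ^ 2 * (winPot κ v * winNoise κ ρ v)) (gaussianReal 0 1) :=
    hiR1.add (hipn.const_mul _)
  have hiR : Integrable (fun v => b * (a - b) * winNoise κ ρ v - b * (a - b) * p +
      (a - b) ^ 2 * (winPot κ v * winNoise κ ρ v) - (a - b) ^ 2 * p * winPot κ v)
      (gaussianReal 0 1) := hiR2.sub (hip.const_mul _)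
  simp_rw [hexp] at hpt
  refine (integral_mono hiL hiR hpt).trans (le_of_eq ?_)
  have e1 : ∫ v, b * (a - b) * winNoise κ ρ v ∂(gaussianReal 0 1) = b * (a - b) * p := by
    rw [integral_const_mul, integral_winNoise hρ]
  have e2 : ∫ v, (a - b) ^ 2 * (winPot κ v * winNoise κ ρ v) ∂(gaussianReal 0 1) =
      (a - b) ^ 2 * ∫ v, winPot κ v * winNoise κ ρ v ∂(gaussianReal 0 1) :=
    integral_const_mul _ _
  have e3 : ∫ v, (a - b) ^ 2 * p * winPot κ v ∂(gaussianReal 0 1) = (a - b) ^ 2 * p * p := by
    rw [integral_const_mul]
    rfl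
  rw [integral_sub hiR2 (hip.const_mul _), integral_add hiR1 (hipn.const_mul _),
    integral_sub (hin.const_mul _) (integrable_const _), e1, e2, e3]
  simp
  ring

include hb hab hnorm hρ hp1 in
/-- The logarithmic bound. -/
lemma crossTerm_log {x : ℝ} (hx : 0 ≤ x) (hxle : ∀ v, |v| ≤ κ → winNoise κ ρ v ≤ winMass κ * (1 + x))
    (hb1 : b ≤ 1) (hp0 : 0 ≤ winMass κ) :
    ∫ v, twoVal κ a b v * Real.log (twoValNoise κ ρ a b v) ∂(gaussianReal 0 1) ≤
      a * winMass κ * Real.log (1 + (a - b) * winMass κ * x) + (a - b) * winMass κ := by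
  have hapos : 0 < a := by linarith
  have hd : 0 < a - b := by linarith
  set p := winMass κ with hp
  have hypos : 0 ≤ (a - b) * p * x := by positivity
  have hpt : ∀ v, twoVal κ a b v * Real.log (twoValNoise κ ρ a b v) ≤
      winPot κ v * (a * Real.log (1 + (a - b) * p * x)) +
        ((1 - winPot κ v) * (b * Real.log b) + (1 - winPot κ v) * ((a - b) * winNoise κ ρ v)) := by
    intro v
    have hπ := winNoise_bounds κ ρ v
    rcases lt_or_ge κ |v| with hv | hv
    · have h := winPot_of_notMem hv
      have hU : twoVal κ a b v = b := by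
        unfold twoVal
        rw [h]
        ring
      have hV : twoValNoise κ ρ a b v = b * (1 + (a - b) * winNoise κ ρ v / b) := by
        unfold twoValNoise
        field_simp
      rw [hU, hV, h]
      have hz : 0 ≤ (a - b) * winNoise κ ρ v / b := div_nonneg (mul_nonneg hd.le hπ.1) hb.le
      rw [Real.log_mul hb.ne' (by positivity)]
      have h1 := Real.log_le_sub_one_of_pos (show 0 < 1 + (a - b) * winNoise κ ρ v / b by positivity)
      have h2 : b * Real.log (1 + (a - b) * winNoise κ ρ v / b) ≤ (a - b) * winNoise κ ρ v := by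
        calc _ ≤ b * ((a - b) * winNoise κ ρ v / b) := by
              refine mul_le_mul_of_nonneg_left ?_ hb.le
              linarith
          _ = (a - b) * winNoise κ ρ v := by field_simp
      nlinarith
    · have h := winPot_of_mem hv
      have hU : twoVal κ a b v = a := by
        unfold twoVal
        rw [h]
        ring
      have hV : twoValNoise κ ρ a b v ≤ 1 + (a - b) * p * x := by
        unfold twoValNoise
        have h1 := hxle v hv
        have h2 := mul_le_mul_of_nonneg_left h1 hd.le
        nlinarith
      have hVpos : 0 < twoValNoise κ ρ a b v := lt_of_lt_of_le hb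
        (twoValNoise_bounds (κ := κ) (ρ := ρ) hb hab v).1
      have hlog := Real.log_le_log hVpos hV
      rw [hU, h]
      have := mul_le_mul_of_nonneg_left hlog hapos.le
      linarith
  have hiL := integrable_crossTerm (κ := κ) (ρ := ρ) hb hab
  have hip := integrable_winPot (κ := κ)
  have hin := integrable_winNoise (κ := κ) (ρ := ρ)
  have hipn := integrable_pot_mul_noise (κ := κ) (ρ := ρ)
  have hexp : ∀ v, (1 - winPot κ v) * ((a - b) * winNoise κ ρ v) =
      (a - b) * winNoise κ ρ v - (a - b) * (winPot κ v * winNoise κ ρ v) := fun v => by ring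
  have hi1 : Integrable (fun v => winPot κ v * (a * Real.log (1 + (a - b) * p * x)))
      (gaussianReal 0 1) := hip.mul_const _
  have hi2 : Integrable (fun v => (1 - winPot κ v) * (b * Real.log b)) (gaussianReal 0 1) :=
    ((integrable_const _).sub hip).mul_const _
  have hi3 : Integrable (fun v => (1 - winPot κ v) * ((a - b) * winNoise κ ρ v))
      (gaussianReal 0 1) := by
    simp_rw [hexp]
    exact (hin.const_mul _).sub (hipn.const_mul _)
  have hi23 : Integrable (fun v => (1 - winPot κ v) * (b * Real.log b) +
      (1 - winPot κ v) * ((a - b) * winNoise κ ρ v)) (gaussianReal 0 1) := hi2.add hi3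
  have hi123 : Integrable (fun v => winPot κ v * (a * Real.log (1 + (a - b) * p * x)) +
      ((1 - winPot κ v) * (b * Real.log b) + (1 - winPot κ v) * ((a - b) * winNoise κ ρ v)))
      (gaussianReal 0 1) := hi1.add hi23
  have hmono := integral_mono hiL hi123 hpt
  refine hmono.trans ?_
  rw [integral_add hi1 hi23, integral_add hi2 hi3, integral_mul_const, integral_mul_const,
    integral_sub (integrable_const _) hip]
  simp_rw [hexp]
  rw [integral_sub (hin.const_mul _) (hipn.const_mul _), integral_const_mul, integral_const_mul,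
    integral_winNoise hρ]
  have hpd : ∫ v, winPot κ v ∂(gaussianReal 0 1) = p := rfl
  rw [hpd]
  simp only [integral_const, probReal_univ, one_smul]
  have hC : 0 ≤ ∫ v, winPot κ v * winNoise κ ρ v ∂(gaussianReal 0 1) :=
    integral_nonneg fun v => mul_nonneg (winPot_nonneg κ v) (winNoise_bounds κ ρ v).1
  have hlogb : b * Real.log b ≤ 0 :=
    mul_nonpos_of_nonneg_of_nonpos hb.le (Real.log_nonpos hb.le hb1)
  have h1p : 0 ≤ 1 - p := by linarith
  have h3 := mul_nonpos_of_nonneg_of_nonpos h1p hlogb
  have h4 := mul_nonneg hd.le hC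
  nlinarith

end Bounds

end Vale.Agent.Lib.P157
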