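import Vale.Agent.Lib.P157.Window3

/-!
The key inequality for the window potential: the conditional first moment criterion holds as soon
as the relative entropy of the tilted Bernoulli law is at most `log 2`.
-/

open MeasureTheory ProbabilityTheory
open scoped NNReal ENNReal

set_option linter.unusedSectionVars false

namespace Vale.Agent.Lib.P157

/-- Numerical consequence of narrowness of the window. -/
lemma narrow_numeric {p : ℝ} (h0 : 0 < p) (h1 : p ≤ Real.exp (-100)) :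
    100 ≤ -Real.log p ∧ 48000 * (-Real.log p) * p ≤ 1 := by
  have hl : 100 ≤ -Real.log p := by
    have := Real.log_le_log h0 h1
    rw [Real.log_exp] at this
    linarith
  refine ⟨hl, ?_⟩
  set y := p⁻¹ with hy
  have hypos : 0 < y := by positivity
  have hlogy : Real.log y = -Real.log p := by
    rw [hy, Real.log_inv]
  have hs : 0 < Real.sqrt y := Real.sqrt_pos.mpr hypos
  have hss : Real.sqrt y * Real.sqrt y = y := Real.mul_self_sqrt hypos.le
  have h2 : Real.log y ≤ 2 * Real.sqrt y := by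
    have h3 := Real.log_le_sub_one_of_pos hs
    rw [Real.log_sqrt hypos.le] at h3
    linarith
  have h5 : Real.exp 100 ≤ y := by
    have h6 : (p⁻¹)⁻¹ ≤ Real.exp (-100) := by
      rwa [inv_inv]
    rw [Real.exp_neg] at h6
    have h7 := (inv_le_inv₀ hypos (Real.exp_pos _)).mp h6
    exact h7
  -- `√y ≥ 96000`
  have h4 : (96000 : ℝ) ≤ Real.sqrt y := by
    apply Real.le_sqrt_of_sq_le
    refine le_trans ?_ h5
    have h8 : (1 : ℝ) + 1 ≤ Real.exp 1 := Real.add_one_le_exp 1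
    have h9 : Real.exp 100 = Real.exp 1 ^ 100 := by
      rw [← Real.exp_nat_mul]
      norm_num
    rw [h9]
    have h10 : (2 : ℝ) ^ 100 ≤ Real.exp 1 ^ 100 := by
      gcongr
      linarith
    refine le_trans ?_ h10
    norm_num
  rw [← hlogy]
  have hpy : p * y = 1 := by
    rw [hy]
    field_simp
  have h11 : 48000 * Real.log y * p ≤ 48000 * (2 * Real.sqrt y) * p := by
    gcongr
  refine h11.trans ?_
  have h12 : 96000 * (Real.sqrt y * p) ≤ 1 := by
    have h13 : Real.sqrt y * (Real.sqrt y * p) = 1 := by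
      rw [← mul_assoc, hss, mul_comm]
      exact hpy
    have h14 : 0 < Real.sqrt y * p := by positivity
    have h15 := mul_le_mul_of_nonneg_right h4 h14.le
    linarith
  linarith

lemma winMass_pos {κ : ℝ} (hκ : 0 < κ) (hκ1 : κ ≤ 1) : 0 < winMass κ := by
  have := le_winMass hκ hκ1
  have h2 : 0 < 2 / 5 * κ := by positivity
  linarith

lemma exp_neg_hundred_lt : Real.exp (-100) < 1 / 10 := by
  have h1 : Real.exp 100 = Real.exp 1 ^ 100 := by
    rw [← Real.exp_nat_mul]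
    norm_num
  have h2 : (1 : ℝ) + 1 ≤ Real.exp 1 := Real.add_one_le_exp 1
  have h3 : (2 : ℝ) ^ 100 ≤ Real.exp 1 ^ 100 := by
    gcongr
    linarith
  have h4 : (10 : ℝ) < Real.exp 100 := by
    rw [h1]
    refine lt_of_lt_of_le ?_ h3
    norm_num
  rw [Real.exp_neg]
  rw [show (1 / 10 : ℝ) = 10⁻¹ by norm_num]
  exact (inv_lt_inv₀ (Real.exp_pos _) (by norm_num)).mpr h4

section Gain

/-- Entropic gain in the near regime when the noise is at most the window size. -/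
lemma gain_small_noise {X D ℓ p σ Ed : ℝ} (hX0 : 0 < X) (hσ0 : 0 ≤ σ) (hDle : D ≤ 8 * ℓ * (X * p))
    (hnum : 48000 * ℓ * p ≤ 1) (hE : σ / 2000 ≤ Ed) : 3 * D * σ ≤ X * Ed := by
  have h1 : X * (σ / 2000) ≤ X * Ed := mul_le_mul_of_nonneg_left hE hX0.le
  have h2 : 3 * D * σ ≤ 3 * (8 * ℓ * (X * p)) * σ := by
    apply mul_le_mul_of_nonneg_right _ hσ0
    linarith
  have h3 : 3 * (8 * ℓ * (X * p)) * σ = (X * σ) * (24 * ℓ * p) := by ring
  have h4 : (X * σ) * (24 * ℓ * p) ≤ (X * σ) * (1 / 2000) := by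
    apply mul_le_mul_of_nonneg_left _ (by positivity)
    linarith
  have h5 : (X * σ) * (1 / 2000) = X * (σ / 2000) := by ring
  linarith

/-- Entropic gain in the near regime when the noise exceeds the window size. -/
lemma gain_large_noise {X D ℓ p σ Ed : ℝ} (hX0 : 0 < X) (hp0 : 0 < p) (hσ0 : 0 ≤ σ)
    (hDle : D ≤ 8 * ℓ * (X * p)) (hσℓ : σ * (100 * ℓ) ≤ 1) (hE : p / 4 ≤ Ed) :
    3 * D * σ ≤ X * Ed := by
  have h1 : X * (p / 4) ≤ X * Ed := mul_le_mul_of_nonneg_left hE hX0.le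
  have h2 : 3 * D * σ ≤ 3 * (8 * ℓ * (X * p)) * σ := by
    apply mul_le_mul_of_nonneg_right _ hσ0
    linarith
  have h3 : 3 * (8 * ℓ * (X * p)) * σ = (X * p) * (24 * (σ * ℓ)) := by ring
  have h4 : (X * p) * (24 * (σ * ℓ)) ≤ (X * p) * (1 / 4) := by
    apply mul_le_mul_of_nonneg_left _ (by positivity)
    linarith
  have h5 : (X * p) * (1 / 4) = X * (p / 4) := by ring
  linarith

lemma near_final {X D σ Ed R : ℝ} (hD0 : 0 ≤ D) (hσ0 : 0 ≤ σ) (hgain : 3 * D * σ ≤ X * Ed)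
    (hR : Real.log 2 - 3 / 2 * σ ≤ R) : Real.log 2 * (D - X * Ed) ≤ D * R := by
  have h2 := log_two_gt_half
  have h3 : Real.log 2 * (D - X * Ed) ≤ Real.log 2 * (D - 3 * D * σ) :=
    mul_le_mul_of_nonneg_left (by linarith) (by linarith)
  have h5 : 0 ≤ D * σ := by positivity
  have h4 : Real.log 2 * (D - 3 * D * σ) ≤ D * (Real.log 2 - 3 / 2 * σ) := by
    have : (D * σ) * (1 / 2) ≤ (D * σ) * Real.log 2 := mul_le_mul_of_nonneg_left h2.le h5
    have e1 : Real.log 2 * (D - 3 * D * σ) = D * Real.log 2 - 3 * ((D * σ) * Real.log 2) := by ring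
    have e2 : D * (Real.log 2 - 3 / 2 * σ) = D * Real.log 2 - 3 * ((D * σ) * (1 / 2)) := by ring
    rw [e1, e2]
    linarith
  have h6 : D * (Real.log 2 - 3 / 2 * σ) ≤ D * R := mul_le_mul_of_nonneg_left hR hD0
  linarith

end Gain

section EdgeWide

variable {κ ρ : ℝ}

/-- When the noise is much wider than the window, the noise average is small on the window. -/
lemma winNoise_small_of_wide {σ : ℝ} (hκ : 0 < κ) (hρ0 : 0 ≤ ρ) (hρ1 : ρ ≤ 1) (hσp : 0 < σ)
    (hσ : σ ^ 2 = 1 - ρ ^ 2) (hcase : 4 * κ < σ) {v : ℝ} (hv : |v| ≤ κ) :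
    winNoise κ ρ v ≤ 2 / 5 := by
  have hple := winMass_le hκ
  have hκ2 : κ ^ 2 ≤ σ ^ 2 := by
    have h1 : κ ≤ σ := by linarith
    exact pow_le_pow_left₀ hκ.le h1 2
  have hy0 : 0 ≤ ρ * κ ^ 2 / σ ^ 2 := by positivity
  have hy1 : ρ * κ ^ 2 / σ ^ 2 ≤ 1 := by
    rw [div_le_one (by positivity)]
    have h1 : ρ * κ ^ 2 ≤ 1 * κ ^ 2 := mul_le_mul_of_nonneg_right hρ1 (sq_nonneg _)
    linarith
  have hcosh : Real.cosh (ρ * κ ^ 2 / σ ^ 2) ≤ 2 := by
    have h1 := Real.cosh_le_exp_half_sq (ρ * κ ^ 2 / σ ^ 2)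
    have h2 : (ρ * κ ^ 2 / σ ^ 2) ^ 2 ≤ 1 := pow_le_one₀ hy0 hy1
    have h3 : Real.exp ((ρ * κ ^ 2 / σ ^ 2) ^ 2 / 2) ≤ Real.exp (1 / 2) :=
      Real.exp_le_exp.mpr (by linarith)
    have h4 := exp_half_le
    linarith
  have h1 := winNoise_le hκ hρ0 hσp hσ hv
  have hp0 : 0 ≤ winMass κ := integral_nonneg (winPot_nonneg κ)
  have h2 : (1 / σ) * Real.cosh (ρ * κ ^ 2 / σ ^ 2) ≤ (1 / σ) * 2 :=
    mul_le_mul_of_nonneg_left hcosh (by positivity)
  have h5 : winMass κ * ((1 / σ) * Real.cosh (ρ * κ ^ 2 / σ ^ 2)) ≤ winMass κ * ((1 / σ) * 2) :=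
    mul_le_mul_of_nonneg_left h2 hp0
  have h3 : winMass κ * ((1 / σ) * 2) ≤ 2 / 5 := by
    have h4 : winMass κ * ((1 / σ) * 2) = (2 * winMass κ) / σ := by ring
    rw [h4, div_le_iff₀ hσp]
    linarith
  linarith

lemma edge_ge_of_small (hπ : ∀ v, |v| ≤ κ → winNoise κ ρ v ≤ 2 / 5) :
    winMass κ / 4 ≤ ∫ v, winPot κ v * (1 - winNoise κ ρ v) ^ 2 ∂(gaussianReal 0 1) := by
  have hi1 : Integrable (fun v => winPot κ v * (1 / 4 : ℝ)) (gaussianReal 0 1) :=
    integrable_winPot.mul_const _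
  have h1 : ∫ v, winPot κ v * (1 / 4 : ℝ) ∂(gaussianReal 0 1) = winMass κ / 4 := by
    rw [integral_mul_const]
    unfold winMass
    ring
  rw [← h1]
  refine integral_mono hi1 integrable_edge fun v => ?_
  rcases lt_or_ge κ |v| with hv | hv
  · simp only [winPot_of_notMem hv]
    simp
  · simp only [winPot_of_mem hv]
    have h2 := hπ v hv
    have h3 := (winNoise_bounds κ ρ v).1
    have h4 : (1 / 2 : ℝ) ≤ 1 - winNoise κ ρ v := by linarith
    have h5 : (1 / 4 : ℝ) ≤ (1 - winNoise κ ρ v) ^ 2 := by nlinarith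
    simpa using h5

lemma overlap_le {p : ℝ} (hC : ∀ v, |v| ≤ κ → winNoise κ ρ v ≤ p) :
    ∫ v, winPot κ v * winNoise κ ρ v ∂(gaussianReal 0 1) ≤ winMass κ * p := by
  have hi1 : Integrable (fun v => winPot κ v * p) (gaussianReal 0 1) :=
    integrable_winPot.mul_const _
  have h1 : ∫ v, winPot κ v * p ∂(gaussianReal 0 1) = winMass κ * p := by
    rw [integral_mul_const]
    rfl
  rw [← h1]
  refine integral_mono integrable_pot_mul_noise hi1 fun v => ?_
  rcases lt_or_ge κ |v| with hv | hv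
  · simp only [winPot_of_notMem hv]
    simp
  · simp only [winPot_of_mem hv]
    simpa using hC v hv

/-- The size of the relative excess in the far regime. -/
lemma far_excess {σ : ℝ} (hκ : 0 < κ) (hρ0 : 0 ≤ ρ) (hρ1 : ρ ≤ 1) (hσp : 0 < σ)
    (hσ : σ ^ 2 = 1 - ρ ^ 2) (hκσ : κ ≤ σ) :
    0 ≤ (1 / σ) * Real.cosh (ρ * κ ^ 2 / σ ^ 2) - 1 ∧
      (1 / σ) * Real.cosh (ρ * κ ^ 2 / σ ^ 2) - 1 ≤ 2 * ρ ^ 2 / σ := by
  have hσ1 : σ ≤ 1 := by
    have h1 : σ ^ 2 ≤ 1 := by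
      rw [hσ]
      linarith [sq_nonneg ρ]
    exact (pow_le_one_iff_of_nonneg hσp.le (by norm_num)).mp h1
  set y := ρ * κ ^ 2 / σ ^ 2 with hy
  have hy0 : 0 ≤ y := by
    rw [hy]
    positivity
  have hκ2 : κ ^ 2 ≤ σ ^ 2 := pow_le_pow_left₀ hκ.le hκσ 2
  have hyρ : y ≤ ρ := by
    rw [hy, mul_div_assoc]
    have h1 : κ ^ 2 / σ ^ 2 ≤ 1 := by
      rw [div_le_one (by positivity)]
      exact hκ2
    have := mul_le_mul_of_nonneg_left h1 hρ0
    linarith
  have hcosh1 : 1 ≤ Real.cosh y := Real.one_le_cosh y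
  have hcosh2 : Real.cosh y ≤ 1 + ρ ^ 2 := by
    have h1 := Real.cosh_le_exp_half_sq y
    have hu0 : 0 ≤ y ^ 2 / 2 := by positivity
    have hyle1 : y ≤ 1 := hyρ.trans hρ1
    have hu3 : y ^ 2 ≤ 1 := pow_le_one₀ hy0 hyle1
    have hu1 : y ^ 2 / 2 ≤ 1 / 2 := by linarith
    have hu2 : y ^ 2 ≤ ρ ^ 2 := pow_le_pow_left₀ hy0 hyρ 2
    have h2 : Real.exp (y ^ 2 / 2) ≤ 1 / (1 - y ^ 2 / 2) :=
      Real.exp_bound_div_one_sub_of_interval hu0 (by linarith)
    have h3 : 1 / (1 - y ^ 2 / 2) ≤ 1 + y ^ 2 := by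
      rw [div_le_iff₀ (by linarith)]
      nlinarith [sq_nonneg y]
    linarith
  constructor
  · have h1 : 1 ≤ 1 / σ := by
      rw [le_div_iff₀ hσp]
      linarith
    have h2 : (1 : ℝ) * 1 ≤ (1 / σ) * Real.cosh y :=
      mul_le_mul h1 hcosh1 (by norm_num) (by positivity)
    linarith
  · have h1 : (1 / σ) * Real.cosh y - 1 = (Real.cosh y - σ) / σ := by
      field_simp
    rw [h1]
    apply div_le_div_of_nonneg_right _ hσp.le
    have h2 : σ ^ 2 ≤ σ := by nlinarith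
    linarith

end EdgeWide

section Key

variable {κ τ ρ σ : ℝ}

/-- The near regime of the key inequality. -/
lemma window_key_near (hκ : 0 < κ) (hκ1 : κ ≤ Real.exp (-100)) (hτ0 : winMass κ < τ) (hτ1 : τ < 1)
    (hρ0 : 0 ≤ ρ) (hρ1 : ρ ≤ 1) (hσ0 : 0 ≤ σ) (hσ : σ ^ 2 = 1 - ρ ^ 2)
    (hnear : σ ≤ 1 / (100 * (-Real.log (winMass κ)))) :
    Real.log 2 * ∫ v, twoVal κ (τ / winMass κ) ((1 - τ) / (1 - winMass κ)) v *
      Real.log (twoValNoise κ ρ (τ / winMass κ) ((1 - τ) / (1 - winMass κ)) v) ∂(gaussianReal 0 1) ≤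
      bernKL τ (winMass κ) * shellRate ρ := by
  have hexp : Real.exp (-100) ≤ 1 := by
    rw [Real.exp_le_one_iff]
    norm_num
  have hκ11 : κ ≤ 1 := hκ1.trans hexp
  have hp0 : 0 < winMass κ := winMass_pos hκ hκ11
  have hple := winMass_le hκ
  have hpge := le_winMass hκ hκ11
  have hp1 : winMass κ ≤ Real.exp (-100) := by linarith
  obtain ⟨hl, hnum⟩ := narrow_numeric hp0 hp1
  have hτ : 0 < τ := hp0.trans hτ0
  have hp11 : winMass κ < 1 := hτ0.trans hτ1
  have hp1' : 0 < 1 - winMass κ := by linarith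
  have ht1 : 0 < 1 - τ := by linarith
  have ha1 : 1 < τ / winMass κ := by
    rw [one_lt_div hp0]
    exact hτ0
  have hb0 : 0 < (1 - τ) / (1 - winMass κ) := by positivity
  have hb1 : (1 - τ) / (1 - winMass κ) < 1 := by
    rw [div_lt_one hp1']
    linarith
  have hab : (1 - τ) / (1 - winMass κ) < τ / winMass κ := by linarith
  have hρabs : |ρ| ≤ 1 := by
    rw [abs_of_nonneg hρ0]
    exact hρ1
  have hτa : τ / winMass κ * winMass κ = τ := by
    field_simp
  have hbp : (1 - τ) / (1 - winMass κ) * (1 - winMass κ) = 1 - τ := by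
    field_simp
  have hKL : winMass κ * (τ / winMass κ) * Real.log (τ / winMass κ) +
      (1 - winMass κ) * ((1 - τ) / (1 - winMass κ)) * Real.log ((1 - τ) / (1 - winMass κ)) =
      bernKL τ (winMass κ) := by
    unfold bernKL
    rw [mul_comm (winMass κ), hτa, mul_comm (1 - winMass κ), hbp]
  have hnear0 := crossTerm_near (κ := κ) (ρ := ρ) hb0 hab hρabs
  rw [hKL] at hnear0
  have hD0 : 0 ≤ bernKL τ (winMass κ) := bernKL_nonneg hp0 hτ0 hτ1
  have hDle := bernKL_le hp0 hτ0 hτ1 (by linarith)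
  simp only at hDle
  have hapos : 0 < τ / winMass κ := by positivity
  have hX0 : 0 < (τ / winMass κ - (1 - τ) / (1 - winMass κ)) ^ 2 / (2 * (τ / winMass κ)) := by
    have : 0 < τ / winMass κ - (1 - τ) / (1 - winMass κ) := by linarith
    positivity
  have hEd0 : 0 ≤ ∫ v, winPot κ v * (1 - winNoise κ ρ v) ^ 2 ∂(gaussianReal 0 1) :=
    integral_nonneg fun v => mul_nonneg (winPot_nonneg κ v) (sq_nonneg _)
  have hσ1 : σ ≤ 1 := by
    have h1 : σ ^ 2 ≤ 1 := by
      rw [hσ]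
      linarith [sq_nonneg ρ]
    exact (pow_le_one_iff_of_nonneg hσ0 (by norm_num)).mp h1
  have hgain : 3 * bernKL τ (winMass κ) * σ ≤
      (τ / winMass κ - (1 - τ) / (1 - winMass κ)) ^ 2 / (2 * (τ / winMass κ)) *
        ∫ v, winPot κ v * (1 - winNoise κ ρ v) ^ 2 ∂(gaussianReal 0 1) := by
    rcases eq_or_lt_of_le hσ0 with hσz | hσp
    · rw [← hσz, mul_zero]
      exact mul_nonneg hX0.le hEd0
    rcases le_or_gt σ (4 * κ) with hcase | hcase
    · have hκσ : κ * σ < 1 / 4 := by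
        have h1 : κ * σ ≤ κ * 1 := mul_le_mul_of_nonneg_left hσ1 hκ.le
        have h2 := exp_neg_hundred_lt
        linarith
      have hE := edge_integral_ge hκ hκ11 hρ0 hρ1 hσp hσ hκσ hcase
      exact gain_small_noise hX0 hσ0 hDle hnum hE
    · have hπ : ∀ v, |v| ≤ κ → winNoise κ ρ v ≤ 2 / 5 := fun v hv =>
        winNoise_small_of_wide hκ hρ0 hρ1 hσp hσ hcase hv
      have hE := edge_ge_of_small hπ
      have hℓ0 : 0 < -Real.log (winMass κ) := by linarith
      have hσℓ : σ * (100 * -Real.log (winMass κ)) ≤ 1 := by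
        rwa [le_div_iff₀ (by positivity)] at hnear
      exact gain_large_noise hX0 hp0 hσ0 hDle hσℓ hE
  have hfinal := near_final hD0 hσ0 hgain (shellRate_ge_sigma hρ0 hρ1 hσ0 hσ)
  have hmul := mul_le_mul_of_nonneg_left hnear0 (show 0 ≤ Real.log 2 by linarith [log_two_gt_half])
  exact hmul.trans hfinal

/-- The far regime of the key inequality. -/
lemma window_key_far (hκ : 0 < κ) (hκ1 : κ ≤ Real.exp (-100)) (hτ0 : winMass κ < τ) (hτ1 : τ < 1)
    (hρ0 : 0 ≤ ρ) (hρ1 : ρ ≤ 1) (hσ0 : 0 ≤ σ) (hσ : σ ^ 2 = 1 - ρ ^ 2)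
    (hfar : 1 / (100 * (-Real.log (winMass κ))) ≤ σ) :
    Real.log 2 * ∫ v, twoVal κ (τ / winMass κ) ((1 - τ) / (1 - winMass κ)) v *
      Real.log (twoValNoise κ ρ (τ / winMass κ) ((1 - τ) / (1 - winMass κ)) v) ∂(gaussianReal 0 1) ≤
      bernKL τ (winMass κ) * shellRate ρ := by
  have hexp : Real.exp (-100) ≤ 1 := by
    rw [Real.exp_le_one_iff]
    norm_num
  have hκ11 : κ ≤ 1 := hκ1.trans hexp
  have hp0 : 0 < winMass κ := winMass_pos hκ hκ11
  have hple := winMass_le hκ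
  have hpge := le_winMass hκ hκ11
  have hp1 : winMass κ ≤ Real.exp (-100) := by linarith
  obtain ⟨hl, hnum⟩ := narrow_numeric hp0 hp1
  have hτ : 0 < τ := hp0.trans hτ0
  have hp11 : winMass κ < 1 := hτ0.trans hτ1
  have hp1' : 0 < 1 - winMass κ := by linarith
  have ht1 : 0 < 1 - τ := by linarith
  have ha1 : 1 < τ / winMass κ := by
    rw [one_lt_div hp0]
    exact hτ0
  have hb0 : 0 < (1 - τ) / (1 - winMass κ) := by positivity
  have hb1 : (1 - τ) / (1 - winMass κ) < 1 := by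
    rw [div_lt_one hp1']
    linarith
  have hab : (1 - τ) / (1 - winMass κ) < τ / winMass κ := by linarith
  have hρabs : |ρ| ≤ 1 := by
    rw [abs_of_nonneg hρ0]
    exact hρ1
  have hτa : τ / winMass κ * winMass κ = τ := by
    field_simp
  have hbp : (1 - τ) / (1 - winMass κ) * (1 - winMass κ) = 1 - τ := by
    field_simp
  have hnorm : (1 - τ) / (1 - winMass κ) + (τ / winMass κ - (1 - τ) / (1 - winMass κ)) * winMass κ
      = 1 := by
    have h1 : (τ / winMass κ - (1 - τ) / (1 - winMass κ)) * winMass κ =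
        τ / winMass κ * winMass κ - (1 - τ) / (1 - winMass κ) * winMass κ := by ring
    have h2 : (1 - τ) / (1 - winMass κ) - (1 - τ) / (1 - winMass κ) * winMass κ =
        (1 - τ) / (1 - winMass κ) * (1 - winMass κ) := by ring
    rw [h1, hτa]
    linarith
  have hℓ0 : 0 < -Real.log (winMass κ) := by linarith
  have hσp : 0 < σ := lt_of_lt_of_le (by positivity) hfar
  have hσ1 : σ ≤ 1 := by
    have h1 : σ ^ 2 ≤ 1 := by
      rw [hσ]
      linarith [sq_nonneg ρ]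
    exact (pow_le_one_iff_of_nonneg hσ0 (by norm_num)).mp h1
  have hκσ : κ ≤ σ := by
    refine le_trans ?_ hfar
    rw [le_div_iff₀ (by positivity)]
    have h1 : κ ≤ 5 / 2 * winMass κ := by linarith
    have h2 : κ * (100 * -Real.log (winMass κ)) ≤ 5 / 2 * winMass κ * (100 * -Real.log (winMass κ)) :=
      mul_le_mul_of_nonneg_right h1 (by positivity)
    have h3 : 5 / 2 * winMass κ * (100 * -Real.log (winMass κ)) =
        (48000 * -Real.log (winMass κ) * winMass κ) * (250 / 48000) := by ring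
    have h4 : 0 ≤ 48000 * -Real.log (winMass κ) * winMass κ := by positivity
    linarith
  obtain ⟨hx0, hxle⟩ := far_excess hκ hρ0 hρ1 hσp hσ hκσ
  have hπ : ∀ v, |v| ≤ κ → winNoise κ ρ v ≤
      winMass κ * (1 + ((1 / σ) * Real.cosh (ρ * κ ^ 2 / σ ^ 2) - 1)) := by
    intro v hv
    have h1 := winNoise_le hκ hρ0 hσp hσ hv
    have h2 : 1 + ((1 / σ) * Real.cosh (ρ * κ ^ 2 / σ ^ 2) - 1) =
        (1 / σ) * Real.cosh (ρ * κ ^ 2 / σ ^ 2) := by ring
    rw [h2]
    exact h1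
  have hC := overlap_le hπ
  have hE1 := crossTerm_second (κ := κ) (ρ := ρ) hb0 hab hnorm hρabs
  have hE1' : ∫ v, twoVal κ (τ / winMass κ) ((1 - τ) / (1 - winMass κ)) v *
      Real.log (twoValNoise κ ρ (τ / winMass κ) ((1 - τ) / (1 - winMass κ)) v)
        ∂(gaussianReal 0 1) ≤
      ((τ / winMass κ - (1 - τ) / (1 - winMass κ)) * winMass κ) ^ 2 *
        ((1 / σ) * Real.cosh (ρ * κ ^ 2 / σ ^ 2) - 1) := by
    refine hE1.trans ?_
    have h1 := mul_le_mul_of_nonneg_left (sub_le_sub_right hC (winMass κ ^ 2))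
      (sq_nonneg (τ / winMass κ - (1 - τ) / (1 - winMass κ)))
    refine h1.trans (le_of_eq ?_)
    ring
  have hE2 := crossTerm_log (κ := κ) (ρ := ρ) hb0 hab hnorm hp11.le hρabs hx0 hπ hb1.le hp0.le
  rw [hτa] at hE2
  have hτ' : (τ / winMass κ - (1 - τ) / (1 - winMass κ)) * winMass κ =
      (τ - winMass κ) / (1 - winMass κ) := by
    field_simp
    ring
  have hp10 : winMass κ ≤ 1 / 10 := by
    have h2 := exp_neg_hundred_lt
    linarith
  have hfin := far_scalar hp0 hτ0 hτ1 hp10 hl hτ' hσ1 hfar hσ hx0 hxle hE1' hE2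
  have hD0 : 0 ≤ bernKL τ (winMass κ) := bernKL_nonneg hp0 hτ0 hτ1
  exact hfin.trans (mul_le_mul_of_nonneg_left (shellRate_ge_sq (by linarith) hρ1) hD0)

/-- The key inequality. -/
lemma window_key (hκ : 0 < κ) (hκ1 : κ ≤ Real.exp (-100)) (hτ0 : winMass κ < τ) (hτ1 : τ < 1)
    (hρ0 : 0 ≤ ρ) (hρ1 : ρ ≤ 1) :
    Real.log 2 * ∫ v, twoVal κ (τ / winMass κ) ((1 - τ) / (1 - winMass κ)) v *
      Real.log (twoValNoise κ ρ (τ / winMass κ) ((1 - τ) / (1 - winMass κ)) v) ∂(gaussianReal 0 1) ≤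
      bernKL τ (winMass κ) * shellRate ρ := by
  have hnn : 0 ≤ 1 - ρ ^ 2 := by nlinarith
  have hσ0 := Real.sqrt_nonneg (1 - ρ ^ 2)
  have hσ : Real.sqrt (1 - ρ ^ 2) ^ 2 = 1 - ρ ^ 2 := Real.sq_sqrt hnn
  rcases le_total (Real.sqrt (1 - ρ ^ 2)) (1 / (100 * (-Real.log (winMass κ)))) with h | h
  · exact window_key_near hκ hκ1 hτ0 hτ1 hρ0 hρ1 hσ0 hσ h
  · exact window_key_far hκ hκ1 hτ0 hτ1 hρ0 hρ1 hσ0 hσ h

end Key

end Vale.Agent.Lib.P157
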