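import Vale.Agent.Lib.P157.Window4
import Vale.Agent.Lib.P157.Freezing

/-!
The phase diagram of the window potential: explicit forms of the annealed constant, the tilted mean
and the criterion.
-/

open MeasureTheory ProbabilityTheory Filter Topology
open scoped NNReal ENNReal

set_option linter.unusedSectionVars false

namespace Vale.Agent.Lib.P157

/-- The annealed constant `1 + p (e^s - 1)` of the window potential at inverse temperature `s`. -/
noncomputable def winC (p s : ℝ) : ℝ := 1 + p * (Real.exp s - 1)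

/-- The tilted mass `p e^s / (1 + p (e^s - 1))`. -/
noncomputable def winTilt (p s : ℝ) : ℝ := p * Real.exp s / winC p s

section Scalars

variable {p s : ℝ}

lemma winC_pos (h0 : 0 < p) (h1 : p < 1) (s : ℝ) : 0 < winC p s := by
  unfold winC
  have h2 := Real.exp_pos s
  have h3 : 0 < p * Real.exp s := by positivity
  linarith

lemma winTilt_pos (h0 : 0 < p) (h1 : p < 1) (s : ℝ) : 0 < winTilt p s := by
  have := winC_pos h0 h1 s
  unfold winTilt
  positivity

lemma one_sub_winTilt (h0 : 0 < p) (h1 : p < 1) (s : ℝ) :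
    1 - winTilt p s = (1 - p) / winC p s := by
  have := winC_pos h0 h1 s
  unfold winTilt
  field_simp
  unfold winC
  ring

lemma winTilt_lt_one (h0 : 0 < p) (h1 : p < 1) (s : ℝ) : winTilt p s < 1 := by
  have h2 := one_sub_winTilt h0 h1 s
  have h3 := winC_pos h0 h1 s
  have h4 : 0 < (1 - p) / winC p s := div_pos (by linarith) h3
  linarith

lemma winTilt_div (h0 : 0 < p) (h1 : p < 1) (s : ℝ) :
    winTilt p s / p = Real.exp s / winC p s := by
  have := winC_pos h0 h1 s
  unfold winTilt
  field_simp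

lemma winTilt_div' (h0 : 0 < p) (h1 : p < 1) (s : ℝ) :
    (1 - winTilt p s) / (1 - p) = 1 / winC p s := by
  have h2 := winC_pos h0 h1 s
  have h3 : 0 < 1 - p := by linarith
  rw [one_sub_winTilt h0 h1]
  field_simp

lemma winC_lt_exp (h0 : 0 < p) (h1 : p < 1) (hs : 0 < s) : winC p s < Real.exp s := by
  unfold winC
  have h2 : 1 < Real.exp s := Real.one_lt_exp_iff.mpr hs
  nlinarith

lemma lt_winTilt (h0 : 0 < p) (h1 : p < 1) (hs : 0 < s) : p < winTilt p s := by
  unfold winTilt
  rw [lt_div_iff₀ (winC_pos h0 h1 s)]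
  exact mul_lt_mul_of_pos_left (winC_lt_exp h0 h1 hs) h0

lemma winTilt_mono (h0 : 0 < p) (h1 : p < 1) {s t : ℝ} (hst : s ≤ t) :
    winTilt p s ≤ winTilt p t := by
  have h2 : winC p s ≤ winC p t := by
    unfold winC
    have := Real.exp_le_exp.mpr hst
    nlinarith
  have h3 := one_sub_winTilt h0 h1 s
  have h4 := one_sub_winTilt h0 h1 t
  have h5 : (1 - p) / winC p t ≤ (1 - p) / winC p s :=
    div_le_div_of_nonneg_left (by linarith) (winC_pos h0 h1 s) h2
  linarith

/-- The relative entropy at the tilted mass is the Legendre transform. -/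
lemma bernKL_winTilt (h0 : 0 < p) (h1 : p < 1) (s : ℝ) :
    bernKL (winTilt p s) p = s * winTilt p s - Real.log (winC p s) := by
  have hc := winC_pos h0 h1 s
  unfold bernKL
  rw [winTilt_div h0 h1, winTilt_div' h0 h1, Real.log_div (Real.exp_pos _).ne' hc.ne', Real.log_exp,
    Real.log_div one_ne_zero hc.ne', Real.log_one]
  ring

/-- The inverse of the tilt. -/
lemma exists_tilt_eq {τ : ℝ} (h0 : 0 < p) (h1 : p < τ) (h2 : τ < 1) :
    ∃ s, 0 < s ∧ winTilt p s = τ := by
  have hτ : 0 < τ := h0.trans h1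
  have hp1 : 0 < 1 - p := by linarith
  have ht1 : 0 < 1 - τ := by linarith
  have hr : 1 < τ * (1 - p) / (p * (1 - τ)) := by
    rw [one_lt_div (by positivity)]
    nlinarith
  refine ⟨Real.log (τ * (1 - p) / (p * (1 - τ))), Real.log_pos hr, ?_⟩
  have hc := winC_pos h0 (h1.trans h2) (Real.log (τ * (1 - p) / (p * (1 - τ))))
  unfold winTilt
  rw [div_eq_iff hc.ne']
  unfold winC
  rw [Real.exp_log (by linarith)]
  field_simp
  ring

end Scalars

section Continuity

variable {p : ℝ}

/-- The relative entropy written in a continuous form. -/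
noncomputable def bernKLc (p τ : ℝ) : ℝ :=
  τ * Real.log τ - τ * Real.log p + ((1 - τ) * Real.log (1 - τ) - (1 - τ) * Real.log (1 - p))

lemma continuous_bernKLc (p : ℝ) : Continuous (bernKLc p) := by
  unfold bernKLc
  have h1 := Real.continuous_mul_log
  have h2 : Continuous fun τ : ℝ => (1 - τ) * Real.log (1 - τ) :=
    h1.comp (continuous_const.sub continuous_id)
  fun_prop

lemma bernKL_eq_bernKLc (h0 : 0 < p) (h1 : p < 1) (τ : ℝ) : bernKL τ p = bernKLc p τ := by
  have hp1 : (1 - p) ≠ 0 := by linarith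
  unfold bernKL bernKLc
  have e1 : τ * Real.log (τ / p) = τ * Real.log τ - τ * Real.log p := by
    by_cases hτ : τ = 0
    · simp [hτ]
    · rw [Real.log_div hτ h0.ne']
      ring
  have e2 : (1 - τ) * Real.log ((1 - τ) / (1 - p)) =
      (1 - τ) * Real.log (1 - τ) - (1 - τ) * Real.log (1 - p) := by
    by_cases hτ : 1 - τ = 0
    · simp [hτ]
    · rw [Real.log_div hτ hp1]
      ring
  rw [e1, e2]

lemma bernKL_self (h0 : 0 < p) (h1 : p < 1) : bernKL p p = 0 := by
  have hp1 : (1 - p) ≠ 0 := by linarith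
  unfold bernKL
  rw [div_self h0.ne', div_self hp1]
  simp

lemma bernKL_one (h0 : 0 < p) (h1 : p < 1) : bernKL 1 p = Real.log (1 / p) := by
  unfold bernKL
  simp

/-- Intermediate values of the relative entropy above the base point. -/
lemma exists_bernKL_eq {τ₁ y : ℝ} (h0 : 0 < p) (h1 : p < τ₁) (hτ₁ : τ₁ ≤ 1) (hy0 : 0 < y)
    (hy : y < bernKL τ₁ p) : ∃ τ, p < τ ∧ τ < τ₁ ∧ bernKL τ p = y := by
  have hp1 : p < 1 := h1.trans_le hτ₁
  have hc : ContinuousOn (bernKLc p) (Set.Icc p τ₁) := (continuous_bernKLc p).continuousOn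
  have hiv := intermediate_value_Ioo h1.le hc
  have hmem : y ∈ Set.Ioo (bernKLc p p) (bernKLc p τ₁) := by
    rw [← bernKL_eq_bernKLc h0 hp1, ← bernKL_eq_bernKLc h0 hp1, bernKL_self h0 hp1]
    exact ⟨hy0, hy⟩
  obtain ⟨τ, hτ, hτy⟩ := hiv hmem
  refine ⟨τ, hτ.1, hτ.2, ?_⟩
  rw [bernKL_eq_bernKLc h0 hp1]
  exact hτy

/-- The relative entropy on the tilted side is at most `log (1 / p)`. -/
lemma bernKL_le_log (h0 : 0 < p) (hp : p ≤ 1 / 2) {τ : ℝ} (h1 : 0 < τ) (h2 : τ < 1) :
    bernKL τ p ≤ Real.log (1 / p) := by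
  have hp1 : 0 < 1 - p := by linarith
  have ht1 : 0 < 1 - τ := by linarith
  unfold bernKL
  rw [Real.log_div h1.ne' h0.ne', Real.log_div ht1.ne' hp1.ne', Real.log_div one_ne_zero h0.ne',
    Real.log_one]
  have h3 : Real.log τ ≤ 0 := Real.log_nonpos h1.le h2.le
  have h4 : Real.log (1 - τ) ≤ 0 := Real.log_nonpos ht1.le (by linarith)
  have h5 : Real.log p ≤ Real.log (1 - p) := Real.log_le_log h0 (by linarith)
  have h6 : τ * Real.log τ ≤ 0 := mul_nonpos_of_nonneg_of_nonpos h1.le h3
  have h7 : (1 - τ) * Real.log (1 - τ) ≤ 0 := mul_nonpos_of_nonneg_of_nonpos ht1.le h4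
  have h8 : (1 - τ) * Real.log p ≤ (1 - τ) * Real.log (1 - p) :=
    mul_le_mul_of_nonneg_left h5 ht1.le
  nlinarith

end Continuity

section Pot

variable {κ : ℝ}

lemma exp_smul_win (s u : ℝ) :
    Real.exp (s * winPot κ u) = 1 + (Real.exp s - 1) * winPot κ u := by
  rcases winPot_cases κ u with h | h <;> simp [h]

lemma annealedConstant_win (s : ℝ) :
    annealedConstant (fun u => s * winPot κ u) = winC (winMass κ) s := by
  unfold annealedConstant winC
  simp_rw [exp_smul_win]
  rw [integral_add (integrable_const _) (integrable_winPot.const_mul _), integral_const_mul]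
  simp only [integral_const, probReal_univ, one_smul]
  unfold winMass
  ring

lemma tiltedMean_win (s : ℝ) : tiltedMean (winPot κ) s = winTilt (winMass κ) s := by
  unfold tiltedMean winTilt
  have h1 : ∫ u, Real.exp (s * winPot κ u) ∂(gaussianReal 0 1) = winC (winMass κ) s :=
    annealedConstant_win s
  rw [h1]
  congr 1
  have h2 : ∀ u, winPot κ u * Real.exp (s * winPot κ u) = Real.exp s * winPot κ u := by
    intro u
    rcases winPot_cases κ u with h | h <;> simp [h]
  simp_rw [h2]
  rw [integral_const_mul]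
  unfold winMass
  ring

lemma normPot_win (s u : ℝ) :
    normPot (fun u => s * winPot κ u) u =
      twoVal κ (Real.exp s / winC (winMass κ) s) (1 / winC (winMass κ) s) u := by
  unfold normPot twoVal
  rw [annealedConstant_win, exp_smul_win]
  ring

lemma crossEnt_win (s ρ : ℝ) :
    crossEnt (fun u => s * winPot κ u) ρ =
      ∫ v, twoVal κ (Real.exp s / winC (winMass κ) s) (1 / winC (winMass κ) s) v *
        Real.log (twoValNoise κ ρ (Real.exp s / winC (winMass κ) s) (1 / winC (winMass κ) s) v)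
          ∂(gaussianReal 0 1) := by
  unfold crossEnt
  have h1 : normPot (fun u => s * winPot κ u) =
      twoVal κ (Real.exp s / winC (winMass κ) s) (1 / winC (winMass κ) s) :=
    funext (normPot_win s)
  rw [h1]
  simp_rw [noiseAvg_twoVal]

lemma crossEnt_win_neg (s ρ : ℝ) :
    crossEnt (fun u => s * winPot κ u) (-ρ) = crossEnt (fun u => s * winPot κ u) ρ := by
  unfold crossEnt
  have h1 : ∀ u, normPot (fun u => s * winPot κ u) (-u) = normPot (fun u => s * winPot κ u) u := by
    intro u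
    unfold normPot
    simp only
    rw [winPot_even]
  simp_rw [noiseAvg_neg_corr h1]

lemma shellRate_nonneg {ρ : ℝ} (h0 : -1 ≤ ρ) (h1 : ρ ≤ 1) : 0 ≤ shellRate ρ :=
  le_trans (by positivity) (shellRate_ge_sq h0 h1)

/-- The criterion for the window potential at positive inverse temperature. -/
lemma win_criterion {α s : ℝ} (hκ : 0 < κ) (hκ1 : κ ≤ Real.exp (-100)) (hα : 0 < α) (hs : 0 < s)
    (hK : α * bernKL (winTilt (winMass κ) s) (winMass κ) ≤ Real.log 2) {ρ : ℝ}
    (h0 : -1 ≤ ρ) (h1 : ρ ≤ 1) :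
    α * crossEnt (fun u => s * winPot κ u) ρ ≤ shellRate ρ := by
  have hexp := exp_neg_hundred_lt
  have hp0 : 0 < winMass κ := winMass_pos hκ (by linarith)
  have hp1 : winMass κ < 1 := by
    have := winMass_le hκ
    linarith
  have hkey : ∀ ρ : ℝ, 0 ≤ ρ → ρ ≤ 1 → α * crossEnt (fun u => s * winPot κ u) ρ ≤ shellRate ρ := by
    intro ρ hρ0 hρ1
    have hτ0 := lt_winTilt hp0 hp1 hs
    have hτ1 := winTilt_lt_one hp0 hp1 s
    have hk := window_key hκ hκ1 hτ0 hτ1 hρ0 hρ1
    rw [winTilt_div hp0 hp1, winTilt_div' hp0 hp1, ← crossEnt_win] at hk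
    have hR := shellRate_nonneg (show -1 ≤ ρ by linarith) hρ1
    have h2 := log_two_gt_half
    have h3 : Real.log 2 * (α * crossEnt (fun u => s * winPot κ u) ρ) ≤
        Real.log 2 * shellRate ρ := by
      have h4 := mul_le_mul_of_nonneg_left hk hα.le
      have h5 := mul_le_mul_of_nonneg_right hK hR
      nlinarith
    exact le_of_mul_le_mul_left h3 (by linarith)
  rcases le_total 0 ρ with hρ | hρ
  · exact hkey ρ hρ h1
  · have h2 := hkey (-ρ) (by linarith) (by linarith)
    rwa [crossEnt_win_neg, shellRate_neg] at h2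

lemma abs_smul_win_le (s u : ℝ) : |s * winPot κ u| ≤ |s| := by
  rw [abs_mul]
  calc _ ≤ |s| * 1 := mul_le_mul_of_nonneg_left (abs_winPot_le κ u) (abs_nonneg _)
    _ = |s| := mul_one _

/-- The annealed regime of the window potential at positive inverse temperature. -/
theorem win_annealed {α s : ℝ} (hκ : 0 < κ) (hκ1 : κ ≤ Real.exp (-100)) (hα : 0 < α) (hs : 0 < s)
    (hK : α * bernKL (winTilt (winMass κ) s) (winMass κ) ≤ Real.log 2) :
    Tendsto (fun N : ℕ => expectedPressure N ⌊α * N⌋₊ (fun u => s * winPot κ u)) atTop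
      (𝓝 (α * Real.log (winC (winMass κ) s))) := by
  rw [← annealedConstant_win]
  refine annealed_of_crossEnt_le hα ((measurable_winPot κ).const_mul s) (L := |s| + 1)
    (by positivity) (fun u => (abs_smul_win_le s u).trans (by linarith)) fun ρ h0 h1 => ?_
  exact win_criterion hκ hκ1 hα hs hK h0 h1

/-- The frozen regime of the window potential. -/
theorem win_frozen {α s : ℝ} (hκ : 0 < κ) (hκ1 : κ ≤ Real.exp (-100)) (hα : 0 < α) (hs : 0 < s)
    (hK : Real.log 2 < α * bernKL (winTilt (winMass κ) s) (winMass κ)) :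
    ∃ τc, winMass κ < τc ∧ τc < winTilt (winMass κ) s ∧
      α * bernKL τc (winMass κ) = Real.log 2 ∧
      Tendsto (fun N : ℕ => expectedPressure N ⌊α * N⌋₊ (fun u => s * winPot κ u)) atTop
        (𝓝 (s * (α * τc) - Real.log 2)) := by
  have hexp := exp_neg_hundred_lt
  have hp0 : 0 < winMass κ := winMass_pos hκ (by linarith)
  have hp1 : winMass κ < 1 := by
    have := winMass_le hκ
    linarith
  have hl2 := log_two_gt_half
  have hy0 : 0 < Real.log 2 / α := by
    apply div_pos _ hα
    linarith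
  have hy : Real.log 2 / α < bernKL (winTilt (winMass κ) s) (winMass κ) := by
    rw [div_lt_iff₀ hα]
    linarith
  obtain ⟨τc, hτ1, hτ2, hτ3⟩ := exists_bernKL_eq hp0 (lt_winTilt hp0 hp1 hs)
    (winTilt_lt_one hp0 hp1 s).le hy0 hy
  have hαK : α * bernKL τc (winMass κ) = Real.log 2 := by
    rw [hτ3]
    field_simp
  refine ⟨τc, hτ1, hτ2, hαK, ?_⟩
  obtain ⟨sc, hsc0, hsc⟩ := exists_tilt_eq hp0 hτ1 (hτ2.trans (winTilt_lt_one hp0 hp1 s))
  have hle : sc ≤ s := by
    by_contra hcon
    push Not at hcon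
    have := winTilt_mono hp0 hp1 hcon.le
    linarith
  have hAnn := win_annealed (α := α) (s := sc) hκ hκ1 hα hsc0 (by rw [hsc, hαK])
  rw [← annealedConstant_win] at hAnn
  have hREM : α * (sc * tiltedMean (winPot κ) sc -
      Real.log (annealedConstant (fun u => sc * winPot κ u))) = Real.log 2 := by
    rw [tiltedMean_win, annealedConstant_win, ← bernKL_winTilt hp0 hp1, hsc, hαK]
  have h := freezing_limit hα (measurable_winPot κ) (L := 1) one_pos (abs_winPot_le κ) hsc0 hREM hAnn
    hle
  rwa [tiltedMean_win, hsc] at h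

/-- The ground state energy in the frozen regime. -/
theorem win_ground_frozen {α : ℝ} (hκ : 0 < κ) (hκ1 : κ ≤ Real.exp (-100)) (hα : 0 < α)
    (hK : Real.log 2 < α * Real.log (1 / winMass κ)) :
    ∃ τc, winMass κ < τc ∧ τc < 1 ∧
      α * bernKL τc (winMass κ) = Real.log 2 ∧
      Tendsto (fun N : ℕ => (1 / N : ℝ) *
        ∫ G, ⨆ x, energy (winPot κ) G x ∂(patternsLaw N ⌊α * N⌋₊)) atTop (𝓝 (α * τc)) := by
  have hexp := exp_neg_hundred_lt
  have hp0 : 0 < winMass κ := winMass_pos hκ (by linarith)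
  have hp1 : winMass κ < 1 := by
    have := winMass_le hκ
    linarith
  have hl2 := log_two_gt_half
  have hy0 : 0 < Real.log 2 / α := by
    apply div_pos _ hα
    linarith
  have hy : Real.log 2 / α < bernKL 1 (winMass κ) := by
    rw [div_lt_iff₀ hα, bernKL_one hp0 hp1]
    linarith
  obtain ⟨τc, hτ1, hτ2, hτ3⟩ := exists_bernKL_eq hp0 hp1 le_rfl hy0 hy
  have hαK : α * bernKL τc (winMass κ) = Real.log 2 := by
    rw [hτ3]
    field_simp
  refine ⟨τc, hτ1, hτ2, hαK, ?_⟩
  obtain ⟨sc, hsc0, hsc⟩ := exists_tilt_eq hp0 hτ1 hτ2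
  have hAnn := win_annealed (α := α) (s := sc) hκ hκ1 hα hsc0 (by rw [hsc, hαK])
  rw [← annealedConstant_win] at hAnn
  have hREM : α * (sc * tiltedMean (winPot κ) sc -
      Real.log (annealedConstant (fun u => sc * winPot κ u))) = Real.log 2 := by
    rw [tiltedMean_win, annealedConstant_win, ← bernKL_winTilt hp0 hp1, hsc, hαK]
  have h := ground_state_limit hα (measurable_winPot κ) (L := 1) one_pos (abs_winPot_le κ) hsc0 hREM
    hAnn
  rwa [tiltedMean_win, hsc] at h

/-- The ground state energy in the saturated regime. -/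
theorem win_ground_saturated {α : ℝ} (hκ : 0 < κ) (hκ1 : κ ≤ Real.exp (-100)) (hα : 0 < α)
    (hK : α * Real.log (1 / winMass κ) ≤ Real.log 2) :
    Tendsto (fun N : ℕ => (1 / N : ℝ) *
      ∫ G, ⨆ x, energy (winPot κ) G x ∂(patternsLaw N ⌊α * N⌋₊)) atTop (𝓝 α) := by
  have hexp := exp_neg_hundred_lt
  have hp0 : 0 < winMass κ := winMass_pos hκ (by linarith)
  have hp1 : winMass κ < 1 := by
    have := winMass_le hκ
    linarith
  have hp2 : winMass κ ≤ 1 / 2 := by
    have := winMass_le hκ
    linarith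
  have hupper : ∀ N : ℕ, (1 / N : ℝ) * ∫ G, ⨆ x, energy (winPot κ) G x
      ∂(patternsLaw N ⌊α * N⌋₊) ≤ α := by
    intro N
    haveI := probP (N := N) (M := ⌊α * N⌋₊)
    have h1 : ∫ G, ⨆ x, energy (winPot κ) G x ∂(patternsLaw N ⌊α * N⌋₊) ≤ ⌊α * N⌋₊ := by
      have hint := integrable_iSup_energy (N := N) (M := ⌊α * N⌋₊) (measurable_winPot κ)
        (L := 1) (abs_winPot_le κ)
      calc _ ≤ ∫ _G, ((⌊α * N⌋₊ : ℕ) : ℝ) ∂(patternsLaw N ⌊α * N⌋₊) :=
            integral_mono hint (integrable_const _) fun G => ciSup_le fun x => by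
              unfold energy
              calc _ ≤ ∑ _a : Fin ⌊α * N⌋₊, (1 : ℝ) :=
                    Finset.sum_le_sum fun a _ => winPot_le_one κ _
                _ = _ := by simp
        _ = _ := by simp
    have h2 : ((⌊α * N⌋₊ : ℕ) : ℝ) ≤ α * N := Nat.floor_le (by positivity)
    rcases Nat.eq_zero_or_pos N with rfl | hN
    · simpa using hα.le
    have hN' : (0 : ℝ) < N := by exact_mod_cast hN
    rw [one_div, inv_mul_le_iff₀ hN']
    nlinarith
  have hlower : ∀ a : ℝ, a < α → ∀ᶠ N : ℕ in atTop, a < (1 / N : ℝ) *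
      ∫ G, ⨆ x, energy (winPot κ) G x ∂(patternsLaw N ⌊α * N⌋₊) := by
    intro a ha
    -- choose a large inverse temperature
    set ℓ := Real.log (1 / winMass κ) with hℓ
    have hℓ0 : 0 ≤ ℓ := Real.log_nonneg (by
      rw [le_div_iff₀ hp0]
      linarith)
    obtain ⟨s, hs0, hs⟩ : ∃ s : ℝ, 0 < s ∧ a * s < α * (s - ℓ) := by
      refine ⟨(α * ℓ + 1) / (α - a), ?_, ?_⟩
      · have : 0 < α - a := by linarith
        positivity
      · have h1 : 0 < α - a := by linarith
        have h2 : (α - a) * ((α * ℓ + 1) / (α - a)) = α * ℓ + 1 := by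
          field_simp
        nlinarith
    have hKs : α * bernKL (winTilt (winMass κ) s) (winMass κ) ≤ Real.log 2 := by
      have h1 := bernKL_le_log hp0 hp2 (winTilt_pos hp0 hp1 s) (winTilt_lt_one hp0 hp1 s)
      have h2 := mul_le_mul_of_nonneg_left h1 hα.le
      linarith
    have hA := win_annealed hκ hκ1 hα hs0 hKs
    have hclog : s - ℓ ≤ Real.log (winC (winMass κ) s) := by
      have h1 : winMass κ * Real.exp s ≤ winC (winMass κ) s := by
        unfold winC
        nlinarith
      have h2 := Real.log_le_log (by positivity) h1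
      rw [Real.log_mul hp0.ne' (Real.exp_pos _).ne', Real.log_exp] at h2
      have h3 : ℓ = -Real.log (winMass κ) := by
        rw [hℓ, one_div, Real.log_inv]
      linarith
    have hgt : a * s < α * Real.log (winC (winMass κ) s) := by
      have := mul_le_mul_of_nonneg_left hclog hα.le
      linarith
    filter_upwards [hA.eventually (lt_mem_nhds hgt), eventually_ge_atTop 1] with N hN hN1
    have hb := (pressure_ground_bounds (N := N) (M := ⌊α * N⌋₊) hN1 (measurable_winPot κ) (L := 1)
      (abs_winPot_le κ) hs0).2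
    have h3 : a * s < s * ((1 / N : ℝ) * ∫ G, ⨆ x, energy (winPot κ) G x
        ∂(patternsLaw N ⌊α * N⌋₊)) := lt_of_lt_of_le hN hb
    rw [mul_comm a s] at h3
    exact lt_of_mul_lt_mul_left h3 hs0.le
  refine tendsto_order.mpr ⟨hlower, fun b hb => ?_⟩
  exact Filter.Eventually.of_forall fun N => lt_of_le_of_lt (hupper N) hb

end Pot

end Vale.Agent.Lib.P157
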